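import Mathlib

/-!
Spectral data of a Hermitian matrix in coordinates.
-/

open Matrix

namespace Vale.Agent.Lib.P371

variable {m : ℕ}

lemma dot_star_self (y : Fin m → ℂ) : star y ⬝ᵥ y = ((∑ i, ‖y i‖ ^ 2 : ℝ) : ℂ) := by
  simp only [dotProduct, Pi.star_apply]
  push_cast
  refine Finset.sum_congr rfl fun i _ => ?_
  rw [Complex.star_def, Complex.conj_mul']

/-- The rows of the adjoint of the eigenvector unitary. -/
noncomputable def rowsU {A : Matrix (Fin m) (Fin m) ℂ} (hA : A.IsHermitian) :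
    Matrix (Fin m) (Fin m) ℂ := star (hA.eigenvectorUnitary : Matrix (Fin m) (Fin m) ℂ)

lemma parseval {A : Matrix (Fin m) (Fin m) ℂ} (hA : A.IsHermitian) (z : Fin m → ℂ) :
    ∑ α, ‖∑ c, rowsU hA α c * z c‖ ^ 2 = ∑ c, ‖z c‖ ^ 2 := by
  set U : Matrix (Fin m) (Fin m) ℂ := hA.eigenvectorUnitary.1 with hU
  have hUU : U * star U = 1 := Unitary.coe_mul_star_self hA.eigenvectorUnitary
  have hy : ∀ α, ∑ c, rowsU hA α c * z c = (star U *ᵥ z) α := by
    intro α
    simp [rowsU, mulVec, dotProduct, hU]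
  simp only [hy]
  have h1 : star (star U *ᵥ z) ⬝ᵥ (star U *ᵥ z) = star z ⬝ᵥ z := by
    rw [star_mulVec, star_eq_conjTranspose U, conjTranspose_conjTranspose, ← dotProduct_mulVec,
      mulVec_mulVec, ← star_eq_conjTranspose, hUU, one_mulVec]
  rw [dot_star_self, dot_star_self] at h1
  exact_mod_cast h1

lemma quad_form {A : Matrix (Fin m) (Fin m) ℂ} (hA : A.IsHermitian) (z : Fin m → ℂ) :
    (star z ⬝ᵥ A *ᵥ z).re = ∑ α, hA.eigenvalues α * ‖∑ c, rowsU hA α c * z c‖ ^ 2 := by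
  set U : Matrix (Fin m) (Fin m) ℂ := hA.eigenvectorUnitary.1 with hU
  have hy : ∀ α, ∑ c, rowsU hA α c * z c = (star U *ᵥ z) α := by
    intro α
    simp [rowsU, mulVec, dotProduct, hU]
  have hA' : A = U * diagonal (RCLike.ofReal ∘ hA.eigenvalues) * star U := by
    have := hA.spectral_theorem
    rwa [Unitary.conjStarAlgAut_apply] at this
  have h1 : star z ⬝ᵥ A *ᵥ z =
      star (star U *ᵥ z) ⬝ᵥ (diagonal (RCLike.ofReal ∘ hA.eigenvalues) *ᵥ (star U *ᵥ z)) := by
    conv_lhs => rw [hA']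
    rw [star_mulVec, star_eq_conjTranspose U, conjTranspose_conjTranspose, ← mulVec_mulVec,
      ← mulVec_mulVec, dotProduct_mulVec, ← star_eq_conjTranspose]
  rw [h1]
  simp only [dotProduct, mulVec_diagonal, Pi.star_apply, Function.comp]
  rw [Complex.re_sum]
  refine Finset.sum_congr rfl fun α _ => ?_
  rw [hy α]
  generalize (star U *ᵥ z) α = w
  have h4 : star w * ((RCLike.ofReal (hA.eigenvalues α) : ℂ) * w) =
      ((hA.eigenvalues α * ‖w‖ ^ 2 : ℝ) : ℂ) := by
    push_cast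
    rw [Complex.star_def, ← Complex.conj_mul']
    simp only [RCLike.ofReal_eq_complex_ofReal]
    ring
  rw [h4, Complex.ofReal_re]

lemma rows_unit {A : Matrix (Fin m) (Fin m) ℂ} (hA : A.IsHermitian) (α : Fin m) :
    ∑ c, ‖rowsU hA α c‖ ^ 2 = 1 := by
  set U : Matrix (Fin m) (Fin m) ℂ := hA.eigenvectorUnitary.1 with hU
  have hUU : star U * U = 1 := Unitary.coe_star_mul_self hA.eigenvectorUnitary
  have h1 : (rowsU hA * (rowsU hA)ᴴ) α α = 1 := by
    simp only [rowsU, ← hU]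
    rw [star_eq_conjTranspose U, conjTranspose_conjTranspose, ← star_eq_conjTranspose, hUU]
    simp
  have h2 : (rowsU hA * (rowsU hA)ᴴ) α α = ((∑ c, ‖rowsU hA α c‖ ^ 2 : ℝ) : ℂ) := by
    simp only [mul_apply, conjTranspose_apply]
    push_cast
    refine Finset.sum_congr rfl fun c _ => ?_
    rw [Complex.star_def, mul_comm, Complex.conj_mul']
  rw [h2] at h1
  exact_mod_cast h1

end Vale.Agent.Lib.P371
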