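import Vale.Agent.Lib.P371.Pointwise
import Vale.Agent.Lib.P371.Spectral

/-!
Assembly of the matrix bound.
-/

open Real MeasureTheory Set Filter Topology Function Matrix

namespace Vale.Agent.Lib.P371

namespace IsH1

lemma continuous {f f' : ℝ → ℂ} (h : IsH1 f f') : Continuous f := by
  have h1 := intervalIntegral.continuous_primitive (μ := volume) h.intervalIntegrable 0
  have h2 : f = fun x => f 0 + ∫ t in (0 : ℝ)..x, f' t := by
    funext x
    rw [h.primitive]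
    ring
  rw [h2]
  exact continuous_const.add h1

lemma lin {m : ℕ} {u u' : Fin m → ℝ → ℂ} (hu : ∀ c, IsH1 (u c) (u' c)) (E : Fin m → ℂ) :
    IsH1 (fun y => ∑ c, E c * u c y) (fun y => ∑ c, E c * u' c y) where
  memLp := memLp_finsetSum _ fun c _ => (hu c).memLp.const_mul _
  memLp_deriv := memLp_finsetSum _ fun c _ => (hu c).memLp_deriv.const_mul _
  primitive := by
    intro a b
    rw [intervalIntegral.integral_finsetSum
      (fun c _ => ((hu c).intervalIntegrable a b).const_mul _), ← Finset.sum_sub_distrib]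
    refine Finset.sum_congr rfl fun c _ => ?_
    rw [intervalIntegral.integral_const_mul, (hu c).primitive]
    ring

end IsH1

lemma cheat_lin {m : ℕ} {u : Fin m → ℝ → ℂ} (hu : ∀ c, MemLp (u c) 2) (E : Fin m → ℂ) {r : ℝ}
    (hr : 0 < r) (x : ℝ) :
    cheat r (fun y => ∑ c, E c * u c y) x = ∑ c, E c * cheat r (u c) x := by
  unfold cheat
  have h1 : ∀ t, (kern r t : ℂ) * ∑ c, E c * u c (x - t) =
      ∑ c, E c * ((kern r t : ℂ) * u c (x - t)) := by
    intro t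
    rw [Finset.mul_sum]
    refine Finset.sum_congr rfl fun c _ => ?_
    ring
  simp only [h1]
  rw [integral_finsetSum _ fun c _ =>
    (integrable_real_mul_shift (memLp_kern hr) (hu c) x).const_mul _]
  refine Finset.sum_congr rfl fun c _ => ?_
  rw [integral_const_mul]

lemma measurable_cheat {v : ℝ → ℂ} (hv : MemLp v 2) :
    Measurable (fun p : ℝ × ℝ => cheat p.1 v p.2) := by
  set u := hv.1.mk v with hu
  have huv : v =ᵐ[volume] u := hv.1.ae_eq_mk
  have hum : Measurable u := hv.1.stronglyMeasurable_mk.measurable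
  have h1 : (fun p : ℝ × ℝ => cheat p.1 v p.2) = fun p : ℝ × ℝ => cheat p.1 u p.2 := by
    funext p
    exact cheat_congr huv _ _
  rw [h1]
  unfold cheat
  have h : StronglyMeasurable (fun q : (ℝ × ℝ) × ℝ => (kern q.1.1 q.2 : ℂ) * u (q.1.2 - q.2)) := by
    apply Measurable.stronglyMeasurable
    have h1 : Measurable (fun q : (ℝ × ℝ) × ℝ => kern q.1.1 q.2) :=
      measurable_kern_uncurry.comp ((measurable_fst.comp measurable_fst).prodMk measurable_snd)
    have h2 : Measurable (fun q : (ℝ × ℝ) × ℝ => (kern q.1.1 q.2 : ℂ)) :=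
      Complex.measurable_ofReal.comp h1
    fun_prop
  exact (h.integral_prod_right (ν := volume)).measurable

lemma measurable_cheat_section {v : ℝ → ℂ} (hv : MemLp v 2) (x : ℝ) :
    Measurable (fun r : ℝ => cheat r v x) := by
  have h2 : Measurable (fun r : ℝ => ((r, x) : ℝ × ℝ)) := measurable_id.prodMk measurable_const
  exact (measurable_cheat hv).comp h2

section family
variable {m N : ℕ} {ψ ψ' : Fin N → ℝ → Fin m → ℂ}

/-- Orthonormality gives the value of the `L²` norm of finite combinations. -/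
lemma combo_norm (hH : ∀ j c, IsH1 (fun x => ψ j x c) (fun x => ψ' j x c))
    (horth : ∀ j k, ∑ c, ∫ x, star (ψ j x c) * ψ k x c = if j = k then 1 else 0)
    (d : Fin N → ℂ) :
    ∑ c, ∫ y, ‖∑ j, d j * ψ j y c‖ ^ 2 = ∑ j, ‖d j‖ ^ 2 := by
  have hprod : ∀ j k c, Integrable (fun y => star (ψ j y c) * ψ k y c) := by
    intro j k c
    have h1 : MemLp (fun y => star (ψ j y c)) 2 := (hH j c).memLp.star
    exact h1.integrable_mul (hH k c).memLp
  have hsq : ∀ c (y : ℝ), ((‖∑ j, d j * ψ j y c‖ ^ 2 : ℝ) : ℂ) =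
      ∑ j, ∑ k, (star (d j) * d k) * (star (ψ j y c) * ψ k y c) := by
    intro c y
    push_cast
    rw [← Complex.conj_mul', map_sum, Finset.sum_mul_sum]
    refine Finset.sum_congr rfl fun j _ => Finset.sum_congr rfl fun k _ => ?_
    simp only [map_mul, Complex.star_def]
    ring
  have hcast : ((∑ c, ∫ y, ‖∑ j, d j * ψ j y c‖ ^ 2 : ℝ) : ℂ) = ((∑ j, ‖d j‖ ^ 2 : ℝ) : ℂ) := by
    push_cast
    have h1 : ∀ c, ((∫ y, ‖∑ j, d j * ψ j y c‖ ^ 2 : ℝ) : ℂ) =
        ∑ j, ∑ k, (star (d j) * d k) * ∫ y, star (ψ j y c) * ψ k y c := by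
      intro c
      rw [← integral_complex_ofReal]
      simp only [hsq]
      rw [integral_finsetSum _ fun j _ => integrable_finsetSum _ fun k _ =>
        (hprod j k c).const_mul _]
      refine Finset.sum_congr rfl fun j _ => ?_
      rw [integral_finsetSum _ fun k _ => (hprod j k c).const_mul _]
      refine Finset.sum_congr rfl fun k _ => ?_
      rw [integral_const_mul]
    simp only [h1]
    rw [Finset.sum_comm]
    refine Finset.sum_congr rfl fun j _ => ?_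
    rw [Finset.sum_comm]
    simp only [← Finset.mul_sum, horth]
    simp only [mul_ite, mul_one, mul_zero, Finset.sum_ite_eq, Finset.mem_univ, if_true]
    rw [Complex.star_def, Complex.conj_mul']
  exact_mod_cast hcast

/-- Bessel-type inequality for the scalar functions `⟨e, ψ_j⟩`. -/
lemma bessel (hH : ∀ j c, IsH1 (fun x => ψ j x c) (fun x => ψ' j x c))
    (horth : ∀ j k, ∑ c, ∫ x, star (ψ j x c) * ψ k x c = if j = k then 1 else 0)
    {E : Fin m → ℂ} (hE : ∑ c, ‖E c‖ ^ 2 = 1) (d : Fin N → ℂ) :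
    ∫ y, ‖∑ j, d j * ∑ c, E c * ψ j y c‖ ^ 2 ≤ ∑ j, ‖d j‖ ^ 2 := by
  rw [← combo_norm hH horth d]
  have hΦ : ∀ c, MemLp (fun y => ∑ j, d j * ψ j y c) 2 := fun c =>
    memLp_finsetSum _ fun j _ => (hH j c).memLp.const_mul _
  have hΦ2 : ∀ c, Integrable (fun y => ‖∑ j, d j * ψ j y c‖ ^ 2) := fun c =>
    (hΦ c).integrable_norm_pow (by norm_num)
  have hswap : ∀ y, ∑ j, d j * ∑ c, E c * ψ j y c = ∑ c, E c * ∑ j, d j * ψ j y c := by
    intro y
    simp only [Finset.mul_sum]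
    rw [Finset.sum_comm]
    refine Finset.sum_congr rfl fun c _ => Finset.sum_congr rfl fun j _ => ?_
    ring
  simp only [hswap]
  have hL : MemLp (fun y => ∑ c, E c * ∑ j, d j * ψ j y c) 2 :=
    memLp_finsetSum _ fun c _ => (hΦ c).const_mul _
  rw [← integral_finsetSum _ fun c _ => hΦ2 c]
  refine integral_mono (hL.integrable_norm_pow (by norm_num))
    (integrable_finsetSum _ fun c _ => hΦ2 c) fun y => ?_
  simp only
  -- finite Cauchy-Schwarz
  have h1 : ‖∑ c, E c * ∑ j, d j * ψ j y c‖ ≤ ∑ c, ‖E c‖ * ‖∑ j, d j * ψ j y c‖ := by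
    refine (norm_sum_le _ _).trans (le_of_eq ?_)
    simp only [norm_mul]
  have h2 := Finset.sum_mul_sq_le_sq_mul_sq Finset.univ (fun c => ‖E c‖)
    (fun c => ‖∑ j, d j * ψ j y c‖)
  rw [hE, one_mul] at h2
  calc ‖∑ c, E c * ∑ j, d j * ψ j y c‖ ^ 2
      ≤ (∑ c, ‖E c‖ * ‖∑ j, d j * ψ j y c‖) ^ 2 := by
        gcongr
    _ ≤ _ := h2

/-- The square function density of the family. -/
noncomputable def tau (ψ' : Fin N → ℝ → Fin m → ℂ) (x : ℝ) : ENNReal :=
  ∑ j, ∑ c, ∫⁻ r in Ioi (0 : ℝ), ENNReal.ofReal (2 * ‖cheat r (fun y => ψ' j y c) x‖ ^ 2)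

lemma measurable_ofReal_cheat {v : ℝ → ℂ} (hv : MemLp v 2) :
    Measurable (fun p : ℝ × ℝ => ENNReal.ofReal (2 * ‖cheat p.2 v p.1‖ ^ 2)) := by
  have h1 : Measurable (fun p : ℝ × ℝ => cheat p.2 v p.1) :=
    (measurable_cheat hv).comp measurable_swap
  fun_prop

lemma lintegral_tau_le (hH : ∀ j c, IsH1 (fun x => ψ j x c) (fun x => ψ' j x c)) :
    ∫⁻ x, tau ψ' x ≤ ENNReal.ofReal (∑ j, ∑ c, ∫ x, ‖ψ' j x c‖ ^ 2) := by
  unfold tau
  have hm : ∀ j c, Measurable (fun x => ∫⁻ r in Ioi (0 : ℝ),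
      ENNReal.ofReal (2 * ‖cheat r (fun y => ψ' j y c) x‖ ^ 2)) := fun j c =>
    (measurable_ofReal_cheat (hH j c).memLp_deriv).lintegral_prod_right'
  rw [lintegral_finsetSum _ fun j _ => Finset.measurable_fun_sum _ fun c _ => hm j c]
  rw [ENNReal.ofReal_sum_of_nonneg fun j _ =>
    Finset.sum_nonneg fun c _ => integral_nonneg fun x => by positivity]
  refine Finset.sum_le_sum fun j _ => ?_
  rw [lintegral_finsetSum _ fun c _ => hm j c]
  rw [ENNReal.ofReal_sum_of_nonneg fun c _ => integral_nonneg fun x => by positivity]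
  refine Finset.sum_le_sum fun c _ => ?_
  exact energy_complex (hH j c).memLp_deriv

lemma sum_ofReal_parseval {E : Fin m → Fin m → ℂ}
    (hE : ∀ z : Fin m → ℂ, ∑ α, ‖∑ c, E α c * z c‖ ^ 2 = ∑ c, ‖z c‖ ^ 2)
    (z : Fin N → Fin m → ℂ) :
    ∑ α, ENNReal.ofReal (2 * ∑ j, ‖∑ c, E α c * z j c‖ ^ 2) =
      ∑ j, ∑ c, ENNReal.ofReal (2 * ‖z j c‖ ^ 2) := by
  have h1 : ∀ j, ∑ c, ENNReal.ofReal (2 * ‖z j c‖ ^ 2) =
      ENNReal.ofReal (∑ c, 2 * ‖z j c‖ ^ 2) := fun j =>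
    (ENNReal.ofReal_sum_of_nonneg fun c _ => by positivity).symm
  rw [Finset.sum_congr rfl fun j _ => h1 j]
  rw [← ENNReal.ofReal_sum_of_nonneg fun α _ => by positivity]
  rw [← ENNReal.ofReal_sum_of_nonneg fun j _ => Finset.sum_nonneg fun c _ => by positivity]
  congr 1
  rw [← Finset.mul_sum, Finset.sum_comm]
  simp only [hE, Finset.mul_sum]

lemma sum_alpha_step {E : Fin m → Fin m → ℂ}
    (hE : ∀ z : Fin m → ℂ, ∑ α, ‖∑ c, E α c * z c‖ ^ 2 = ∑ c, ‖z c‖ ^ 2)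
    (hH : ∀ j c, IsH1 (fun x => ψ j x c) (fun x => ψ' j x c)) (x : ℝ) :
    ∑ α, ∫⁻ r in Ioi (0 : ℝ), ENNReal.ofReal (2 * ∑ j,
        ‖cheat r (fun y => ∑ c, E α c * ψ' j y c) x‖ ^ 2) = tau ψ' x := by
  have hH' : ∀ α j, IsH1 (fun y => ∑ c, E α c * ψ j y c)
      (fun y => ∑ c, E α c * ψ' j y c) := fun α j =>
    IsH1.lin (u := fun c y => ψ j y c) (u' := fun c y => ψ' j y c) (hH j) (fun c => E α c)
  have hmα : ∀ α, Measurable (fun r : ℝ => ENNReal.ofReal (2 * ∑ j,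
        ‖cheat r (fun y => ∑ c, E α c * ψ' j y c) x‖ ^ 2)) := by
    intro α
    have h1 : ∀ j, Measurable (fun r : ℝ => cheat r (fun y => ∑ c, E α c * ψ' j y c) x) :=
      fun j => measurable_cheat_section (hH' α j).memLp_deriv x
    have h2 : Measurable (fun r : ℝ => ∑ j,
        ‖cheat r (fun y => ∑ c, E α c * ψ' j y c) x‖ ^ 2) :=
      Finset.measurable_fun_sum _ fun j _ => (h1 j).norm.pow_const 2
    exact ENNReal.measurable_ofReal.comp (h2.const_mul 2)
  have hmc : ∀ j c, Measurable (fun r : ℝ =>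
      ENNReal.ofReal (2 * ‖cheat r (fun y => ψ' j y c) x‖ ^ 2)) := by
    intro j c
    have h1 := measurable_cheat_section (hH j c).memLp_deriv x
    fun_prop
  have e1 : ∑ α, ∫⁻ r in Ioi (0 : ℝ), ENNReal.ofReal (2 * ∑ j,
        ‖cheat r (fun y => ∑ c, E α c * ψ' j y c) x‖ ^ 2) =
      ∫⁻ r in Ioi (0 : ℝ), ∑ α, ENNReal.ofReal (2 * ∑ j,
        ‖cheat r (fun y => ∑ c, E α c * ψ' j y c) x‖ ^ 2) :=
    (lintegral_finsetSum _ fun α _ => hmα α).symm
  have e2 : tau ψ' x = ∫⁻ r in Ioi (0 : ℝ), ∑ j, ∑ c,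
      ENNReal.ofReal (2 * ‖cheat r (fun y => ψ' j y c) x‖ ^ 2) := by
    unfold tau
    rw [lintegral_finsetSum _ fun j _ => Finset.measurable_fun_sum _ fun c _ => hmc j c]
    refine Finset.sum_congr rfl fun j _ => ?_
    rw [lintegral_finsetSum _ fun c _ => hmc j c]
  rw [e1, e2]
  apply setLIntegral_congr_fun measurableSet_Ioi
  intro r hr
  have hr' : (0 : ℝ) < r := hr
  have hcl : ∀ α j, cheat r (fun y => ∑ c, E α c * ψ' j y c) x =
      ∑ c, E α c * cheat r (fun y => ψ' j y c) x := fun α j =>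
    cheat_lin (u := fun c y => ψ' j y c) (fun c => (hH j c).memLp_deriv) (fun c => E α c) hr' x
  simp only [hcl]
  exact sum_ofReal_parseval hE (fun j c => cheat r (fun y => ψ' j y c) x)

variable {n : ℕ} {a p : Fin n → ℝ}

lemma sum_alpha_le_tau {E : Fin m → Fin m → ℂ}
    (hE : ∀ z : Fin m → ℂ, ∑ α, ‖∑ c, E α c * z c‖ ^ 2 = ∑ c, ‖z c‖ ^ 2)
    (hE1 : ∀ α, ∑ c, ‖E α c‖ ^ 2 = 1)
    (hH : ∀ j c, IsH1 (fun x => ψ j x c) (fun x => ψ' j x c))
    (horth : ∀ j k, ∑ c, ∫ x, star (ψ j x c) * ψ k x c = if j = k then 1 else 0)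
    (hp : ∀ i, 0 < p i) {κ η ν : ℝ} (hκ : 0 < κ) (hη : 0 < η) (hν : 0 ≤ ν)
    (hκη : κ ^ 3 * nnC a p ≤ η ^ 2) (x : ℝ) :
    ∑ α, ENNReal.ofReal ((∑ j, ‖∑ c, E α c * ψ j x c‖ ^ 2) ^ 3 *
        (2 * ν * (κ * lamC a p - η) - ν ^ 2 * ddC a p)) ≤ tau ψ' x := by
  have hH' : ∀ α j, IsH1 (fun y => ∑ c, E α c * ψ j y c)
      (fun y => ∑ c, E α c * ψ' j y c) := fun α j =>
    IsH1.lin (u := fun c y => ψ j y c) (u' := fun c y => ψ' j y c) (hH j) (fun c => E α c)
  have hB : ∀ α, ∀ d : Fin N → ℂ,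
      ∫ y, ‖∑ j, d j * ∑ c, E α c * ψ j y c‖ ^ 2 ≤ ∑ j, ‖d j‖ ^ 2 := fun α d =>
    bessel hH horth (hE1 α) d
  rw [← sum_alpha_step hE hH x]
  refine Finset.sum_le_sum fun α _ => ?_
  exact pointwise_bound (φ := fun j y => ∑ c, E α c * ψ j y c)
      (v := fun j y => ∑ c, E α c * ψ' j y c) (hH' α) (hB α) hp hκ hη hν hκη x

end family

end Vale.Agent.Lib.P371
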