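import Vale.Agent.Lib.P371.TraceMeas

/-!
The main inequality at a fixed spectral level `z` for a Bessel family in `H¹_z`.
-/

open Real MeasureTheory Set Filter Topology Function Matrix
open scoped ComplexOrder

namespace Vale.Agent.Lib.P371

variable {m n : ℕ} {W : ℝ → Matrix (Fin m) (Fin m) ℂ} {pw : ℝ}

/-- The majorant density at the level `z`. -/
noncomputable def Lam (hW : GoodW W pw) (τ pb : ℕ → ℝ) (K : ℕ) (z x : ℝ) : ℝ :=
  ∑ α, ∑ k ∈ Finset.range K, (pb (k + 1) - pb k) *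
    ((1 / z) * max ((hW.psd x).isHermitian.eigenvalues α - τ k / 4 * z ^ 2) 0)

lemma Lam_eq (hW : GoodW W pw) (τ pb : ℕ → ℝ) (K : ℕ) (z x : ℝ) :
    Lam hW τ pb K z x = ∑ k ∈ Finset.range K, (pb (k + 1) - pb k) * ((1 / z) *
      ∑ α, max ((hW.psd x).isHermitian.eigenvalues α - τ k / 4 * z ^ 2) 0) := by
  unfold Lam
  rw [Finset.sum_comm]
  refine Finset.sum_congr rfl fun k _ => ?_
  rw [Finset.mul_sum, Finset.mul_sum]

lemma integrable_Lam (hW : GoodW W pw) {τ : ℕ → ℝ} (pb : ℕ → ℝ) {K : ℕ} (hτ : ∀ k < K, 0 < τ k)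
    {z : ℝ} (hz : 0 < z) : Integrable (Lam hW τ pb K z) := by
  have : Lam hW τ pb K z = fun x => Lam hW τ pb K z x := rfl
  rw [this]
  simp only [Lam_eq]
  refine integrable_finsetSum _ fun k hk => ?_
  have h1 := hτ k (Finset.mem_range.mp hk)
  have h2 : 0 < τ k / 4 * z ^ 2 := by positivity
  exact ((integrable_trace_trunc hW h2).const_mul _).const_mul _

lemma Lam_nonneg (hW : GoodW W pw) {τ pb : ℕ → ℝ} {K : ℕ} (hpb : ∀ k < K, pb k ≤ pb (k + 1))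
    {z : ℝ} (hz : 0 < z) (x : ℝ) : 0 ≤ Lam hW τ pb K z x := by
  unfold Lam
  refine Finset.sum_nonneg fun α _ => Finset.sum_nonneg fun k hk => ?_
  have h1 := hpb k (Finset.mem_range.mp hk)
  have h2 : 0 ≤ max ((hW.psd x).isHermitian.eigenvalues α - τ k / 4 * z ^ 2) 0 := le_max_right _ _
  have h3 : 0 ≤ pb (k + 1) - pb k := by linarith
  positivity

/-- Projection on a unit vector. -/
lemma proj_le {g : ℝ → Fin m → ℂ} (hg : L2c g) {E : Fin m → ℂ} (hE : ∑ c, ‖E c‖ ^ 2 = 1) :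
    ∫ y, ‖∑ c, E c * g y c‖ ^ 2 ≤ ∑ c, ∫ y, ‖g y c‖ ^ 2 := by
  have hg2 : ∀ c, Integrable (fun y => ‖g y c‖ ^ 2) := fun c =>
    (hg c).integrable_norm_pow (by norm_num)
  have hL : MemLp (fun y => ∑ c, E c * g y c) 2 :=
    memLp_finsetSum _ fun c _ => (hg c).const_mul _
  rw [← integral_finsetSum _ fun c _ => hg2 c]
  refine integral_mono (hL.integrable_norm_pow (by norm_num))
    (integrable_finsetSum _ fun c _ => hg2 c) fun y => ?_
  simp only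
  have h1 : ‖∑ c, E c * g y c‖ ≤ ∑ c, ‖E c‖ * ‖g y c‖ := by
    refine (norm_sum_le _ _).trans (le_of_eq ?_)
    simp only [norm_mul]
  have h2 := Finset.sum_mul_sq_le_sq_mul_sq Finset.univ (fun c => ‖E c‖) (fun c => ‖g y c‖)
  rw [hE, one_mul] at h2
  calc ‖∑ c, E c * g y c‖ ^ 2 ≤ (∑ c, ‖E c‖ * ‖g y c‖) ^ 2 := by gcongr
    _ ≤ _ := h2

/-- The Bessel condition along a unit vector. -/
lemma besselF_of_vec {Ψ Ψ' : Fin n → ℝ → Fin m → ℂ} (hH : ∀ l, H1c (Ψ l) (Ψ' l)) {z : ℝ}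
    (hB : ∀ b : Fin n → ℂ, (hzf z (combo b Ψ) (combo b Ψ') (combo b Ψ) (combo b Ψ')).re ≤
      ∑ l, ‖b l‖ ^ 2) {E : Fin m → ℂ} (hE : ∑ c, ‖E c‖ ^ 2 = 1) :
    BesselF z (fun l y => ∑ c, E c * Ψ l y c) (fun l y => ∑ c, E c * Ψ' l y c) := by
  intro b
  have hc : H1c (combo b Ψ) (combo b Ψ') := H1c.combo hH b
  have h0 := hB b
  rw [hzf_self_re hc] at h0
  refine le_trans ?_ h0
  have hswap : ∀ (F : Fin n → ℝ → Fin m → ℂ) (y : ℝ),
      ∑ l, b l * ∑ c, E c * F l y c = ∑ c, E c * combo b F y c := by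
    intro F y
    simp only [combo, Finset.mul_sum]
    rw [Finset.sum_comm]
    refine Finset.sum_congr rfl fun c _ => Finset.sum_congr rfl fun l _ => ?_
    ring
  simp only [hswap]
  have h1 := proj_le hc.l2 hE
  have h2 := proj_le hc.l2' hE
  have hz2 := sq_nonneg z
  have h3 := mul_le_mul_of_nonneg_left h1 hz2
  linarith

/-- The resolvent square function of a vector family at one point. -/
noncomputable def tauV (z : ℝ) (Ψ' : Fin n → ℝ → Fin m → ℂ) (x : ℝ) : ENNReal :=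
  ∑ l, ∑ c, ∫⁻ t in Ioi (0 : ℝ),
    ENNReal.ofReal (4 * z ^ 2 * t ^ 3 * ‖cres (z * t ^ 2) (fun y => Ψ' l y c) x‖ ^ 2)

lemma sum_alpha_res {E : Fin m → Fin m → ℂ}
    (hE : ∀ y : Fin m → ℂ, ∑ α, ‖∑ c, E α c * y c‖ ^ 2 = ∑ c, ‖y c‖ ^ 2)
    {Ψ Ψ' : Fin n → ℝ → Fin m → ℂ} (hH : ∀ l, H1c (Ψ l) (Ψ' l)) {z : ℝ} (hz : 0 < z) (x : ℝ) :
    ∑ α, tauR z (fun l y => ∑ c, E α c * Ψ' l y c) x = tauV z Ψ' x := by
  unfold tauR tauV
  rw [Finset.sum_comm]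
  refine Finset.sum_congr rfl fun l _ => ?_
  have hm1 : ∀ α, Measurable (fun t : ℝ => ENNReal.ofReal
      (4 * z ^ 2 * t ^ 3 * ‖cres (z * t ^ 2) (fun y => ∑ c, E α c * Ψ' l y c) x‖ ^ 2)) := fun α =>
    measurable_term (memLp_finsetSum _ fun c _ => ((hH l).l2' c).const_mul _) z x
  have hm2 : ∀ c, Measurable (fun t : ℝ => ENNReal.ofReal
      (4 * z ^ 2 * t ^ 3 * ‖cres (z * t ^ 2) (fun y => Ψ' l y c) x‖ ^ 2)) := fun c =>
    measurable_term ((hH l).l2' c) z x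
  rw [← lintegral_finsetSum _ fun α _ => hm1 α, ← lintegral_finsetSum _ fun c _ => hm2 c]
  apply setLIntegral_congr_fun measurableSet_Ioi
  intro t ht
  have ht0 : (0 : ℝ) < t := ht
  have hs : 0 < z * t ^ 2 := by positivity
  have hl : ∀ α, cres (z * t ^ 2) (fun y => ∑ c, E α c * Ψ' l y c) x =
      ∑ c, E α c * cres (z * t ^ 2) (fun y => Ψ' l y c) x := fun α =>
    cres_lin (u := fun c y => Ψ' l y c) ((hH l).l2') (fun c => E α c) hs x
  simp only [hl]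
  rw [← ENNReal.ofReal_sum_of_nonneg fun α _ => by positivity,
    ← ENNReal.ofReal_sum_of_nonneg fun c _ => by positivity, ← Finset.mul_sum, ← Finset.mul_sum]
  rw [hE (fun c => cres (z * t ^ 2) (fun y => Ψ' l y c) x)]

lemma ofReal_sum_le {ι : Type*} (s : Finset ι) (f : ι → ℝ) :
    ENNReal.ofReal (∑ i ∈ s, f i) ≤ ∑ i ∈ s, ENNReal.ofReal (f i) := by
  classical
  induction s using Finset.induction_on with
  | empty => simp
  | insert a s ha ih =>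
    rw [Finset.sum_insert ha, Finset.sum_insert ha]
    exact ENNReal.ofReal_add_le.trans (add_le_add le_rfl ih)

/-- The integrand of the main inequality. -/
noncomputable def Sx (W : ℝ → Matrix (Fin m) (Fin m) ℂ) (z : ℝ) (Ψ : Fin n → ℝ → Fin m → ℂ)
    (x : ℝ) : ℝ :=
  ∑ l, ((star (Ψ l x) ⬝ᵥ W x *ᵥ Ψ l x).re - z ^ 2 / 4 * ∑ c, ‖Ψ l x c‖ ^ 2)

/-- The pointwise inequality for a vector Bessel family. -/
theorem local_vec (hW : GoodW W pw) {e : ℝ → ℝ} (he : IsEnv e) {τ pb : ℕ → ℝ} {K : ℕ}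
    (hleg : ∀ s ζ : ℝ, 0 ≤ ζ → ζ ≤ 1 / 2 → s * ζ - e ζ ≤ plF τ pb K s)
    {Ψ Ψ' : Fin n → ℝ → Fin m → ℂ} (hH : ∀ l, H1c (Ψ l) (Ψ' l)) {z : ℝ} (hz : 0 < z)
    (hB : ∀ b : Fin n → ℂ, (hzf z (combo b Ψ) (combo b Ψ') (combo b Ψ) (combo b Ψ')).re ≤
      ∑ l, ‖b l‖ ^ 2) (x : ℝ) :
    ENNReal.ofReal (Sx W z Ψ x - Lam hW τ pb K z x) ≤ ENNReal.ofReal (1 / 4) * tauV z Ψ' x := by
  set hA := (hW.psd x).isHermitian with hAdef
  set lam := hA.eigenvalues with hlam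
  set E : Fin m → Fin m → ℂ := fun α c => rowsU hA α c with hE
  have hEunit : ∀ α, ∑ c, ‖E α c‖ ^ 2 = 1 := fun α => rows_unit hA α
  have hEpars : ∀ y : Fin m → ℂ, ∑ α, ‖∑ c, E α c * y c‖ ^ 2 = ∑ c, ‖y c‖ ^ 2 := fun y =>
    parseval hA y
  rw [← sum_alpha_res hEpars hH hz x, Finset.mul_sum]
  have hform : Sx W z Ψ x - Lam hW τ pb K z x =
      ∑ α, ((lam α - z ^ 2 / 4) * (∑ l, ‖∑ c, E α c * Ψ l x c‖ ^ 2) -
        ∑ k ∈ Finset.range K, (pb (k + 1) - pb k) * ((1 / z) * max (lam α - τ k / 4 * z ^ 2) 0)) := by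
    rw [Finset.sum_sub_distrib]
    congr 1
    unfold Sx
    have h1 : ∀ l, (star (Ψ l x) ⬝ᵥ W x *ᵥ Ψ l x).re - z ^ 2 / 4 * ∑ c, ‖Ψ l x c‖ ^ 2 =
        ∑ α, (lam α - z ^ 2 / 4) * ‖∑ c, E α c * Ψ l x c‖ ^ 2 := by
      intro l
      rw [quad_form hA, ← hEpars (Ψ l x), Finset.mul_sum, ← Finset.sum_sub_distrib]
      refine Finset.sum_congr rfl fun α _ => ?_
      ring
    simp only [h1]
    rw [Finset.sum_comm]
    refine Finset.sum_congr rfl fun α _ => ?_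
    rw [Finset.mul_sum]
  rw [hform]
  refine (ofReal_sum_le _ _).trans (Finset.sum_le_sum fun α _ => ?_)
  have hHα : ∀ l, IsH1 (fun y => ∑ c, E α c * Ψ l y c) (fun y => ∑ c, E α c * Ψ' l y c) := fun l =>
    IsH1.lin (u := fun c y => Ψ l y c) (u' := fun c y => Ψ' l y c) (hH l) (fun c => E α c)
  exact pointwise_env he hleg hHα hz (besselF_of_vec hH hB (hEunit α)) x (lam α)

lemma measurable_term_joint {v : ℝ → ℂ} (hv : MemLp v 2) (z : ℝ) :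
    Measurable (fun q : ℝ × ℝ =>
      ENNReal.ofReal (4 * z ^ 2 * q.2 ^ 3 * ‖cres (z * q.2 ^ 2) v q.1‖ ^ 2)) := by
  have h1 : Measurable (fun q : ℝ × ℝ => cres (z * q.2 ^ 2) v q.1) :=
    (measurable_cres hv).comp ((measurable_const.mul (measurable_snd.pow_const 2)).prodMk measurable_fst)
  fun_prop

lemma lintegral_tauV_le {Ψ Ψ' : Fin n → ℝ → Fin m → ℂ} (hH : ∀ l, H1c (Ψ l) (Ψ' l)) {z : ℝ}
    (hz : 0 < z) :
    ∫⁻ x, tauV z Ψ' x ≤ ENNReal.ofReal (∑ l, ∑ c, ∫ x, ‖Ψ' l x c‖ ^ 2) := by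
  unfold tauV
  have hm : ∀ l c, Measurable (fun x => ∫⁻ t in Ioi (0 : ℝ),
      ENNReal.ofReal (4 * z ^ 2 * t ^ 3 * ‖cres (z * t ^ 2) (fun y => Ψ' l y c) x‖ ^ 2)) := fun l c =>
    (measurable_term_joint ((hH l).l2' c) z).lintegral_prod_right'
  rw [lintegral_finsetSum _ fun l _ => Finset.measurable_fun_sum _ fun c _ => hm l c]
  rw [ENNReal.ofReal_sum_of_nonneg fun l _ =>
    Finset.sum_nonneg fun c _ => integral_nonneg fun x => by positivity]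
  refine Finset.sum_le_sum fun l _ => ?_
  rw [lintegral_finsetSum _ fun c _ => hm l c]
  rw [ENNReal.ofReal_sum_of_nonneg fun c _ => integral_nonneg fun x => by positivity]
  refine Finset.sum_le_sum fun c _ => ?_
  exact energy_res_complex hz ((hH l).l2' c)

/-- The main inequality at the level `z`. -/
theorem bessel_main (hW : GoodW W pw) {e : ℝ → ℝ} (he : IsEnv e) {τ pb : ℕ → ℝ} {K : ℕ}
    (hleg : ∀ s ζ : ℝ, 0 ≤ ζ → ζ ≤ 1 / 2 → s * ζ - e ζ ≤ plF τ pb K s) (hτ : ∀ k < K, 0 < τ k)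
    {Ψ Ψ' : Fin n → ℝ → Fin m → ℂ} (hH : ∀ l, H1c (Ψ l) (Ψ' l)) {z : ℝ} (hz : 0 < z)
    (hB : ∀ b : Fin n → ℂ, (hzf z (combo b Ψ) (combo b Ψ') (combo b Ψ) (combo b Ψ')).re ≤
      ∑ l, ‖b l‖ ^ 2) :
    ∑ l, ((wf W (Ψ l) (Ψ l)).re - (1 / 4) * (hzf z (Ψ l) (Ψ' l) (Ψ l) (Ψ' l)).re) ≤
      ∫ x, Lam hW τ pb K z x := by
  set T : ℝ := ∑ l, ∑ c, ∫ x, ‖Ψ' l x c‖ ^ 2 with hT
  have hT0 : 0 ≤ T := Finset.sum_nonneg fun l _ => Finset.sum_nonneg fun c _ =>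
    integral_nonneg fun x => by positivity
  have hLi := integrable_Lam hW pb hτ hz
  have hq : ∀ l, Integrable fun x => (star (Ψ l x) ⬝ᵥ W x *ᵥ Ψ l x).re := fun l =>
    hW.integrable_quad (hH l).tame
  have hm2 : ∀ l, Integrable fun x => ∑ c, ‖Ψ l x c‖ ^ 2 := fun l =>
    (hH l).tame.integrable_sum_sq
  have hSi : Integrable (Sx W z Ψ) := by
    unfold Sx
    exact integrable_finsetSum _ fun l _ => (hq l).sub ((hm2 l).const_mul _)
  have hDi : Integrable fun x => Sx W z Ψ x - Lam hW τ pb K z x := hSi.sub hLi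
  have h1 : ENNReal.ofReal (∫ x, (Sx W z Ψ x - Lam hW τ pb K z x)) ≤ ENNReal.ofReal (T / 4) := by
    calc ENNReal.ofReal (∫ x, (Sx W z Ψ x - Lam hW τ pb K z x))
        ≤ ∫⁻ x, ENNReal.ofReal (Sx W z Ψ x - Lam hW τ pb K z x) := ofReal_integral_le hDi
      _ ≤ ∫⁻ x, ENNReal.ofReal (1 / 4) * tauV z Ψ' x :=
          lintegral_mono fun x => local_vec hW he hleg hH hz hB x
      _ ≤ ENNReal.ofReal (1 / 4) * ∫⁻ x, tauV z Ψ' x := by
          refine le_of_eq ?_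
          apply lintegral_const_mul'
          simp
      _ ≤ ENNReal.ofReal (1 / 4) * ENNReal.ofReal T := by
          gcongr
          exact lintegral_tauV_le hH hz
      _ = ENNReal.ofReal (T / 4) := by
          rw [← ENNReal.ofReal_mul (by norm_num)]
          congr 1
          ring
  have h2 : ∫ x, (Sx W z Ψ x - Lam hW τ pb K z x) ≤ T / 4 :=
    (ENNReal.ofReal_le_ofReal_iff (by positivity)).mp h1
  rw [integral_sub hSi hLi] at h2
  have h3 : ∫ x, Sx W z Ψ x = ∑ l, ((wf W (Ψ l) (Ψ l)).re -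
      z ^ 2 / 4 * ∑ c, ∫ x, ‖Ψ l x c‖ ^ 2) := by
    unfold Sx
    have hi : ∀ l, Integrable fun x => (star (Ψ l x) ⬝ᵥ W x *ᵥ Ψ l x).re -
        z ^ 2 / 4 * ∑ c, ‖Ψ l x c‖ ^ 2 := fun l => (hq l).sub ((hm2 l).const_mul _)
    rw [integral_finsetSum _ fun l _ => hi l]
    refine Finset.sum_congr rfl fun l _ => ?_
    rw [integral_sub (hq l) ((hm2 l).const_mul _), integral_const_mul,
      integral_finsetSum _ fun c _ => ((hH l).l2 c).integrable_norm_pow (by norm_num)]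
    congr 1
    unfold wf
    have h4 := integral_re (𝕜 := ℂ) (hW.integrable_form (hH l).tame (hH l).tame)
    simp only [RCLike.re_to_complex] at h4
    exact h4
  rw [h3] at h2
  have h5 : ∑ l, ((wf W (Ψ l) (Ψ l)).re - (1 / 4) * (hzf z (Ψ l) (Ψ' l) (Ψ l) (Ψ' l)).re) =
      (∑ l, ((wf W (Ψ l) (Ψ l)).re - z ^ 2 / 4 * ∑ c, ∫ x, ‖Ψ l x c‖ ^ 2)) - T / 4 := by
    rw [hT, Finset.sum_div, ← Finset.sum_sub_distrib]
    refine Finset.sum_congr rfl fun l _ => ?_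
    rw [hzf_self_re (hH l)]
    ring
  rw [h5]
  linarith

/-- The key inequality for `W`-orthonormal families. -/
theorem won_main (hW : GoodW W pw) {e : ℝ → ℝ} (he : IsEnv e) {τ pb : ℕ → ℝ} {K : ℕ}
    (hleg : ∀ s ζ : ℝ, 0 ≤ ζ → ζ ≤ 1 / 2 → s * ζ - e ζ ≤ plF τ pb K s) (hτ : ∀ k < K, 0 < τ k)
    {f : Fin n → ℝ → Fin m → ℂ} (hf : ∀ i, Tame (f i))
    (hON : ∀ i k, wf W (f i) (f k) = if i = k then 1 else 0) {z : ℝ} (hz : 0 < z) :
    ∑ i, (Eh z W (f i) / z - 1 / 4) ≤ ∫ x, Lam hW τ pb K z x := by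
  obtain ⟨Ψ, Ψ', hH, hB, hS⟩ := partC hW hz hf hON (θ := 1 / 4) (by norm_num)
  refine le_trans (le_of_eq ?_) (hS.trans (bessel_main hW he hleg hτ hH hz hB))
  refine Finset.sum_congr rfl fun i _ => ?_
  rw [Eh_eq hW (hf i) hz]
  field_simp

end Vale.Agent.Lib.P371
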