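import Vale.Agent.Lib.P371.CalCore

open Set MeasureTheory Real Filter Topology

namespace Vale.Agent.Lib.P371.Cal

variable {ι : Type*} [Fintype ι]

lemma ap_exists_cont_approx {f : ℝ → ℝ} (hf : MemLp f 2 volume) {δ : ℝ} (hδ : 0 < δ) :
    ∃ g : ℝ → ℝ, Continuous g ∧ MemLp g 2 volume ∧ ∫ x, (g x - f x) ^ 2 ≤ δ := by
  have hε : ENNReal.ofReal (√δ) ≠ 0 := by
    simp [hδ]
  obtain ⟨g, -, hle, cg, mg⟩ := hf.exists_hasCompactSupport_eLpNorm_sub_le (by norm_num) hε
  refine ⟨g, cg, mg, ?_⟩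
  have hsub := hf.sub mg
  rw [hsub.eLpNorm_eq_integral_rpow_norm (by norm_num) (by norm_num)] at hle
  rw [ENNReal.ofReal_le_ofReal_iff (sqrt_nonneg _)] at hle
  have he : ∫ x, ‖(f - g) x‖ ^ (ENNReal.toReal 2) = ∫ x, (g x - f x) ^ 2 := by
    refine integral_congr_ae (Eventually.of_forall fun x => ?_)
    simp only [Pi.sub_apply, ENNReal.toReal_ofNat, Real.rpow_two, Real.norm_eq_abs, sq_abs]
    ring
  rw [he] at hle
  have hI : 0 ≤ ∫ x, (g x - f x) ^ 2 := integral_nonneg fun x => sq_nonneg _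
  have hs : (∫ x, (g x - f x) ^ 2) ^ (ENNReal.toReal 2)⁻¹ = √(∫ x, (g x - f x) ^ 2) := by
    rw [Real.sqrt_eq_rpow]
    norm_num
  rw [hs] at hle
  exact (Real.sqrt_le_sqrt_iff hδ.le).1 hle

lemma ap_intervalIntegrable {f : ℝ → ℝ} (h : MemLp f 2 volume) (a b : ℝ) :
    IntervalIntegrable f volume a b := by
  rw [intervalIntegrable_iff]
  have : IsFiniteMeasure (volume.restrict (Set.uIoc a b)) :=
    ⟨by simp [Measure.restrict_apply, Set.uIoc, Real.volume_Ioc, ENNReal.ofReal_lt_top]⟩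
  exact (h.restrict (Set.uIoc a b)).integrable (by norm_num)

lemma ap_rh1_continuous {f f' : ℝ → ℝ} (h : RH1 f f') : Continuous f := by
  have h1 : ∀ a b, IntervalIntegrable f' volume a b := ap_intervalIntegrable h.memLp_deriv
  have h2 := intervalIntegral.continuous_primitive h1 0
  have h3 : f = fun x => f 0 + ∫ t in (0 : ℝ)..x, f' t := by
    funext x
    rw [h.primitive]
    ring
  rw [h3]
  exact continuous_const.add h2

lemma ap_cs {u : ℝ → ℝ} {a b : ℝ} (hab : a ≤ b) (hu : IntervalIntegrable u volume a b)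
    (hu2 : IntervalIntegrable (fun x => u x ^ 2) volume a b) :
    (∫ x in a..b, u x) ^ 2 ≤ (b - a) * ∫ x in a..b, u x ^ 2 := by
  rcases hab.eq_or_lt with rfl | hlt
  · simp
  · set I := ∫ x in a..b, u x with hI
    set J := ∫ x in a..b, u x ^ 2 with hJ
    have hL : 0 < b - a := sub_pos.2 hlt
    set m := I / (b - a) with hm
    have h0 : 0 ≤ ∫ x in a..b, (u x - m) ^ 2 :=
      intervalIntegral.integral_nonneg hab (fun x _ => sq_nonneg _)
    have h1 : ∫ x in a..b, (u x - m) ^ 2 = J - 2 * m * I + m ^ 2 * (b - a) := by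
      have : ∀ x, (u x - m) ^ 2 = u x ^ 2 - 2 * m * u x + m ^ 2 := fun x => by ring
      simp only [this]
      rw [intervalIntegral.integral_add (hu2.sub (hu.const_mul _)) intervalIntegrable_const,
        intervalIntegral.integral_sub hu2 (hu.const_mul _), intervalIntegral.integral_const_mul,
        intervalIntegral.integral_const]
      simp only [smul_eq_mul]
      ring
    have h2 : m * (b - a) = I := by
      rw [hm]
      field_simp
    rw [h1] at h0
    have h3 : m ^ 2 * (b - a) = m * I := by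
      rw [← h2]
      ring
    have h4 : m * I ≤ J := by linarith
    have h5 : I ^ 2 = (b - a) * (m * I) := by
      rw [← h2]
      ring
    rw [h5]
    exact mul_le_mul_of_nonneg_left h4 hL.le

/-- The error of the primitive of the approximant. -/
lemma ap_err_bound {f f' g : ℝ → ℝ} (h : RH1 f f') (mg : MemLp g 2 volume)
    (ch : Continuous g) {xL xR δ : ℝ} (hd : ∫ x in xL..xR, (g x - f' x) ^ 2 ≤ δ)
    {x : ℝ} (hx : x ∈ Icc xL xR) :
    (f xL + (∫ t in xL..x, g t) - f x) ^ 2 ≤ (xR - xL) * δ := by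
  have hI1 : ∀ a b, IntervalIntegrable g volume a b := fun a b => ch.intervalIntegrable a b
  have hI2 : ∀ a b, IntervalIntegrable f' volume a b := ap_intervalIntegrable h.memLp_deriv
  have hsub : MemLp (fun x => g x - f' x) 2 volume := mg.sub h.memLp_deriv
  have hsq : Integrable fun x => (g x - f' x) ^ 2 := hsub.integrable_sq
  have e1 : f xL + (∫ t in xL..x, g t) - f x = ∫ t in xL..x, (g t - f' t) := by
    rw [intervalIntegral.integral_sub (hI1 _ _) (hI2 _ _), h.primitive]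
    ring
  rw [e1]
  have hxL : xL ≤ x := hx.1
  have hxR : x ≤ xR := hx.2
  have hLR : xL ≤ xR := hxL.trans hxR
  have h1 := ap_cs hxL ((hI1 xL x).sub (hI2 xL x)) (hsq.intervalIntegrable (a := xL) (b := x))
  have h2 : ∫ t in xL..x, (g t - f' t) ^ 2 ≤ ∫ t in xL..xR, (g t - f' t) ^ 2 :=
    intervalIntegral.integral_mono_interval le_rfl hxL hxR
      (Eventually.of_forall fun t => sq_nonneg _) hsq.intervalIntegrable
  have h3 : 0 ≤ ∫ t in xL..x, (g t - f' t) ^ 2 :=
    intervalIntegral.integral_nonneg hxL fun t _ => sq_nonneg _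
  calc (∫ t in xL..x, (g t - f' t)) ^ 2 ≤ (x - xL) * ∫ t in xL..x, (g t - f' t) ^ 2 := h1
    _ ≤ (xR - xL) * ∫ t in xL..x, (g t - f' t) ^ 2 :=
        mul_le_mul_of_nonneg_right (by linarith) h3
    _ ≤ (xR - xL) * δ := mul_le_mul_of_nonneg_left (h2.trans hd) (by linarith)

lemma ap_aux {s d : ℝ} (hs : 0 < s) (hd : s ^ 2 = d) : (1 + 1 / s) * d = d + s := by
  subst hd
  field_simp

/-- The Gram bound for subunit vectors. -/
lemma ap_subunit (Φ Φ' : ι → ℝ → ℝ) (_h : ∀ i, RH1 (Φ i) (Φ' i))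
    (hG : ∀ e : ι → ℝ, ∑ i, e i ^ 2 = 1 → ∫ x, (∑ i, e i * Φ i x) ^ 2 ≤ 1)
    (e : ι → ℝ) (he : ∑ i, e i ^ 2 ≤ 1) : ∫ x, (∑ i, e i * Φ i x) ^ 2 ≤ 1 := by
  have hw0 : 0 ≤ ∑ i, e i ^ 2 := Finset.sum_nonneg fun i _ => sq_nonneg _
  rcases hw0.eq_or_lt with h0 | hpos
  · have hz : ∀ i, e i = 0 := by
      intro i
      have h2 := (Finset.sum_eq_zero_iff_of_nonneg (fun i _ => sq_nonneg (e i))).1 h0.symm i
        (Finset.mem_univ i)
      exact pow_eq_zero_iff two_ne_zero |>.1 h2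
    simp [hz]
  · set w := ∑ i, e i ^ 2 with hw
    have hs : 0 < √w := Real.sqrt_pos.2 hpos
    have hss : √w ^ 2 = w := Real.sq_sqrt hpos.le
    have h1 : ∑ i, (e i / √w) ^ 2 = 1 := by
      simp only [div_pow, hss]
      rw [← Finset.sum_div]
      exact div_self hpos.ne'
    have h2 := hG _ h1
    have h3 : ∀ x, (∑ i, e i * Φ i x) ^ 2 = w * (∑ i, e i / √w * Φ i x) ^ 2 := by
      intro x
      have h4 : ∑ i, e i * Φ i x = √w * ∑ i, e i / √w * Φ i x := by
        rw [Finset.mul_sum]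
        refine Finset.sum_congr rfl fun i _ => ?_
        field_simp
      rw [h4, mul_pow, hss]
    simp only [h3]
    rw [integral_const_mul]
    nlinarith

/-- One approximation step: the core inequality for the approximants. -/
lemma ap_step (D : CalData) (Φ Φ' g : ι → ℝ → ℝ) (h : ∀ i, RH1 (Φ i) (Φ' i))
    (hG : ∀ e : ι → ℝ, ∑ i, e i ^ 2 = 1 → ∫ x, (∑ i, e i * Φ i x) ^ 2 ≤ 1)
    {xL xR : ℝ} (hx : xL < xR) {b η θ : ℝ} (hb : 0 < b) (hη : 0 < η) (hθ : 0 < θ)
    (hbη : b * (1 + θ) + 2 * D.K₁ * η < 2 * D.Cstart)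
    (cg : ∀ i, Continuous (g i)) (mg : ∀ i, MemLp (g i) 2 volume) {δ ε : ℝ} (hε : 0 < ε)
    (hd : ∀ i, ∫ x in xL..xR, (g i x - Φ' i x) ^ 2 ≤ δ)
    (hsmall : (1 + θ / 2) + (1 + 2 / θ) *
      ((xR - xL) * (ε ^ 2 + (Fintype.card ι : ℝ) * ((xR - xL) * δ))) ≤ 1 + θ) :
    b ^ 2 / 4 * ∫ x in xL..xR, (ε ^ 2 + ∑ i, (Φ i xL + ∫ t in xL..x, g i t) ^ 2) ^ 3 ≤
      (∫ x in xL..xR, ∑ i, g i x ^ 2) + b / (4 * η) *
        ((ε ^ 2 + ∑ i, (Φ i xL + ∫ t in xL..xL, g i t) ^ 2) ^ 2 +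
          (ε ^ 2 + ∑ i, (Φ i xL + ∫ t in xL..xR, g i t) ^ 2) ^ 2) := by
  classical
  let Φt : ι → ℝ → ℝ := fun i x => Φ i xL + ∫ t in xL..x, g i t
  let Ψ : ℝ → Option ι → ℝ := fun x j => j.elim ε fun i => Φt i x
  let Ψ' : ℝ → Option ι → ℝ := fun x j => j.elim 0 fun i => g i x
  have dΦt : ∀ i x, HasDerivAt (Φt i) (g i x) x := by
    intro i x
    have h1 : HasDerivAt (fun u => ∫ t in xL..u, g i t) (g i x) x :=
      ((cg i).integral_hasStrictDerivAt xL x).hasDerivAt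
    exact h1.const_add _
  have cΦt : ∀ i, Continuous (Φt i) := fun i =>
    continuous_iff_continuousAt.2 fun x => (dΦt i x).continuousAt
  have hd' : ∀ j x, HasDerivAt (fun t => Ψ t j) (Ψ' x j) x := by
    intro j x
    cases j with
    | none => exact hasDerivAt_const x ε
    | some i => exact dΦt i x
  have hc' : ∀ j, Continuous fun x => Ψ' x j := by
    intro j
    cases j with
    | none => exact continuous_const
    | some i => exact cg i
  have hrho : ∀ x, rho Ψ x = ε ^ 2 + ∑ i, Φt i x ^ 2 := by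
    intro x
    simp only [rho, Fintype.sum_option, Ψ, Option.elim]
  have hdens : ∀ x, dens Ψ' x = ∑ i, g i x ^ 2 := by
    intro x
    simp [dens, Fintype.sum_option, Ψ', Option.elim]
  have hρ : ∀ x, 0 < rho Ψ x := by
    intro x
    rw [hrho]
    have : 0 ≤ ∑ i, Φt i x ^ 2 := Finset.sum_nonneg fun i _ => sq_nonneg _
    positivity
  have cΦ : ∀ i, Continuous (Φ i) := fun i => ap_rh1_continuous (h i)
  have hL : 0 < xR - xL := sub_pos.2 hx
  have hGram : ∀ e : Option ι → ℝ, ∑ j, e j ^ 2 = 1 →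
      ∫ x in xL..xR, comp e Ψ x ^ 2 ≤ 1 + θ := by
    intro e he
    let e' : ι → ℝ := fun i => e (some i)
    have hsplit : e none ^ 2 + ∑ i, e' i ^ 2 = 1 := by
      rw [← he, Fintype.sum_option]
    have hw : ∑ i, e' i ^ 2 ≤ 1 := by
      nlinarith [sq_nonneg (e none)]
    let A : ℝ → ℝ := fun x => ∑ i, e' i * Φ i x
    let B : ℝ → ℝ := fun x => comp e Ψ x - A x
    have cA : Continuous A := continuous_finsetSum _ fun i _ => continuous_const.mul (cΦ i)
    have cC : Continuous (comp e Ψ) :=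
      continuous_iff_continuousAt.2 fun x => (hasDerivAt_comp hd' e x).continuousAt
    have cB : Continuous B := cC.sub cA
    have hAm : MemLp A 2 volume := by
      have hAe : A = ∑ i, fun x => e' i * Φ i x := by
        funext x
        simp [A, Finset.sum_apply]
      rw [hAe]
      exact memLp_finsetSum' _ fun i _ => (h i).memLp.const_mul (e' i)
    have hAi : Integrable fun x => A x ^ 2 := hAm.integrable_sq
    have hA : ∫ x in xL..xR, A x ^ 2 ≤ 1 := by
      rw [intervalIntegral.integral_of_le hx.le]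
      exact (setIntegral_le_integral hAi
        (Eventually.of_forall fun x => sq_nonneg _)).trans (ap_subunit Φ Φ' h hG e' hw)
    have hB : ∀ x ∈ Icc xL xR, B x ^ 2 ≤ ε ^ 2 + (Fintype.card ι : ℝ) * ((xR - xL) * δ) := by
      intro x hxm
      let E : Option ι → ℝ := fun j => j.elim ε fun i => Φt i x - Φ i x
      have hBE : B x = ∑ j, e j * E j := by
        simp only [B, comp, A, Fintype.sum_option, Ψ, E, Option.elim, e', mul_sub,
          Finset.sum_sub_distrib]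
        ring
      have hcs := Finset.sum_mul_sq_le_sq_mul_sq Finset.univ e E
      rw [he, one_mul, ← hBE] at hcs
      refine hcs.trans ?_
      rw [Fintype.sum_option]
      have h1 : ∀ i, (E (some i)) ^ 2 ≤ (xR - xL) * δ := fun i =>
        ap_err_bound (h i) (mg i) (cg i) (hd i) hxm
      have h2 : ∑ i, (E (some i)) ^ 2 ≤ ∑ _i : ι, ((xR - xL) * δ) :=
        Finset.sum_le_sum fun i _ => h1 i
      rw [Finset.sum_const, Finset.card_univ, nsmul_eq_mul] at h2
      have h3 : E none = ε := rfl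
      rw [h3]
      linarith
    have hθ2 : 0 < θ / 2 := by positivity
    have hpoint : ∀ x, comp e Ψ x ^ 2 ≤ (1 + θ / 2) * A x ^ 2 + (1 + 2 / θ) * B x ^ 2 := by
      intro x
      have h1 : comp e Ψ x = A x + B x := by
        simp only [B]
        ring
      rw [h1]
      have h2 : 2 * A x * B x ≤ θ / 2 * A x ^ 2 + 2 / θ * B x ^ 2 := by
        have h3 : θ / 2 * A x ^ 2 + 2 / θ * B x ^ 2 - 2 * A x * B x =
            2 / θ * (θ / 2 * A x - B x) ^ 2 := by
          field_simp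
          ring
        have h4 : 0 ≤ 2 / θ * (θ / 2 * A x - B x) ^ 2 := by positivity
        linarith
      nlinarith
    have hBint : ∫ x in xL..xR, B x ^ 2 ≤
        (xR - xL) * (ε ^ 2 + (Fintype.card ι : ℝ) * ((xR - xL) * δ)) := by
      have h1 : ∫ x in xL..xR, B x ^ 2 ≤
          ∫ _x in xL..xR, (ε ^ 2 + (Fintype.card ι : ℝ) * ((xR - xL) * δ)) :=
        intervalIntegral.integral_mono_on hx.le ((cB.fun_pow 2).intervalIntegrable _ _)
          intervalIntegrable_const hB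
      rw [intervalIntegral.integral_const, smul_eq_mul] at h1
      exact h1
    have hsum : ∫ x in xL..xR, comp e Ψ x ^ 2 ≤
        (1 + θ / 2) * (∫ x in xL..xR, A x ^ 2) + (1 + 2 / θ) * ∫ x in xL..xR, B x ^ 2 := by
      have c1 : Continuous fun x => (1 + θ / 2) * A x ^ 2 := continuous_const.mul (cA.fun_pow 2)
      have c2 : Continuous fun x => (1 + 2 / θ) * B x ^ 2 := continuous_const.mul (cB.fun_pow 2)
      have c3 : Continuous fun x => comp e Ψ x ^ 2 := cC.fun_pow 2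
      have e2 : ∫ x in xL..xR, ((1 + θ / 2) * A x ^ 2 + (1 + 2 / θ) * B x ^ 2) =
          (1 + θ / 2) * (∫ x in xL..xR, A x ^ 2) + (1 + 2 / θ) * ∫ x in xL..xR, B x ^ 2 := by
        rw [intervalIntegral.integral_add (c1.intervalIntegrable _ _) (c2.intervalIntegrable _ _),
          intervalIntegral.integral_const_mul, intervalIntegral.integral_const_mul]
      rw [← e2]
      exact intervalIntegral.integral_mono_on hx.le (c3.intervalIntegrable _ _)
        ((c1.intervalIntegrable _ _).add (c2.intervalIntegrable _ _))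
        (fun x _ => hpoint x)
    have h1p : 0 ≤ 1 + θ / 2 := by positivity
    have h2p : 0 ≤ 1 + 2 / θ := by positivity
    calc ∫ x in xL..xR, comp e Ψ x ^ 2
        ≤ (1 + θ / 2) * (∫ x in xL..xR, A x ^ 2) + (1 + 2 / θ) * ∫ x in xL..xR, B x ^ 2 := hsum
      _ ≤ (1 + θ / 2) * 1 + (1 + 2 / θ) *
            ((xR - xL) * (ε ^ 2 + (Fintype.card ι : ℝ) * ((xR - xL) * δ))) :=
          add_le_add (mul_le_mul_of_nonneg_left hA h1p) (mul_le_mul_of_nonneg_left hBint h2p)
      _ ≤ 1 + θ := by linarith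
  have hmain := core D (Ψ := Ψ) (Ψ' := Ψ') hd' hc' hρ hx hGram hb hη hbη
  simp only [hrho, hdens] at hmain
  exact hmain

/-- Passing from `C¹` to `H¹` on a compact interval.

Proof. Fix `δ, ε > 0` small. By density of continuous compactly supported functions in `L²`
(`MemLp.exists_hasCompactSupport_eLpNorm_sub_le`) pick continuous `h i` with `‖h i - Φ' i‖₂ ≤ δ`.
Put `Φ̃ i x = Φ i xL + ∫_{xL}^x h i`: it is `C¹` on all of `ℝ` and on `[xL, xR]`,
`|Φ̃ i - Φ i| ≤ √(xR - xL) δ` by Cauchy-Schwarz and `primitive`. Apply `core` to the family indexed by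
`Option ι`: `Ψ x none = ε` (constant, derivative `0`), `Ψ x (some i) = Φ̃ i x`, so that `rho Ψ ≥ ε² > 0`.
The Gram bound `G = 1 + θ` holds for `δ, ε` small, uniformly in the unit vector `e`:
`(∑ e_i Ψ_i)² ≤ (1 + s) (∑ e_i Φ_i)² + (1 + 1 / s) (error)²`, and `∫_{xL}^{xR} (∑ e_i Φ_i)² ≤ ∫_ℝ ... ≤ 1`.
Since `rho Ψ ≥ ∑ Φ̃_i²` on the left side, and `∫ (h i)² ≤ (1 + s) ∫ (Φ' i)² + (1 + 1 / s) δ²`, let
`δ, ε, s → 0`. -/
theorem dual_interval (D : CalData) (Φ Φ' : ι → ℝ → ℝ) (h : ∀ i, RH1 (Φ i) (Φ' i))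
    (hG : ∀ e : ι → ℝ, ∑ i, e i ^ 2 = 1 → ∫ x, (∑ i, e i * Φ i x) ^ 2 ≤ 1)
    {xL xR : ℝ} (hx : xL < xR) {b η θ : ℝ} (hb : 0 < b) (hη : 0 < η) (hθ : 0 < θ)
    (hbη : b * (1 + θ) + 2 * D.K₁ * η < 2 * D.Cstart) :
    b ^ 2 / 4 * ∫ x in xL..xR, (∑ i, Φ i x ^ 2) ^ 3 ≤
      (∫ x in xL..xR, ∑ i, Φ' i x ^ 2) +
        b / (4 * η) * ((∑ i, Φ i xL ^ 2) ^ 2 + (∑ i, Φ i xR ^ 2) ^ 2) := by
  classical
  -- the parameters
  let δ : ℕ → ℝ := fun n => 1 / ((n : ℝ) + 1)
  have hδpos : ∀ n, 0 < δ n := fun n => by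
    simp only [δ]
    positivity
  have hδle : ∀ n, δ n ≤ 1 := fun n => by
    simp only [δ]
    rw [div_le_one (by positivity)]
    have : (0 : ℝ) ≤ n := Nat.cast_nonneg n
    linarith
  have hδlim : Tendsto δ atTop (𝓝 0) := tendsto_one_div_add_atTop_nhds_zero_nat
  have hsqrtlim : Tendsto (fun n => √(δ n)) atTop (𝓝 0) := by
    have := (Real.continuous_sqrt.tendsto 0).comp hδlim
    rw [Real.sqrt_zero] at this
    exact this
  choose g cg mg hgδ using fun (n : ℕ) (i : ι) => ap_exists_cont_approx (h i).memLp_deriv (hδpos n)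
  have hL : 0 < xR - xL := sub_pos.2 hx
  have hLR := hx.le
  have hgi : ∀ n i, Integrable fun x => (g n i x - Φ' i x) ^ 2 := fun n i =>
    ((mg n i).sub (h i).memLp_deriv).integrable_sq
  have hd : ∀ n i, ∫ x in xL..xR, (g n i x - Φ' i x) ^ 2 ≤ δ n := by
    intro n i
    rw [intervalIntegral.integral_of_le hLR]
    exact (setIntegral_le_integral (hgi n i)
      (Eventually.of_forall fun x => sq_nonneg _)).trans (hgδ n i)
  have cΦ : ∀ i, Continuous (Φ i) := fun i => ap_rh1_continuous (h i)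
  -- the smallness condition holds eventually
  set N : ℝ := (Fintype.card ι : ℝ) with hN
  have hN0 : 0 ≤ N := Nat.cast_nonneg _
  have hsmall : ∀ᶠ n in atTop, (1 + θ / 2) + (1 + 2 / θ) *
      ((xR - xL) * (δ n ^ 2 + N * ((xR - xL) * δ n))) ≤ 1 + θ := by
    have hlim : Tendsto (fun n => (1 + θ / 2) + (1 + 2 / θ) *
        ((xR - xL) * (δ n ^ 2 + N * ((xR - xL) * δ n)))) atTop
        (𝓝 ((1 + θ / 2) + (1 + 2 / θ) * ((xR - xL) * ((0 : ℝ) ^ 2 + N * ((xR - xL) * 0))))) :=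
      tendsto_const_nhds.add (tendsto_const_nhds.mul (tendsto_const_nhds.mul
        ((hδlim.pow 2).add (tendsto_const_nhds.mul (tendsto_const_nhds.mul hδlim)))))
    have hv : (1 + θ / 2) + (1 + 2 / θ) * ((xR - xL) * ((0 : ℝ) ^ 2 + N * ((xR - xL) * 0))) =
        1 + θ / 2 := by
      simp
    rw [hv] at hlim
    have hlt : 1 + θ / 2 < 1 + θ := by linarith
    exact (hlim.eventually (gt_mem_nhds hlt)).mono fun n hn => hn.le
  -- the approximants
  let Φt : ℕ → ι → ℝ → ℝ := fun n i x => Φ i xL + ∫ t in xL..x, g n i t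
  have cΦt : ∀ n i, Continuous (Φt n i) := fun n i =>
    continuous_const.add (intervalIntegral.continuous_primitive
      (fun a b => (cg n i).intervalIntegrable a b) xL)
  have herr : ∀ n i, ∀ x ∈ Icc xL xR, (Φt n i x - Φ i x) ^ 2 ≤ (xR - xL) * δ n := fun n i x hx' =>
    ap_err_bound (h i) (mg n i) (cg n i) (hd n i) hx'
  have hconv : ∀ i, ∀ x ∈ Icc xL xR, Tendsto (fun n => Φt n i x) atTop (𝓝 (Φ i x)) := by
    intro i x hx'
    have h1 : Tendsto (fun n => (xR - xL) * δ n) atTop (𝓝 0) := by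
      simpa using hδlim.const_mul (xR - xL)
    have h2 : Tendsto (fun n => (Φt n i x - Φ i x) ^ 2) atTop (𝓝 0) :=
      squeeze_zero (fun n => sq_nonneg _) (fun n => herr n i x hx') h1
    have h3 : Tendsto (fun n => √((Φt n i x - Φ i x) ^ 2)) atTop (𝓝 0) := by
      have := (Real.continuous_sqrt.tendsto 0).comp h2
      rw [Real.sqrt_zero] at this
      exact this
    have h4 : Tendsto (fun n => |Φt n i x - Φ i x|) atTop (𝓝 0) := by
      simpa only [Real.sqrt_sq_eq_abs] using h3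
    have h5 : Tendsto (fun n => Φt n i x - Φ i x) atTop (𝓝 0) :=
      (tendsto_zero_iff_abs_tendsto_zero _).2 h4
    have h6 := h5.add_const (Φ i x)
    simpa using h6
  -- the step inequality
  have hstep : ∀ᶠ n in atTop,
      b ^ 2 / 4 * ∫ x in xL..xR, (δ n ^ 2 + ∑ i, Φt n i x ^ 2) ^ 3 ≤
        (∫ x in xL..xR, ∑ i, g n i x ^ 2) + b / (4 * η) *
          ((δ n ^ 2 + ∑ i, Φt n i xL ^ 2) ^ 2 + (δ n ^ 2 + ∑ i, Φt n i xR ^ 2) ^ 2) :=
    hsmall.mono fun n hn =>
      ap_step D Φ Φ' (g n) h hG hx hb hη hθ hbη (cg n) (mg n) (hδpos n) (hd n) hn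
  -- upper bound for the kinetic part
  set F : ℝ := ∫ x in xL..xR, ∑ i, Φ' i x ^ 2 with hF
  have hΦ'i : ∀ i, IntervalIntegrable (fun x => Φ' i x ^ 2) volume xL xR := fun i =>
    (h i).memLp_deriv.integrable_sq.intervalIntegrable
  have hkin : ∀ n, (∫ x in xL..xR, ∑ i, g n i x ^ 2) ≤
      (1 + √(δ n)) * F + N * (δ n + √(δ n)) := by
    intro n
    have hs : 0 < √(δ n) := Real.sqrt_pos.2 (hδpos n)
    have hss : √(δ n) ^ 2 = δ n := Real.sq_sqrt (hδpos n).le
    have hone : ∀ i, ∫ x in xL..xR, g n i x ^ 2 ≤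
        (1 + √(δ n)) * (∫ x in xL..xR, Φ' i x ^ 2) + (δ n + √(δ n)) := by
      intro i
      have h1 : ∀ x, g n i x ^ 2 ≤ (1 + √(δ n)) * Φ' i x ^ 2 +
          (1 + 1 / √(δ n)) * (g n i x - Φ' i x) ^ 2 := by
        intro x
        have h2 : (1 + √(δ n)) * Φ' i x ^ 2 + (1 + 1 / √(δ n)) * (g n i x - Φ' i x) ^ 2 - g n i x ^ 2
            = 1 / √(δ n) * (√(δ n) * Φ' i x - (g n i x - Φ' i x)) ^ 2 := by
          field_simp
          ring
        have h3 : 0 ≤ 1 / √(δ n) * (√(δ n) * Φ' i x - (g n i x - Φ' i x)) ^ 2 := by positivity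
        linarith
      have i1 : IntervalIntegrable (fun x => (1 + √(δ n)) * Φ' i x ^ 2) volume xL xR :=
        (hΦ'i i).const_mul _
      have i2 : IntervalIntegrable (fun x => (1 + 1 / √(δ n)) * (g n i x - Φ' i x) ^ 2)
          volume xL xR := (hgi n i).intervalIntegrable.const_mul _
      have h4 : ∫ x in xL..xR, g n i x ^ 2 ≤ ∫ x in xL..xR, ((1 + √(δ n)) * Φ' i x ^ 2 +
          (1 + 1 / √(δ n)) * (g n i x - Φ' i x) ^ 2) :=
        intervalIntegral.integral_mono_on hLR (((cg n i).fun_pow 2).intervalIntegrable _ _)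
          (i1.add i2) fun x _ => h1 x
      rw [intervalIntegral.integral_add i1 i2, intervalIntegral.integral_const_mul,
        intervalIntegral.integral_const_mul] at h4
      have h5 : (1 + 1 / √(δ n)) * (∫ x in xL..xR, (g n i x - Φ' i x) ^ 2) ≤ δ n + √(δ n) := by
        have h6 : (1 + 1 / √(δ n)) * (∫ x in xL..xR, (g n i x - Φ' i x) ^ 2) ≤
            (1 + 1 / √(δ n)) * δ n :=
          mul_le_mul_of_nonneg_left (hd n i) (by positivity)
        have h7 : (1 + 1 / √(δ n)) * δ n = δ n + √(δ n) := ap_aux hs hss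
        linarith
      linarith
    have e1 : ∫ x in xL..xR, ∑ i, g n i x ^ 2 = ∑ i, ∫ x in xL..xR, g n i x ^ 2 :=
      intervalIntegral.integral_finsetSum fun i _ =>
        ((cg n i).fun_pow 2).intervalIntegrable _ _
    have e2 : F = ∑ i, ∫ x in xL..xR, Φ' i x ^ 2 :=
      intervalIntegral.integral_finsetSum fun i _ => hΦ'i i
    rw [e1, e2, Finset.mul_sum]
    have h8 := Finset.sum_le_sum (s := Finset.univ) fun i (_ : i ∈ Finset.univ) => hone i
    rw [Finset.sum_add_distrib, Finset.sum_const, Finset.card_univ, nsmul_eq_mul] at h8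
    exact h8
  -- the limits
  have hFlim : Tendsto (fun n => (1 + √(δ n)) * F + N * (δ n + √(δ n))) atTop
      (𝓝 ((1 + 0) * F + N * (0 + 0))) :=
    ((tendsto_const_nhds.add hsqrtlim).mul tendsto_const_nhds).add
      (tendsto_const_nhds.mul (hδlim.add hsqrtlim))
  have hsumlim : ∀ x ∈ Icc xL xR, Tendsto (fun n => δ n ^ 2 + ∑ i, Φt n i x ^ 2) atTop
      (𝓝 (∑ i, Φ i x ^ 2)) := by
    intro x hx'
    have h1 : Tendsto (fun n => δ n ^ 2 + ∑ i, Φt n i x ^ 2) atTop
        (𝓝 ((0 : ℝ) ^ 2 + ∑ i, Φ i x ^ 2)) :=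
      (hδlim.pow 2).add (tendsto_finsetSum _ fun i _ => (hconv i x hx').pow 2)
    simpa using h1
  have hxLm : xL ∈ Icc xL xR := left_mem_Icc.2 hLR
  have hxRm : xR ∈ Icc xL xR := right_mem_Icc.2 hLR
  have hRlim : Tendsto (fun n => (1 + √(δ n)) * F + N * (δ n + √(δ n)) + b / (4 * η) *
      ((δ n ^ 2 + ∑ i, Φt n i xL ^ 2) ^ 2 + (δ n ^ 2 + ∑ i, Φt n i xR ^ 2) ^ 2)) atTop
      (𝓝 (F + b / (4 * η) * ((∑ i, Φ i xL ^ 2) ^ 2 + (∑ i, Φ i xR ^ 2) ^ 2))) := by
    have h1 := hFlim.add (tendsto_const_nhds (x := b / (4 * η)) |>.mul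
      (((hsumlim xL hxLm).pow 2).add ((hsumlim xR hxRm).pow 2)))
    simpa using h1
  -- dominated convergence for the cubic term
  obtain ⟨C, hC⟩ : ∃ C, ∀ x ∈ Icc xL xR, ∑ i, Φ i x ^ 2 ≤ C := by
    have c1 : Continuous fun x => ∑ i, Φ i x ^ 2 :=
      continuous_finsetSum _ fun i _ => (cΦ i).fun_pow 2
    obtain ⟨C, hC⟩ := (isCompact_Icc (a := xL) (b := xR)).bddAbove_image c1.continuousOn
    exact ⟨C, fun x hx' => hC ⟨x, hx', rfl⟩⟩
  have hKbound : ∀ n, ∀ x ∈ Icc xL xR,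
      δ n ^ 2 + ∑ i, Φt n i x ^ 2 ≤ 1 + 2 * C + 2 * N * (xR - xL) := by
    intro n x hx'
    have h1 : ∀ i, Φt n i x ^ 2 ≤ 2 * Φ i x ^ 2 + 2 * ((xR - xL) * δ n) := by
      intro i
      have h2 := herr n i x hx'
      nlinarith [sq_nonneg (Φt n i x - 2 * Φ i x)]
    have h3 : ∑ i, Φt n i x ^ 2 ≤ ∑ i, (2 * Φ i x ^ 2 + 2 * ((xR - xL) * δ n)) :=
      Finset.sum_le_sum fun i _ => h1 i
    rw [Finset.sum_add_distrib, ← Finset.mul_sum, Finset.sum_const, Finset.card_univ,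
      nsmul_eq_mul] at h3
    have h4 := hC x hx'
    have h5 : δ n ^ 2 ≤ 1 := by
      have := hδle n
      have := hδpos n
      nlinarith
    have h6 : (Fintype.card ι : ℝ) * (2 * ((xR - xL) * δ n)) ≤ 2 * N * (xR - xL) := by
      have h7 : N * (xR - xL) * δ n ≤ N * (xR - xL) * 1 :=
        mul_le_mul_of_nonneg_left (hδle n) (by positivity)
      rw [← hN]
      nlinarith
    linarith
  have hLlim : Tendsto (fun n => b ^ 2 / 4 * ∫ x in xL..xR, (δ n ^ 2 + ∑ i, Φt n i x ^ 2) ^ 3) atTop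
      (𝓝 (b ^ 2 / 4 * ∫ x in xL..xR, (∑ i, Φ i x ^ 2) ^ 3)) := by
    refine Tendsto.const_mul _ ?_
    have hKnn : 0 ≤ 1 + 2 * C + 2 * N * (xR - xL) := by
      have := hKbound 0 xL hxLm
      have h2 : 0 ≤ δ 0 ^ 2 + ∑ i, Φt 0 i xL ^ 2 := by positivity
      linarith
    refine intervalIntegral.tendsto_integral_filter_of_dominated_convergence
      (fun _ => (1 + 2 * C + 2 * N * (xR - xL)) ^ 3) ?_ ?_ intervalIntegrable_const ?_
    · refine Eventually.of_forall fun n => Continuous.aestronglyMeasurable ?_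
      exact (continuous_const.add (continuous_finsetSum _ fun i _ => (cΦt n i).fun_pow 2)).fun_pow 3
    · refine Eventually.of_forall fun n => Eventually.of_forall fun x hx' => ?_
      rw [uIoc_of_le hLR] at hx'
      have hxm : x ∈ Icc xL xR := Ioc_subset_Icc_self hx'
      have h2 : 0 ≤ δ n ^ 2 + ∑ i, Φt n i x ^ 2 := by positivity
      rw [Real.norm_of_nonneg (by positivity)]
      exact pow_le_pow_left₀ h2 (hKbound n x hxm) 3
    · refine Eventually.of_forall fun x hx' => ?_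
      rw [uIoc_of_le hLR] at hx'
      exact (hsumlim x (Ioc_subset_Icc_self hx')).pow 3
  refine le_of_tendsto_of_tendsto hLlim hRlim ?_
  filter_upwards [hstep] with n hn
  refine hn.trans ?_
  have := hkin n
  linarith

end Vale.Agent.Lib.P371.Cal
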