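import Vale.Agent.Lib.P371.CalDefs

open Set MeasureTheory Real

namespace Vale.Agent.Lib.P371.Cal

private theorem contOn_F (D : CalData) {s : Set ℝ} {a b c : ℝ → ℝ}
    (ha : ContinuousOn a s) (hb : ContinuousOn b s) (hc : ContinuousOn c s) :
    ContinuousOn (fun x => D.F (a x) (b x) (c x)) s := by
  have h : ContinuousOn (fun x => ((a x, b x, c x) : ℝ × ℝ × ℝ)) s :=
    ha.prodMk (hb.prodMk hc)
  exact D.contF.comp_continuousOn h

private theorem weight_integrable {b : ℝ} {ρ y : ℝ → ℝ} {x0 x1 : ℝ}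
    (cρ : ContinuousOn ρ (Icc x0 x1)) (cy : ContinuousOn y (Icc x0 x1)) :
    IntegrableOn (fun x => b * (ρ x * (1 - y x ^ 2))) (Icc x0 x1) := by
  have h : ContinuousOn (fun x => b * (ρ x * (1 - y x ^ 2))) (Icc x0 x1) := by
    apply ContinuousOn.mul continuousOn_const
    exact cρ.mul (continuousOn_const.sub (cy.pow 2))
  exact h.integrableOn_compact isCompact_Icc

private theorem integral_weight (b : ℝ) (ρ y : ℝ → ℝ) (x0 x1 : ℝ) :
    ∫ x in x0..x1, b * (ρ x * (1 - y x ^ 2)) = b * ∫ x in x0..x1, ρ x * (1 - y x ^ 2) :=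
  intervalIntegral.integral_const_mul _ _

/-- Forward arc: the calibration drops by at most the weighted cost. -/
theorem arc_forward (D : CalData) {b : ℝ} (ρ κ y y' g p : ℝ → ℝ) {x0 x1 : ℝ} (h01 : x0 ≤ x1)
    (cρ : ContinuousOn ρ (Icc x0 x1)) (hρ : ∀ x ∈ Icc x0 x1, 0 < ρ x) (hb : 0 < b)
    (cg : ContinuousOn g (Icc x0 x1)) (cp : ContinuousOn p (Icc x0 x1))
    (cy : ContinuousOn y (Icc x0 x1))
    (dg : ∀ x ∈ Ioo x0 x1, HasDerivAt g (b * ρ x * p x) x)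
    (dp : ∀ x ∈ Ioo x0 x1, HasDerivAt p (b * ρ x * ((κ x ^ 2 - 1) * g x)) x)
    (dy : ∀ x ∈ Ioo x0 x1, HasDerivAt y (y' x) x)
    (hy : ∀ x ∈ Icc x0 x1, 0 ≤ y x ∧ y x ≤ 1) (hg0 : ∀ x ∈ Icc x0 x1, 0 ≤ g x)
    (hE : ∀ x ∈ Icc x0 x1, g x ^ 2 + p x ^ 2 ≤ 1) (hκ : ∀ x ∈ Ioo x0 x1, 0 ≤ κ x)
    (hy' : ∀ x ∈ Ioo x0 x1, |y' x| ≤ b * ρ x * (√(1 - y x ^ 2) * κ x / 2)) :
    D.F (y x0) (g x0) (p x0) - D.F (y x1) (g x1) (p x1) ≤ b * ∫ x in x0..x1, ρ x * (1 - y x ^ 2) := by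
  have hW : ContinuousOn (fun x => - D.F (y x) (g x) (p x)) (Icc x0 x1) :=
    (contOn_F D cy cg cp).neg
  have key := intervalIntegral.sub_le_integral_of_hasDeriv_right_of_le
    (g := fun x => - D.F (y x) (g x) (p x))
    (g' := fun x => -(D.Fy (y x) (g x) (p x) * y' x + D.Fg (y x) (g x) (p x) * (b * ρ x * p x)
      + D.Fp (y x) (g x) (p x) * (b * ρ x * ((κ x ^ 2 - 1) * g x))))
    (φ := fun x => b * (ρ x * (1 - y x ^ 2))) h01 hW ?_ (weight_integrable cρ cy) ?_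
  · rw [integral_weight] at key
    linarith
  · intro x hx
    exact ((D.chain y g p _ _ _ x (dy x hx) (dg x hx) (dp x hx)).neg).hasDerivWithinAt
  · intro x hx
    have hxI : x ∈ Icc x0 x1 := Ioo_subset_Icc_self hx
    have hρx := hρ x hxI
    have hbρ : 0 < b * ρ x := mul_pos hb hρx
    have hz : |y' x / (b * ρ x)| ≤ √(1 - y x ^ 2) * κ x / 2 := by
      rw [abs_div, abs_of_pos hbρ, div_le_iff₀ hbρ]
      have := hy' x hx
      linarith
    have hs := D.star (y x) (g x) (p x) (κ x) (y' x / (b * ρ x)) (hy x hxI).1 (hy x hxI).2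
      (hg0 x hxI) (hE x hxI) (hκ x hx) hz
    have hm := mul_nonneg hbρ.le hs
    have e1 : D.Fy (y x) (g x) (p x) * (y' x / (b * ρ x)) * (b * ρ x)
        = D.Fy (y x) (g x) (p x) * y' x := by
      field_simp
    nlinarith [e1]

/-- Backward arc: with `p` replaced by `-p` the calibration rises by at most the weighted cost. -/
theorem arc_backward (D : CalData) {b : ℝ} (ρ κ y y' g p : ℝ → ℝ) {x0 x1 : ℝ} (h01 : x0 ≤ x1)
    (cρ : ContinuousOn ρ (Icc x0 x1)) (hρ : ∀ x ∈ Icc x0 x1, 0 < ρ x) (hb : 0 < b)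
    (cg : ContinuousOn g (Icc x0 x1)) (cp : ContinuousOn p (Icc x0 x1))
    (cy : ContinuousOn y (Icc x0 x1))
    (dg : ∀ x ∈ Ioo x0 x1, HasDerivAt g (b * ρ x * p x) x)
    (dp : ∀ x ∈ Ioo x0 x1, HasDerivAt p (b * ρ x * ((κ x ^ 2 - 1) * g x)) x)
    (dy : ∀ x ∈ Ioo x0 x1, HasDerivAt y (y' x) x)
    (hy : ∀ x ∈ Icc x0 x1, 0 ≤ y x ∧ y x ≤ 1) (hg0 : ∀ x ∈ Icc x0 x1, 0 ≤ g x)
    (hE : ∀ x ∈ Icc x0 x1, g x ^ 2 + p x ^ 2 ≤ 1) (hκ : ∀ x ∈ Ioo x0 x1, 0 ≤ κ x)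
    (hy' : ∀ x ∈ Ioo x0 x1, |y' x| ≤ b * ρ x * (√(1 - y x ^ 2) * κ x / 2)) :
    D.F (y x1) (g x1) (-p x1) - D.F (y x0) (g x0) (-p x0) ≤ b * ∫ x in x0..x1, ρ x * (1 - y x ^ 2) := by
  have hW : ContinuousOn (fun x => D.F (y x) (g x) (-p x)) (Icc x0 x1) :=
    contOn_F D cy cg cp.neg
  have key := intervalIntegral.sub_le_integral_of_hasDeriv_right_of_le
    (g := fun x => D.F (y x) (g x) (-p x))
    (g' := fun x => D.Fy (y x) (g x) (-p x) * y' x + D.Fg (y x) (g x) (-p x) * (b * ρ x * p x)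
      + D.Fp (y x) (g x) (-p x) * (-(b * ρ x * ((κ x ^ 2 - 1) * g x))))
    (φ := fun x => b * (ρ x * (1 - y x ^ 2))) h01 hW ?_ (weight_integrable cρ cy) ?_
  · rw [integral_weight] at key
    simpa using key
  · intro x hx
    exact (D.chain y g (fun t => -p t) _ _ _ x (dy x hx) (dg x hx) (dp x hx).neg).hasDerivWithinAt
  · intro x hx
    have hxI : x ∈ Icc x0 x1 := Ioo_subset_Icc_self hx
    have hρx := hρ x hxI
    have hbρ : 0 < b * ρ x := mul_pos hb hρx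
    have hz : |-(y' x) / (b * ρ x)| ≤ √(1 - y x ^ 2) * κ x / 2 := by
      rw [abs_div, abs_neg, abs_of_pos hbρ, div_le_iff₀ hbρ]
      have := hy' x hx
      linarith
    have hEx : g x ^ 2 + (-p x) ^ 2 ≤ 1 := by
      have := hE x hxI
      nlinarith
    have hs := D.star (y x) (g x) (-p x) (κ x) (-(y' x) / (b * ρ x)) (hy x hxI).1 (hy x hxI).2
      (hg0 x hxI) hEx (hκ x hx) hz
    have hm := mul_nonneg hbρ.le hs
    have e1 : D.Fy (y x) (g x) (-p x) * (-(y' x) / (b * ρ x)) * (b * ρ x)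
        = -(D.Fy (y x) (g x) (-p x) * y' x) := by
      field_simp
    nlinarith [e1]

end Vale.Agent.Lib.P371.Cal
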