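import Vale.Agent.Lib.P371.CalDefs

/-!
Kernel-checkable positivity certificates for polynomials in three variables on the unit cube:
dense coefficient tensors (`List (List (List ℤ))`), a ring structure on them with a verified
evaluation, homogeneous Bernstein forms with midpoint subdivision, and a reflective checker driven
by a split tree.  The polar substitution of the half disc and the instance of `CalData` are in
`CalBPoly`.
-/

namespace Vale.Agent.Lib.P371.CalB

variable {α : Type}

/-! ### Lists as polynomials in power form -/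

/-- Padded pointwise addition. -/
def addL (add : α → α → α) : List α → List α → List α
  | [], m => m
  | a :: l, m =>
    match m with
    | [] => a :: l
    | b :: m' => add a b :: addL add l m'

/-- Product of coefficient lists. -/
def mulL (add mul : α → α → α) (zero : α) : List α → List α → List α
  | [], _ => []
  | a :: l, m => addL add (m.map (mul a)) (zero :: mulL add mul zero l m)

/-- Evaluation in power form. -/
noncomputable def evP (ev : α → ℝ) (x : ℝ) : List α → ℝ
  | [] => 0
  | a :: l => ev a + x * evP ev x l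

theorem evP_addL {add : α → α → α} {ev : α → ℝ} (x : ℝ)
    (hadd : ∀ a b, ev (add a b) = ev a + ev b) (l m : List α) :
    evP ev x (addL add l m) = evP ev x l + evP ev x m := by
  induction l generalizing m with
  | nil => simp [addL, evP]
  | cons a l ih =>
    cases m with
    | nil => simp [addL, evP]
    | cons b m =>
      simp only [addL, evP, hadd, ih]
      ring

theorem evP_map_mul {mul : α → α → α} {ev : α → ℝ} (x : ℝ)
    (hmul : ∀ a b, ev (mul a b) = ev a * ev b) (a : α) (m : List α) :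
    evP ev x (m.map (mul a)) = ev a * evP ev x m := by
  induction m with
  | nil => simp [evP]
  | cons b m ih =>
    simp only [List.map_cons, evP, hmul, ih]
    ring

theorem evP_mulL {add mul : α → α → α} {zero : α} {ev : α → ℝ} (x : ℝ)
    (hadd : ∀ a b, ev (add a b) = ev a + ev b)
    (hmul : ∀ a b, ev (mul a b) = ev a * ev b) (hzero : ev zero = 0) (l m : List α) :
    evP ev x (mulL add mul zero l m) = evP ev x l * evP ev x m := by
  induction l with
  | nil => simp [mulL, evP]
  | cons a l ih =>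
    simp only [mulL, evP_addL x hadd, evP_map_mul x hmul, evP, hzero, ih]
    ring

/-! ### Homogeneous forms -/

/-- The form `∑ a_i u^(n-i) v^i`. -/
noncomputable def evH (ev : α → ℝ) (u v : ℝ) : ℕ → List α → ℝ
  | _, [] => 0
  | n, a :: l => ev a * u ^ n + v * evH ev u v (n - 1) l

theorem evH_addL {add : α → α → α} {ev : α → ℝ} (u v : ℝ)
    (hadd : ∀ a b, ev (add a b) = ev a + ev b) (n : ℕ) (l m : List α) :
    evH ev u v n (addL add l m) = evH ev u v n l + evH ev u v n m := by
  induction l generalizing m n with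
  | nil => simp [addL, evH]
  | cons a l ih =>
    cases m with
    | nil => simp [addL, evH]
    | cons b m =>
      simp only [addL, evH, hadd, ih]
      ring

/-- Multiplication by `u + κ v` with a carry. -/
def mulW (add : α → α → α) (kap : α → α) : α → List α → List α
  | c, [] => [c]
  | c, x :: l => add x c :: mulW add kap (kap x) l

/-- The substitution `v ↦ u + κ v`. -/
def shift (add : α → α → α) (kap : α → α) : List α → List α
  | [] => []
  | a :: l => mulW add kap a (shift add kap l)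

theorem length_mulW (add : α → α → α) (kap : α → α) (c : α) (l : List α) :
    (mulW add kap c l).length = l.length + 1 := by
  induction l generalizing c with
  | nil => simp [mulW]
  | cons x l ih => simp [mulW, ih]

theorem length_shift (add : α → α → α) (kap : α → α) (l : List α) :
    (shift add kap l).length = l.length := by
  induction l with
  | nil => simp [shift]
  | cons a l ih => simp [shift, length_mulW, ih]

theorem evH_mulW {add : α → α → α} {kap : α → α} {ev : α → ℝ} {κ : ℝ} (u v : ℝ)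
    (hadd : ∀ a b, ev (add a b) = ev a + ev b) (hkap : ∀ a, ev (kap a) = κ * ev a)
    (d : List α) (c : α) (m : ℕ) (hm : d.length = m) :
    evH ev u v m (mulW add kap c d) = (u + κ * v) * evH ev u v (m - 1) d + ev c * u ^ m := by
  induction d generalizing c m with
  | nil =>
    subst hm
    simp [mulW, evH]
  | cons x l ih =>
    cases m with
    | zero => simp at hm
    | succ k =>
      have hl : l.length = k := by simpa using hm
      simp only [mulW, evH, hadd, Nat.add_sub_cancel]
      rw [ih (kap x) k hl, hkap]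
      ring

theorem evH_shift {add : α → α → α} {kap : α → α} {ev : α → ℝ} {κ : ℝ} (u v : ℝ)
    (hadd : ∀ a b, ev (add a b) = ev a + ev b) (hkap : ∀ a, ev (kap a) = κ * ev a)
    (l : List α) (m : ℕ) (hm : l.length = m + 1) :
    evH ev u v m (shift add kap l) = evH ev u (u + κ * v) m l := by
  induction l generalizing m with
  | nil => simp at hm
  | cons a l ih =>
    have hl : l.length = m := by simpa using hm
    cases l with
    | nil =>
      subst hl
      simp [shift, mulW, evH]
    | cons b l' =>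
      cases m with
      | zero => simp at hl
      | succ k =>
        have hk : (b :: l').length = k + 1 := hl
        have hs : (shift add kap (b :: l')).length = k + 1 := by
          rw [length_shift]; exact hk
        simp only [shift] at hs ⊢
        rw [evH_mulW u v hadd hkap _ a (k + 1) hs]
        have := ih k hk
        simp only [shift] at this
        simp only [Nat.add_sub_cancel]
        rw [this]
        simp only [evH, Nat.add_sub_cancel]
        ring

theorem evH_snoc {ev : α → ℝ} (u v : ℝ) (a : α) (l : List α) (m : ℕ) (hm : l.length = m) :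
    evH ev u v m (l ++ [a]) = u * evH ev u v (m - 1) l + ev a * v ^ m := by
  induction l generalizing m with
  | nil =>
    subst hm
    simp [evH]
  | cons b l ih =>
    cases m with
    | zero => simp at hm
    | succ k =>
      have hl : l.length = k := by simpa using hm
      simp only [List.cons_append, evH, Nat.add_sub_cancel]
      rw [ih k hl]
      ring

theorem evH_reverse {ev : α → ℝ} (u v : ℝ) (l : List α) (m : ℕ) (hm : l.length = m) :
    evH ev u v (m - 1) l.reverse = evH ev v u (m - 1) l := by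
  induction l generalizing m with
  | nil => simp [evH]
  | cons a l ih =>
    cases m with
    | zero => simp at hm
    | succ k =>
      have hl : l.length = k := by simpa using hm
      have h1 := ih k hl
      simp only [List.reverse_cons, Nat.add_sub_cancel]
      rw [evH_snoc u v a l.reverse k (by simpa using hl), h1]
      simp only [evH]
      ring

theorem evH_map {β : Type} {ev : α → ℝ} {ev' : β → ℝ} (f : α → β) (u v : ℝ) (n : ℕ) (l : List α)
    (h : ∀ a ∈ l, ev' (f a) = ev a) :
    evH ev' u v n (l.map f) = evH ev u v n l := by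
  induction l generalizing n with
  | nil => simp [evH]
  | cons a l ih =>
    simp only [List.map_cons, evH]
    rw [h a (by simp), ih (n - 1) (fun b hb => h b (by simp [hb]))]

theorem evH_one (ev : α → ℝ) (x : ℝ) (n : ℕ) (l : List α) :
    evH ev 1 x n l = evP ev x l := by
  induction l generalizing n with
  | nil => simp [evH, evP]
  | cons a l ih =>
    simp [evH, evP, ih]

theorem evH_nonneg {ev : α → ℝ} {u v : ℝ} (hu : 0 ≤ u) (hv : 0 ≤ v) (n : ℕ) (l : List α)
    (h : ∀ a ∈ l, 0 ≤ ev a) : 0 ≤ evH ev u v n l := by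
  induction l generalizing n with
  | nil => simp [evH]
  | cons a l ih =>
    simp only [evH]
    have h1 := h a (by simp)
    have h2 := ih (n - 1) (fun b hb => h b (by simp [hb]))
    positivity

/-- Conversion of a power form on `[0,1]` to a homogeneous form in `(x, 1-x)`, for a list of the
right length. -/
theorem evH_conv {add : α → α → α} {ev : α → ℝ} (x : ℝ)
    (hadd : ∀ a b, ev (add a b) = ev a + ev b) (l : List α) (m : ℕ) (hm : l.length = m + 1) :
    evH ev x (1 - x) m (shift add id l.reverse) = evP ev x l := by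
  have h1 := evH_shift (κ := 1) (kap := id) x (1 - x) hadd (fun a => by simp) l.reverse m
    (by simpa using hm)
  have h2 : x + 1 * (1 - x) = 1 := by ring
  rw [h1, h2]
  have h3 := evH_reverse (ev := ev) x 1 l (m + 1) hm
  simp only [Nat.add_sub_cancel] at h3
  rw [h3, evH_one]

/-- Padding with zeros up to length `n + 1`. -/
def pad (z : α) (n : ℕ) (l : List α) : List α :=
  l ++ List.replicate (n + 1 - l.length) z

theorem length_pad (z : α) (n : ℕ) (l : List α) (h : l.length ≤ n + 1) :
    (pad z n l).length = n + 1 := by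
  simp [pad]
  omega

theorem evP_replicate {ev : α → ℝ} (x : ℝ) (z : α) (hz : ev z = 0) (k : ℕ) :
    evP ev x (List.replicate k z) = 0 := by
  induction k with
  | zero => simp [evP]
  | succ k ih => simp [List.replicate_succ, evP, hz, ih]

theorem evP_append {ev : α → ℝ} (x : ℝ) (l m : List α) (hm : evP ev x m = 0) :
    evP ev x (l ++ m) = evP ev x l := by
  induction l with
  | nil => simpa [evP] using hm
  | cons a l ih => simp [evP, ih]

theorem evP_pad {ev : α → ℝ} (x : ℝ) (z : α) (hz : ev z = 0) (n : ℕ) (l : List α) :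
    evP ev x (pad z n l) = evP ev x l := by
  exact evP_append x l _ (evP_replicate x z hz _)

/-! ### Tensors -/

/-- Lines. -/
abbrev T1 := List ℤ
/-- Slices. -/
abbrev T2 := List T1
/-- Tensors: the outer index is the power of `y`, then `r`, then `x`. -/
abbrev T3 := List T2

/-- Addition of lines. -/
def add1 : T1 → T1 → T1 := addL Int.add
/-- Addition of slices. -/
def add2 : T2 → T2 → T2 := addL add1
/-- Addition of tensors. -/
def add3 : T3 → T3 → T3 := addL add2
/-- Product of lines. -/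
def mul1 : T1 → T1 → T1 := mulL Int.add Int.mul 0
/-- Product of slices. -/
def mul2 : T2 → T2 → T2 := mulL add1 mul1 []
/-- Product of tensors. -/
def mul3 : T3 → T3 → T3 := mulL add2 mul2 []

/-- Evaluation of integers. -/
noncomputable def ev0 : ℤ → ℝ := fun a => (a : ℝ)

theorem ev0_add (a b : ℤ) : ev0 (Int.add a b) = ev0 a + ev0 b := by
  simp [ev0, Int.add_def]

theorem ev0_mul (a b : ℤ) : ev0 (Int.mul a b) = ev0 a * ev0 b := by
  simp [ev0, Int.mul_def]

/-- Evaluation of tensors in power form at `(y, r, x)`. -/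
noncomputable def evT (y r x : ℝ) (c : T3) : ℝ :=
  evP (evP (evP ev0 x) r) y c

theorem evP1_add (x : ℝ) (a b : T1) : evP ev0 x (add1 a b) = evP ev0 x a + evP ev0 x b :=
  evP_addL x ev0_add a b

theorem evP1_mul (x : ℝ) (a b : T1) : evP ev0 x (mul1 a b) = evP ev0 x a * evP ev0 x b :=
  evP_mulL x ev0_add ev0_mul (by simp [ev0]) a b

theorem evP2_add (r x : ℝ) (a b : T2) :
    evP (evP ev0 x) r (add2 a b) = evP (evP ev0 x) r a + evP (evP ev0 x) r b :=
  evP_addL r (evP1_add x) a b

theorem evP2_mul (r x : ℝ) (a b : T2) :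
    evP (evP ev0 x) r (mul2 a b) = evP (evP ev0 x) r a * evP (evP ev0 x) r b :=
  evP_mulL r (evP1_add x) (evP1_mul x) (by simp [evP]) a b

theorem evT_add (y r x : ℝ) (a b : T3) : evT y r x (add3 a b) = evT y r x a + evT y r x b :=
  evP_addL y (evP2_add r x) a b

theorem evT_mul (y r x : ℝ) (a b : T3) : evT y r x (mul3 a b) = evT y r x a * evT y r x b :=
  evP_mulL y (evP2_add r x) (evP2_mul r x) (by simp [evP]) a b

/-- Constant tensors. -/
def constT (c : ℤ) : T3 := [[[c]]]

theorem evT_const (y r x : ℝ) (c : ℤ) : evT y r x (constT c) = c := by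
  simp [evT, constT, evP, ev0]

/-- Powers of a tensor. -/
def powT (t : T3) : ℕ → T3
  | 0 => constT 1
  | n + 1 => mul3 t (powT t n)

theorem evT_pow (y r x : ℝ) (t : T3) (n : ℕ) : evT y r x (powT t n) = evT y r x t ^ n := by
  induction n with
  | zero => simp [powT, evT_const]
  | succ n ih =>
    simp only [powT, evT_mul, ih]
    ring

/-! ### Conversion to the homogeneous form, subdivision and the checker -/

/-- Doubling of lines. -/
def dbl1 (a : T1) : T1 := add1 a a
/-- Doubling of slices. -/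
def dbl2 (a : T2) : T2 := add2 a a
/-- Doubling of integers. -/
def dbl0 (a : ℤ) : ℤ := Int.add a a

/-- Conversion of a line. -/
def conv1 (n₃ : ℕ) (l : T1) : T1 := shift Int.add id (pad 0 n₃ l).reverse
/-- Conversion of a slice. -/
def conv2 (n₂ n₃ : ℕ) (l : T2) : T2 :=
  shift add1 id ((pad [] n₂ l).map (conv1 n₃)).reverse
/-- Conversion of a tensor. -/
def conv3 (n₁ n₂ n₃ : ℕ) (l : T3) : T3 :=
  shift add2 id ((pad [] n₁ l).map (conv2 n₂ n₃)).reverse

/-- Evaluation of a tensor in homogeneous form. -/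
noncomputable def evF (n₁ n₂ n₃ : ℕ) (u₁ v₁ u₂ v₂ u₃ v₃ : ℝ) (c : T3) : ℝ :=
  evH (evH (evH ev0 u₃ v₃ n₃) u₂ v₂ n₂) u₁ v₁ n₁ c

/-- Shapes of power tensors. -/
def shapeP (n₁ n₂ n₃ : ℕ) (c : T3) : Bool :=
  decide (c.length ≤ n₁ + 1) &&
    c.all fun s => decide (s.length ≤ n₂ + 1) && s.all fun l => decide (l.length ≤ n₃ + 1)

theorem evH1_add (n₃ : ℕ) (u₃ v₃ : ℝ) (a b : T1) :
    evH ev0 u₃ v₃ n₃ (add1 a b) = evH ev0 u₃ v₃ n₃ a + evH ev0 u₃ v₃ n₃ b :=
  evH_addL u₃ v₃ ev0_add n₃ a b

theorem evH2_add (n₂ n₃ : ℕ) (u₂ v₂ u₃ v₃ : ℝ) (a b : T2) :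
    evH (evH ev0 u₃ v₃ n₃) u₂ v₂ n₂ (add2 a b) =
      evH (evH ev0 u₃ v₃ n₃) u₂ v₂ n₂ a + evH (evH ev0 u₃ v₃ n₃) u₂ v₂ n₂ b :=
  evH_addL u₂ v₂ (evH1_add n₃ u₃ v₃) n₂ a b

theorem conv1_spec (n₃ : ℕ) (x : ℝ) (l : T1) (h : l.length ≤ n₃ + 1) :
    evH ev0 x (1 - x) n₃ (conv1 n₃ l) = evP ev0 x l := by
  have h1 := evH_conv (add := Int.add) (ev := ev0) x ev0_add (pad 0 n₃ l) n₃ (length_pad 0 n₃ l h)
  unfold conv1
  rw [h1]
  exact evP_pad x 0 (by simp [ev0]) n₃ l

theorem mem_pad {z a : α} {n : ℕ} {l : List α} (h : a ∈ pad z n l) : a ∈ l ∨ a = z := by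
  unfold pad at h
  rcases List.mem_append.1 h with h | h
  · exact Or.inl h
  · exact Or.inr (List.eq_of_mem_replicate h)

theorem conv2_spec (n₂ n₃ : ℕ) (r x : ℝ) (l : T2) (h : l.length ≤ n₂ + 1)
    (hl : ∀ a ∈ l, a.length ≤ n₃ + 1) :
    evH (evH ev0 x (1 - x) n₃) r (1 - r) n₂ (conv2 n₂ n₃ l) = evP (evP ev0 x) r l := by
  have hlen : ((pad [] n₂ l).map (conv1 n₃)).length = n₂ + 1 := by
    simp [length_pad _ _ _ h]
  have h1 := evH_conv (add := add1) (ev := evH ev0 x (1 - x) n₃) r (evH1_add n₃ x (1 - x))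
    ((pad [] n₂ l).map (conv1 n₃)) n₂ hlen
  unfold conv2
  rw [h1]
  have h2 : ∀ (L : T2), (∀ a ∈ L, a.length ≤ n₃ + 1) →
      evP (evH ev0 x (1 - x) n₃) r (L.map (conv1 n₃)) = evP (evP ev0 x) r L := by
    intro L hL
    induction L with
    | nil => simp [evP]
    | cons a L ih =>
      simp only [List.map_cons, evP]
      rw [conv1_spec n₃ x a (hL a (by simp)), ih (fun b hb => hL b (by simp [hb]))]
  rw [h2 _ (fun a ha => by
    rcases mem_pad ha with h' | h'
    · exact hl a h'
    · subst h'; simp)]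
  exact evP_pad r [] (by simp [evP]) n₂ l

theorem conv3_spec (n₁ n₂ n₃ : ℕ) (y r x : ℝ) (c : T3) (h : shapeP n₁ n₂ n₃ c = true) :
    evF n₁ n₂ n₃ y (1 - y) r (1 - r) x (1 - x) (conv3 n₁ n₂ n₃ c) = evT y r x c := by
  simp only [shapeP, Bool.and_eq_true, decide_eq_true_eq, List.all_eq_true] at h
  obtain ⟨h0, hc⟩ := h
  have hlen : ((pad [] n₁ c).map (conv2 n₂ n₃)).length = n₁ + 1 := by
    simp [length_pad _ _ _ h0]
  have h1 := evH_conv (add := add2) (ev := evH (evH ev0 x (1 - x) n₃) r (1 - r) n₂) y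
    (evH2_add n₂ n₃ r (1 - r) x (1 - x)) ((pad [] n₁ c).map (conv2 n₂ n₃)) n₁ hlen
  unfold conv3 evF
  rw [h1]
  have h2 : ∀ (L : T3), (∀ s ∈ L, s.length ≤ n₂ + 1 ∧ ∀ a ∈ s, a.length ≤ n₃ + 1) →
      evP (evH (evH ev0 x (1 - x) n₃) r (1 - r) n₂) y (L.map (conv2 n₂ n₃))
        = evP (evP (evP ev0 x) r) y L := by
    intro L hL
    induction L with
    | nil => simp [evP]
    | cons a L ih =>
      simp only [List.map_cons, evP]
      rw [conv2_spec n₂ n₃ r x a (hL a (by simp)).1 (hL a (by simp)).2,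
        ih (fun b hb => hL b (by simp [hb]))]
  rw [h2 _ (fun a ha => by
    rcases mem_pad ha with h' | h'
    · exact ⟨(hc a h').1, (hc a h').2⟩
    · subst h'; simp)]
  exact evP_pad y [] (by simp [evP]) n₁ c

/-- Left child in the outer variable, for the interval `u ≤ v`. -/
def left1 (c : T3) : T3 := shift add2 dbl2 c
/-- Right child in the outer variable. -/
def right1 (c : T3) : T3 := (shift add2 dbl2 c.reverse).reverse
/-- Left child in the middle variable. -/
def left2 (c : T3) : T3 := c.map (shift add1 dbl1)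
/-- Right child in the middle variable. -/
def right2 (c : T3) : T3 := c.map fun s => (shift add1 dbl1 s.reverse).reverse
/-- Left child in the inner variable. -/
def left3 (c : T3) : T3 := c.map fun s => s.map (shift Int.add dbl0)
/-- Right child in the inner variable. -/
def right3 (c : T3) : T3 := c.map fun s => s.map fun l => (shift Int.add dbl0 l.reverse).reverse

/-- All coefficients nonnegative. -/
def allNN (c : T3) : Bool :=
  c.all fun s => s.all fun l => l.all fun a =>
    match a with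
    | .ofNat _ => true
    | .negSucc _ => false

/-- Split tree. -/
inductive Tree where
  | leaf : Tree
  | n1 : Tree → Tree → Tree
  | n2 : Tree → Tree → Tree
  | n3 : Tree → Tree → Tree

/-- The checker. -/
def check (n₁ n₂ n₃ : ℕ) : Tree → T3 → Bool
  | .leaf, c => allNN c
  | .n1 l r, c =>
    (c.length == n₁ + 1) && check n₁ n₂ n₃ l (left1 c) && check n₁ n₂ n₃ r (right1 c)
  | .n2 l r, c =>
    (c.all fun s => s.length == n₂ + 1) && check n₁ n₂ n₃ l (left2 c) &&
      check n₁ n₂ n₃ r (right2 c)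
  | .n3 l r, c =>
    (c.all fun s => s.all fun a => a.length == n₃ + 1) && check n₁ n₂ n₃ l (left3 c) &&
      check n₁ n₂ n₃ r (right3 c)

theorem allNN_spec (n₁ n₂ n₃ : ℕ) {u₁ v₁ u₂ v₂ u₃ v₃ : ℝ} (h1 : 0 ≤ u₁) (h1' : 0 ≤ v₁)
    (h2 : 0 ≤ u₂) (h2' : 0 ≤ v₂) (h3 : 0 ≤ u₃) (h3' : 0 ≤ v₃) (c : T3) (hc : allNN c = true) :
    0 ≤ evF n₁ n₂ n₃ u₁ v₁ u₂ v₂ u₃ v₃ c := by
  unfold allNN at hc
  simp only [List.all_eq_true] at hc
  refine evH_nonneg h1 h1' _ _ fun s hs => evH_nonneg h2 h2' _ _ fun l hl =>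
    evH_nonneg h3 h3' _ _ fun a ha => ?_
  have := hc s hs l hl a ha
  cases a with
  | ofNat n => simp [ev0]
  | negSucc n => simp at this

theorem evH_left {add : α → α → α} {ev : α → ℝ} (u v : ℝ)
    (hadd : ∀ a b, ev (add a b) = ev a + ev b) (m : ℕ) (l : List α) (hm : l.length = m + 1) :
    evH ev u v m l = evH ev u ((v - u) / 2) m (shift add (fun a => add a a) l) := by
  have := evH_shift (κ := 2) (kap := fun a => add a a) (ev := ev) u ((v - u) / 2) hadd
    (fun a => by rw [hadd]; ring) l m hm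
  rw [this]
  congr 1
  ring

theorem evH_right {add : α → α → α} {ev : α → ℝ} (u v : ℝ)
    (hadd : ∀ a b, ev (add a b) = ev a + ev b) (m : ℕ) (l : List α) (hm : l.length = m + 1) :
    evH ev u v m l
      = evH ev ((u - v) / 2) v m (shift add (fun a => add a a) l.reverse).reverse := by
  have hlen : (shift add (fun a => add a a) l.reverse).length = m + 1 := by
    rw [length_shift, List.length_reverse, hm]
  have h1 := evH_reverse (ev := ev) ((u - v) / 2) v (shift add (fun a => add a a) l.reverse)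
    (m + 1) hlen
  simp only [Nat.add_sub_cancel] at h1
  rw [h1]
  have h2 := evH_shift (κ := 2) (kap := fun a => add a a) (ev := ev) v ((u - v) / 2) hadd
    (fun a => by rw [hadd]; ring) l.reverse m (by simpa using hm)
  rw [h2]
  have h3 := evH_reverse (ev := ev) v u l (m + 1) hm
  simp only [Nat.add_sub_cancel] at h3
  have h4 : v + 2 * ((u - v) / 2) = u := by ring
  rw [h4, h3]

theorem check_spec (n₁ n₂ n₃ : ℕ) (t : Tree) (c : T3) (hc : check n₁ n₂ n₃ t c = true)
    {u₁ v₁ u₂ v₂ u₃ v₃ : ℝ} (h1 : 0 ≤ u₁) (h1' : 0 ≤ v₁)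
    (h2 : 0 ≤ u₂) (h2' : 0 ≤ v₂) (h3 : 0 ≤ u₃) (h3' : 0 ≤ v₃) :
    0 ≤ evF n₁ n₂ n₃ u₁ v₁ u₂ v₂ u₃ v₃ c := by
  induction t generalizing c u₁ v₁ u₂ v₂ u₃ v₃ with
  | leaf => exact allNN_spec n₁ n₂ n₃ h1 h1' h2 h2' h3 h3' c hc
  | n1 l r ihl ihr =>
    simp only [check, Bool.and_eq_true, beq_iff_eq] at hc
    obtain ⟨⟨hs, hl⟩, hr⟩ := hc
    by_cases huv : u₁ ≤ v₁
    · have := ihl (left1 c) hl h1 (by linarith : 0 ≤ (v₁ - u₁) / 2) h2 h2' h3 h3'
      unfold evF at this ⊢
      rw [evH_left u₁ v₁ (evH2_add n₂ n₃ u₂ v₂ u₃ v₃) n₁ c hs]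
      exact this
    · have huv' : v₁ ≤ u₁ := le_of_not_ge huv
      have := ihr (right1 c) hr (by linarith : 0 ≤ (u₁ - v₁) / 2) h1' h2 h2' h3 h3'
      unfold evF at this ⊢
      rw [evH_right u₁ v₁ (evH2_add n₂ n₃ u₂ v₂ u₃ v₃) n₁ c hs]
      exact this
  | n2 l r ihl ihr =>
    simp only [check, Bool.and_eq_true, List.all_eq_true, beq_iff_eq] at hc
    obtain ⟨⟨hs, hl⟩, hr⟩ := hc
    by_cases huv : u₂ ≤ v₂
    · have := ihl (left2 c) hl h1 h1' h2 (by linarith : 0 ≤ (v₂ - u₂) / 2) h3 h3'
      unfold evF left2 at this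
      unfold evF
      have hh : ∀ a ∈ c, evH (evH ev0 u₃ v₃ n₃) u₂ ((v₂ - u₂) / 2) n₂ (shift add1 dbl1 a)
          = evH (evH ev0 u₃ v₃ n₃) u₂ v₂ n₂ a := fun a ha =>
        (evH_left u₂ v₂ (evH1_add n₃ u₃ v₃) n₂ a (hs a ha)).symm
      have h5 := evH_map (ev := evH (evH ev0 u₃ v₃ n₃) u₂ v₂ n₂)
        (ev' := evH (evH ev0 u₃ v₃ n₃) u₂ ((v₂ - u₂) / 2) n₂) (shift add1 dbl1) u₁ v₁ n₁ c hh
      rw [← h5]
      exact this
    · have huv' : v₂ ≤ u₂ := le_of_not_ge huv
      have := ihr (right2 c) hr h1 h1' (by linarith : 0 ≤ (u₂ - v₂) / 2) h2' h3 h3'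
      unfold evF right2 at this
      unfold evF
      have hh : ∀ a ∈ c, evH (evH ev0 u₃ v₃ n₃) ((u₂ - v₂) / 2) v₂ n₂
            ((shift add1 dbl1 a.reverse).reverse)
          = evH (evH ev0 u₃ v₃ n₃) u₂ v₂ n₂ a := fun a ha =>
        (evH_right u₂ v₂ (evH1_add n₃ u₃ v₃) n₂ a (hs a ha)).symm
      have h5 := evH_map (ev := evH (evH ev0 u₃ v₃ n₃) u₂ v₂ n₂)
        (ev' := evH (evH ev0 u₃ v₃ n₃) ((u₂ - v₂) / 2) v₂ n₂)
        (fun s => (shift add1 dbl1 s.reverse).reverse) u₁ v₁ n₁ c hh
      rw [← h5]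
      exact this
  | n3 l r ihl ihr =>
    simp only [check, Bool.and_eq_true, List.all_eq_true, beq_iff_eq] at hc
    obtain ⟨⟨hs, hl⟩, hr⟩ := hc
    by_cases huv : u₃ ≤ v₃
    · have := ihl (left3 c) hl h1 h1' h2 h2' h3 (by linarith : 0 ≤ (v₃ - u₃) / 2)
      unfold evF left3 at this
      unfold evF
      have hh : ∀ s ∈ c, evH (evH ev0 u₃ ((v₃ - u₃) / 2) n₃) u₂ v₂ n₂
            (s.map (shift Int.add dbl0))
          = evH (evH ev0 u₃ v₃ n₃) u₂ v₂ n₂ s := fun s hs' =>
        evH_map (shift Int.add dbl0) u₂ v₂ n₂ s fun a ha =>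
          (evH_left u₃ v₃ ev0_add n₃ a (hs s hs' a ha)).symm
      have h5 := evH_map (ev := evH (evH ev0 u₃ v₃ n₃) u₂ v₂ n₂)
        (ev' := evH (evH ev0 u₃ ((v₃ - u₃) / 2) n₃) u₂ v₂ n₂)
        (fun s => s.map (shift Int.add dbl0)) u₁ v₁ n₁ c hh
      rw [← h5]
      exact this
    · have huv' : v₃ ≤ u₃ := le_of_not_ge huv
      have := ihr (right3 c) hr h1 h1' h2 h2' (by linarith : 0 ≤ (u₃ - v₃) / 2) h3'
      unfold evF right3 at this
      unfold evF
      have hh : ∀ s ∈ c, evH (evH ev0 ((u₃ - v₃) / 2) v₃ n₃) u₂ v₂ n₂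
            (s.map fun l => (shift Int.add dbl0 l.reverse).reverse)
          = evH (evH ev0 u₃ v₃ n₃) u₂ v₂ n₂ s := fun s hs' =>
        evH_map (fun l => (shift Int.add dbl0 l.reverse).reverse) u₂ v₂ n₂ s fun a ha =>
          (evH_right u₃ v₃ ev0_add n₃ a (hs s hs' a ha)).symm
      have h5 := evH_map (ev := evH (evH ev0 u₃ v₃ n₃) u₂ v₂ n₂)
        (ev' := evH (evH ev0 ((u₃ - v₃) / 2) v₃ n₃) u₂ v₂ n₂)
        (fun s => s.map fun l => (shift Int.add dbl0 l.reverse).reverse) u₁ v₁ n₁ c hh
      rw [← h5]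
      exact this

/-- Main certificate theorem: a power tensor of the right shape whose homogeneous form passes the
checker is nonnegative on the unit cube. -/
theorem nonneg_of_check (n₁ n₂ n₃ : ℕ) (t : Tree) (c : T3) (hs : shapeP n₁ n₂ n₃ c = true)
    (hc : check n₁ n₂ n₃ t (conv3 n₁ n₂ n₃ c) = true) {y r x : ℝ} (hy : 0 ≤ y) (hy' : y ≤ 1)
    (hr : 0 ≤ r) (hr' : r ≤ 1) (hx : 0 ≤ x) (hx' : x ≤ 1) : 0 ≤ evT y r x c := by
  rw [← conv3_spec n₁ n₂ n₃ y r x c hs]
  exact check_spec n₁ n₂ n₃ t _ hc hy (by linarith) hr (by linarith) hx (by linarith)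

end Vale.Agent.Lib.P371.CalB
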