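import Vale.Agent.Lib.P371.CalQ

/-!
Polynomial calibrations `F = g (1 - y²)² H / 2^B` with `H` given by a list of monomials, and the
reduction of the pointwise inequality `star` of `CalData` to two certificates for coefficient
tensors, through the polar substitution of the half disc.
-/

namespace Vale.Agent.Lib.P371.CalB

open Real

/-- A monomial `(j, a, b, c)` stands for `c y^j g^a p^b`. -/
abbrev Mon := ℕ × ℕ × ℕ × ℤ

/-- Evaluation of a list of monomials. -/
noncomputable def evM (y g p : ℝ) : List Mon → ℝ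
  | [] => 0
  | m :: l => (m.2.2.2 : ℝ) * y ^ m.1 * g ^ m.2.1 * p ^ m.2.2.1 + evM y g p l

/-- The derivative in `y`. -/
def dY : List Mon → List Mon := List.map fun m => (m.1 - 1, m.2.1, m.2.2.1, m.2.2.2 * (m.1 : ℤ))
/-- The derivative in `g`. -/
def dG : List Mon → List Mon := List.map fun m => (m.1, m.2.1 - 1, m.2.2.1, m.2.2.2 * (m.2.1 : ℤ))
/-- The derivative in `p`. -/
def dP : List Mon → List Mon :=
  List.map fun m => (m.1, m.2.1, m.2.2.1 - 1, m.2.2.2 * (m.2.2.1 : ℤ))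

theorem evM_hasDerivAt (l : List Mon) (y g p : ℝ → ℝ) (y' g' p' x : ℝ) (hy : HasDerivAt y y' x)
    (hg : HasDerivAt g g' x) (hp : HasDerivAt p p' x) :
    HasDerivAt (fun t => evM (y t) (g t) (p t) l)
      (evM (y x) (g x) (p x) (dY l) * y' + evM (y x) (g x) (p x) (dG l) * g' +
        evM (y x) (g x) (p x) (dP l) * p') x := by
  induction l with
  | nil => simpa [evM, dY, dG, dP] using hasDerivAt_const x (0 : ℝ)
  | cons m l ih =>
    obtain ⟨j, a, b, c⟩ := m
    simp only [evM, dY, dG, dP, List.map_cons] at ih ⊢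
    have h1 := (((hy.pow j).mul (hg.pow a)).mul (hp.pow b)).const_mul (c : ℝ)
    refine ((h1.congr_of_eventuallyEq ?_).add ih).congr_deriv ?_
    · exact Filter.Eventually.of_forall fun t => by simp [mul_assoc]
    · simp only [Pi.pow_apply, Pi.mul_apply]
      push_cast
      ring

theorem continuous_evM (l : List Mon) :
    Continuous fun v : ℝ × ℝ × ℝ => evM v.1 v.2.1 v.2.2 l := by
  induction l with
  | nil => simpa [evM] using continuous_const
  | cons m l ih =>
    simp only [evM]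
    exact ((((continuous_const.mul (continuous_fst.pow _)).mul
      ((continuous_fst.comp continuous_snd).pow _)).mul
      ((continuous_snd.comp continuous_snd).pow _))).add ih

/-- Sum of absolute values of the coefficients. -/
def sumAbs : List Mon → ℕ
  | [] => 0
  | m :: l => m.2.2.2.natAbs + sumAbs l

theorem evM_le_sumAbs {y g p : ℝ} (hy : |y| ≤ 1) (hg : |g| ≤ 1) (hp : |p| ≤ 1) (l : List Mon) :
    evM y g p l ≤ sumAbs l := by
  induction l with
  | nil => simp [evM, sumAbs]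
  | cons m l ih =>
    simp only [evM, sumAbs]
    push_cast
    have h1 : |(m.2.2.2 : ℝ) * y ^ m.1 * g ^ m.2.1 * p ^ m.2.2.1| ≤ |(m.2.2.2 : ℝ)| := by
      rw [abs_mul, abs_mul, abs_mul, abs_pow, abs_pow, abs_pow]
      have h2 : |y| ^ m.1 ≤ 1 := pow_le_one₀ (abs_nonneg _) hy
      have h3 : |g| ^ m.2.1 ≤ 1 := pow_le_one₀ (abs_nonneg _) hg
      have h4 : |p| ^ m.2.2.1 ≤ 1 := pow_le_one₀ (abs_nonneg _) hp
      have h5 : |y| ^ m.1 * |g| ^ m.2.1 * |p| ^ m.2.2.1 ≤ 1 := by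
        calc |y| ^ m.1 * |g| ^ m.2.1 * |p| ^ m.2.2.1 ≤ 1 * 1 * 1 := by gcongr
          _ = 1 := by norm_num
      calc |(m.2.2.2 : ℝ)| * |y| ^ m.1 * |g| ^ m.2.1 * |p| ^ m.2.2.1
          = |(m.2.2.2 : ℝ)| * (|y| ^ m.1 * |g| ^ m.2.1 * |p| ^ m.2.2.1) := by ring
        _ ≤ |(m.2.2.2 : ℝ)| * 1 := by gcongr
        _ = _ := by ring
    have h6 := le_trans (le_abs_self _) h1
    have h7 : |(m.2.2.2 : ℝ)| = ((m.2.2.2.natAbs : ℕ) : ℝ) := by
      rw [← Int.cast_abs, Int.abs_eq_natAbs]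
      simp
    rw [h7] at h6
    exact add_le_add h6 ih

/-- The constant coefficient at `(y, g, p) = (0, 1, 0)`. -/
def start0 : List Mon → ℤ
  | [] => 0
  | m :: l => (if m.1 = 0 ∧ m.2.2.1 = 0 then m.2.2.2 else 0) + start0 l

theorem evM_start {y : ℝ} (hy : 0 ≤ y) (hy' : y ≤ 1) (l : List Mon) :
    (start0 l : ℝ) - y * sumAbs l ≤ evM y 1 0 l := by
  induction l with
  | nil => simp [evM, sumAbs, start0]
  | cons m l ih =>
    obtain ⟨j, a, b, c⟩ := m
    simp only [evM, sumAbs, start0]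
    push_cast
    have h7 : ((c.natAbs : ℕ) : ℝ) = |(c : ℝ)| := by
      rw [← Int.cast_abs, Int.abs_eq_natAbs]
      simp
    rw [h7]
    have key : (((if j = 0 ∧ b = 0 then c else 0 : ℤ)) : ℝ) - y * |(c : ℝ)| ≤
        (c : ℝ) * y ^ j * 1 ^ a * 0 ^ b := by
      by_cases hb : b = 0
      · subst hb
        by_cases hj : j = 0
        · subst hj
          simp only [true_and, if_true, pow_zero, one_pow, mul_one]
          have := mul_nonneg hy (abs_nonneg (c : ℝ))
          linarith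
        · simp only [hj, false_and, if_false, Int.cast_zero, pow_zero, one_pow, mul_one, and_true]
          have h1 : y ^ j ≤ y := by
            obtain ⟨i, rfl⟩ := Nat.exists_eq_succ_of_ne_zero hj
            calc y ^ (i + 1) = y ^ i * y := pow_succ _ _
              _ ≤ 1 * y := by
                apply mul_le_mul_of_nonneg_right (pow_le_one₀ hy hy') hy
              _ = y := one_mul _
          have h2 : 0 ≤ y ^ j := pow_nonneg hy _
          have h3 : -|(c : ℝ)| ≤ (c : ℝ) := neg_abs_le _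
          have h4 : (c : ℝ) * y ^ j ≥ -|(c : ℝ)| * y ^ j := by
            apply mul_le_mul_of_nonneg_right h3 h2
          have h5 : |(c : ℝ)| * y ^ j ≤ |(c : ℝ)| * y :=
            mul_le_mul_of_nonneg_left h1 (abs_nonneg _)
          nlinarith
      · simp only [hb, and_false, if_false, Int.cast_zero]
        rw [zero_pow hb]
        have := mul_nonneg hy (abs_nonneg (c : ℝ))
        linarith
    push_cast at key
    rw [mul_add]
    linarith [key, ih]

/-! ### Tensor constants of the polar substitution -/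

/-- The variable `y`. -/
def tY : T3 := [[], [[1]]]
/-- `G = 2 r x (1 - x)`. -/
def tG : T3 := [[[], [0, 2, -2]]]
/-- `P = r (1 - 2 x)`. -/
def tP : T3 := [[[], [1, -2]]]
/-- `S = 1 - 2 x + 2 x²`. -/
def tS : T3 := [[[1, -2, 2]]]
/-- `W = 1 - y²`. -/
def tW : T3 := [[[1]], [], [[-1]]]

theorem evT_tY (y r x : ℝ) : evT y r x tY = y := by
  simp only [evT, tY, evP, ev0]
  push_cast
  ring

theorem evT_tG (y r x : ℝ) : evT y r x tG = 2 * r * x * (1 - x) := by
  simp only [evT, tG, evP, ev0]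
  push_cast
  ring

theorem evT_tP (y r x : ℝ) : evT y r x tP = r * (1 - 2 * x) := by
  simp only [evT, tP, evP, ev0]
  push_cast
  ring

theorem evT_tS (y r x : ℝ) : evT y r x tS = 1 - 2 * x + 2 * x ^ 2 := by
  simp only [evT, tS, evP, ev0]
  push_cast
  ring

theorem evT_tW (y r x : ℝ) : evT y r x tW = 1 - y ^ 2 := by
  simp only [evT, tW, evP, ev0]
  push_cast
  ring

/-- The homogenised monomial. -/
def monoT (d : ℕ) (m : Mon) : T3 :=
  mul3 (constT m.2.2.2) (mul3 (powT tY m.1) (mul3 (powT tG m.2.1)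
    (mul3 (powT tP m.2.2.1) (powT tS (d - m.2.1 - m.2.2.1)))))

/-- The homogenisation of a list of monomials. -/
def homog (d : ℕ) : List Mon → T3
  | [] => []
  | m :: l => if m.2.2.2 == 0 then homog d l else add3 (monoT d m) (homog d l)

/-- Degree check. -/
def degOK (d : ℕ) (l : List Mon) : Bool :=
  l.all fun m => (m.2.2.2 == 0) || decide (m.2.1 + m.2.2.1 ≤ d)

theorem evT_homog {y r x g p S : ℝ} (hG : 2 * r * x * (1 - x) = g * S) (hP : r * (1 - 2 * x) = p * S)
    (hS : 1 - 2 * x + 2 * x ^ 2 = S) (d : ℕ) (l : List Mon) (hd : degOK d l = true) :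
    evT y r x (homog d l) = S ^ d * evM y g p l := by
  induction l with
  | nil => simp [homog, evT, evP, evM]
  | cons m l ih =>
    simp only [degOK, List.all_cons, Bool.and_eq_true] at hd
    by_cases hc : m.2.2.2 = 0
    · simp only [homog, evM, hc, beq_self_eq_true, if_true]
      rw [ih hd.2]
      simp
    have hc' : (m.2.2.2 == 0) = false := by simpa using hc
    simp only [homog, hc', if_false, Bool.false_eq_true, evT_add, evM]
    rw [ih hd.2]
    obtain ⟨j, a, b, c⟩ := m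
    have h1 : evT y r x (monoT d (j, a, b, c)) =
        S ^ d * ((c : ℝ) * y ^ j * g ^ a * p ^ b) := by
      simp only [monoT, evT_mul, evT_const, evT_pow, evT_tY, evT_tG, evT_tP, evT_tS, hG, hP, hS]
      have h2 := hd.1
      simp only [Bool.or_eq_true, beq_iff_eq, decide_eq_true_eq] at h2
      rcases h2 with h2 | h2
      · subst h2
        simp
      · obtain ⟨e, he⟩ := Nat.exists_eq_add_of_le h2
        have : d - a - b = e := by omega
        rw [this, he]
        ring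
    simp only at h1 ⊢
    rw [h1]
    ring

/-- Existence of polar coordinates on the half disc. -/
theorem exists_polar {g p : ℝ} (hg : 0 ≤ g) (h : g ^ 2 + p ^ 2 ≤ 1) :
    ∃ r x S : ℝ, 0 ≤ r ∧ r ≤ 1 ∧ 0 ≤ x ∧ x ≤ 1 ∧ 0 < S ∧ 2 * r * x * (1 - x) = g * S ∧
      r * (1 - 2 * x) = p * S ∧ 1 - 2 * x + 2 * x ^ 2 = S := by
  set r := √(g ^ 2 + p ^ 2) with hr
  have hr0 : 0 ≤ r := Real.sqrt_nonneg _
  have hr2 : r ^ 2 = g ^ 2 + p ^ 2 := Real.sq_sqrt (by positivity)
  have hr1 : r ≤ 1 := by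
    rw [hr]
    exact Real.sqrt_le_one.2 h
  have hSpos : ∀ x : ℝ, 0 < 1 - 2 * x + 2 * x ^ 2 := fun x => by nlinarith [sq_nonneg (2 * x - 1)]
  by_cases hrz : r = 0
  · have hg0 : g = 0 := by
      have : g ^ 2 + p ^ 2 = 0 := by rw [← hr2, hrz]; ring
      nlinarith [sq_nonneg g, sq_nonneg p]
    have hp0 : p = 0 := by
      have : g ^ 2 + p ^ 2 = 0 := by rw [← hr2, hrz]; ring
      nlinarith [sq_nonneg g, sq_nonneg p]
    refine ⟨0, 1 / 2, 1 - 2 * (1 / 2) + 2 * (1 / 2) ^ 2, le_refl _, by norm_num, by norm_num,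
      by norm_num, by norm_num, ?_, ?_, rfl⟩
    · rw [hg0]; ring
    · rw [hp0]; ring
  · have hrpos : 0 < r := lt_of_le_of_ne hr0 (Ne.symm hrz)
    have hs : 0 < r + g := by linarith
    have hpr : |p| ≤ r := by
      rw [hr]
      exact Real.abs_le_sqrt (by nlinarith [sq_nonneg g])
    have hpr' := abs_le.1 hpr
    set t := -p / (r + g) with ht
    have ht1 : -1 ≤ t := by
      rw [ht, le_div_iff₀ hs]
      linarith [hpr'.2]
    have ht2 : t ≤ 1 := by
      rw [ht, div_le_iff₀ hs]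
      linarith [hpr'.1]
    have htm : t * (r + g) = -p := by
      rw [ht]
      field_simp
    have ht2' : t ^ 2 * (r + g) = r - g := by
      have h1 : t ^ 2 * (r + g) ^ 2 = p ^ 2 := by
        calc t ^ 2 * (r + g) ^ 2 = (t * (r + g)) ^ 2 := by ring
          _ = p ^ 2 := by rw [htm]; ring
      have h2 : p ^ 2 = (r - g) * (r + g) := by nlinarith
      have h3 : (t ^ 2 * (r + g) - (r - g)) * (r + g) = 0 := by nlinarith
      rcases mul_eq_zero.1 h3 with h4 | h4
      · linarith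
      · linarith
    refine ⟨r, (1 + t) / 2, 1 - 2 * ((1 + t) / 2) + 2 * ((1 + t) / 2) ^ 2, hr0, hr1, by linarith,
      by linarith, hSpos _, ?_, ?_, rfl⟩
    · -- `r (1 - t²) / 2 = g (1 + t²) / 2`
      have h1 : r * (1 - t ^ 2) = g * (1 + t ^ 2) := by
        have h2 : (r * (1 - t ^ 2) - g * (1 + t ^ 2)) * (r + g) = 0 := by
          have h3 : (r * (1 - t ^ 2) - g * (1 + t ^ 2)) * (r + g)
              = (r - g) * (r + g) - (r + g) * (t ^ 2 * (r + g)) := by ring
          rw [h3, ht2']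
          ring
        rcases mul_eq_zero.1 h2 with h4 | h4
        · linarith
        · linarith
      have h5 : 2 * r * ((1 + t) / 2) * (1 - (1 + t) / 2) = r * (1 - t ^ 2) / 2 := by ring
      have h6 : g * (1 - 2 * ((1 + t) / 2) + 2 * ((1 + t) / 2) ^ 2) = g * (1 + t ^ 2) / 2 := by ring
      rw [h5, h6, h1]
    · -- `- r t = p (1 + t²) / 2`
      have h5 : r * (1 - 2 * ((1 + t) / 2)) = - r * t := by ring
      have h6 : p * (1 - 2 * ((1 + t) / 2) + 2 * ((1 + t) / 2) ^ 2) = p * (1 + t ^ 2) / 2 := by ring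
      rw [h5, h6]
      have hp : p = -(t * (r + g)) := by linarith
      have h7 : (r + g) * (-r * t - p * (1 + t ^ 2) / 2) = 0 := by
        rw [hp]
        have h8 : (r + g) * (-r * t - -(t * (r + g)) * (1 + t ^ 2) / 2)
            = t * (r + g) * (-r + (r + g) / 2 + (t ^ 2 * (r + g)) / 2) := by ring
        rw [h8, ht2']
        ring
      rcases mul_eq_zero.1 h7 with h9 | h9
      · linarith
      · linarith

/-! ### The tensors of the two certificates -/

/-- The tensor of `T` (scaled), for `H` of degree `k + 1`. -/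
def tT (B k : ℕ) (l : List Mon) : T3 :=
  add3 (mul3 (constT (2 ^ B)) (powT tS (k + 2)))
    (mul3 tW (add3 (add3 (mul3 (homog (k + 1) l) tP) (mul3 (mul3 tG (homog k (dG l))) tP))
      (mul3 (constT (-1)) (mul3 (mul3 tG tG) (homog k (dP l))))))

/-- The tensor of `R`. -/
def tR (k : ℕ) (l : List Mon) : T3 :=
  add3 (mul3 (constT (-4)) (mul3 tY (homog (k + 1) l))) (mul3 tW (homog (k + 1) (dY l)))

/-- The tensor of `q = 16 τ T - R²`. -/
def tQ (B k : ℕ) (l : List Mon) : T3 :=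
  add3 (mul3 (constT 16) (mul3 (homog k (dP l)) (tT B k l)))
    (mul3 (constT (-1)) (mul3 (tR k l) (tR k l)))

/-- The tensor of `τ - e`. -/
def tTau (e : ℤ) (k : ℕ) (l : List Mon) : T3 :=
  add3 (homog k (dP l)) (mul3 (constT (-e)) (powT tS k))

/-- All certificates. -/
def allChecks (B k : ℕ) (e : ℤ) (l : List Mon) (n₁ n₂ n₃ m₁ m₂ m₃ W h : ℕ) (tq tt : Tree) : Bool :=
  degOK (k + 1) l && degOK k (dG l) && degOK k (dP l) && degOK (k + 1) (dY l) &&
    shapeP m₁ m₂ m₃ (tTau e k l) && check m₁ m₂ m₃ tt (conv3 m₁ m₂ m₃ (tTau e k l)) &&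
    (shapeP n₁ n₂ n₃ (tQ B k l) && parOK W h n₁ n₂ n₃ &&
      rectB W n₁ n₂ n₃ (toPT (conv3 n₁ n₂ n₃ (tQ B k l))) &&
      pcheck (mkPP W h n₁ n₂ n₃) tq
        (pi1 W n₂ n₃ Prod.fst (toPT (conv3 n₁ n₂ n₃ (tQ B k l))))
        (pi1 W n₂ n₃ Prod.snd (toPT (conv3 n₁ n₂ n₃ (tQ B k l)))))

section Main

variable {B k : ℕ} {e : ℤ} {l : List Mon} {n₁ n₂ n₃ m₁ m₂ m₃ W hh : ℕ} {tq tt : Tree}

/-- The outcome of the certificates: positivity of `τ` and of the discriminant on the region. -/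
theorem certs (h : allChecks B k e l n₁ n₂ n₃ m₁ m₂ m₃ W hh tq tt = true)
    {y g p : ℝ} (hy : 0 ≤ y) (hy' : y ≤ 1) (hg : 0 ≤ g) (hgp : g ^ 2 + p ^ 2 ≤ 1) :
    (e : ℝ) ≤ evM y g p (dP l) ∧
      0 ≤ 16 * evM y g p (dP l) *
          ((2 : ℝ) ^ B + (1 - y ^ 2) * ((evM y g p l + g * evM y g p (dG l)) * p
            - g ^ 2 * evM y g p (dP l)))
        - (-4 * y * evM y g p l + (1 - y ^ 2) * evM y g p (dY l)) ^ 2 := by
  simp only [allChecks, Bool.and_eq_true] at h
  obtain ⟨⟨⟨⟨⟨⟨h1, h2⟩, h3⟩, h4⟩, h5⟩, h6⟩, h7⟩ := h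
  obtain ⟨r, x, S, hr, hr', hx, hx', hS, hG, hP, hSe⟩ := exists_polar hg hgp
  have e1 := evT_homog (y := y) hG hP hSe (k + 1) l h1
  have e2 := evT_homog (y := y) hG hP hSe k (dG l) h2
  have e3 := evT_homog (y := y) hG hP hSe k (dP l) h3
  have e4 := evT_homog (y := y) hG hP hSe (k + 1) (dY l) h4
  constructor
  · have h9 := nonneg_of_check m₁ m₂ m₃ tt _ h5 h6 hy hy' hr hr' hx hx'
    simp only [tTau, evT_add, evT_mul, evT_const, evT_pow, evT_tS, e3, hSe] at h9
    have h10 : 0 < S ^ k := pow_pos hS k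
    push_cast at h9
    have h11 : 0 ≤ S ^ k * (evM y g p (dP l) - e) := by linarith
    have := (mul_nonneg_iff_of_pos_left h10).1 h11
    linarith
  · have h9 := nonneg_of_pcheck W hh n₁ n₂ n₃ tq _ (by simpa only [Bool.and_eq_true] using h7) hy hy' hr hr' hx hx'
    have e5 : evT y r x (tT B k l) = S ^ (k + 2) * ((2 : ℝ) ^ B +
        (1 - y ^ 2) * ((evM y g p l + g * evM y g p (dG l)) * p - g ^ 2 * evM y g p (dP l))) := by
      simp only [tT, evT_add, evT_mul, evT_const, evT_pow, evT_tS, evT_tG, evT_tP, evT_tW, e1, e2,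
        e3, hSe, hG, hP]
      push_cast
      ring
    have e6 : evT y r x (tR k l) = S ^ (k + 1) *
        (-4 * y * evM y g p l + (1 - y ^ 2) * evM y g p (dY l)) := by
      simp only [tR, evT_add, evT_mul, evT_const, evT_tY, evT_tW, e1, e4]
      push_cast
      ring
    have e7 : evT y r x (tQ B k l) = S ^ (2 * k + 2) * (16 * evM y g p (dP l) *
          ((2 : ℝ) ^ B + (1 - y ^ 2) * ((evM y g p l + g * evM y g p (dG l)) * p
            - g ^ 2 * evM y g p (dP l)))
        - (-4 * y * evM y g p l + (1 - y ^ 2) * evM y g p (dY l)) ^ 2) := by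
      simp only [tQ, evT_add, evT_mul, evT_const, e3, e5, e6]
      push_cast
      ring
    rw [e7] at h9
    exact (mul_nonneg_iff_of_pos_left (pow_pos hS _)).1 h9

/-- The calibration data obtained from the certificates. -/
noncomputable def mkCal (h : allChecks B k e l n₁ n₂ n₃ m₁ m₂ m₃ W hh tq tt = true) (he : 0 < e)
    (y₀ C₀ : ℝ) (hy₀ : 0 < y₀) (hy₀' : y₀ ≤ 1)
    (hs : 0 ≤ (start0 l : ℝ) - y₀ * sumAbs l)
    (hC₀ : C₀ * 2 ^ B ≤ (1 - y₀ ^ 2) ^ 2 * ((start0 l : ℝ) - y₀ * sumAbs l)) : Cal.CalData where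
  F y g p := g * (1 - y ^ 2) ^ 2 * (evM y g p l / 2 ^ B)
  Fy y g p := g * (2 * (1 - y ^ 2) * (-2 * y) * (evM y g p l / 2 ^ B)
    + (1 - y ^ 2) ^ 2 * (evM y g p (dY l) / 2 ^ B))
  Fg y g p := (1 - y ^ 2) ^ 2 * (evM y g p l / 2 ^ B)
    + g * (1 - y ^ 2) ^ 2 * (evM y g p (dG l) / 2 ^ B)
  Fp y g p := g * (1 - y ^ 2) ^ 2 * (evM y g p (dP l) / 2 ^ B)
  chain := by
    intro y g p y' g' p' x hy hg hp
    have h1 := evM_hasDerivAt l y g p y' g' p' x hy hg hp
    have h2 : HasDerivAt (fun t => (1 - y t ^ 2) ^ 2)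
        (2 * (1 - y x ^ 2) * (-2 * y x) * y') x := by
      have h3 := (((hasDerivAt_const x (1 : ℝ)).sub (hy.pow 2)).pow 2)
      refine (h3.congr_of_eventuallyEq ?_).congr_deriv ?_
      · exact Filter.Eventually.of_forall fun t => by simp
      · simp only [Pi.sub_apply, Pi.pow_apply]
        push_cast
        ring
    have h4 := (hg.mul h2).mul (h1.div_const ((2 : ℝ) ^ B))
    refine (h4.congr_of_eventuallyEq ?_).congr_deriv ?_
    · exact Filter.Eventually.of_forall fun t => by simp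
    · simp only [Pi.mul_apply]
      ring
  contF := by
    have h1 := continuous_evM l
    have hy : Continuous fun v : ℝ × ℝ × ℝ => v.1 := continuous_fst
    have hg : Continuous fun v : ℝ × ℝ × ℝ => v.2.1 := continuous_fst.comp continuous_snd
    exact (hg.mul ((continuous_const.sub (hy.pow 2)).pow 2)).mul (h1.div_const _)
  star := by
    intro y g p κ z hy hy' hg hgp hκ hz
    obtain ⟨h1, h2⟩ := certs h hy hy' hg hgp
    have hDpos : (0 : ℝ) < 2 ^ B := by positivity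
    have hw : 0 ≤ 1 - y ^ 2 := by nlinarith
    have hz2 : z ^ 2 ≤ (1 - y ^ 2) * κ ^ 2 / 4 := by
      have h3 : |z| ^ 2 ≤ (√(1 - y ^ 2) * κ / 2) ^ 2 :=
        pow_le_pow_left₀ (abs_nonneg _) hz 2
      rw [sq_abs] at h3
      have h4 : (√(1 - y ^ 2) * κ / 2) ^ 2 = (1 - y ^ 2) * κ ^ 2 / 4 := by
        rw [div_pow, mul_pow, Real.sq_sqrt hw]
        norm_num
      linarith
    set w := 1 - y ^ 2 with hwdef
    set Hv := evM y g p l with hHv
    set Hg := evM y g p (dG l) with hHg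
    set Hp := evM y g p (dP l) with hHp
    set Hy := evM y g p (dY l) with hHy
    set D : ℝ := 2 ^ B with hD
    have hτ : 0 < Hp := by
      have : (0 : ℝ) < e := by exact_mod_cast he
      linarith
    set T := D + w * ((Hv + g * Hg) * p - g ^ 2 * Hp) with hT
    set R := -4 * y * Hv + w * Hy with hR
    have hX : (g * z) ^ 2 ≤ (w * g ^ 2 * κ ^ 2) / 4 := by
      have h3 : (g * z) ^ 2 = g ^ 2 * z ^ 2 := by ring
      have h4 : g ^ 2 * z ^ 2 ≤ g ^ 2 * (w * κ ^ 2 / 4) :=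
        mul_le_mul_of_nonneg_left hz2 (by positivity)
      rw [h3]
      calc g ^ 2 * z ^ 2 ≤ g ^ 2 * (w * κ ^ 2 / 4) := h4
        _ = _ := by ring
    have hin : 0 ≤ T + Hp * (w * g ^ 2 * κ ^ 2) + R * (g * z) := by
      have h5 : 0 ≤ 16 * Hp * (T + Hp * (w * g ^ 2 * κ ^ 2) + R * (g * z)) := by
        have h6 : 16 * Hp * (T + Hp * (w * g ^ 2 * κ ^ 2) + R * (g * z))
            = (16 * Hp * T - R ^ 2) + (R + 8 * Hp * (g * z)) ^ 2
              + 64 * Hp ^ 2 * ((w * g ^ 2 * κ ^ 2) / 4 - (g * z) ^ 2) := by ring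
        rw [h6]
        have h7 : 0 ≤ 64 * Hp ^ 2 * ((w * g ^ 2 * κ ^ 2) / 4 - (g * z) ^ 2) :=
          mul_nonneg (by positivity) (by linarith)
        have h8 := sq_nonneg (R + 8 * Hp * (g * z))
        linarith
      exact (mul_nonneg_iff_of_pos_left (by positivity : 0 < 16 * Hp)).1 h5
    have hfin : w + ((w ^ 2 * (Hv / D) + g * w ^ 2 * (Hg / D)) * p
          + g * w ^ 2 * (Hp / D) * ((κ ^ 2 - 1) * g))
        + g * (2 * w * (-2 * y) * (Hv / D) + w ^ 2 * (Hy / D)) * z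
        = (w / D) * (T + Hp * (w * g ^ 2 * κ ^ 2) + R * (g * z)) := by
      rw [hT, hR]
      field_simp
      ring
    have h9 := mul_nonneg (div_nonneg hw hDpos.le) hin
    rw [← hfin] at h9
    linarith
  K₁ := (sumAbs l : ℝ) / 2 ^ B
  K₁_nonneg := by positivity
  terminal := by
    intro y g p η hy hy' hg hgη hgp
    have hDpos : (0 : ℝ) < 2 ^ B := by positivity
    have hy1 : |y| ≤ 1 := abs_le.2 ⟨by linarith, hy'⟩
    have hg1 : |g| ≤ 1 := abs_le.2 ⟨by linarith, by nlinarith [sq_nonneg p]⟩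
    have hp1 : |p| ≤ 1 := abs_le.2 ⟨by nlinarith [sq_nonneg g], by nlinarith [sq_nonneg g]⟩
    have h1 := evM_le_sumAbs hy1 hg1 hp1 l
    have h2 : evM y g p l / 2 ^ B ≤ (sumAbs l : ℝ) / 2 ^ B :=
      div_le_div_of_nonneg_right h1 hDpos.le
    have hw : 0 ≤ 1 - y ^ 2 := by nlinarith
    have hw1 : 1 - y ^ 2 ≤ 1 := by nlinarith [sq_nonneg y]
    have hw2 : (1 - y ^ 2) ^ 2 ≤ 1 := pow_le_one₀ hw hw1
    have hA : 0 ≤ (sumAbs l : ℝ) / 2 ^ B := by positivity
    calc g * (1 - y ^ 2) ^ 2 * (evM y g p l / 2 ^ B)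
        ≤ g * (1 - y ^ 2) ^ 2 * ((sumAbs l : ℝ) / 2 ^ B) :=
          mul_le_mul_of_nonneg_left h2 (by positivity)
      _ ≤ η * 1 * ((sumAbs l : ℝ) / 2 ^ B) := by
          apply mul_le_mul_of_nonneg_right _ hA
          exact mul_le_mul hgη hw2 (by positivity) (by linarith)
      _ = (sumAbs l : ℝ) / 2 ^ B * η := by ring
  Cstart := C₀
  ystart := y₀
  ystart_pos := hy₀
  start := by
    intro y hy hyy
    have hDpos : (0 : ℝ) < 2 ^ B := by positivity
    have h1 := evM_start hy (by linarith) l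
    have hA : (0 : ℝ) ≤ sumAbs l := by positivity
    have h2 : (start0 l : ℝ) - y₀ * sumAbs l ≤ evM y 1 0 l := by nlinarith
    have h3 : (1 - y₀ ^ 2) ≤ 1 - y ^ 2 := by nlinarith
    have h4 : 0 ≤ 1 - y₀ ^ 2 := by nlinarith
    have h5 : (1 - y₀ ^ 2) ^ 2 ≤ (1 - y ^ 2) ^ 2 := pow_le_pow_left₀ h4 h3 2
    have h6 : C₀ * 2 ^ B ≤ (1 - y ^ 2) ^ 2 * evM y 1 0 l := by
      refine hC₀.trans ?_
      exact mul_le_mul h5 h2 hs (by positivity)
    have h7 : C₀ ≤ (1 - y ^ 2) ^ 2 * evM y 1 0 l / 2 ^ B := by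
      rw [le_div_iff₀ hDpos]
      exact h6
    calc C₀ ≤ (1 - y ^ 2) ^ 2 * evM y 1 0 l / 2 ^ B := h7
      _ = 1 * (1 - y ^ 2) ^ 2 * (evM y 1 0 l / 2 ^ B) := by ring

end Main

end Vale.Agent.Lib.P371.CalB
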