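import Mathlib

/-!
A kernel-checked positivity checker for polynomials: Bernstein coefficients on boxes.

Polynomials are nested lists of integers, lowest degree first. All the functions below use structural
recursion only, so that the statements they prove can be decided by the kernel.
-/

namespace Vale.Agent.Lib.P371.Cal.Bern

/-- Additive operations on a coefficient type. -/
structure Ops (α : Type) where
  zero : α
  add : α → α → α
  smul : ℤ → α → α

variable {α : Type}

/-- Addition of coefficient lists, padding the shorter one. -/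
def addL (O : Ops α) : List α → List α → List α
  | [], ys => ys
  | x :: xs, [] => x :: xs
  | x :: xs, y :: ys => O.add x y :: addL O xs ys

/-- Scalar multiples of coefficient lists. -/
def smulL (O : Ops α) (k : ℤ) : List α → List α
  | [] => []
  | x :: xs => O.smul k x :: smulL O k xs

/-- The operations on lists. -/
def listOps (O : Ops α) : Ops (List α) := ⟨[], addL O, smulL O⟩

/-- The operations on integers. -/
def intOps : Ops ℤ := ⟨0, Int.add, Int.mul⟩

/-- Evaluation of a polynomial with coefficients in `α`. -/
noncomputable def evalP (ev : α → ℝ) : List α → ℝ → ℝ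
  | [], _ => 0
  | a :: as, x => ev a + x * evalP ev as x

/-- The evaluation `ev` is linear. -/
structure Lin (O : Ops α) (ev : α → ℝ) : Prop where
  zero : ev O.zero = 0
  add : ∀ a b, ev (O.add a b) = ev a + ev b
  smul : ∀ (k : ℤ) a, ev (O.smul k a) = (k : ℝ) * ev a

lemma evalP_addL {O : Ops α} {ev : α → ℝ} (h : Lin O ev) (x : ℝ) :
    ∀ u v : List α, evalP ev (addL O u v) x = evalP ev u x + evalP ev v x
  | [], v => by simp [addL, evalP]
  | a :: as, [] => by simp [addL, evalP]
  | a :: as, b :: bs => by
      simp only [addL, evalP, h.add, evalP_addL h x as bs]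
      ring

lemma evalP_smulL {O : Ops α} {ev : α → ℝ} (h : Lin O ev) (x : ℝ) (k : ℤ) :
    ∀ u : List α, evalP ev (smulL O k u) x = (k : ℝ) * evalP ev u x
  | [] => by simp [smulL, evalP]
  | a :: as => by
      simp only [smulL, evalP, h.smul, evalP_smulL h x k as]
      ring

lemma lin_int : Lin intOps (fun z : ℤ => (z : ℝ)) where
  zero := by simp [intOps]
  add a b := by simp [intOps, Int.add_def]
  smul k a := by simp [intOps, Int.mul_def]

lemma lin_list {O : Ops α} {ev : α → ℝ} (h : Lin O ev) (x : ℝ) :
    Lin (listOps O) (fun u => evalP ev u x) where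
  zero := by simp [listOps, evalP]
  add a b := evalP_addL h x a b
  smul k a := evalP_smulL h x k a

/-- The value of a homogeneous form `∑ h_k S^k U^(m-k)`, `m + 1` the length of the list. -/
noncomputable def hval (ev : α → ℝ) : List α → ℝ → ℝ → ℝ
  | [], _, _ => 0
  | x :: xs, S, U => ev x * U ^ xs.length + S * hval ev xs S U

lemma hval_nonneg {ev : α → ℝ} {S U : ℝ} (hS : 0 ≤ S) (hU : 0 ≤ U) :
    ∀ u : List α, (∀ v ∈ u, 0 ≤ ev v) → 0 ≤ hval ev u S U
  | [], _ => by simp [hval]
  | a :: as, h => by
      simp only [hval]
      have h1 : 0 ≤ ev a := h a (by simp)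
      have h2 := hval_nonneg (ev := ev) hS hU as (fun v hv => h v (by simp [hv]))
      positivity

/-- Multiplication of a homogeneous form by the linear form `a U + b S`, plus `c U^m`. -/
def linGo (O : Ops α) (a b : ℤ) : α → List α → List α
  | c, [] => [c]
  | c, x :: xs => O.add (O.smul a x) c :: linGo O a b (O.smul b x) xs

lemma linGo_length (O : Ops α) (a b : ℤ) :
    ∀ (c : α) (u : List α), (linGo O a b c u).length = u.length + 1
  | _, [] => rfl
  | _, x :: xs => by simp [linGo, linGo_length O a b _ xs]

lemma hval_linGo {O : Ops α} {ev : α → ℝ} (h : Lin O ev) (a b : ℤ) (S U : ℝ) :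
    ∀ (c : α) (u : List α), hval ev (linGo O a b c u) S U =
      ev c * U ^ u.length + ((a : ℝ) * U + (b : ℝ) * S) * hval ev u S U
  | c, [] => by simp [linGo, hval]
  | c, x :: xs => by
      simp only [linGo, hval, h.add, h.smul, linGo_length, hval_linGo h a b S U _ xs, List.length_cons]
      ring

/-- `R_k • c + h_k`. -/
def scaleAdd (O : Ops α) (c : α) : List ℤ → List α → List α
  | r :: rs, x :: xs => O.add (O.smul r c) x :: scaleAdd O c rs xs
  | _, _ => []

lemma scaleAdd_length (O : Ops α) (c : α) :
    ∀ (R : List ℤ) (u : List α), R.length = u.length → (scaleAdd O c R u).length = u.length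
  | [], [], _ => rfl
  | [], _ :: _, h => by simp at h
  | _ :: _, [], h => by simp at h
  | r :: rs, x :: xs, h => by
      simp only [List.length_cons, add_left_inj] at h
      simp [scaleAdd, scaleAdd_length O c rs xs h]

lemma hval_scaleAdd {O : Ops α} {ev : α → ℝ} (h : Lin O ev) (c : α) (S U : ℝ) :
    ∀ (R : List ℤ) (u : List α), R.length = u.length →
      hval ev (scaleAdd O c R u) S U =
        ev c * hval (fun z : ℤ => (z : ℝ)) R S U + hval ev u S U
  | [], [], _ => by simp [scaleAdd, hval]
  | [], _ :: _, h => by simp at h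
  | _ :: _, [], h => by simp at h
  | r :: rs, x :: xs, hl => by
      simp only [List.length_cons, add_left_inj] at hl
      simp only [scaleAdd, hval, h.add, h.smul, scaleAdd_length O c rs xs hl,
        hval_scaleAdd h c S U rs xs hl, hl]
      ring

/-- The homogeneous form of `Den^n P (Z / Den)`, with `Z = a U + b S`, and the coefficients of
`(Den (S + U))^n`; `n + 1` is the length of the list `P`. -/
def homGo (O : Ops α) (a b den : ℤ) : List α → List α × List ℤ
  | [] => ([], [])
  | [c] => ([c], [1])
  | c :: d :: cs =>
      let r := homGo O a b den (d :: cs)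
      let R' := linGo intOps den den 0 r.2
      (scaleAdd O c R' (linGo O a b O.zero r.1), R')

lemma homGo_length (O : Ops α) (a b den : ℤ) :
    ∀ u : List α, (homGo O a b den u).1.length = u.length ∧ (homGo O a b den u).2.length = u.length
  | [] => by simp [homGo]
  | [c] => by simp [homGo]
  | c :: d :: cs => by
      obtain ⟨h1, h2⟩ := homGo_length O a b den (d :: cs)
      simp only [homGo, linGo_length]
      rw [scaleAdd_length] <;> simp only [linGo_length, h1, h2, List.length_cons]
      exact ⟨trivial, trivial⟩

lemma hval_homGo {O : Ops α} {ev : α → ℝ} (h : Lin O ev) (a b den : ℤ) {S U x : ℝ} (hSU : S + U = 1)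
    (hx : (a : ℝ) * U + (b : ℝ) * S = (den : ℝ) * x) :
    ∀ u : List α, hval ev (homGo O a b den u).1 S U = (den : ℝ) ^ (u.length - 1) * evalP ev u x ∧
      (u ≠ [] → hval (fun z : ℤ => (z : ℝ)) (homGo O a b den u).2 S U = (den : ℝ) ^ (u.length - 1))
  | [] => by simp [homGo, hval, evalP]
  | [c] => by simp [homGo, hval, evalP]
  | c :: d :: cs => by
      obtain ⟨h1, h2⟩ := hval_homGo h a b den hSU hx (d :: cs)
      obtain ⟨l1, l2⟩ := homGo_length O a b den (d :: cs)
      have h2' := h2 (by simp)
      have hR : hval (fun z : ℤ => (z : ℝ)) (linGo intOps den den 0 (homGo O a b den (d :: cs)).2) S U =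
          (den : ℝ) ^ (cs.length + 1) := by
        rw [hval_linGo lin_int, h2']
        have : (den : ℝ) * U + (den : ℝ) * S = den := by
          have : (den : ℝ) * U + (den : ℝ) * S = den * (S + U) := by ring
          rw [this, hSU, mul_one]
        simp only [List.length_cons, Nat.add_sub_cancel, intOps, Int.cast_zero, zero_mul, zero_add, this]
        ring
      constructor
      · simp only [homGo]
        rw [hval_scaleAdd h _ _ _ _ _ (by simp only [linGo_length, l1, l2]), hR, hval_linGo h, h1, hx, h.zero]
        simp only [List.length_cons, Nat.add_sub_cancel, evalP]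
        ring
      · intro _
        simp only [homGo, List.length_cons, Nat.add_sub_cancel]
        exact hR

/-- Soundness of the Bernstein test. -/
theorem hom_sound {O : Ops α} {ev : α → ℝ} (h : Lin O ev) {a b den : ℤ} (hden : 0 < den) (hab : a < b)
    {u : List α} (hu : ∀ v ∈ (homGo O a b den u).1, 0 ≤ ev v) {x : ℝ} (hx1 : (a : ℝ) ≤ den * x)
    (hx2 : (den : ℝ) * x ≤ b) : 0 ≤ evalP ev u x := by
  have hab' : (a : ℝ) < b := by exact_mod_cast hab
  have hden' : (0 : ℝ) < den := by exact_mod_cast hden
  have hw : (0 : ℝ) < (b : ℝ) - a := by linarith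
  set S : ℝ := ((den : ℝ) * x - a) / ((b : ℝ) - a) with hS
  set U : ℝ := ((b : ℝ) - den * x) / ((b : ℝ) - a) with hU
  have hS0 : 0 ≤ S := div_nonneg (by linarith) hw.le
  have hU0 : 0 ≤ U := div_nonneg (by linarith) hw.le
  have hSU : S + U = 1 := by
    rw [hS, hU]
    field_simp
    ring
  have hZ : (a : ℝ) * U + (b : ℝ) * S = (den : ℝ) * x := by
    rw [hS, hU]
    field_simp
    ring
  have h1 := (hval_homGo h a b den hSU hZ u).1
  have h2 := hval_nonneg hS0 hU0 _ hu
  rw [h1] at h2
  have h3 : (0 : ℝ) < (den : ℝ) ^ (u.length - 1) := by positivity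
  exact nonneg_of_mul_nonneg_right h2 h3

/-- Membership test for nonnegative integers. -/
def isNN : ℤ → Bool
  | Int.ofNat _ => true
  | Int.negSucc _ => false

lemma isNN_spec {z : ℤ} (h : isNN z = true) : (0 : ℝ) ≤ (z : ℝ) := by
  cases z with
  | ofNat n => simp
  | negSucc n => simp [isNN] at h

/-- One Bernstein test of a polynomial in one variable. -/
def testY (a b den : ℤ) (u : List ℤ) : Bool := (homGo intOps a b den u).1.all isNN

/-- Bernstein test of a polynomial in one variable with bisection. -/
def checkY : ℕ → ℤ → ℤ → ℤ → List ℤ → Bool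
  | 0, a, b, den, u => testY a b den u
  | n + 1, a, b, den, u =>
      testY a b den u ||
        (checkY n (2 * a) (a + b) (2 * den) u && checkY n (a + b) (2 * b) (2 * den) u)

/-- Evaluation of a polynomial with integer coefficients. -/
noncomputable def pe (u : List ℤ) (y : ℝ) : ℝ := evalP (fun z : ℤ => (z : ℝ)) u y

theorem testY_sound {a b den : ℤ} (hden : 0 < den) (hab : a < b) {u : List ℤ}
    (h : testY a b den u = true) {x : ℝ} (hx1 : (a : ℝ) ≤ den * x) (hx2 : (den : ℝ) * x ≤ b) :
    0 ≤ pe u x := by
  refine hom_sound lin_int hden hab (fun v hv => ?_) hx1 hx2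
  exact isNN_spec (List.all_eq_true.mp h v hv)

theorem checkY_sound : ∀ (n : ℕ) {a b den : ℤ}, 0 < den → a < b → ∀ {u : List ℤ},
    checkY n a b den u = true → ∀ {x : ℝ}, (a : ℝ) ≤ den * x → (den : ℝ) * x ≤ b → 0 ≤ pe u x
  | 0, _, _, _, hden, hab, _, h, _, hx1, hx2 => testY_sound hden hab h hx1 hx2
  | n + 1, a, b, den, hden, hab, u, h, x, hx1, hx2 => by
      simp only [checkY, Bool.or_eq_true, Bool.and_eq_true] at h
      rcases h with h | ⟨h1, h2⟩
      · exact testY_sound hden hab h hx1 hx2
      · have hd2 : 0 < 2 * den := by omega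
        by_cases hm : (den : ℝ) * x * 2 ≤ (a : ℝ) + b
        · refine checkY_sound n hd2 (by omega) h1 ?_ ?_
          · push_cast
            linarith
          · push_cast
            linarith
        · push Not at hm
          refine checkY_sound n hd2 (by omega) h2 ?_ ?_
          · push_cast
            linarith
          · push_cast
            linarith

/-- Tensors, outer variable first, innermost `y`. -/
abbrev Tensor := List (List (List ℤ))

end Vale.Agent.Lib.P371.Cal.Bern
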