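import Mathlib

open Set

namespace Vale.Agent.Lib.P371.Cal

/-- Energy bound: for `g_x = w p`, `p_x = w (v - 1) g` with `w > 0`, `v ≥ 0`, `g ≥ 0`, if `g ≤ M` on the
interval and `p` is `≥ 0` at the left end and `≤ 0` at the right end, then `g² + p² ≤ M²`. The
energy is monotone between consecutive zeros of `p`, and at a zero of `p` it equals `g²`. -/
theorem energy_le (w v g p : ℝ → ℝ) {xL x1 M : ℝ} (h : xL ≤ x1)
    (hw : ∀ x ∈ Ioo xL x1, 0 < w x) (hv : ∀ x ∈ Ioo xL x1, 0 ≤ v x)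
    (cg : ContinuousOn g (Icc xL x1)) (cp : ContinuousOn p (Icc xL x1))
    (dg : ∀ x ∈ Ioo xL x1, HasDerivAt g (w x * p x) x)
    (dp : ∀ x ∈ Ioo xL x1, HasDerivAt p (w x * ((v x - 1) * g x)) x)
    (hg0 : ∀ x ∈ Icc xL x1, 0 ≤ g x) (hgM : ∀ x ∈ Icc xL x1, g x ≤ M)
    (hpL : 0 ≤ p xL) (hpR : p x1 ≤ 0) :
    ∀ x ∈ Icc xL x1, g x ^ 2 + p x ^ 2 ≤ M ^ 2 := by
  -- the energy and its derivative
  let E : ℝ → ℝ := fun y => g y ^ 2 + p y ^ 2
  let E' : ℝ → ℝ := fun y => 2 * (w y * (v y * (g y * p y)))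
  have hE' : ∀ y ∈ Ioo xL x1, HasDerivAt E (E' y) y := by
    intro y hy
    have h1 := ((dg y hy).pow 2).add ((dp y hy).pow 2)
    have h2 : E' y = (2 : ℕ) * g y ^ (2 - 1) * (w y * p y) +
        (2 : ℕ) * p y ^ (2 - 1) * (w y * ((v y - 1) * g y)) := by
      simp only [E']
      push_cast
      ring
    rw [h2]
    exact h1
  have cE : ContinuousOn E (Icc xL x1) := (cg.pow 2).add (cp.pow 2)
  have hzero : ∀ t ∈ Icc xL x1, p t = 0 → E t ≤ M ^ 2 := by
    intro t ht h0
    simp only [E, h0]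
    have := pow_le_pow_left₀ (hg0 t ht) (hgM t ht) 2
    simpa using this
  intro x hx
  change E x ≤ M ^ 2
  rcases le_or_gt 0 (p x) with hpx | hpx
  · -- forward to the next zero of `p`
    have hsub : Icc x x1 ⊆ Icc xL x1 := Icc_subset_Icc_left hx.1
    have hScl : IsClosed (Icc x x1 ∩ p ⁻¹' (Iic 0)) :=
      (cp.mono hsub).preimage_isClosed_of_isClosed isClosed_Icc isClosed_Iic
    have hSc : IsCompact (Icc x x1 ∩ p ⁻¹' (Iic 0)) :=
      isCompact_Icc.of_isClosed_subset hScl inter_subset_left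
    have hSne : (Icc x x1 ∩ p ⁻¹' (Iic 0)).Nonempty :=
      ⟨x1, ⟨hx.2, le_refl _⟩, hpR⟩
    obtain ⟨t, ⟨⟨htx, htle⟩, hpt⟩, htmin⟩ := hSc.exists_isLeast hSne
    have hpt' : p t ≤ 0 := hpt
    have htI : t ∈ Icc xL x1 := hsub ⟨htx, htle⟩
    have hsub2 : Icc x t ⊆ Icc xL x1 := (Icc_subset_Icc_right htle).trans hsub
    -- `p t = 0`
    have hp0 : p t = 0 := by
      have hivt := intermediate_value_Icc' htx (cp.mono hsub2)
      obtain ⟨y, hy, hyz⟩ := hivt (⟨hpt', hpx⟩ : (0 : ℝ) ∈ Icc (p t) (p x))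
      have hyS : y ∈ Icc x x1 ∩ p ⁻¹' (Iic 0) :=
        ⟨⟨hy.1, hy.2.trans htle⟩, by simp [hyz]⟩
      have : t ≤ y := htmin hyS
      have : y = t := le_antisymm hy.2 this
      rwa [this] at hyz
    -- `p ≥ 0` on `[x, t]`
    have hpos : ∀ y ∈ Ioo x t, 0 ≤ p y := by
      intro y hy
      by_contra hneg
      push Not at hneg
      have hyS : y ∈ Icc x x1 ∩ p ⁻¹' (Iic 0) :=
        ⟨⟨hy.1.le, hy.2.le.trans htle⟩, hneg.le⟩
      exact absurd (htmin hyS) (not_le.mpr hy.2)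
    have hmono : MonotoneOn E (Icc x t) := by
      refine monotoneOn_of_deriv_nonneg (convex_Icc _ _) (cE.mono hsub2) ?_ ?_
      · intro y hy
        rw [interior_Icc] at hy
        have hy' : y ∈ Ioo xL x1 := ⟨lt_of_le_of_lt hx.1 hy.1, lt_of_lt_of_le hy.2 htle⟩
        exact (hE' y hy').differentiableAt.differentiableWithinAt
      · intro y hy
        rw [interior_Icc] at hy
        have hy' : y ∈ Ioo xL x1 := ⟨lt_of_le_of_lt hx.1 hy.1, lt_of_lt_of_le hy.2 htle⟩
        rw [(hE' y hy').deriv]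
        have h1 := (hw y hy').le
        have h2 := hv y hy'
        have h3 := hg0 y (Ioo_subset_Icc_self hy')
        have h4 := hpos y hy
        simp only [E']
        positivity
    have hle : E x ≤ E t := hmono (left_mem_Icc.mpr htx) (right_mem_Icc.mpr htx) htx
    exact hle.trans (hzero t htI hp0)
  · -- backward to the previous zero of `p`
    have hsub : Icc xL x ⊆ Icc xL x1 := Icc_subset_Icc_right hx.2
    have hScl : IsClosed (Icc xL x ∩ p ⁻¹' (Ici 0)) :=
      (cp.mono hsub).preimage_isClosed_of_isClosed isClosed_Icc isClosed_Ici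
    have hSc : IsCompact (Icc xL x ∩ p ⁻¹' (Ici 0)) :=
      isCompact_Icc.of_isClosed_subset hScl inter_subset_left
    have hSne : (Icc xL x ∩ p ⁻¹' (Ici 0)).Nonempty :=
      ⟨xL, ⟨le_refl _, hx.1⟩, hpL⟩
    obtain ⟨t, ⟨⟨htle, htx⟩, hpt⟩, htmax⟩ := hSc.exists_isGreatest hSne
    have hpt' : 0 ≤ p t := hpt
    have htI : t ∈ Icc xL x1 := hsub ⟨htle, htx⟩
    have hsub2 : Icc t x ⊆ Icc xL x1 := (Icc_subset_Icc_left htle).trans hsub
    have hp0 : p t = 0 := by
      have hivt := intermediate_value_Icc' htx (cp.mono hsub2)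
      obtain ⟨y, hy, hyz⟩ := hivt (⟨hpx.le, hpt'⟩ : (0 : ℝ) ∈ Icc (p x) (p t))
      have hyS : y ∈ Icc xL x ∩ p ⁻¹' (Ici 0) :=
        ⟨⟨htle.trans hy.1, hy.2⟩, by simp [hyz]⟩
      have : y ≤ t := htmax hyS
      have : y = t := le_antisymm this hy.1
      rwa [this] at hyz
    have hneg : ∀ y ∈ Ioo t x, p y ≤ 0 := by
      intro y hy
      by_contra hpos
      push Not at hpos
      have hyS : y ∈ Icc xL x ∩ p ⁻¹' (Ici 0) :=
        ⟨⟨htle.trans hy.1.le, hy.2.le⟩, hpos.le⟩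
      exact absurd (htmax hyS) (not_le.mpr hy.1)
    have hanti : AntitoneOn E (Icc t x) := by
      refine antitoneOn_of_deriv_nonpos (convex_Icc _ _) (cE.mono hsub2) ?_ ?_
      · intro y hy
        rw [interior_Icc] at hy
        have hy' : y ∈ Ioo xL x1 := ⟨lt_of_le_of_lt htle hy.1, lt_of_lt_of_le hy.2 hx.2⟩
        exact (hE' y hy').differentiableAt.differentiableWithinAt
      · intro y hy
        rw [interior_Icc] at hy
        have hy' : y ∈ Ioo xL x1 := ⟨lt_of_le_of_lt htle hy.1, lt_of_lt_of_le hy.2 hx.2⟩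
        rw [(hE' y hy').deriv]
        have h1 := (hw y hy').le
        have h2 := hv y hy'
        have h3 := hg0 y (Ioo_subset_Icc_self hy')
        have h4 := hneg y hy
        simp only [E']
        have h5 : 0 ≤ w y * (v y * (g y * (- p y))) := by
          have : 0 ≤ - p y := by linarith
          positivity
        nlinarith
    have hle : E x ≤ E t := hanti (left_mem_Icc.mpr htx) (right_mem_Icc.mpr htx) htx
    exact hle.trans (hzero t htI hp0)

end Vale.Agent.Lib.P371.Cal
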