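import Mathlib

open Set MeasureTheory

namespace Vale.Agent.Lib.P371.Cal

/-- The clamp onto `[-R, R]`. -/
private noncomputable def cl (R s : ℝ) : ℝ := max (-R) (min R s)

private lemma cl_abs_le {R : ℝ} (hR : 0 ≤ R) (s : ℝ) : |cl R s| ≤ R := by
  unfold cl
  rw [abs_le]
  constructor
  · exact le_max_left _ _
  · exact max_le (by linarith) (min_le_left _ _)

private lemma cl_abs_le' {R : ℝ} (hR : 0 ≤ R) (s : ℝ) : |cl R s| ≤ |s| := by
  unfold cl
  rcases le_total R s with h | h
  · rw [min_eq_left h, max_eq_right (by linarith), abs_of_nonneg hR, abs_of_nonneg (by linarith)]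
    exact h
  · rw [min_eq_right h]
    rcases le_total (-R) s with h' | h'
    · rw [max_eq_right h']
    · rw [max_eq_left h', abs_neg, abs_of_nonneg hR, abs_of_nonpos (by linarith)]
      linarith

private lemma cl_of_abs_le {R s : ℝ} (h : |s| ≤ R) : cl R s = s := by
  unfold cl
  rw [abs_le] at h
  rw [min_eq_right h.2, max_eq_right h.1]

private lemma cl_lip {R : ℝ} (hR : 0 ≤ R) (s t : ℝ) : |cl R s - cl R t| ≤ |s - t| := by
  unfold cl
  rw [abs_le]
  have h1 := le_abs_self (s - t)
  have h2 := neg_abs_le (s - t)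
  constructor <;> (simp only [max_def, min_def]; split_ifs <;> linarith)

/-- Existence for a planar linear system with continuous coefficients on a compact interval. -/
theorem linear_ode_exists (a c : ℝ → ℝ) (ha : Continuous a) (hc : Continuous c)
    (xL xR g0 p0 : ℝ) (h : xL ≤ xR) :
    ∃ g p : ℝ → ℝ, g xL = g0 ∧ p xL = p0 ∧ ContinuousOn g (Icc xL xR) ∧ ContinuousOn p (Icc xL xR) ∧
      ∀ x ∈ Ioo xL xR, HasDerivAt g (a x * p x) x ∧ HasDerivAt p (c x * g x) x := by
  obtain ⟨M1, hM1⟩ := isCompact_Icc.exists_bound_of_continuousOn (s := Icc xL xR) ha.continuousOn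
  obtain ⟨M2, hM2⟩ := isCompact_Icc.exists_bound_of_continuousOn (s := Icc xL xR) hc.continuousOn
  set M : ℝ := max 0 (max M1 M2) with hMdef
  have hM0 : 0 ≤ M := le_max_left _ _
  have hMa : ∀ t ∈ Icc xL xR, |a t| ≤ M := fun t ht =>
    (hM1 t ht).trans ((le_max_left _ _).trans (le_max_right _ _))
  have hMc : ∀ t ∈ Icc xL xR, |c t| ≤ M := fun t ht =>
    (hM2 t ht).trans ((le_max_right _ _).trans (le_max_right _ _))
  let x0 : ℝ × ℝ := (g0, p0)
  set R : ℝ := ‖x0‖ * Real.exp (M * (xR - xL)) with hRdef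
  have hR0 : 0 ≤ R := by positivity
  let f : ℝ → ℝ × ℝ → ℝ × ℝ := fun t v => (a t * cl R v.2, c t * cl R v.1)
  have hfnorm : ∀ t ∈ Icc xL xR, ∀ v, ‖f t v‖ ≤ M * R := by
    intro t ht v
    rw [Prod.norm_def]
    refine max_le ?_ ?_
    · simp only [f, Real.norm_eq_abs, abs_mul]
      exact mul_le_mul (hMa t ht) (cl_abs_le hR0 _) (abs_nonneg _) hM0
    · simp only [f, Real.norm_eq_abs, abs_mul]
      exact mul_le_mul (hMc t ht) (cl_abs_le hR0 _) (abs_nonneg _) hM0
  have hfnorm' : ∀ t ∈ Icc xL xR, ∀ v, ‖f t v‖ ≤ M * ‖v‖ := by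
    intro t ht v
    rw [Prod.norm_def]
    refine max_le ?_ ?_
    · simp only [f, Real.norm_eq_abs, abs_mul]
      refine mul_le_mul (hMa t ht) ((cl_abs_le' hR0 _).trans ?_) (abs_nonneg _) hM0
      exact norm_snd_le v
    · simp only [f, Real.norm_eq_abs, abs_mul]
      refine mul_le_mul (hMc t ht) ((cl_abs_le' hR0 _).trans ?_) (abs_nonneg _) hM0
      exact norm_fst_le v
  let t₀ : Icc xL xR := ⟨xL, le_refl _, h⟩
  let MN : NNReal := ⟨M, hM0⟩
  let LN : NNReal := ⟨M * R, by positivity⟩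
  let AN : NNReal := ⟨M * R * (xR - xL), by
    have : 0 ≤ xR - xL := by linarith
    positivity⟩
  have hPL : IsPicardLindelof f t₀ x0 AN 0 LN MN := by
    refine ⟨?_, ?_, ?_, ?_⟩
    · intro t ht
      refine LipschitzWith.lipschitzOnWith ?_
      refine LipschitzWith.of_dist_le_mul ?_
      intro v w
      rw [Prod.dist_eq]
      refine max_le ?_ ?_
      · simp only [f, Real.dist_eq]
        rw [← mul_sub, abs_mul]
        refine mul_le_mul (hMa t ht) ((cl_lip hR0 _ _).trans ?_) (abs_nonneg _) hM0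
        rw [← Real.dist_eq]
        exact (le_max_right _ _).trans_eq Prod.dist_eq.symm
      · simp only [f, Real.dist_eq]
        rw [← mul_sub, abs_mul]
        refine mul_le_mul (hMc t ht) ((cl_lip hR0 _ _).trans ?_) (abs_nonneg _) hM0
        rw [← Real.dist_eq]
        exact (le_max_left _ _).trans_eq Prod.dist_eq.symm
    · intro v _
      refine ContinuousOn.prodMk ?_ ?_
      · exact (ha.mul continuous_const).continuousOn
      · exact (hc.mul continuous_const).continuousOn
    · intro t ht v _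
      exact hfnorm t ht v
    · simp only [t₀, LN, AN]
      have hx : max (xR - xL) (xL - xL) = xR - xL := by
        rw [sub_self]
        exact max_eq_left (by linarith)
      simp only [NNReal.coe_zero, sub_zero, hx]
      exact le_refl _
  obtain ⟨α, hα0, hα⟩ := hPL.exists_eq_forall_mem_Icc_hasDerivWithinAt₀
  have hcont : ContinuousOn α (Icc xL xR) := fun t ht => (hα t ht).continuousWithinAt
  have hbound : ∀ t ∈ Icc xL xR, ‖α t‖ ≤ gronwallBound ‖x0‖ M 0 (t - xL) := by
    refine norm_le_gronwallBound_of_norm_deriv_right_le (f' := fun t => f t (α t)) hcont ?_ ?_ ?_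
    · intro t ht
      have h1 := hα t ⟨ht.1, ht.2.le⟩
      exact h1.mono_of_mem_nhdsWithin (Icc_mem_nhdsGE_of_mem ht)
    · have : α xL = x0 := hα0
      rw [this]
    · intro t ht
      have := hfnorm' t ⟨ht.1, ht.2.le⟩ (α t)
      linarith
  have hin : ∀ t ∈ Icc xL xR, ‖α t‖ ≤ R := by
    intro t ht
    have h1 := hbound t ht
    rw [gronwallBound_ε0] at h1
    refine h1.trans ?_
    rw [hRdef]
    refine mul_le_mul_of_nonneg_left ?_ (norm_nonneg _)
    refine Real.exp_le_exp.mpr ?_
    refine mul_le_mul_of_nonneg_left ?_ hM0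
    linarith [ht.2]
  have hf_eq : ∀ t ∈ Icc xL xR, f t (α t) = (a t * (α t).2, c t * (α t).1) := by
    intro t ht
    have h1 := hin t ht
    have h2 : |(α t).1| ≤ R := (norm_fst_le (α t)).trans h1
    have h3 : |(α t).2| ≤ R := (norm_snd_le (α t)).trans h1
    simp only [f, cl_of_abs_le h2, cl_of_abs_le h3]
  refine ⟨fun t => (α t).1, fun t => (α t).2, ?_, ?_, ?_, ?_, ?_⟩
  · have : α xL = x0 := hα0
    simp [this, x0]
  · have : α xL = x0 := hα0
    simp [this, x0]
  · exact continuous_fst.comp_continuousOn hcont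
  · exact continuous_snd.comp_continuousOn hcont
  · intro x hx
    have hx' : x ∈ Icc xL xR := ⟨hx.1.le, hx.2.le⟩
    have h1 := (hα x hx').hasDerivAt (Icc_mem_nhds hx.1 hx.2)
    rw [hf_eq x hx'] at h1
    exact ⟨h1.fst, h1.snd⟩

end Vale.Agent.Lib.P371.Cal
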