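import Mathlib

open Set MeasureTheory Real

namespace Vale.Agent.Lib.P371.Cal

/-- Ground state substitution. With `ρ_x = 2 r`, `V = (ρ D - r²) / ρ²`, `g_x = b ρ p`,
`p_x = (4 V / (b ρ) - b ρ) g` and `g > 0`, the derivative of `(b / 4) ρ² p / g` is at most
`D - (b² / 4) ρ³`. -/
theorem riccati (ρ r D V g p : ℝ → ℝ) {b xL xR : ℝ} (hb : 0 < b) (h : xL ≤ xR)
    (cρ : Continuous ρ) (cD : Continuous D) (hρ : ∀ x, 0 < ρ x)
    (dρ : ∀ x, HasDerivAt ρ (2 * r x) x)
    (hV : ∀ x, V x = (ρ x * D x - r x ^ 2) / ρ x ^ 2)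
    (cg : ContinuousOn g (Icc xL xR)) (cp : ContinuousOn p (Icc xL xR))
    (dg : ∀ x ∈ Ioo xL xR, HasDerivAt g (b * ρ x * p x) x)
    (dp : ∀ x ∈ Ioo xL xR, HasDerivAt p ((4 * V x / (b * ρ x) - b * ρ x) * g x) x)
    (hg : ∀ x ∈ Icc xL xR, 0 < g x) :
    b / 4 * (ρ xR ^ 2 * (p xR / g xR) - ρ xL ^ 2 * (p xL / g xL)) ≤
      (∫ x in xL..xR, D x) - b ^ 2 / 4 * ∫ x in xL..xR, ρ x ^ 3 := by
  have hQc : ContinuousOn (fun x => b / 4 * (ρ x ^ 2 * (p x / g x))) (Icc xL xR) := by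
    apply ContinuousOn.mul continuousOn_const
    apply ContinuousOn.mul (cρ.continuousOn.pow 2)
    exact cp.div cg (fun x hx => (hg x hx).ne')
  have hφc : Continuous (fun x => D x - b ^ 2 / 4 * ρ x ^ 3) :=
    cD.sub (continuous_const.mul (cρ.pow 3))
  have key := intervalIntegral.sub_le_integral_of_hasDeriv_right_of_le
    (g := fun x => b / 4 * (ρ x ^ 2 * (p x / g x)))
    (g' := fun x => b / 4 * (2 * ρ x * (2 * r x) * (p x / g x) +
      ρ x ^ 2 * ((((4 * V x / (b * ρ x) - b * ρ x) * g x) * g x - p x * (b * ρ x * p x)) / g x ^ 2)))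
    (φ := fun x => D x - b ^ 2 / 4 * ρ x ^ 3) h hQc ?_
    (hφc.continuousOn.integrableOn_compact isCompact_Icc) ?_
  · have e : ∫ x in xL..xR, (D x - b ^ 2 / 4 * ρ x ^ 3)
        = (∫ x in xL..xR, D x) - b ^ 2 / 4 * ∫ x in xL..xR, ρ x ^ 3 := by
      have i2 : IntervalIntegrable (fun x => b ^ 2 / 4 * ρ x ^ 3) volume xL xR :=
        (Continuous.intervalIntegrable (continuous_const.mul (cρ.pow 3)) _ _)
      rw [intervalIntegral.integral_sub (cD.intervalIntegrable _ _) i2,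
        intervalIntegral.integral_const_mul]
    rw [e] at key
    linarith
  · intro x hx
    have hxI : x ∈ Icc xL xR := Ioo_subset_Icc_self hx
    have hgx := hg x hxI
    have h1 : HasDerivAt (fun t => ρ t ^ 2) (2 * ρ x * (2 * r x)) x := by
      simpa using (dρ x).fun_pow 2
    have h2 : HasDerivAt (fun t => p t / g t)
        ((((4 * V x / (b * ρ x) - b * ρ x) * g x) * g x - p x * (b * ρ x * p x)) / g x ^ 2) x :=
      (dp x hx).div (dg x hx) hgx.ne'
    exact ((h1.mul h2).const_mul (b / 4)).hasDerivWithinAt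
  · intro x hx
    have hxI : x ∈ Icc xL xR := Ioo_subset_Icc_self hx
    have hgx := hg x hxI
    have hρx := hρ x
    rw [hV x]
    set s := p x / g x with hs
    have hp : p x = s * g x := by rw [hs]; field_simp
    have e : b / 4 * (2 * ρ x * (2 * r x) * s +
        ρ x ^ 2 * ((((4 * ((ρ x * D x - r x ^ 2) / ρ x ^ 2) / (b * ρ x) - b * ρ x) * g x) * g x
          - p x * (b * ρ x * p x)) / g x ^ 2))
        = D x - b ^ 2 / 4 * ρ x ^ 3 - (r x - b / 2 * ρ x ^ 2 * s) ^ 2 / ρ x := by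
      rw [hp]
      field_simp
      ring
    rw [e]
    have : 0 ≤ (r x - b / 2 * ρ x ^ 2 * s) ^ 2 / ρ x := by positivity
    linarith

end Vale.Agent.Lib.P371.Cal
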