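import Mathlib

open Set MeasureTheory Real

namespace Vale.Agent.Lib.P371.Cal

variable {ι : Type*} [Fintype ι]

/-- Density. -/
noncomputable def rho (Ψ : ℝ → ι → ℝ) (x : ℝ) : ℝ := ∑ i, Ψ x i ^ 2

/-- Kinetic density. -/
noncomputable def dens (Ψ' : ℝ → ι → ℝ) (x : ℝ) : ℝ := ∑ i, Ψ' x i ^ 2

/-- `ρ_x / 2`. -/
noncomputable def rr (Ψ Ψ' : ℝ → ι → ℝ) (x : ℝ) : ℝ := ∑ i, Ψ x i * Ψ' x i

/-- Squared speed of the unit vector `Ψ / √ρ`. -/
noncomputable def speedSq (Ψ Ψ' : ℝ → ι → ℝ) (x : ℝ) : ℝ :=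
  (rho Ψ x * dens Ψ' x - rr Ψ Ψ' x ^ 2) / rho Ψ x ^ 2

/-- The component along `e`. -/
noncomputable def comp (e : ι → ℝ) (Ψ : ℝ → ι → ℝ) (x : ℝ) : ℝ := ∑ i, e i * Ψ x i

/-- The variable `y`, with `1 - y² = comp² / ((1 + ε²) ρ)`. -/
noncomputable def yfun (ε : ℝ) (e : ι → ℝ) (Ψ : ℝ → ι → ℝ) (x : ℝ) : ℝ :=
  √(1 - comp e Ψ x ^ 2 / ((1 + ε ^ 2) * rho Ψ x))

/-- The derivative of `yfun`. -/
noncomputable def yder (ε : ℝ) (e : ι → ℝ) (Ψ Ψ' : ℝ → ι → ℝ) (x : ℝ) : ℝ :=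
  -(2 * comp e Ψ x * (comp e Ψ' x * rho Ψ x - comp e Ψ x * rr Ψ Ψ' x) / rho Ψ x ^ 2) /
    (2 * (1 + ε ^ 2) * yfun ε e Ψ x)

variable {Ψ Ψ' : ℝ → ι → ℝ}

lemma hasDerivAt_rho (hd : ∀ i x, HasDerivAt (fun t => Ψ t i) (Ψ' x i) x) (x : ℝ) :
    HasDerivAt (rho Ψ) (2 * rr Ψ Ψ' x) x := by
  have h : HasDerivAt (fun t => ∑ i, Ψ t i ^ 2) (∑ i, (2 * (Ψ x i * Ψ' x i))) x := by
    apply HasDerivAt.fun_sum
    intro i _
    have := (hd i x).fun_pow 2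
    refine this.congr_deriv ?_
    norm_num
    ring
  have e1 : (rho Ψ) = (fun t => ∑ i, Ψ t i ^ 2) := by
    funext t; rfl
  rw [e1]
  convert h using 1
  rw [rr, Finset.mul_sum]

lemma continuous_rho (hd : ∀ i x, HasDerivAt (fun t => Ψ t i) (Ψ' x i) x) :
    Continuous (rho Ψ) :=
  continuous_iff_continuousAt.2 fun x => (hasDerivAt_rho hd x).continuousAt

lemma rr_sq_le (x : ℝ) : rr Ψ Ψ' x ^ 2 ≤ rho Ψ x * dens Ψ' x :=
  Finset.sum_mul_sq_le_sq_mul_sq _ _ _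

lemma speedSq_nonneg (_hρ : ∀ x, 0 < rho Ψ x) (x : ℝ) : 0 ≤ speedSq Ψ Ψ' x := by
  unfold speedSq
  apply div_nonneg
  · linarith [rr_sq_le (Ψ := Ψ) (Ψ' := Ψ') x]
  · exact sq_nonneg _

lemma continuous_speedSq (hd : ∀ i x, HasDerivAt (fun t => Ψ t i) (Ψ' x i) x)
    (hc : ∀ i, Continuous fun x => Ψ' x i) (hρ : ∀ x, 0 < rho Ψ x) :
    Continuous (speedSq Ψ Ψ') := by
  have cΨ : ∀ i, Continuous fun x => Ψ x i := fun i =>
    continuous_iff_continuousAt.2 fun x => (hd i x).continuousAt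
  have c1 : Continuous (rho Ψ) := continuous_rho hd
  have c2 : Continuous (dens Ψ') := by
    unfold dens
    exact continuous_finsetSum _ fun i _ => (hc i).pow 2
  have c3 : Continuous (rr Ψ Ψ') := by
    unfold rr
    exact continuous_finsetSum _ fun i _ => (cΨ i).mul (hc i)
  unfold speedSq
  apply Continuous.div
  · exact (c1.mul c2).sub (c3.pow 2)
  · exact c1.pow 2
  · intro x; exact pow_ne_zero 2 (hρ x).ne'

/-- Cauchy-Schwarz for the component. -/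
lemma comp_sq_le (e : ι → ℝ) (he : ∑ i, e i ^ 2 = 1) (x : ℝ) : comp e Ψ x ^ 2 ≤ rho Ψ x := by
  have h := Finset.sum_mul_sq_le_sq_mul_sq Finset.univ e (fun i => Ψ x i)
  rw [he, one_mul] at h
  exact h

/-- The Gram determinant inequality for `Ψ`, `Ψ'`, `e`. -/
lemma gram_ineq (e : ι → ℝ) (he : ∑ i, e i ^ 2 = 1) (x : ℝ) :
    (comp e Ψ' x * rho Ψ x - comp e Ψ x * rr Ψ Ψ' x) ^ 2 ≤
      (rho Ψ x - comp e Ψ x ^ 2) * (rho Ψ x * dens Ψ' x - rr Ψ Ψ' x ^ 2) := by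
  set R := rho Ψ x with hR
  set D := dens Ψ' x with hD
  set r := rr Ψ Ψ' x with hr
  set c := comp e Ψ x with hc
  set c' := comp e Ψ' x with hc'
  have hR0 : 0 ≤ R := Finset.sum_nonneg fun i _ => sq_nonneg _
  rcases hR0.eq_or_lt with h0 | hpos
  · -- ρ = 0: everything vanishes
    have hz : ∀ i, Ψ x i = 0 := by
      intro i
      have h1 : ∑ i, Ψ x i ^ 2 = 0 := h0.symm
      have h2 := (Finset.sum_eq_zero_iff_of_nonneg (fun i _ => sq_nonneg (Ψ x i))).1 h1 i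
        (Finset.mem_univ i)
      exact pow_eq_zero_iff (two_ne_zero) |>.1 h2
    have hc0 : c = 0 := by
      rw [hc, comp]; simp [hz]
    have hr0 : r = 0 := by
      rw [hr, rr]; simp [hz]
    rw [hc0, hr0, ← h0]; simp
  · have hcs := Finset.sum_mul_sq_le_sq_mul_sq Finset.univ
      (fun i => R * Ψ' x i - r * Ψ x i) (fun i => R * e i - c * Ψ x i)
    have h1 : ∑ i, (R * Ψ' x i - r * Ψ x i) * (R * e i - c * Ψ x i) = R * (R * c' - c * r) := by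
      calc ∑ i, (R * Ψ' x i - r * Ψ x i) * (R * e i - c * Ψ x i)
          = ∑ i, (R ^ 2 * (e i * Ψ' x i) - R * c * (Ψ x i * Ψ' x i) - r * R * (e i * Ψ x i)
              + r * c * Ψ x i ^ 2) := by
            refine Finset.sum_congr rfl fun i _ => ?_
            ring
        _ = R ^ 2 * c' - R * c * r - r * R * c + r * c * R := by
            rw [Finset.sum_add_distrib, Finset.sum_sub_distrib, Finset.sum_sub_distrib,
              ← Finset.mul_sum, ← Finset.mul_sum, ← Finset.mul_sum, ← Finset.mul_sum]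
            rfl
        _ = _ := by ring
    have h2 : ∑ i, (R * Ψ' x i - r * Ψ x i) ^ 2 = R * (R * D - r ^ 2) := by
      calc ∑ i, (R * Ψ' x i - r * Ψ x i) ^ 2
          = ∑ i, (R ^ 2 * Ψ' x i ^ 2 - 2 * R * r * (Ψ x i * Ψ' x i) + r ^ 2 * Ψ x i ^ 2) := by
            refine Finset.sum_congr rfl fun i _ => ?_
            ring
        _ = R ^ 2 * D - 2 * R * r * r + r ^ 2 * R := by
            rw [Finset.sum_add_distrib, Finset.sum_sub_distrib,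
              ← Finset.mul_sum, ← Finset.mul_sum, ← Finset.mul_sum]
            rfl
        _ = _ := by ring
    have h3 : ∑ i, (R * e i - c * Ψ x i) ^ 2 = R * (R - c ^ 2) := by
      calc ∑ i, (R * e i - c * Ψ x i) ^ 2
          = ∑ i, (R ^ 2 * e i ^ 2 - 2 * R * c * (e i * Ψ x i) + c ^ 2 * Ψ x i ^ 2) := by
            refine Finset.sum_congr rfl fun i _ => ?_
            ring
        _ = R ^ 2 * 1 - 2 * R * c * c + c ^ 2 * R := by
            rw [Finset.sum_add_distrib, Finset.sum_sub_distrib,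
              ← Finset.mul_sum, ← Finset.mul_sum, ← Finset.mul_sum, he]
            rfl
        _ = _ := by ring
    rw [h1, h2, h3] at hcs
    have hR2 : 0 < R ^ 2 := by positivity
    have : R ^ 2 * (c' * R - c * r) ^ 2 ≤ R ^ 2 * ((R - c ^ 2) * (R * D - r ^ 2)) := by
      nlinarith [hcs]
    exact le_of_mul_le_mul_left this hR2

lemma yfun_arg_pos (hρ : ∀ x, 0 < rho Ψ x) {ε : ℝ} (hε : 0 < ε) (e : ι → ℝ)
    (he : ∑ i, e i ^ 2 = 1) (x : ℝ) :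
    0 < 1 - comp e Ψ x ^ 2 / ((1 + ε ^ 2) * rho Ψ x) := by
  have h1 := comp_sq_le (Ψ := Ψ) e he x
  have h2 := hρ x
  have h3 : 0 < (1 + ε ^ 2) * rho Ψ x := by positivity
  have h4 : comp e Ψ x ^ 2 / ((1 + ε ^ 2) * rho Ψ x) < 1 := by
    rw [div_lt_one h3]
    nlinarith [sq_pos_of_pos hε]
  linarith

lemma yfun_mem (hρ : ∀ x, 0 < rho Ψ x) {ε : ℝ} (hε : 0 < ε) (e : ι → ℝ) (he : ∑ i, e i ^ 2 = 1)
    (x : ℝ) : 0 < yfun ε e Ψ x ∧ yfun ε e Ψ x ≤ 1 := by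
  constructor
  · exact Real.sqrt_pos.2 (yfun_arg_pos hρ hε e he x)
  · unfold yfun
    have h2 := hρ x
    have : 0 ≤ comp e Ψ x ^ 2 / ((1 + ε ^ 2) * rho Ψ x) := by positivity
    apply Real.sqrt_le_iff.2
    constructor
    · exact zero_le_one
    · linarith

lemma one_sub_yfun_sq (hρ : ∀ x, 0 < rho Ψ x) {ε : ℝ} (hε : 0 < ε) (e : ι → ℝ)
    (he : ∑ i, e i ^ 2 = 1) (x : ℝ) :
    1 - yfun ε e Ψ x ^ 2 = comp e Ψ x ^ 2 / ((1 + ε ^ 2) * rho Ψ x) := by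
  unfold yfun
  rw [Real.sq_sqrt (yfun_arg_pos hρ hε e he x).le]
  ring

lemma hasDerivAt_comp (hd : ∀ i x, HasDerivAt (fun t => Ψ t i) (Ψ' x i) x) (e : ι → ℝ) (x : ℝ) :
    HasDerivAt (comp e Ψ) (comp e Ψ' x) x := by
  have h : HasDerivAt (fun t => ∑ i, e i * Ψ t i) (∑ i, e i * Ψ' x i) x := by
    apply HasDerivAt.fun_sum
    intro i _
    exact (hd i x).const_mul (e i)
  exact h

lemma hasDerivAt_yfun (hd : ∀ i x, HasDerivAt (fun t => Ψ t i) (Ψ' x i) x)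
    (hρ : ∀ x, 0 < rho Ψ x) {ε : ℝ} (hε : 0 < ε) (e : ι → ℝ) (he : ∑ i, e i ^ 2 = 1) (x : ℝ) :
    HasDerivAt (yfun ε e Ψ) (yder ε e Ψ Ψ' x) x := by
  have hR := hρ x
  have h1 := hasDerivAt_rho hd x
  have h2 := hasDerivAt_comp hd e x
  have h3 := h2.pow 2
  have hk : 0 < 1 + ε ^ 2 := by positivity
  have h4 := h1.const_mul (1 + ε ^ 2)
  have hne : (1 + ε ^ 2) * rho Ψ x ≠ 0 := by positivity
  have h5 := h3.div h4 hne
  have h6 := (hasDerivAt_const x (1 : ℝ)).sub h5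
  have hpos := yfun_arg_pos hρ hε e he x
  have h7 := h6.sqrt hpos.ne'
  have hy := yfun_mem hρ hε e he x
  have hy1 := hy.1
  refine HasDerivAt.congr_deriv (f := yfun ε e Ψ) h7 ?_
  change _ / (2 * yfun ε e Ψ x) = _
  unfold yder
  simp only [Pi.pow_apply]
  field_simp
  ring

lemma continuous_yfun (hd : ∀ i x, HasDerivAt (fun t => Ψ t i) (Ψ' x i) x)
    (hρ : ∀ x, 0 < rho Ψ x) {ε : ℝ} (hε : 0 < ε) (e : ι → ℝ) (he : ∑ i, e i ^ 2 = 1) :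
    Continuous (yfun ε e Ψ) :=
  continuous_iff_continuousAt.2 fun x => (hasDerivAt_yfun hd hρ hε e he x).continuousAt

/-- The speed bound for `y`. -/
lemma abs_yder_le (hρ : ∀ x, 0 < rho Ψ x) {ε : ℝ} (hε : 0 < ε) (e : ι → ℝ)
    (he : ∑ i, e i ^ 2 = 1) (x : ℝ) :
    |yder ε e Ψ Ψ' x| ≤ √(1 - yfun ε e Ψ x ^ 2) * √(speedSq Ψ Ψ' x) := by
  have hR := hρ x
  have hy := yfun_mem hρ hε e he x
  have hsub := one_sub_yfun_sq hρ hε e he x
  have hg := gram_ineq (Ψ := Ψ) (Ψ' := Ψ') e he x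
  have hcs := comp_sq_le (Ψ := Ψ) e he x
  set R := rho Ψ x with hRdef
  set D := dens Ψ' x with hD
  set r := rr Ψ Ψ' x with hr
  set c := comp e Ψ x with hc
  set c' := comp e Ψ' x with hc'
  set y := yfun ε e Ψ x with hyd
  have hy1 : 0 < y := hy.1
  have hk : 0 < 1 + ε ^ 2 := by positivity
  have hS0 : 0 ≤ speedSq Ψ Ψ' x := speedSq_nonneg hρ x
  have hnn1 : 0 ≤ 1 - y ^ 2 := by rw [hsub]; positivity
  rw [← Real.sqrt_mul hnn1]
  apply Real.abs_le_sqrt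
  have hys : (1 + ε ^ 2) * R * y ^ 2 = (1 + ε ^ 2) * R - c ^ 2 := by
    have : y ^ 2 = 1 - c ^ 2 / ((1 + ε ^ 2) * R) := by linarith
    rw [this]
    field_simp
  have e1 : yder ε e Ψ Ψ' x ^ 2 =
      (c ^ 2 * (c' * R - c * r) ^ 2) / (R ^ 4 * ((1 + ε ^ 2) ^ 2 * y ^ 2)) := by
    unfold yder
    rw [← hRdef, ← hr, ← hc, ← hc', ← hyd]
    field_simp
  have e2 : (1 - y ^ 2) * speedSq Ψ Ψ' x =
      (c ^ 2 * (R * D - r ^ 2)) / ((1 + ε ^ 2) * R ^ 3) := by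
    rw [hsub]
    unfold speedSq
    rw [← hRdef, ← hr, ← hD]
    field_simp
  rw [e1, e2]
  rw [div_le_div_iff₀ (by positivity) (by positivity)]
  have hq : 0 ≤ R * D - r ^ 2 := by
    have := rr_sq_le (Ψ := Ψ) (Ψ' := Ψ') x
    linarith
  have hkey : (c' * R - c * r) ^ 2 * ((1 + ε ^ 2) * R ^ 3)
      ≤ (R * D - r ^ 2) * (R ^ 4 * ((1 + ε ^ 2) ^ 2 * y ^ 2)) := by
    have h5 : (R * D - r ^ 2) * (R ^ 4 * ((1 + ε ^ 2) ^ 2 * y ^ 2))
        = (R * D - r ^ 2) * ((1 + ε ^ 2) * R ^ 3) * ((1 + ε ^ 2) * R * y ^ 2) := by ring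
    rw [h5, hys]
    have h6 : 0 ≤ (1 + ε ^ 2) * R ^ 3 := by positivity
    have h7 : R - c ^ 2 ≤ (1 + ε ^ 2) * R - c ^ 2 := by nlinarith [sq_nonneg ε]
    calc (c' * R - c * r) ^ 2 * ((1 + ε ^ 2) * R ^ 3)
        ≤ ((R - c ^ 2) * (R * D - r ^ 2)) * ((1 + ε ^ 2) * R ^ 3) :=
          mul_le_mul_of_nonneg_right hg h6
      _ ≤ (((1 + ε ^ 2) * R - c ^ 2) * (R * D - r ^ 2)) * ((1 + ε ^ 2) * R ^ 3) := by
          apply mul_le_mul_of_nonneg_right _ h6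
          exact mul_le_mul_of_nonneg_right h7 hq
      _ = _ := by ring
  calc c ^ 2 * (c' * R - c * r) ^ 2 * ((1 + ε ^ 2) * R ^ 3)
      = c ^ 2 * ((c' * R - c * r) ^ 2 * ((1 + ε ^ 2) * R ^ 3)) := by ring
    _ ≤ c ^ 2 * ((R * D - r ^ 2) * (R ^ 4 * ((1 + ε ^ 2) ^ 2 * y ^ 2))) :=
        mul_le_mul_of_nonneg_left hkey (sq_nonneg c)
    _ = _ := by ring

/-- At the unit vector `e = Ψ(x0) / √ρ(x0)` the variable `y` is at most `ε`. -/
lemma yfun_at_base (hρ : ∀ x, 0 < rho Ψ x) {ε : ℝ} (hε : 0 < ε) (x0 : ℝ) :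
    let e : ι → ℝ := fun i => Ψ x0 i / √(rho Ψ x0)
    (∑ i, e i ^ 2 = 1) ∧ yfun ε e Ψ x0 ≤ ε := by
  intro e
  have hR := hρ x0
  have hs : 0 < √(rho Ψ x0) := Real.sqrt_pos.2 hR
  have hss : √(rho Ψ x0) ^ 2 = rho Ψ x0 := Real.sq_sqrt hR.le
  have he : ∑ i, e i ^ 2 = 1 := by
    have : ∀ i, e i ^ 2 = Ψ x0 i ^ 2 / rho Ψ x0 := by
      intro i
      simp only [e, div_pow, hss]
    simp only [this]
    rw [← Finset.sum_div]
    exact div_self hR.ne'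
  refine ⟨he, ?_⟩
  have hc : comp e Ψ x0 = √(rho Ψ x0) := by
    unfold comp
    have : ∀ i, e i * Ψ x0 i = Ψ x0 i ^ 2 / √(rho Ψ x0) := by
      intro i
      simp only [e]
      ring
    simp only [this]
    rw [← Finset.sum_div]
    have : ∑ i, Ψ x0 i ^ 2 = rho Ψ x0 := rfl
    rw [this]
    field_simp
    exact hss.symm
  unfold yfun
  rw [hc, hss]
  apply Real.sqrt_le_iff.2
  refine ⟨hε.le, ?_⟩
  have hk : 0 < 1 + ε ^ 2 := by positivity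
  have : 1 - rho Ψ x0 / ((1 + ε ^ 2) * rho Ψ x0) = ε ^ 2 / (1 + ε ^ 2) := by
    field_simp
    ring
  rw [this]
  rw [div_le_iff₀ hk]
  nlinarith [sq_nonneg ε, sq_nonneg (ε ^ 2)]

end Vale.Agent.Lib.P371.Cal
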