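import Vale.Agent.Lib.P371.CalDefs
import Vale.Agent.Lib.P371.CalODE
import Vale.Agent.Lib.P371.CalEnergy
import Vale.Agent.Lib.P371.CalArc
import Vale.Agent.Lib.P371.CalVec
import Vale.Agent.Lib.P371.CalRiccati

open Set MeasureTheory Real

namespace Vale.Agent.Lib.P371.Cal

variable {ι : Type*} [Fintype ι]

lemma nonneg_of_pos_on_Ico {h : ℝ → ℝ} {a b : ℝ} (hab : a < b) (ch : ContinuousOn h (Icc a b))
    (hp : ∀ x ∈ Ico a b, 0 < h x) : 0 ≤ h b := by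
  by_contra hb
  push Not at hb
  have ha := hp a ⟨le_rfl, hab⟩
  have := intermediate_value_Icc' hab.le ch
  obtain ⟨x, hx, hx0⟩ := this ⟨hb.le, ha.le⟩
  rcases eq_or_lt_of_le hx.2 with rfl | hlt
  · linarith
  · have := hp x ⟨hx.1, hlt⟩
    linarith

lemma exists_right_pos {q : ℝ → ℝ} {a b : ℝ} (hab : a < b) (cq : ContinuousOn q (Icc a b))
    (ha : 0 < q a) : ∃ t, a < t ∧ t ≤ b ∧ ∀ x ∈ Icc a t, 0 < q x := by
  have h0 : ContinuousWithinAt q (Icc a b) a := cq a ⟨le_rfl, hab.le⟩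
  have h1 : ∀ᶠ x in nhdsWithin a (Icc a b), 0 < q x := h0.eventually_const_lt ha
  rw [nhdsWithin_Icc_eq_nhdsGE hab] at h1
  obtain ⟨u, hu, hsub⟩ := mem_nhdsGE_iff_exists_Icc_subset.1 h1
  exact ⟨min u b, lt_min hu hab, min_le_right _ _,
    fun x hx => hsub ⟨hx.1, hx.2.trans (min_le_left _ _)⟩⟩

lemma exists_left_pos {q : ℝ → ℝ} {a b : ℝ} (hab : a < b) (cq : ContinuousOn q (Icc a b))
    (hb : 0 < q b) : ∃ t, a ≤ t ∧ t < b ∧ ∀ x ∈ Icc t b, 0 < q x := by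
  have h0 : ContinuousWithinAt q (Icc a b) b := cq b ⟨hab.le, le_rfl⟩
  have h1 : ∀ᶠ x in nhdsWithin b (Icc a b), 0 < q x := h0.eventually_const_lt hb
  rw [nhdsWithin_Icc_eq_nhdsLE hab] at h1
  obtain ⟨u, hu, hsub⟩ := mem_nhdsLE_iff_exists_Icc_subset.1 h1
  exact ⟨max u a, le_max_right _ _, max_lt hu hab,
    fun x hx => hsub ⟨(le_max_left _ _).trans hx.1, hx.2⟩⟩

lemma lt_of_p_pos {g p w : ℝ → ℝ} {a b : ℝ} (hab : a < b) (cg : ContinuousOn g (Icc a b))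
    (dg : ∀ x ∈ Ioo a b, HasDerivAt g (w x * p x) x) (hw : ∀ x ∈ Ioo a b, 0 < w x)
    (hp : ∀ x ∈ Icc a b, 0 < p x) : g a < g b := by
  have h := strictMonoOn_of_deriv_pos (convex_Icc a b) cg (fun x hx => by
    rw [interior_Icc] at hx
    rw [(dg x hx).deriv]
    exact mul_pos (hw x hx) (hp x (Ioo_subset_Icc_self hx)))
  exact h (left_mem_Icc.2 hab.le) (right_mem_Icc.2 hab.le) hab

lemma lt_of_p_neg {g p w : ℝ → ℝ} {a b : ℝ} (hab : a < b) (cg : ContinuousOn g (Icc a b))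
    (dg : ∀ x ∈ Ioo a b, HasDerivAt g (w x * p x) x) (hw : ∀ x ∈ Ioo a b, 0 < w x)
    (hp : ∀ x ∈ Icc a b, p x < 0) : g b < g a := by
  have h := strictAntiOn_of_deriv_neg (convex_Icc a b) cg (fun x hx => by
    rw [interior_Icc] at hx
    rw [(dg x hx).deriv]
    exact mul_neg_of_pos_of_neg (hw x hx) (hp x (Ioo_subset_Icc_self hx)))
  exact h (left_mem_Icc.2 hab.le) (right_mem_Icc.2 hab.le) hab

/-- `g` stays positive as long as `p + g / η > 0`. -/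
lemma g_pos_of_cond {g p w : ℝ → ℝ} {a b η : ℝ} (_hab : a ≤ b) (hη : 0 < η)
    (cg : ContinuousOn g (Icc a b)) (cp : ContinuousOn p (Icc a b))
    (dg : ∀ x ∈ Ioo a b, HasDerivAt g (w x * p x) x) (hw : ∀ x ∈ Ioo a b, 0 < w x)
    (ha : 0 < g a) (hc : ∀ x ∈ Icc a b, 0 < p x + g x / η) : ∀ x ∈ Icc a b, 0 < g x := by
  by_contra hcon
  push Not at hcon
  obtain ⟨x', hx', hgx'⟩ := hcon
  have hTc : IsClosed (Icc a b ∩ g ⁻¹' Iic 0) :=
    cg.preimage_isClosed_of_isClosed isClosed_Icc isClosed_Iic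
  have hTk : IsCompact (Icc a b ∩ g ⁻¹' Iic 0) :=
    isCompact_Icc.of_isClosed_subset hTc inter_subset_left
  obtain ⟨s, hs, hmin⟩ := hTk.exists_isLeast ⟨x', hx', hgx'⟩
  have hgs : g s ≤ 0 := hs.2
  have has : a < s := by
    rcases eq_or_lt_of_le hs.1.1 with rfl | h
    · exact absurd ha (not_lt.2 hgs)
    · exact h
  have hps : 0 < p s := by
    have h1 := hc s hs.1
    have h2 : g s / η ≤ 0 := div_nonpos_of_nonpos_of_nonneg hgs hη.le
    linarith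
  have cg' : ContinuousOn g (Icc a s) := cg.mono (Icc_subset_Icc_right hs.1.2)
  have cp' : ContinuousOn p (Icc a s) := cp.mono (Icc_subset_Icc_right hs.1.2)
  obtain ⟨t, hat, hts, htp⟩ := exists_left_pos has cp' hps
  have hsub : Ioo t s ⊆ Ioo a b := fun x hx => ⟨hat.trans_lt hx.1, hx.2.trans_le hs.1.2⟩
  have hgt : g t < g s := lt_of_p_pos hts (cg'.mono (Icc_subset_Icc_left hat))
    (fun x hx => dg x (hsub hx)) (fun x hx => hw x (hsub hx)) htp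
  have htT : t ∈ Icc a b ∩ g ⁻¹' Iic 0 :=
    ⟨⟨hat, hts.le.trans hs.1.2⟩, (hgt.trans_le hgs).le⟩
  exact absurd (hmin htT) (not_le.2 hts)

/-- The structure in the bad case. -/
lemma bad_structure (w v g p : ℝ → ℝ) {xL xR η : ℝ} (_h : xL < xR) (hη : 0 < η)
    (hw : ∀ x ∈ Ioo xL xR, 0 < w x) (hv : ∀ x ∈ Ioo xL xR, 0 ≤ v x)
    (cg : ContinuousOn g (Icc xL xR)) (cp : ContinuousOn p (Icc xL xR))
    (dg : ∀ x ∈ Ioo xL xR, HasDerivAt g (w x * p x) x)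
    (dp : ∀ x ∈ Ioo xL xR, HasDerivAt p (w x * ((v x - 1) * g x)) x)
    (gL : g xL = η) (pL : p xL = 1) (hS : ∃ x ∈ Icc xL xR, p x + g x / η ≤ 0) :
    ∃ x0 x1 M, xL < x0 ∧ x0 < x1 ∧ x1 ≤ xR ∧ 1 ≤ M ∧ p x0 = 0 ∧ g x0 = M ∧
      (∀ x ∈ Icc xL x1, 0 ≤ g x) ∧ (∀ x ∈ Icc xL x1, g x ^ 2 + p x ^ 2 ≤ M ^ 2) ∧
      g x1 / M ≤ η := by
  obtain ⟨x', hx', hSx'⟩ := hS
  have cq : ContinuousOn (fun x => p x + g x / η) (Icc xL xR) :=
    cp.add (cg.div_const η)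
  have hTc : IsClosed (Icc xL xR ∩ (fun x => p x + g x / η) ⁻¹' Iic 0) :=
    cq.preimage_isClosed_of_isClosed isClosed_Icc isClosed_Iic
  have hTk : IsCompact (Icc xL xR ∩ (fun x => p x + g x / η) ⁻¹' Iic 0) :=
    isCompact_Icc.of_isClosed_subset hTc inter_subset_left
  obtain ⟨x1, hx1, hmin⟩ := hTk.exists_isLeast ⟨x', hx', hSx'⟩
  have hq1 : p x1 + g x1 / η ≤ 0 := hx1.2
  have hx1R : x1 ≤ xR := hx1.1.2
  have hqL : p xL + g xL / η = 2 := by
    rw [pL, gL, div_self hη.ne']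
    norm_num
  have hL1 : xL < x1 := by
    rcases eq_or_lt_of_le hx1.1.1 with h0 | h0
    · rw [← h0] at hq1
      rw [hqL] at hq1
      norm_num at hq1
    · exact h0
  have hqpos : ∀ x ∈ Ico xL x1, 0 < p x + g x / η := by
    intro x hx
    by_contra hcon
    push Not at hcon
    have hxT : x ∈ Icc xL xR ∩ (fun x => p x + g x / η) ⁻¹' Iic 0 :=
      ⟨⟨hx.1, hx.2.le.trans hx1R⟩, hcon⟩
    exact absurd (hmin hxT) (not_le.2 hx.2)
  have hsub1 : Icc xL x1 ⊆ Icc xL xR := Icc_subset_Icc_right hx1R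
  have hsub2 : Ioo xL x1 ⊆ Ioo xL xR := Ioo_subset_Ioo_right hx1R
  have cg1 : ContinuousOn g (Icc xL x1) := cg.mono hsub1
  have cp1 : ContinuousOn p (Icc xL x1) := cp.mono hsub1
  have hq0 : p x1 + g x1 / η = 0 :=
    le_antisymm hq1 (nonneg_of_pos_on_Ico (h := fun x => p x + g x / η) hL1 (cq.mono hsub1) hqpos)
  have gpos : ∀ x ∈ Ico xL x1, 0 < g x := by
    intro x hx
    have hsub3 : Icc xL x ⊆ Icc xL x1 := Icc_subset_Icc_right hx.2.le
    have hsub4 : Ioo xL x ⊆ Ioo xL xR :=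
      (Ioo_subset_Ioo_right hx.2.le).trans hsub2
    refine g_pos_of_cond hx.1 hη (cg1.mono hsub3) (cp1.mono hsub3)
      (fun y hy => dg y (hsub4 hy)) (fun y hy => hw y (hsub4 hy)) (by rw [gL]; exact hη)
      (fun y hy => hqpos y ⟨hy.1, hy.2.trans_lt hx.2⟩) x ⟨hx.1, le_rfl⟩
  have g1nn : 0 ≤ g x1 := nonneg_of_pos_on_Ico hL1 cg1 gpos
  have gnn : ∀ x ∈ Icc xL x1, 0 ≤ g x := by
    intro x hx
    rcases eq_or_lt_of_le hx.2 with rfl | hlt
    · exact g1nn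
    · exact (gpos x ⟨hx.1, hlt⟩).le
  have hp1 : p x1 = -(g x1 / η) := by linarith
  have hp1le : p x1 ≤ 0 := by
    rw [hp1]
    have : 0 ≤ g x1 / η := div_nonneg g1nn hη.le
    linarith
  obtain ⟨x0, hx0, hmax⟩ := isCompact_Icc.exists_isMaxOn
    (nonempty_Icc.2 hL1.le) cg1
  have hle : ∀ x ∈ Icc xL x1, g x ≤ g x0 := fun x hx => hmax hx
  have hMη : η ≤ g x0 := by
    have := hle xL (left_mem_Icc.2 hL1.le)
    rwa [gL] at this
  have hMpos : 0 < g x0 := hη.trans_le hMη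
  have hx0L : xL < x0 := by
    rcases eq_or_lt_of_le hx0.1 with h0 | h0
    · exfalso
      have hpL : 0 < p xL := by rw [pL]; norm_num
      obtain ⟨t, hLt, ht1, htp⟩ := exists_right_pos hL1 cp1 hpL
      have hsub : Ioo xL t ⊆ Ioo xL xR :=
        (Ioo_subset_Ioo_right ht1).trans hsub2
      have := lt_of_p_pos hLt (cg1.mono (Icc_subset_Icc_right ht1))
        (fun x hx => dg x (hsub hx)) (fun x hx => hw x (hsub hx)) htp
      have h2 := hle t ⟨hLt.le, ht1⟩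
      rw [← h0] at h2
      linarith
    · exact h0
  have hx01 : x0 < x1 := by
    rcases eq_or_lt_of_le hx0.2 with h0 | h0
    · exfalso
      have hg1 : 0 < g x1 := by rw [← h0]; exact hMpos
      have hp1neg : 0 < -p x1 := by
        rw [hp1, neg_neg]
        exact div_pos hg1 hη
      obtain ⟨t, hLt, ht1, htp⟩ := exists_left_pos hL1 cp1.neg hp1neg
      have hsub : Ioo t x1 ⊆ Ioo xL xR :=
        (Ioo_subset_Ioo_left hLt).trans hsub2
      have := lt_of_p_neg ht1 (cg1.mono (Icc_subset_Icc_left hLt))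
        (fun x hx => dg x (hsub hx)) (fun x hx => hw x (hsub hx))
        (fun x hx => by
          have h9 : 0 < -p x := htp x hx
          linarith)
      have h2 := hle t ⟨hLt, ht1.le⟩
      rw [h0] at h2
      linarith
    · exact h0
  have hx0mem : x0 ∈ Ioo xL x1 := ⟨hx0L, hx01⟩
  have hp0 : p x0 = 0 := by
    have hloc : IsLocalMax g x0 := by
      have hn : Icc xL x1 ∈ nhds x0 := Icc_mem_nhds hx0L hx01
      exact hmax.isLocalMax hn
    have h0 := hloc.hasDerivAt_eq_zero (dg x0 (hsub2 hx0mem))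
    have hw0 := hw x0 (hsub2 hx0mem)
    exact (mul_eq_zero.1 h0).resolve_left hw0.ne'
  have hE := energy_le w v g p (M := g x0) hL1.le (fun x hx => hw x (hsub2 hx))
    (fun x hx => hv x (hsub2 hx)) cg1 cp1 (fun x hx => dg x (hsub2 hx))
    (fun x hx => dp x (hsub2 hx)) gnn hle (by rw [pL]; norm_num) hp1le
  have hM1 : 1 ≤ g x0 := by
    have := hE xL (left_mem_Icc.2 hL1.le)
    rw [gL, pL] at this
    nlinarith [sq_nonneg η]
  refine ⟨x0, x1, g x0, hx0L, hx01, hx1R, hM1, hp0, rfl, gnn, hE, ?_⟩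
  rw [div_le_iff₀ hMpos]
  have h5 := hE x1 (right_mem_Icc.2 hL1.le)
  rw [hp1] at h5
  -- `g x1 ^ 2 (1 + 1 / η²) ≤ M²`
  have h6 : g x1 ^ 2 * (η ^ 2 + 1) ≤ g x0 ^ 2 * η ^ 2 := by
    have h7 : (g x1 ^ 2 + (-(g x1 / η)) ^ 2) * η ^ 2 = g x1 ^ 2 * (η ^ 2 + 1) := by
      field_simp
    rw [← h7]
    exact mul_le_mul_of_nonneg_right h5 (sq_nonneg η)
  have h8 : g x1 ^ 2 ≤ (η * g x0) ^ 2 := by
    nlinarith [sq_nonneg (g x1)]
  exact abs_le_of_sq_le_sq' h8 (by positivity) |>.2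

/-- The bad case contradicts the Gram bound. -/
lemma bad_case (D : CalData) {Ψ Ψ' : ℝ → ι → ℝ}
    (hd : ∀ i x, HasDerivAt (fun t => Ψ t i) (Ψ' x i) x)
    (hρ : ∀ x, 0 < rho Ψ x) {xL xR : ℝ} (hx : xL < xR) {G b η : ℝ}
    (hG : ∀ e : ι → ℝ, ∑ i, e i ^ 2 = 1 → ∫ x in xL..xR, comp e Ψ x ^ 2 ≤ G)
    (hb : 0 < b) (hη : 0 < η) (g p : ℝ → ℝ)
    (cg : ContinuousOn g (Icc xL xR)) (cp : ContinuousOn p (Icc xL xR))
    (dg : ∀ x ∈ Ioo xL xR, HasDerivAt g (b * rho Ψ x * p x) x)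
    (dp : ∀ x ∈ Ioo xL xR, HasDerivAt p
      ((4 * speedSq Ψ Ψ' x / (b * rho Ψ x) - b * rho Ψ x) * g x) x)
    (gL : g xL = η) (pL : p xL = 1) (hS : ∃ x ∈ Icc xL xR, p x + g x / η ≤ 0) :
    2 * D.Cstart ≤ b * G + 2 * D.K₁ * η := by
  have cρ : Continuous (rho Ψ) := continuous_rho hd
  have hV0 : ∀ x, 0 ≤ speedSq Ψ Ψ' x := speedSq_nonneg hρ
  -- the rate `κ`
  let κ : ℝ → ℝ := fun x => 2 * √(speedSq Ψ Ψ' x) / (b * rho Ψ x)
  have hbρ : ∀ x, 0 < b * rho Ψ x := fun x => mul_pos hb (hρ x)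
  have hκ0 : ∀ x, 0 ≤ κ x := fun x =>
    div_nonneg (mul_nonneg zero_le_two (Real.sqrt_nonneg _)) (hbρ x).le
  have hκ2 : ∀ x, b * rho Ψ x * ((κ x ^ 2 - 1) * g x) =
      (4 * speedSq Ψ Ψ' x / (b * rho Ψ x) - b * rho Ψ x) * g x := by
    intro x
    have h1 : κ x ^ 2 = 4 * speedSq Ψ Ψ' x / (b * rho Ψ x) ^ 2 := by
      simp only [κ, div_pow, mul_pow, Real.sq_sqrt (hV0 x)]
      norm_num
    rw [h1]
    have h2 := (hρ x).ne'
    have h2' := hb.ne'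
    field_simp
  have dp' : ∀ x ∈ Ioo xL xR, HasDerivAt p (b * rho Ψ x * ((κ x ^ 2 - 1) * g x)) x :=
    fun x hx => (dp x hx).congr_deriv (hκ2 x).symm
  obtain ⟨x0, x1, M, hL0, h01, h1R, hM, p0, g0, gnn, hE, hg1⟩ :=
    bad_structure (fun x => b * rho Ψ x) (fun x => κ x ^ 2) g p hx hη
      (fun x _ => hbρ x) (fun x _ => sq_nonneg _) cg cp dg dp' gL pL hS
  have hMpos : 0 < M := lt_of_lt_of_le one_pos hM
  have hL1 : xL < x1 := hL0.trans h01
  have hsub1 : Icc xL x1 ⊆ Icc xL xR := Icc_subset_Icc_right h1R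
  -- the normalized solution
  let gh : ℝ → ℝ := fun x => g x / M
  let ph : ℝ → ℝ := fun x => p x / M
  have cgh : ContinuousOn gh (Icc xL x1) := (cg.mono hsub1).div_const M
  have cph : ContinuousOn ph (Icc xL x1) := (cp.mono hsub1).div_const M
  have dgh : ∀ x ∈ Ioo xL x1, HasDerivAt gh (b * rho Ψ x * ph x) x := by
    intro x hx
    have := (dg x ⟨hx.1, hx.2.trans_le h1R⟩).div_const M
    refine this.congr_deriv ?_
    simp only [ph]
    ring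
  have dph : ∀ x ∈ Ioo xL x1, HasDerivAt ph (b * rho Ψ x * ((κ x ^ 2 - 1) * gh x)) x := by
    intro x hx
    have := (dp' x ⟨hx.1, hx.2.trans_le h1R⟩).div_const M
    refine this.congr_deriv ?_
    simp only [gh]
    ring
  have ghnn : ∀ x ∈ Icc xL x1, 0 ≤ gh x := fun x hx => div_nonneg (gnn x hx) hMpos.le
  have hEh : ∀ x ∈ Icc xL x1, gh x ^ 2 + ph x ^ 2 ≤ 1 := by
    intro x hx
    have h1 := hE x hx
    simp only [gh, ph, div_pow]
    rw [← add_div, div_le_one (by positivity)]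
    exact h1
  -- the direction and `y`
  have hε : 0 < min D.ystart 1 := lt_min D.ystart_pos one_pos
  set ε := min D.ystart 1 with hεdef
  have hbase := yfun_at_base (ι := ι) (Ψ := Ψ) hρ hε x0
  set e : ι → ℝ := fun i => Ψ x0 i / √(rho Ψ x0) with hedef
  have he : ∑ i, e i ^ 2 = 1 := hbase.1
  have hy0 : yfun ε e Ψ x0 ≤ ε := hbase.2
  let y := yfun ε e Ψ
  let y' := yder ε e Ψ Ψ'
  have cy : Continuous y := continuous_yfun hd hρ hε e he
  have dy : ∀ x, HasDerivAt y (y' x) x := fun x => hasDerivAt_yfun hd hρ hε e he x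
  have hy : ∀ x, 0 ≤ y x ∧ y x ≤ 1 := fun x =>
    ⟨(yfun_mem hρ hε e he x).1.le, (yfun_mem hρ hε e he x).2⟩
  have hy' : ∀ x, |y' x| ≤ b * rho Ψ x * (√(1 - y x ^ 2) * κ x / 2) := by
    intro x
    have h1 := abs_yder_le (Ψ' := Ψ') hρ hε e he x
    have h2 : b * rho Ψ x * (√(1 - y x ^ 2) * κ x / 2) =
        √(1 - yfun ε e Ψ x ^ 2) * √(speedSq Ψ Ψ' x) := by
      simp only [κ, y]
      have h3 := (hρ x).ne'
      have h3' := hb.ne'
      field_simp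
    rw [h2]
    exact h1
  -- the values at the special points
  have hstart : D.Cstart ≤ D.F (y x0) 1 0 :=
    D.start (y x0) (hy x0).1 (hy0.trans (min_le_left _ _))
  have hgh0 : gh x0 = 1 := by
    simp only [gh]
    rw [g0, div_self hMpos.ne']
  have hph0 : ph x0 = 0 := by
    simp only [ph]
    rw [p0, zero_div]
  have hx1mem : x1 ∈ Icc xL x1 := right_mem_Icc.2 hL1.le
  have hxLmem : xL ∈ Icc xL x1 := left_mem_Icc.2 hL1.le
  have hterm1 : D.F (y x1) (gh x1) (ph x1) ≤ D.K₁ * η :=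
    D.terminal _ _ _ _ (hy x1).1 (hy x1).2 (ghnn x1 hx1mem) hg1 (hEh x1 hx1mem)
  have hghL : gh xL ≤ η := by
    simp only [gh]
    rw [gL, div_le_iff₀ hMpos]
    nlinarith
  have hterm2 : D.F (y xL) (gh xL) (-ph xL) ≤ D.K₁ * η :=
    D.terminal _ _ _ _ (hy xL).1 (hy xL).2 (ghnn xL hxLmem) hghL
      (by rw [neg_sq]; exact hEh xL hxLmem)
  -- the arcs
  have hsub01 : Icc x0 x1 ⊆ Icc xL x1 := Icc_subset_Icc_left hL0.le
  have hsubL0 : Icc xL x0 ⊆ Icc xL x1 := Icc_subset_Icc_right h01.le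
  have hIoo01 : Ioo x0 x1 ⊆ Ioo xL x1 := Ioo_subset_Ioo_left hL0.le
  have hIooL0 : Ioo xL x0 ⊆ Ioo xL x1 := Ioo_subset_Ioo_right h01.le
  have harc1 := arc_forward D (b := b) (rho Ψ) κ y y' gh ph h01.le cρ.continuousOn
    (fun x _ => hρ x) hb (cgh.mono hsub01) (cph.mono hsub01) cy.continuousOn
    (fun x hx => dgh x (hIoo01 hx)) (fun x hx => dph x (hIoo01 hx)) (fun x _ => dy x)
    (fun x _ => hy x) (fun x hx => ghnn x (hsub01 hx)) (fun x hx => hEh x (hsub01 hx))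
    (fun x _ => hκ0 x) (fun x _ => hy' x)
  have harc2 := arc_backward D (b := b) (rho Ψ) κ y y' gh ph hL0.le cρ.continuousOn
    (fun x _ => hρ x) hb (cgh.mono hsubL0) (cph.mono hsubL0) cy.continuousOn
    (fun x hx => dgh x (hIooL0 hx)) (fun x hx => dph x (hIooL0 hx)) (fun x _ => dy x)
    (fun x _ => hy x) (fun x hx => ghnn x (hsubL0 hx)) (fun x hx => hEh x (hsubL0 hx))
    (fun x _ => hκ0 x) (fun x _ => hy' x)
  rw [hgh0, hph0] at harc1 harc2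
  rw [neg_zero] at harc2
  -- the integrals
  let f : ℝ → ℝ := fun x => rho Ψ x * (1 - y x ^ 2)
  have cf : Continuous f := cρ.mul (continuous_const.sub (cy.pow 2))
  have ccomp : Continuous (comp e Ψ) :=
    continuous_iff_continuousAt.2 fun x => (hasDerivAt_comp hd e x).continuousAt
  have cc2 : Continuous fun x => comp e Ψ x ^ 2 := ccomp.pow 2
  have hfle : ∀ x, f x ≤ comp e Ψ x ^ 2 := by
    intro x
    have h1 := one_sub_yfun_sq hρ hε e he x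
    have h2 := hρ x
    have h3 : f x = comp e Ψ x ^ 2 / (1 + ε ^ 2) := by
      simp only [f, y]
      rw [h1]
      field_simp
    rw [h3]
    apply div_le_self (sq_nonneg _)
    nlinarith [sq_nonneg ε]
  have hadd : (∫ x in xL..x0, f x) + ∫ x in x0..x1, f x = ∫ x in xL..x1, f x :=
    intervalIntegral.integral_add_adjacent_intervals (cf.intervalIntegrable _ _)
      (cf.intervalIntegrable _ _)
  have hI1 : ∫ x in xL..x1, f x ≤ ∫ x in xL..x1, comp e Ψ x ^ 2 :=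
    intervalIntegral.integral_mono_on hL1.le (cf.intervalIntegrable _ _)
      (cc2.intervalIntegrable _ _) (fun x _ => hfle x)
  have hI2 : ∫ x in xL..x1, comp e Ψ x ^ 2 ≤ ∫ x in xL..xR, comp e Ψ x ^ 2 :=
    intervalIntegral.integral_mono_interval le_rfl hL1.le h1R
      (Filter.Eventually.of_forall fun x => sq_nonneg _) (cc2.intervalIntegrable _ _)
  have hI3 := hG e he
  have hfin : ∫ x in xL..x1, f x ≤ G := hI1.trans (hI2.trans hI3)
  have hfin' : b * ∫ x in xL..x1, f x ≤ b * G := mul_le_mul_of_nonneg_left hfin hb.le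
  rw [← hadd, mul_add] at hfin'
  linarith

/-- The core inequality on a compact interval for `C¹` vector functions with positive density.

Proof. Put `V = speedSq Ψ Ψ'`, `κ = 2 √V / (b ρ)`. Solve (`linear_ode_exists`) `g_x = b ρ p`,
`p_x = (4 V / (b ρ) - b ρ) g = b ρ (κ² - 1) g` on `[xL, xR]` with `g xL = η`, `p xL = 1`.
Let `S = {x ∈ [xL, xR] | p x + g x / η ≤ 0}`.

Good case `S = ∅`: `g > 0` on `[xL, xR]`: at a first zero of `g`, `p + g/η > 0` gives `p > 0`, but `g`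
decreases to `0` there. So `riccati` applies, with `p xL / g xL = 1 / η` and `p xR / g xR ≥ -1 / η`: done.

Bad case, `x1 = min S`: `p x1 + g x1 / η = 0`, `g > 0` on `[xL, x1)`, `g x1 ≥ 0`, `p x1 ≤ 0`. Let `M = max g`
on `[xL, x1]`, attained at `x0`; `M ≥ η > 0`. `x0 ∈ (xL, x1)`: `p xL = 1 > 0` and at `x1` either `g x1 = 0 < η` or
`p x1 < 0`. So `p x0 = 0`. Normalize `ĝ = g / M`, `p̂ = p / M`. By `energy_le` (with `w = b ρ`, `v = κ²`)
`ĝ² + p̂² ≤ 1` on `[xL, x1]`. Let `e = Ψ x0 / √(ρ x0)`, `ε = min ystart 1`, `y = yfun ε e Ψ`, `y' = yder ε e Ψ Ψ'`.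
`|y'| ≤ √(1 - y²) √V = b ρ (√(1 - y²) κ / 2)` (`abs_yder_le`). `y x0 ≤ ε ≤ ystart` (`yfun_at_base`) so
`F (y x0) 1 0 ≥ Cstart` (`D.start`). At `x1`: `ĝ x1 ² (1 + 1 / η²) ≤ 1` so `ĝ x1 ≤ η`, so
`F (y x1) (ĝ x1) (p̂ x1) ≤ K₁ η` (`D.terminal`). At `xL`: `(η² + 1) / M² ≤ 1` so `ĝ xL = η / M ≤ η`, so
`F (y xL) (ĝ xL) (-p̂ xL) ≤ K₁ η`. `arc_forward` on `[x0, x1]` and `arc_backward` on `[xL, x0]` give
`2 Cstart - 2 K₁ η ≤ b ∫_{xL}^{x1} ρ (1 - y²) ≤ b ∫_{xL}^{xR} comp² ≤ b G`, using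
`ρ (1 - y²) = comp² / (1 + ε²)` (`one_sub_yfun_sq`), contradicting `hbη`. -/
theorem core (D : CalData) {Ψ Ψ' : ℝ → ι → ℝ}
    (hd : ∀ i x, HasDerivAt (fun t => Ψ t i) (Ψ' x i) x) (hc : ∀ i, Continuous fun x => Ψ' x i)
    (hρ : ∀ x, 0 < rho Ψ x) {xL xR : ℝ} (hx : xL < xR) {G b η : ℝ}
    (hG : ∀ e : ι → ℝ, ∑ i, e i ^ 2 = 1 → ∫ x in xL..xR, comp e Ψ x ^ 2 ≤ G)
    (hb : 0 < b) (hη : 0 < η) (hbη : b * G + 2 * D.K₁ * η < 2 * D.Cstart) :
    b ^ 2 / 4 * ∫ x in xL..xR, rho Ψ x ^ 3 ≤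
      (∫ x in xL..xR, dens Ψ' x) + b / (4 * η) * (rho Ψ xL ^ 2 + rho Ψ xR ^ 2) := by
  have cρ : Continuous (rho Ψ) := continuous_rho hd
  have cV : Continuous (speedSq Ψ Ψ') := continuous_speedSq hd hc hρ
  have cD : Continuous (dens Ψ') := by
    unfold dens
    exact continuous_finsetSum _ fun i _ => (hc i).pow 2
  have hbρ : ∀ x, 0 < b * rho Ψ x := fun x => mul_pos hb (hρ x)
  have ca : Continuous fun x => b * rho Ψ x := continuous_const.mul cρ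
  have cc : Continuous fun x => 4 * speedSq Ψ Ψ' x / (b * rho Ψ x) - b * rho Ψ x :=
    ((continuous_const.mul cV).div ca fun x => (hbρ x).ne').sub ca
  obtain ⟨g, p, gL, pL, cg, cp, hode⟩ := linear_ode_exists _ _ ca cc xL xR η 1 hx.le
  have dg : ∀ x ∈ Ioo xL xR, HasDerivAt g (b * rho Ψ x * p x) x := fun x hx => (hode x hx).1
  have dp : ∀ x ∈ Ioo xL xR, HasDerivAt p
      ((4 * speedSq Ψ Ψ' x / (b * rho Ψ x) - b * rho Ψ x) * g x) x := fun x hx => (hode x hx).2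
  by_cases hS : ∃ x ∈ Icc xL xR, p x + g x / η ≤ 0
  · exfalso
    have := bad_case D hd hρ hx hG hb hη g p cg cp dg dp gL pL hS
    linarith
  · push Not at hS
    have hg : ∀ x ∈ Icc xL xR, 0 < g x :=
      g_pos_of_cond hx.le hη cg cp dg (fun x _ => hbρ x) (by rw [gL]; exact hη) hS
    have hric := riccati (rho Ψ) (rr Ψ Ψ') (dens Ψ') (speedSq Ψ Ψ') g p hb hx.le cρ cD hρ
      (hasDerivAt_rho hd) (fun x => rfl) cg cp dg dp hg
    have hLv : p xL / g xL = 1 / η := by rw [pL, gL]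
    have hRv : -(1 / η) ≤ p xR / g xR := by
      have hRm : xR ∈ Icc xL xR := right_mem_Icc.2 hx.le
      have h1 := hS xR hRm
      have h2 := hg xR hRm
      rw [le_div_iff₀ h2]
      have h3 : -(1 / η) * g xR = -(g xR / η) := by ring
      rw [h3]
      linarith
    rw [hLv] at hric
    have hρR : 0 ≤ rho Ψ xR ^ 2 := sq_nonneg _
    have hmono : rho Ψ xR ^ 2 * (-(1 / η)) ≤ rho Ψ xR ^ 2 * (p xR / g xR) :=
      mul_le_mul_of_nonneg_left hRv hρR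
    have hb4 : 0 ≤ b / 4 := by positivity
    have h5 : b / 4 * (rho Ψ xR ^ 2 * (-(1 / η)) - rho Ψ xL ^ 2 * (1 / η)) ≤
        b / 4 * (rho Ψ xR ^ 2 * (p xR / g xR) - rho Ψ xL ^ 2 * (1 / η)) :=
      mul_le_mul_of_nonneg_left (by linarith) hb4
    have h6 : b / (4 * η) * (rho Ψ xL ^ 2 + rho Ψ xR ^ 2) =
        -(b / 4 * (rho Ψ xR ^ 2 * (-(1 / η)) - rho Ψ xL ^ 2 * (1 / η))) := by
      field_simp
      ring
    rw [h6]
    linarith

end Vale.Agent.Lib.P371.Cal
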