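import Vale.Agent.Lib.P371.CalDataB

/-!
Calibration data: kernel checks of `q ≥ 0` on boxes (generated).
-/

namespace Vale.Agent.Lib.P371.Cal.Bern

theorem d39_leaf_2 : checkT 6 (R1 natOps d39_er) (R1 natOps d39_ey) (TCert.leaf (RCert.split (RCert.split RCert.leaf RCert.leaf) (RCert.split RCert.leaf RCert.leaf))) 1208925819614629174706176 (Rc natOps (Lc natOps (Rc natOps (Lc natOps d39_et)))) (Rc O2 (Lc O2 (Rc O2 (Lc O2 d39_PT)))) = true := by
  decide +kernel

theorem d39_leaf_6 : checkT 6 (R1 natOps d39_er) (R1 natOps d39_ey) (TCert.leaf (RCert.split RCert.leaf (RCert.split RCert.leaf (RCert.split RCert.leaf RCert.leaf)))) 1208925819614629174706176 (Lc natOps (Lc natOps (Rc natOps d39_et))) (Lc O2 (Lc O2 (Rc O2 d39_PT))) = true := by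
  decide +kernel

end Vale.Agent.Lib.P371.Cal.Bern
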