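import Vale.Agent.Lib.P371.CalDataBL0
import Vale.Agent.Lib.P371.CalDataBL1
import Vale.Agent.Lib.P371.CalDataBL2
import Vale.Agent.Lib.P371.CalDataBL3

/-!
Calibration data: assembly (generated).
-/

namespace Vale.Agent.Lib.P371.Cal.Bern

/-- The subdivision tree. -/
def d39_tree : TCert := (TCert.split (TCert.split (TCert.leaf (RCert.split (RCert.split RCert.leaf RCert.leaf) RCert.leaf)) (TCert.split (TCert.split (TCert.leaf (RCert.split (RCert.split RCert.leaf RCert.leaf) RCert.leaf)) (TCert.leaf (RCert.split (RCert.split RCert.leaf RCert.leaf) (RCert.split RCert.leaf RCert.leaf)))) (TCert.split (TCert.split (TCert.leaf (RCert.split (RCert.split RCert.leaf (RCert.split RCert.leaf RCert.leaf)) (RCert.split RCert.leaf RCert.leaf))) (TCert.leaf (RCert.split (RCert.split RCert.leaf RCert.leaf) (RCert.split RCert.leaf RCert.leaf)))) (TCert.leaf (RCert.split (RCert.split RCert.leaf RCert.leaf) (RCert.split RCert.leaf (RCert.split RCert.leaf RCert.leaf))))))) (TCert.split (TCert.split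 (TCert.leaf (RCert.split RCert.leaf (RCert.split RCert.leaf (RCert.split RCert.leaf RCert.leaf)))) (TCert.leaf (RCert.split RCert.leaf (RCert.split RCert.leaf (RCert.split RCert.leaf RCert.leaf))))) (TCert.leaf (RCert.split RCert.leaf (RCert.split RCert.leaf RCert.leaf)))))

theorem d39_check : checkT 6 (R1 natOps d39_er) (R1 natOps d39_ey) d39_tree 1208925819614629174706176 d39_et d39_PT = true :=
  (split_ok (split_ok d39_leaf_0 (split_ok (split_ok d39_leaf_1 d39_leaf_2) (split_ok (split_ok d39_leaf_3 d39_leaf_4) d39_leaf_5))) (split_ok (split_ok d39_leaf_6 d39_leaf_7) d39_leaf_8))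

theorem d39_hq {y g p : ℝ} (hy0 : 0 ≤ y) (hy1 : y ≤ 1) (hg : 0 ≤ g) (hgp : g ^ 2 + p ^ 2 ≤ 1) :
    0 ≤ evF d39.q y g p :=
  flat_nonneg_fast d39_qN d39_qm d39_check hy0 hy1 hg hgp

/-- The calibration. -/
noncomputable def d39_cal : CalData :=
  d39.toCal d39_shape d39_start d39_hq d39_ht

lemma d39_cal_Cstart : d39_cal.Cstart = ((1587885 : ℤ) : ℝ) / ((1048576 : ℤ) : ℝ) := rfl

end Vale.Agent.Lib.P371.Cal.Bern
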