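import Mathlib

/-!
Calibration data for the scalar Lieb-Thirring bound at `γ = 1`.

The function `F y g p` is a calibration: along a solution of
`g_s = p`, `p_s = (κ² - 1) g`, with `y` moving at speed at most `√(1 - y²) κ / 2`, the quantity
`F y g p` decreases at rate at most `1 - y²`, as long as `g ≥ 0` and `g² + p² ≤ 1`.
-/

open Real

namespace Vale.Agent.Lib.P371.Cal

/-- Calibration data. -/
structure CalData where
  /-- the calibration function -/
  F : ℝ → ℝ → ℝ → ℝ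
  /-- partial derivative in `y` -/
  Fy : ℝ → ℝ → ℝ → ℝ
  /-- partial derivative in `g` -/
  Fg : ℝ → ℝ → ℝ → ℝ
  /-- partial derivative in `p` -/
  Fp : ℝ → ℝ → ℝ → ℝ
  /-- chain rule along curves -/
  chain : ∀ (y g p : ℝ → ℝ) (y' g' p' x : ℝ), HasDerivAt y y' x → HasDerivAt g g' x →
    HasDerivAt p p' x → HasDerivAt (fun t => F (y t) (g t) (p t))
      (Fy (y x) (g x) (p x) * y' + Fg (y x) (g x) (p x) * g' + Fp (y x) (g x) (p x) * p') x
  /-- joint continuity -/
  contF : Continuous fun v : ℝ × ℝ × ℝ => F v.1 v.2.1 v.2.2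
  /-- the pointwise inequality -/
  star : ∀ y g p κ z : ℝ, 0 ≤ y → y ≤ 1 → 0 ≤ g → g ^ 2 + p ^ 2 ≤ 1 → 0 ≤ κ →
    |z| ≤ √(1 - y ^ 2) * κ / 2 →
    0 ≤ (1 - y ^ 2) + Fg y g p * p + Fp y g p * ((κ ^ 2 - 1) * g) + Fy y g p * z
  /-- bound constant at the ends of an arc -/
  K₁ : ℝ
  K₁_nonneg : 0 ≤ K₁
  /-- `F` is small when `g` is small -/
  terminal : ∀ y g p η : ℝ, 0 ≤ y → y ≤ 1 → 0 ≤ g → g ≤ η → g ^ 2 + p ^ 2 ≤ 1 → F y g p ≤ K₁ * η
  /-- the value at the start of an arc -/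
  Cstart : ℝ
  /-- range of `y` for the start value -/
  ystart : ℝ
  ystart_pos : 0 < ystart
  /-- the start value -/
  start : ∀ y : ℝ, 0 ≤ y → y ≤ ystart → Cstart ≤ F y 1 0

/-- Real `H¹(ℝ)` functions: square integrable with square integrable derivative, and `f` is a
primitive of `f'`. -/
structure RH1 (f f' : ℝ → ℝ) : Prop where
  memLp : MeasureTheory.MemLp f 2 MeasureTheory.volume
  memLp_deriv : MeasureTheory.MemLp f' 2 MeasureTheory.volume
  primitive : ∀ a b : ℝ, ∫ t in a..b, f' t = f b - f a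

end Vale.Agent.Lib.P371.Cal
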