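import Vale.Agent.Lib.P371.CalPoly

/-!
A fast kernel-checked positivity checker: Bernstein coefficients by additions of natural numbers.

A homogeneous form `∑ c_k S^k U^(n-k)` is a list `c`. Substitutions `(S, U) ↦ (2 S + U, U)` and
`(S, U) ↦ (S, 2 U + S)` split the cone `S, U ≥ 0`. Nothing here uses division. Signs are
handled by comparing with a multiple of a fixed form.
-/

open Real

namespace Vale.Agent.Lib.P371.Cal.Bern

variable {α β : Type}

/-- Additive operations; `sc k` multiplies by `2^k`. -/
structure AOps (α : Type) where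
  add : α → α → α
  sc : ℕ → α → α

/-- Padded addition of lists. -/
noncomputable def addD (O : AOps α) (u v : List α) : List α :=
  List.rec (motive := fun _ => List α → List α) (fun v => v)
    (fun x xs ih v => List.rec (motive := fun _ => List α) (x :: xs) (fun y ys _ => O.add x y :: ih ys) v) u v

/-- Multiplication of a list by a power of two. -/
noncomputable def scD (O : AOps α) (k : ℕ) (u : List α) : List α :=
  List.rec (motive := fun _ => List α) [] (fun x _ ih => O.sc k x :: ih) u

/-- Operations on natural numbers. -/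
def natOps : AOps ℕ := ⟨Nat.add, fun k x => Nat.shiftLeft x k⟩

/-- Operations on lists. -/
noncomputable def lOps (O : AOps α) : AOps (List α) := ⟨addD O, scD O⟩

/-- One step of the Taylor shift. -/
noncomputable def adjG (O : AOps α) (r : List α) (c : α) : List α :=
  List.rec (motive := fun _ => α → List α) (fun c => [c]) (fun x _ ih c => O.add c x :: ih x) r c

/-- The Taylor shift: `(S, U) ↦ (S + U, U)`. -/
noncomputable def tsG (O : AOps α) (L : List α) : List α :=
  List.rec (motive := fun _ => List α) [] (fun c _ ih => adjG O ih c) L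

/-- `c_i ↦ 2^(k + i) c_i`. -/
noncomputable def scG (O : AOps α) (L : List α) (k : ℕ) : List α :=
  List.rec (motive := fun _ => ℕ → List α) (fun _ => []) (fun x _ ih k => O.sc k x :: ih (Nat.succ k)) L k

/-- Reversal with an accumulator. -/
noncomputable def revG (L acc : List α) : List α :=
  List.rec (motive := fun _ => List α → List α) (fun a => a) (fun x _ ih a => ih (x :: a)) L acc

/-- `(S, U) ↦ (2 S + U, U)`. -/
noncomputable def Lc (O : AOps α) (L : List α) : List α := scG O (tsG O L) 0

/-- `(S, U) ↦ (S, 2 U + S)`. -/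
noncomputable def Rc (O : AOps α) (L : List α) : List α := revG (scG O (tsG O (revG L [])) 0) []

/-- `(S, U) ↦ (S, S + U)`. -/
noncomputable def R1 (O : AOps α) (L : List α) : List α := revG (tsG O (revG L [])) []

/-- Simultaneous test on two lists of the same length. -/
noncomputable def all2 (f : α → β → Bool) (u : List α) (v : List β) : Bool :=
  List.rec (motive := fun _ => List β → Bool)
    (fun v => List.rec (motive := fun _ => Bool) true (fun _ _ _ => false) v)
    (fun x _ ih v => List.rec (motive := fun _ => Bool) false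
      (fun y ys _ => Bool.rec false (ih ys) (f x y)) v) u v

/-- The comparison of forms. -/
noncomputable def domC (c : ℕ) (e P : List ℕ) : Bool := all2 (fun ei pi => Nat.ble (Nat.mul c ei) pi) e P

/-- The comparison with bisection. -/
noncomputable def chkN (fuel : ℕ) : ℕ → List ℕ → List ℕ → Bool :=
  Nat.rec (motive := fun _ => ℕ → List ℕ → List ℕ → Bool) (fun c e P => domC c e P)
    (fun _ ih c e P => Bool.rec
      (Bool.rec false (ih c (Rc natOps e) (Rc natOps P)) (ih c (Lc natOps e) (Lc natOps P)))
      true (domC c e P)) fuel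

/-- Subdivision certificates for the variable `r`. -/
inductive RCert where
  | leaf : RCert
  | split : RCert → RCert → RCert

/-- Subdivision certificates for the cone variable. -/
inductive TCert where
  | leaf : RCert → TCert
  | split : TCert → TCert → TCert

/-- Operations on polynomials in `y`. -/
noncomputable def O1 : AOps (List ℕ) := lOps natOps

/-- Operations on rows. -/
noncomputable def O2 : AOps (List (List ℕ)) := lOps O1

/-- The check of a row in `r`, `y`. -/
noncomputable def checkR (fuel : ℕ) (ey : List ℕ) (rc : RCert) : ℕ → List ℕ → List (List ℕ) → Bool :=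
  RCert.rec (motive := fun _ => ℕ → List ℕ → List (List ℕ) → Bool)
    (fun c er row => all2 (fun ed u => chkN fuel (Nat.mul c ed) ey (R1 natOps u)) er row)
    (fun _ _ iha ihb c er row => Bool.rec false (ihb c (Rc natOps er) (Rc O1 row))
      (iha c (Lc natOps er) (Lc O1 row))) rc

/-- The check of a tensor in the cone variable, `r`, `y`. -/
noncomputable def checkT (fuel : ℕ) (er ey : List ℕ) (tc : TCert) : ℕ → List ℕ → List (List (List ℕ)) → Bool :=
  TCert.rec (motive := fun _ => ℕ → List ℕ → List (List (List ℕ)) → Bool)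
    (fun rc c et T => all2 (fun ej row => checkR fuel ey rc (Nat.mul c ej) er (R1 O1 row)) et T)
    (fun _ _ iha ihb c et T => Bool.rec false (ihb c (Rc natOps et) (Rc O2 T))
      (iha c (Lc natOps et) (Lc O2 T))) tc

/-! ### Equations -/

lemma addD_nil (O : AOps α) (v : List α) : addD O [] v = v := rfl
lemma addD_cons_nil (O : AOps α) (x : α) (xs : List α) : addD O (x :: xs) [] = x :: xs := rfl
lemma addD_cons_cons (O : AOps α) (x y : α) (xs ys : List α) :
    addD O (x :: xs) (y :: ys) = O.add x y :: addD O xs ys := rfl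
lemma scD_nil (O : AOps α) (k : ℕ) : scD O k [] = [] := rfl
lemma scD_cons (O : AOps α) (k : ℕ) (x : α) (xs : List α) :
    scD O k (x :: xs) = O.sc k x :: scD O k xs := rfl
lemma adjG_nil (O : AOps α) (c : α) : adjG O [] c = [c] := rfl
lemma adjG_cons (O : AOps α) (x c : α) (xs : List α) :
    adjG O (x :: xs) c = O.add c x :: adjG O xs x := rfl
lemma tsG_nil (O : AOps α) : tsG O [] = [] := rfl
lemma tsG_cons (O : AOps α) (c : α) (cs : List α) : tsG O (c :: cs) = adjG O (tsG O cs) c := rfl
lemma scG_nil (O : AOps α) (k : ℕ) : scG O [] k = [] := rfl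
lemma scG_cons (O : AOps α) (x : α) (xs : List α) (k : ℕ) :
    scG O (x :: xs) k = O.sc k x :: scG O xs (k + 1) := rfl
lemma revG_nil (a : List α) : revG [] a = a := rfl
lemma revG_cons (x : α) (xs a : List α) : revG (x :: xs) a = revG xs (x :: a) := rfl

lemma revG_eq : ∀ (L a : List α), revG L a = L.reverse ++ a
  | [], a => by simp [revG_nil]
  | x :: xs, a => by simp [revG_cons, revG_eq xs]

lemma all2_nil_nil (f : α → β → Bool) : all2 f [] [] = true := rfl
lemma all2_nil_cons (f : α → β → Bool) (y : β) (ys : List β) : all2 f [] (y :: ys) = false := rfl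
lemma all2_cons_nil (f : α → β → Bool) (x : α) (xs : List α) : all2 f (x :: xs) [] = false := rfl
lemma all2_cons_cons (f : α → β → Bool) (x : α) (y : β) (xs : List α) (ys : List β) :
    all2 f (x :: xs) (y :: ys) = Bool.rec false (all2 f xs ys) (f x y) := rfl

lemma all2_cons_true {f : α → β → Bool} {x : α} {y : β} {xs : List α} {ys : List β}
    (h : all2 f (x :: xs) (y :: ys) = true) : f x y = true ∧ all2 f xs ys = true := by
  rw [all2_cons_cons] at h
  cases hf : f x y
  · rw [hf] at h
    exact absurd h (by simp)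
  · rw [hf] at h
    exact ⟨rfl, h⟩

lemma bool_rec_and {a b c : Bool} (h : Bool.rec (motive := fun _ => Bool) false b a = c) (hc : c = true) :
    a = true ∧ b = true := by
  subst hc
  cases a
  · exact absurd h (by simp)
  · exact ⟨rfl, h⟩

/-! ### Semantics -/

/-- The evaluation `ev` is additive. -/
structure ALin (O : AOps α) (ev : α → ℝ) : Prop where
  add : ∀ a b, ev (O.add a b) = ev a + ev b
  sc : ∀ (k : ℕ) a, ev (O.sc k a) = 2 ^ k * ev a

lemma lin_nat : ALin natOps (fun n : ℕ => (n : ℝ)) where
  add a b := by simp [natOps]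
  sc k a := by
    show ((a <<< k : ℕ) : ℝ) = 2 ^ k * (a : ℝ)
    rw [Nat.shiftLeft_eq]
    push_cast
    ring

lemma lin_l {O : AOps α} {ev : α → ℝ} (h : ALin O ev) (x : ℝ) :
    ALin (lOps O) (fun u => evalP ev u x) where
  add := by
    intro u
    induction u with
    | nil => intro v; simp [lOps, addD_nil, evalP]
    | cons a as ih =>
        intro v
        cases v with
        | nil => simp [lOps, addD_cons_nil, evalP]
        | cons b bs =>
            have := ih bs
            simp only [lOps] at this ⊢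
            simp only [addD_cons_cons, evalP, h.add, this]
            ring
  sc := by
    intro k u
    induction u with
    | nil => simp [lOps, scD_nil, evalP]
    | cons a as ih =>
        simp only [lOps] at ih ⊢
        simp only [scD_cons, evalP, h.sc, ih]
        ring

lemma adjG_length (O : AOps α) : ∀ (r : List α) (c : α), (adjG O r c).length = r.length + 1
  | [], _ => rfl
  | x :: xs, c => by simp [adjG_cons, adjG_length O xs x]

lemma tsG_length (O : AOps α) : ∀ L : List α, (tsG O L).length = L.length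
  | [] => rfl
  | c :: cs => by simp [tsG_cons, adjG_length, tsG_length O cs]

lemma scG_length (O : AOps α) : ∀ (L : List α) (k : ℕ), (scG O L k).length = L.length
  | [], _ => rfl
  | x :: xs, k => by simp [scG_cons, scG_length O xs (k + 1)]

lemma hval_adj {O : AOps α} {ev : α → ℝ} (h : ALin O ev) (S U : ℝ) :
    ∀ (r : List α) (c : α), hval ev (adjG O r c) S U =
      ev c * U ^ r.length + (S + U) * hval ev r S U
  | [], c => by simp [adjG_nil, hval]
  | x :: xs, c => by
      simp only [adjG_cons, hval, adjG_length, hval_adj h S U xs x, h.add, List.length_cons]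
      ring

lemma hval_ts {O : AOps α} {ev : α → ℝ} (h : ALin O ev) (S U : ℝ) :
    ∀ L : List α, hval ev (tsG O L) S U = hval ev L (S + U) U
  | [] => rfl
  | c :: cs => by
      simp only [tsG_cons, hval_adj h, tsG_length, hval_ts h S U cs, hval]

lemma hval_sc {O : AOps α} {ev : α → ℝ} (h : ALin O ev) (S U : ℝ) :
    ∀ (L : List α) (k : ℕ), hval ev (scG O L k) S U = 2 ^ k * hval ev L (2 * S) U
  | [], k => by simp [scG_nil, hval]
  | x :: xs, k => by
      simp only [scG_cons, hval, scG_length, hval_sc h S U xs (k + 1), h.sc]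
      ring

lemma hval_snoc (ev : α → ℝ) (S U : ℝ) : ∀ (L : List α) (a : α),
    hval ev (L ++ [a]) S U = U * hval ev L S U + S ^ L.length * ev a
  | [], a => by simp [hval]
  | x :: xs, a => by
      simp only [List.cons_append, hval, List.length_append, List.length_cons, List.length_nil,
        hval_snoc ev S U xs a]
      ring

lemma hval_rev (ev : α → ℝ) (S U : ℝ) : ∀ L : List α, hval ev L.reverse S U = hval ev L U S
  | [] => rfl
  | x :: xs => by
      simp only [List.reverse_cons, hval_snoc, hval_rev ev S U xs, List.length_reverse, hval]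
      ring

lemma hval_Lc {O : AOps α} {ev : α → ℝ} (h : ALin O ev) (S U : ℝ) (L : List α) :
    hval ev (Lc O L) S U = hval ev L (2 * S + U) U := by
  simp only [Lc, hval_sc h, hval_ts h]
  simp

lemma hval_Rc {O : AOps α} {ev : α → ℝ} (h : ALin O ev) (S U : ℝ) (L : List α) :
    hval ev (Rc O L) S U = hval ev L S (2 * U + S) := by
  simp only [Rc, revG_eq, List.append_nil, hval_rev, hval_sc h, hval_ts h]
  simp

lemma hval_R1 {O : AOps α} {ev : α → ℝ} (h : ALin O ev) (S U : ℝ) (L : List α) :
    hval ev (R1 O L) S U = hval ev L S (U + S) := by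
  simp only [R1, revG_eq, List.append_nil, hval_rev, hval_ts h]

lemma hval_one (ev : α → ℝ) (x : ℝ) : ∀ L : List α, hval ev L x 1 = evalP ev L x
  | [] => rfl
  | c :: cs => by simp [hval, evalP, hval_one ev x cs]

lemma hval_R1_eval {O : AOps α} {ev : α → ℝ} (h : ALin O ev) (x : ℝ) (L : List α) :
    hval ev (R1 O L) x (1 - x) = evalP ev L x := by
  rw [hval_R1 h]
  have : 1 - x + x = 1 := by ring
  rw [this, hval_one]

lemma hval_mul_const (ev : α → ℝ) (k S U : ℝ) : ∀ L : List α,
    hval (fun a => k * ev a) L S U = k * hval ev L S U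
  | [] => by simp [hval]
  | x :: xs => by
      simp only [hval, hval_mul_const ev k S U xs]
      ring

lemma hval_le_of_all2 {ev1 : α → ℝ} {ev2 : β → ℝ} {f : α → β → Bool} {S U : ℝ} (hS : 0 ≤ S) (hU : 0 ≤ U)
    (hf : ∀ a b, f a b = true → ev1 a ≤ ev2 b) : ∀ (A : List α) (B : List β), all2 f A B = true →
      hval ev1 A S U ≤ hval ev2 B S U ∧ A.length = B.length
  | [], [], _ => ⟨le_refl _, rfl⟩
  | [], _ :: _, h => absurd h (by simp [all2_nil_cons])
  | _ :: _, [], h => absurd h (by simp [all2_cons_nil])
  | a :: as, b :: bs, h => by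
      obtain ⟨h1, h2⟩ := all2_cons_true h
      obtain ⟨h3, h4⟩ := hval_le_of_all2 hS hU hf as bs h2
      have h5 := hf a b h1
      refine ⟨?_, by simp [h4]⟩
      simp only [hval, ← h4]
      have h6 : ev1 a * U ^ as.length ≤ ev2 b * U ^ as.length :=
        mul_le_mul_of_nonneg_right h5 (pow_nonneg hU _)
      have h7 := mul_le_mul_of_nonneg_left h3 hS
      linarith

lemma domC_sound {c : ℕ} {e P : List ℕ} (h : domC c e P = true) {S U : ℝ} (hS : 0 ≤ S) (hU : 0 ≤ U) :
    (c : ℝ) * hval (fun n : ℕ => (n : ℝ)) e S U ≤ hval (fun n : ℕ => (n : ℝ)) P S U := by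
  rw [← hval_mul_const]
  refine (hval_le_of_all2 hS hU ?_ e P h).1
  intro a b hab
  have : c * a ≤ b := Nat.le_of_ble_eq_true hab
  exact_mod_cast this

/-- The cone is split by `S = U`. -/
lemma cone_split {S U : ℝ} (hS : 0 ≤ S) (hU : 0 ≤ U) :
    (∃ S' : ℝ, 0 ≤ S' ∧ S = 2 * S' + U) ∨ ∃ U' : ℝ, 0 ≤ U' ∧ U = 2 * U' + S := by
  rcases le_total U S with h | h
  · exact Or.inl ⟨(S - U) / 2, by linarith, by ring⟩
  · exact Or.inr ⟨(U - S) / 2, by linarith, by ring⟩

lemma chkN_zero (c : ℕ) (e P : List ℕ) : chkN 0 c e P = domC c e P := rfl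

lemma chkN_succ (n c : ℕ) (e P : List ℕ) : chkN (n + 1) c e P = Bool.rec
      (Bool.rec false (chkN n c (Rc natOps e) (Rc natOps P)) (chkN n c (Lc natOps e) (Lc natOps P)))
      true (domC c e P) := rfl

theorem chkN_sound : ∀ (n c : ℕ) (e P : List ℕ), chkN n c e P = true → ∀ {S U : ℝ}, 0 ≤ S → 0 ≤ U →
    (c : ℝ) * hval (fun n : ℕ => (n : ℝ)) e S U ≤ hval (fun n : ℕ => (n : ℝ)) P S U
  | 0, c, e, P, h, S, U, hS, hU => domC_sound (by rwa [chkN_zero] at h) hS hU
  | n + 1, c, e, P, h, S, U, hS, hU => by
      rw [chkN_succ] at h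
      cases hd : domC c e P
      · rw [hd] at h
        obtain ⟨h1, h2⟩ := bool_rec_and rfl h
        rcases cone_split hS hU with ⟨S', hS', rfl⟩ | ⟨U', hU', rfl⟩
        · have := chkN_sound n c _ _ h1 hS' hU
          rwa [hval_Lc lin_nat, hval_Lc lin_nat] at this
        · have := chkN_sound n c _ _ h2 hS hU'
          rwa [hval_Rc lin_nat, hval_Rc lin_nat] at this
      · exact domC_sound hd hS hU

/-- The evaluation of a polynomial in `y` with natural coefficients. -/
noncomputable def evY (y : ℝ) (u : List ℕ) : ℝ := evalP (fun n : ℕ => (n : ℝ)) u y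

/-- The evaluation of a row. -/
noncomputable def evR (r y : ℝ) (row : List (List ℕ)) : ℝ := evalP (evY y) row r

lemma lin_evY (y : ℝ) : ALin O1 (evY y) := lin_l lin_nat y

lemma lin_evR (r y : ℝ) : ALin O2 (evR r y) := lin_l (lin_evY y) r

lemma checkR_leaf (fuel : ℕ) (ey : List ℕ) (c : ℕ) (er : List ℕ) (row : List (List ℕ)) :
    checkR fuel ey RCert.leaf c er row =
      all2 (fun ed u => chkN fuel (Nat.mul c ed) ey (R1 natOps u)) er row := rfl

lemma checkR_split (fuel : ℕ) (ey : List ℕ) (a b : RCert) (c : ℕ) (er : List ℕ) (row : List (List ℕ)) :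
    checkR fuel ey (RCert.split a b) c er row =
      Bool.rec false (checkR fuel ey b c (Rc natOps er) (Rc O1 row))
        (checkR fuel ey a c (Lc natOps er) (Lc O1 row)) := rfl

theorem checkR_sound (fuel : ℕ) (ey0 : List ℕ) {y : ℝ} (hy0 : 0 ≤ y) (hy1 : y ≤ 1) :
    ∀ (rc : RCert) (c : ℕ) (er : List ℕ) (row : List (List ℕ)),
      checkR fuel (R1 natOps ey0) rc c er row = true → ∀ {S U : ℝ}, 0 ≤ S → 0 ≤ U →
      (c : ℝ) * hval (fun n : ℕ => (n : ℝ)) er S U * evY y ey0 ≤ hval (evY y) row S U
  | RCert.leaf, c, er, row, h, S, U, hS, hU => by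
      rw [checkR_leaf] at h
      have h1 : (c : ℝ) * hval (fun n : ℕ => (n : ℝ)) er S U * evY y ey0 =
          hval (fun n : ℕ => (c : ℝ) * (n : ℝ) * evY y ey0) er S U := by
        have := hval_mul_const (fun n : ℕ => (n : ℝ)) ((c : ℝ) * evY y ey0) S U er
        have e : (fun n : ℕ => (c : ℝ) * evY y ey0 * (n : ℝ)) = fun n : ℕ => (c : ℝ) * (n : ℝ) * evY y ey0 := by
          funext n
          ring
        rw [e] at this
        rw [this]
        ring
      rw [h1]
      refine (hval_le_of_all2 hS hU ?_ er row h).1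
      intro a u hau
      have h2 := chkN_sound fuel _ _ _ hau (S := y) (U := 1 - y) hy0 (by linarith)
      rw [hval_R1_eval lin_nat, hval_R1_eval lin_nat] at h2
      have h3 : ((c * a : ℕ) : ℝ) = (c : ℝ) * (a : ℝ) := by push_cast; ring
      have h4 : Nat.mul c a = c * a := rfl
      rw [h4, h3] at h2
      exact h2
  | RCert.split a b, c, er, row, h, S, U, hS, hU => by
      rw [checkR_split] at h
      obtain ⟨h1, h2⟩ := bool_rec_and rfl h
      rcases cone_split hS hU with ⟨S', hS', rfl⟩ | ⟨U', hU', rfl⟩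
      · have := checkR_sound fuel ey0 hy0 hy1 a c _ _ h1 hS' hU
        rwa [hval_Lc lin_nat, hval_Lc (lin_evY y)] at this
      · have := checkR_sound fuel ey0 hy0 hy1 b c _ _ h2 hS hU'
        rwa [hval_Rc lin_nat, hval_Rc (lin_evY y)] at this

lemma checkT_leaf (fuel : ℕ) (er ey : List ℕ) (rc : RCert) (c : ℕ) (et : List ℕ)
    (T : List (List (List ℕ))) : checkT fuel er ey (TCert.leaf rc) c et T =
      all2 (fun ej row => checkR fuel ey rc (Nat.mul c ej) er (R1 O1 row)) et T := rfl

lemma checkT_split (fuel : ℕ) (er ey : List ℕ) (a b : TCert) (c : ℕ) (et : List ℕ)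
    (T : List (List (List ℕ))) : checkT fuel er ey (TCert.split a b) c et T =
      Bool.rec false (checkT fuel er ey b c (Rc natOps et) (Rc O2 T))
        (checkT fuel er ey a c (Lc natOps et) (Lc O2 T)) := rfl

theorem checkT_sound (fuel : ℕ) (er0 ey0 : List ℕ) {r y : ℝ} (hr0 : 0 ≤ r) (hr1 : r ≤ 1) (hy0 : 0 ≤ y)
    (hy1 : y ≤ 1) : ∀ (tc : TCert) (c : ℕ) (et : List ℕ) (T : List (List (List ℕ))),
      checkT fuel (R1 natOps er0) (R1 natOps ey0) tc c et T = true → ∀ {S U : ℝ}, 0 ≤ S → 0 ≤ U →
      (c : ℝ) * hval (fun n : ℕ => (n : ℝ)) et S U * evalP (fun n : ℕ => (n : ℝ)) er0 r * evY y ey0 ≤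
        hval (evR r y) T S U
  | TCert.leaf rc, c, et, T, h, S, U, hS, hU => by
      rw [checkT_leaf] at h
      have h1 : (c : ℝ) * hval (fun n : ℕ => (n : ℝ)) et S U * evalP (fun n : ℕ => (n : ℝ)) er0 r * evY y ey0 =
          hval (fun n : ℕ => (c : ℝ) * (n : ℝ) * evalP (fun n : ℕ => (n : ℝ)) er0 r * evY y ey0) et S U := by
        have := hval_mul_const (fun n : ℕ => (n : ℝ))
          ((c : ℝ) * evalP (fun n : ℕ => (n : ℝ)) er0 r * evY y ey0) S U et
        have e : (fun n : ℕ => (c : ℝ) * evalP (fun n : ℕ => (n : ℝ)) er0 r * evY y ey0 * (n : ℝ)) =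
            fun n : ℕ => (c : ℝ) * (n : ℝ) * evalP (fun n : ℕ => (n : ℝ)) er0 r * evY y ey0 := by
          funext n
          ring
        rw [e] at this
        rw [this]
        ring
      rw [h1]
      refine (hval_le_of_all2 hS hU ?_ et T h).1
      intro a row hau
      have h2 := checkR_sound fuel ey0 hy0 hy1 _ _ _ _ hau (S := r) (U := 1 - r) hr0 (by linarith)
      rw [hval_R1_eval lin_nat, hval_R1_eval (lin_evY y)] at h2
      have h3 : ((Nat.mul c a : ℕ) : ℝ) = (c : ℝ) * (a : ℝ) := by
        have h4 : Nat.mul c a = c * a := rfl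
        rw [h4]
        push_cast
        ring
      rw [h3] at h2
      exact h2
  | TCert.split a b, c, et, T, h, S, U, hS, hU => by
      rw [checkT_split] at h
      obtain ⟨h1, h2⟩ := bool_rec_and rfl h
      rcases cone_split hS hU with ⟨S', hS', rfl⟩ | ⟨U', hU', rfl⟩
      · have := checkT_sound fuel er0 ey0 hr0 hr1 hy0 hy1 a c _ _ h1 hS' hU
        rwa [hval_Lc lin_nat, hval_Lc (lin_evR r y)] at this
      · have := checkT_sound fuel er0 ey0 hr0 hr1 hy0 hy1 b c _ _ h2 hS hU'
        rwa [hval_Rc lin_nat, hval_Rc (lin_evR r y)] at this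

theorem split_ok {fuel : ℕ} {er ey : List ℕ} {a b : TCert} {c : ℕ} {et : List ℕ}
    {T : List (List (List ℕ))} (h1 : checkT fuel er ey a c (Lc natOps et) (Lc O2 T) = true)
    (h2 : checkT fuel er ey b c (Rc natOps et) (Rc O2 T) = true) :
    checkT fuel er ey (TCert.split a b) c et T = true := by
  rw [checkT_split, h1, h2]

end Vale.Agent.Lib.P371.Cal.Bern
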