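import Vale.Agent.Lib.P371.CalFast

/-!
From sums of terms in `(y, g, p)` to tensors in the cone variable, `r` and `y`; soundness of the fast check
on the half-disc.
-/

open Real

namespace Vale.Agent.Lib.P371.Cal.Bern

variable {α : Type}

/-- The value of a form with integer coefficients. -/
noncomputable def hz (L : List ℤ) (S U : ℝ) : ℝ := hval (fun z : ℤ => (z : ℝ)) L S U

lemma hz_smul (k : ℤ) (S U : ℝ) : ∀ v : List ℤ, hz (psmul k v) S U = (k : ℝ) * hz v S U
  | [] => by simp [psmul, smulL, hz, hval]
  | x :: xs => by
      have := hz_smul k S U xs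
      simp only [psmul, hz] at this
      simp only [psmul, smulL, hz, hval, this]
      have h1 : (smulL intOps k xs).length = xs.length := by
        clear this
        induction xs with
        | nil => rfl
        | cons a as ih => simp [smulL, ih]
      rw [h1]
      have h2 : ((intOps.smul k x : ℤ) : ℝ) = (k : ℝ) * (x : ℝ) := by
        simp [intOps, Int.mul_def]
      rw [h2]
      ring

lemma smulL_length (k : ℤ) : ∀ v : List ℤ, (psmul k v).length = v.length
  | [] => rfl
  | x :: xs => by
      have := smulL_length k xs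
      simp only [psmul] at this
      simp [psmul, smulL, this]

lemma hz_addL_le (S U : ℝ) : ∀ (u w : List ℤ), u.length ≤ w.length →
    hz (padd u w) S U = U ^ (w.length - u.length) * hz u S U + hz w S U ∧
      (padd u w).length = w.length
  | [], w, _ => by simp [padd, addL, hz, hval]
  | a :: as, [], h => by simp at h
  | a :: as, b :: bs, h => by
      have hl : as.length ≤ bs.length := by simpa using h
      obtain ⟨h1, h2⟩ := hz_addL_le S U as bs hl
      simp only [padd, hz] at h1 h2
      constructor
      · simp only [padd, addL, hz, hval, h1, h2, List.length_cons]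
        have h3 : ((intOps.add a b : ℤ) : ℝ) = (a : ℝ) + (b : ℝ) := by
          simp [intOps, Int.add_def]
        rw [h3, Nat.add_sub_add_right]
        have h4 : bs.length = (bs.length - as.length) + as.length := by omega
        have h5 : (U : ℝ) ^ bs.length = U ^ (bs.length - as.length) * U ^ as.length := by
          rw [← pow_add, ← h4]
        rw [h5]
        ring
      · simp [padd, addL, h2]

/-- Product of forms. -/
def pmulH : List ℤ → List ℤ → List ℤ
  | [], _ => []
  | [x], v => psmul x v
  | x :: y :: zs, v => padd (psmul x v) (0 :: pmulH (y :: zs) v)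

lemma pmulH_spec (S U : ℝ) (v : List ℤ) : ∀ a : List ℤ, a ≠ [] →
    hz (pmulH a v) S U = hz a S U * hz v S U ∧ (pmulH a v).length = a.length + v.length - 1
  | [], h => absurd rfl h
  | [x], _ => by
      constructor
      · simp only [pmulH, hz_smul]
        simp [hz, hval]
      · simp [pmulH, smulL_length]
  | x :: y :: zs, _ => by
      obtain ⟨h1, h2⟩ := pmulH_spec S U v (y :: zs) (by simp)
      have hl : (psmul x v).length ≤ (0 :: pmulH (y :: zs) v).length := by
        rw [smulL_length, List.length_cons, h2]
        simp only [List.length_cons]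
        omega
      obtain ⟨h3, h4⟩ := hz_addL_le S U (psmul x v) (0 :: pmulH (y :: zs) v) hl
      constructor
      · simp only [pmulH]
        rw [h3, hz_smul]
        have h5 : hz (0 :: pmulH (y :: zs) v) S U = S * hz (pmulH (y :: zs) v) S U := by
          simp [hz, hval]
        rw [h5, h1, smulL_length, List.length_cons, h2]
        have h6 : (y :: zs).length + v.length - 1 + 1 - v.length = zs.length + 1 := by
          simp only [List.length_cons]
          omega
        rw [h6]
        simp only [hz, hval, List.length_cons]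
        ring
      · simp only [pmulH]
        rw [h4, List.length_cons, h2]
        simp only [List.length_cons]
        omega

/-- Powers of forms. -/
def ppowH (u : List ℤ) : ℕ → List ℤ
  | 0 => [1]
  | n + 1 => pmulH u (ppowH u n)

lemma ppowH_spec (S U : ℝ) {u : List ℤ} (hu : u.length = 3) : ∀ n : ℕ,
    hz (ppowH u n) S U = hz u S U ^ n ∧ (ppowH u n).length = 2 * n + 1
  | 0 => by simp [ppowH, hz, hval]
  | n + 1 => by
      have hne : u ≠ [] := by
        intro h
        rw [h] at hu
        simp at hu
      obtain ⟨h1, h2⟩ := ppowH_spec S U hu n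
      obtain ⟨h3, h4⟩ := pmulH_spec S U (ppowH u n) u hne
      constructor
      · simp only [ppowH]
        rw [h3, h1]
        ring
      · simp only [ppowH]
        rw [h4, h2, hu]
        omega

/-- `2 S U`. -/
def gH : List ℤ := [0, 2, 0]

/-- `U² - S²`. -/
def pH : List ℤ := [1, 0, -1]

/-- `U² + S²`. -/
def wH : List ℤ := [1, 0, 1]

lemma hz_gH (S U : ℝ) : hz gH S U = 2 * S * U := by
  simp [gH, hz, hval]
  ring

lemma hz_pH (S U : ℝ) : hz pH S U = U ^ 2 - S ^ 2 := by
  simp [pH, hz, hval]
  ring

lemma hz_wH (S U : ℝ) : hz wH S U = S ^ 2 + U ^ 2 := by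
  simp [wH, hz, hval]
  ring

/-- `(2 S U)^i (U² - S²)^j (U² + S²)^(N - i - j)`. -/
def wPolyH (N i j : ℕ) : List ℤ := pmulH (ppowH gH i) (pmulH (ppowH pH j) (ppowH wH (N - i - j)))

lemma wPolyH_spec (S U : ℝ) (N i j : ℕ) (h : i + j ≤ N) :
    hz (wPolyH N i j) S U = (2 * S * U) ^ i * (U ^ 2 - S ^ 2) ^ j * (S ^ 2 + U ^ 2) ^ (N - i - j) ∧
      (wPolyH N i j).length = 2 * N + 1 := by
  obtain ⟨h1, h2⟩ := ppowH_spec S U (u := gH) rfl i
  obtain ⟨h3, h4⟩ := ppowH_spec S U (u := pH) rfl j
  obtain ⟨h5, h6⟩ := ppowH_spec S U (u := wH) rfl (N - i - j)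
  have hne1 : ppowH gH i ≠ [] := by
    intro h0
    rw [h0] at h2
    simp at h2
  have hne2 : ppowH pH j ≠ [] := by
    intro h0
    rw [h0] at h4
    simp at h4
  obtain ⟨h7, h8⟩ := pmulH_spec S U (ppowH wH (N - i - j)) (ppowH pH j) hne2
  obtain ⟨h9, h10⟩ := pmulH_spec S U (pmulH (ppowH pH j) (ppowH wH (N - i - j))) (ppowH gH i) hne1
  constructor
  · simp only [wPolyH]
    rw [h9, h7, h1, h3, h5, hz_gH, hz_pH, hz_wH]
    ring
  · simp only [wPolyH]
    rw [h10, h8, h2, h4, h6]
    omega

/-- One term as a tensor. -/
def monoH (N : ℕ) (e : Term) : Tensor :=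
  (wPolyH N e.i e.j).map fun w => List.replicate (e.i + e.j) [] ++ [psmul w e.a]

/-- A sum of terms as a tensor. -/
def substH (N : ℕ) : Flat → Tensor
  | [] => []
  | e :: es => addL (listOps (listOps intOps)) (monoH N e) (substH N es)

/-- The evaluation of a row with integer entries. -/
noncomputable def evZ (r y : ℝ) (row : List (List ℤ)) : ℝ := evalP (fun u => pe u y) row r

lemma lin_evZ (r y : ℝ) : Lin (listOps (listOps intOps)) (evZ r y) :=
  lin_list (lin_list lin_int y) r

lemma hval_addL_same {O : Ops α} {ev : α → ℝ} (h : Lin O ev) (S U : ℝ) : ∀ (u v : List α),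
    u.length = v.length → hval ev (addL O u v) S U = hval ev u S U + hval ev v S U
  | [], [], _ => by simp [addL, hval]
  | [], _ :: _, h0 => by simp at h0
  | _ :: _, [], h0 => by simp at h0
  | a :: as, b :: bs, h0 => by
      have hl : as.length = bs.length := by simpa using h0
      have h1 : (addL O as bs).length = as.length := by
        clear h0
        revert bs
        induction as with
        | nil =>
            intro bs hl
            cases bs with
            | nil => rfl
            | cons _ _ => simp at hl
        | cons x xs ih =>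
            intro bs hl
            cases bs with
            | nil => simp at hl
            | cons y ys =>
                have := ih ys (by simpa using hl)
                simp [addL, this]
      simp only [addL, hval, h.add, hval_addL_same h S U as bs hl, h1, ← hl]
      ring

lemma hval_monoH_aux (r y S U K : ℝ) (k : ℕ) (a : List ℤ)
    (hK : K = r ^ k * pe a y) : ∀ w : List ℤ,
    hval (evZ r y) (w.map fun z => List.replicate k [] ++ [psmul z a]) S U = hz w S U * K
  | [] => by simp [hval, hz]
  | z :: zs => by
      have h1 := hval_monoH_aux r y S U K k a hK zs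
      simp only [List.map_cons, hval, List.length_map, h1, hz]
      have h2 : evZ r y (List.replicate k [] ++ [psmul z a]) = (z : ℝ) * K := by
        simp only [evZ, row_eval, pe_psmul, hK]
        ring
      rw [h2]
      ring

lemma hval_substH {y r S U g p : ℝ} (h1 : (S ^ 2 + U ^ 2) * g = r * (2 * S * U))
    (h2 : (S ^ 2 + U ^ 2) * p = r * (U ^ 2 - S ^ 2)) (N : ℕ) : ∀ Q : Flat,
    (Q.all fun e => decide (e.i + e.j ≤ N)) = true →
    hval (evZ r y) (substH N Q) S U = (S ^ 2 + U ^ 2) ^ N * evF Q y g p ∧
      (Q ≠ [] → (substH N Q).length = 2 * N + 1)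
  | [], _ => by simp [substH, hval, evF_nil]
  | e :: es, h => by
      simp only [List.all_cons, Bool.and_eq_true, decide_eq_true_eq] at h
      obtain ⟨h3, h4⟩ := h
      obtain ⟨h5, h6⟩ := hval_substH h1 h2 N es h4
      obtain ⟨h7, h8⟩ := wPolyH_spec S U N e.i e.j h3
      have hm : (monoH N e).length = 2 * N + 1 := by
        simp [monoH, h8]
      have hv : hval (evZ r y) (monoH N e) S U = hz (wPolyH N e.i e.j) S U * (r ^ (e.i + e.j) * pe e.a y) :=
        hval_monoH_aux r y S U _ _ _ rfl _
      have hA : hval (evZ r y) (monoH N e) S U =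
          (S ^ 2 + U ^ 2) ^ N * (g ^ e.i * p ^ e.j * pe e.a y) := by
        rw [hv, h7]
        have h10 : (S ^ 2 + U ^ 2) ^ N =
            (S ^ 2 + U ^ 2) ^ e.i * (S ^ 2 + U ^ 2) ^ e.j * (S ^ 2 + U ^ 2) ^ (N - e.i - e.j) := by
          rw [← pow_add, ← pow_add]
          congr 1
          omega
        have h11 : ((S ^ 2 + U ^ 2) * g) ^ e.i = (r * (2 * S * U)) ^ e.i := by rw [h1]
        have h12 : ((S ^ 2 + U ^ 2) * p) ^ e.j = (r * (U ^ 2 - S ^ 2)) ^ e.j := by rw [h2]
        rw [mul_pow, mul_pow] at h11 h12
        rw [h10, pow_add]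
        calc (2 * S * U) ^ e.i * (U ^ 2 - S ^ 2) ^ e.j * (S ^ 2 + U ^ 2) ^ (N - e.i - e.j) *
              (r ^ e.i * r ^ e.j * pe e.a y)
            = (r ^ e.i * (2 * S * U) ^ e.i) * (r ^ e.j * (U ^ 2 - S ^ 2) ^ e.j) *
                ((S ^ 2 + U ^ 2) ^ (N - e.i - e.j) * pe e.a y) := by ring
          _ = ((S ^ 2 + U ^ 2) ^ e.i * g ^ e.i) * ((S ^ 2 + U ^ 2) ^ e.j * p ^ e.j) *
                ((S ^ 2 + U ^ 2) ^ (N - e.i - e.j) * pe e.a y) := by rw [h11, h12]
          _ = _ := by ring
      cases es with
      | nil =>
          constructor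
          · simp only [substH]
            have : addL (listOps (listOps intOps)) (monoH N e) [] = monoH N e := by
              cases hmm : monoH N e with
              | nil => rfl
              | cons _ _ => rfl
            rw [this, hA, evF_cons, evF_nil]
            ring
          · intro _
            simp only [substH]
            have : addL (listOps (listOps intOps)) (monoH N e) [] = monoH N e := by
              cases hmm : monoH N e with
              | nil => rfl
              | cons _ _ => rfl
            rw [this, hm]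
      | cons f fs =>
          have hne := h6 (by simp)
          constructor
          · have h9 : (monoH N e).length = (substH N (f :: fs)).length := by rw [hm, hne]
            simp only [substH] at h5 hne h9 ⊢
            rw [hval_addL_same (lin_evZ r y) S U _ _ h9, hA, h5, evF_cons (e := e)]
            ring
          · intro _
            have h9 : (monoH N e).length = (substH N (f :: fs)).length := by rw [hm, hne]
            simp only [substH] at hne h9 ⊢
            have h13 : ∀ (u v : Tensor), u.length = v.length →
                (addL (listOps (listOps intOps)) u v).length = u.length := by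
              intro u
              induction u with
              | nil =>
                  intro v hv
                  cases v with
                  | nil => rfl
                  | cons _ _ => simp at hv
              | cons x xs ih =>
                  intro v hv
                  cases v with
                  | nil => simp at hv
                  | cons y ys =>
                      have := ih ys (by simpa using hv)
                      simp [addL, this]
            rw [h13 _ _ h9, hm]

/-- The half-disc in the cone variable. -/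
lemma halfdisc_cone {g p : ℝ} (hg : 0 ≤ g) (hgp : g ^ 2 + p ^ 2 ≤ 1) :
    ∃ S U r : ℝ, 0 ≤ S ∧ 0 ≤ U ∧ 0 ≤ r ∧ r ≤ 1 ∧ 0 < S ^ 2 + U ^ 2 ∧
      (S ^ 2 + U ^ 2) * g = r * (2 * S * U) ∧ (S ^ 2 + U ^ 2) * p = r * (U ^ 2 - S ^ 2) := by
  rcases eq_or_lt_of_le (add_nonneg (sq_nonneg g) (sq_nonneg p)) with h0 | h0
  · have hg0 : g = 0 := by nlinarith [sq_nonneg g, sq_nonneg p]
    have hp0 : p = 0 := by nlinarith [sq_nonneg g, sq_nonneg p]
    exact ⟨0, 1, 0, le_refl _, by norm_num, le_refl _, by norm_num, by norm_num, by simp [hg0], by simp [hp0]⟩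
  · set r := √(g ^ 2 + p ^ 2) with hr
    have hr0 : 0 < r := Real.sqrt_pos.mpr h0
    have hr2 : r ^ 2 = g ^ 2 + p ^ 2 := Real.sq_sqrt h0.le
    have hr1 : r ≤ 1 := by
      rw [hr]
      exact Real.sqrt_le_one.mpr hgp
    have hpr : |p| ≤ r := by
      rw [← Real.sqrt_sq_eq_abs]
      exact Real.sqrt_le_sqrt (by nlinarith [sq_nonneg g])
    obtain ⟨hp1, hp2⟩ := abs_le.mp hpr
    have hU2 : 0 ≤ r + p := by linarith
    have hS2 : 0 ≤ r - p := by linarith
    have e1 : √(r - p) ^ 2 = r - p := Real.sq_sqrt hS2
    have e2 : √(r + p) ^ 2 = r + p := Real.sq_sqrt hU2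
    have e3 : √(r - p) * √(r + p) = g := by
      rw [← Real.sqrt_mul hS2]
      have : (r - p) * (r + p) = g ^ 2 := by nlinarith
      rw [this, Real.sqrt_sq hg]
    refine ⟨√(r - p), √(r + p), r, Real.sqrt_nonneg _, Real.sqrt_nonneg _, hr0.le, hr1, ?_, ?_, ?_⟩
    · rw [e1, e2]
      linarith
    · rw [e1, e2]
      have : r * (2 * √(r - p) * √(r + p)) = r * (2 * (√(r - p) * √(r + p))) := by ring
      rw [this, e3]
      ring
    · rw [e1, e2]
      ring

/-- Comparison of a polynomial with a difference. -/
def matchU (M : ℕ) : List ℤ → List ℕ → List ℕ → Bool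
  | [], [], [] => true
  | _ :: _, [], [] => false
  | u, p :: ps, e :: es =>
      decide ((p : ℤ) - (M : ℤ) * (e : ℤ) = u.headD 0) && matchU M u.tail ps es
  | _, _, _ => false

lemma matchU_spec (M : ℕ) (y : ℝ) : ∀ (ps es : List ℕ) (u : List ℤ), matchU M u ps es = true →
    pe u y = evY y ps - (M : ℝ) * evY y es
  | [], [], [], _ => by simp [pe, evY, evalP]
  | [], [], _ :: _, h => by simp [matchU] at h
  | [], _ :: _, _, h => by simp [matchU] at h
  | _ :: _, [], _, h => by simp [matchU] at h
  | p :: ps, e :: es, u, h => by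
      simp only [matchU, Bool.and_eq_true, decide_eq_true_eq] at h
      obtain ⟨h1, h2⟩ := h
      have h3 := matchU_spec M y ps es u.tail h2
      have h4 : ((u.headD 0 : ℤ) : ℝ) = (p : ℝ) - (M : ℝ) * (e : ℝ) := by
        rw [← h1]
        push_cast
        ring
      have h5 : pe u y = ((u.headD 0 : ℤ) : ℝ) + y * pe u.tail y := by
        cases u with
        | nil => simp [pe, evalP]
        | cons a as => simp [pe, evalP]
      rw [h5, h4, h3]
      simp only [evY, evalP]
      ring

/-- Comparison of a row with a difference. -/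
def matchR (M : ℕ) (ey : List ℕ) : List (List ℤ) → List (List ℕ) → List ℕ → Bool
  | [], [], [] => true
  | _ :: _, [], [] => false
  | row, P :: Ps, d :: ds =>
      matchU (M * d) (row.headD []) P ey && matchR M ey row.tail Ps ds
  | _, _, _ => false

lemma matchR_spec (M : ℕ) (ey : List ℕ) (r y : ℝ) : ∀ (Ps : List (List ℕ)) (ds : List ℕ) (row : List (List ℤ)),
    matchR M ey row Ps ds = true →
    evZ r y row = evR r y Ps - (M : ℝ) * evalP (fun n : ℕ => (n : ℝ)) ds r * evY y ey
  | [], [], [], _ => by simp [evZ, evR, evalP]
  | [], [], _ :: _, h => by simp [matchR] at h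
  | [], _ :: _, _, h => by simp [matchR] at h
  | _ :: _, [], _, h => by simp [matchR] at h
  | P :: Ps, d :: ds, row, h => by
      simp only [matchR, Bool.and_eq_true] at h
      obtain ⟨h1, h2⟩ := h
      have h3 := matchR_spec M ey r y Ps ds row.tail h2
      have h4 := matchU_spec (M * d) y P ey (row.headD []) h1
      have h5 : evZ r y row = pe (row.headD []) y + r * evZ r y row.tail := by
        cases row with
        | nil => simp [evZ, evalP, pe]
        | cons a as => simp [evZ, evalP]
      rw [h5, h4, h3]
      simp only [evR, evalP]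
      push_cast
      ring

/-- Comparison of a tensor with a difference. -/
def matchT (M : ℕ) (er ey : List ℕ) : Tensor → List (List (List ℕ)) → List ℕ → Bool
  | [], [], [] => true
  | t :: ts, P :: Ps, j :: js => matchR (M * j) ey t P er && matchT M er ey ts Ps js
  | _, _, _ => false

lemma matchT_spec (M : ℕ) (er ey : List ℕ) (r y S U : ℝ) : ∀ (T : Tensor) (Ps : List (List (List ℕ))) (js : List ℕ),
    matchT M er ey T Ps js = true →
    hval (evZ r y) T S U = hval (evR r y) Ps S U -
      (M : ℝ) * hval (fun n : ℕ => (n : ℝ)) js S U * evalP (fun n : ℕ => (n : ℝ)) er r * evY y ey ∧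
    T.length = Ps.length ∧ Ps.length = js.length
  | [], [], [], _ => by simp [hval]
  | [], [], _ :: _, h => by simp [matchT] at h
  | [], _ :: _, _, h => by simp [matchT] at h
  | _ :: _, [], _, h => by simp [matchT] at h
  | _ :: _, _ :: _, [], h => by simp [matchT] at h
  | t :: ts, P :: Ps, j :: js, h => by
      simp only [matchT, Bool.and_eq_true] at h
      obtain ⟨h1, h2⟩ := h
      obtain ⟨h3, h4, h5⟩ := matchT_spec M er ey r y S U ts Ps js h2
      have h6 := matchR_spec (M * j) ey r y P er t h1
      refine ⟨?_, by simp [h4], by simp [h5]⟩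
      simp only [hval, h3, h6]
      rw [h4, ← h5]
      push_cast
      ring

/-- Soundness of the fast check for sums of terms on the half-disc. -/
theorem flat_nonneg_fast {N fuel M : ℕ} {Q : Flat} {tc : TCert} {PT : List (List (List ℕ))} {et er ey : List ℕ}
    (hN : (Q.all fun e => decide (e.i + e.j ≤ N)) = true)
    (hm : matchT M er ey (substH N Q) PT et = true)
    (h : checkT fuel (R1 natOps er) (R1 natOps ey) tc M et PT = true) {y g p : ℝ} (hy0 : 0 ≤ y) (hy1 : y ≤ 1)
    (hg : 0 ≤ g) (hgp : g ^ 2 + p ^ 2 ≤ 1) : 0 ≤ evF Q y g p := by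
  obtain ⟨S, U, r, hS, hU, hr0, hr1, hW, h1, h2⟩ := halfdisc_cone hg hgp
  have h3 := (hval_substH (y := y) h1 h2 N Q hN).1
  have h4 := (matchT_spec M er ey r y S U _ _ _ hm).1
  have h5 := checkT_sound fuel er ey hr0 hr1 hy0 hy1 tc M et PT h hS hU
  have h6 : 0 ≤ (S ^ 2 + U ^ 2) ^ N * evF Q y g p := by
    rw [← h3, h4]
    linarith
  exact nonneg_of_mul_nonneg_right h6 (by positivity)

end Vale.Agent.Lib.P371.Cal.Bern
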