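import Vale.Agent.Lib.P371.CalB

/-!
Packed arithmetic for the Bernstein certificates of `CalB`: a whole tensor of digits is stored in
one natural number, and the midpoint subdivision in each variable is computed with a few big number
operations per variable degree.
-/

namespace Vale.Agent.Lib.P371.CalB

/-! ### Packing -/

/-- Packing of a list, base `X`. -/
def packL {α : Type} (X : ℕ) (π : α → ℕ) : List α → ℕ
  | [] => 0
  | a :: l => π a + X * packL X π l

theorem cast_packL {α : Type} (X : ℕ) (π : α → ℕ) (l : List α) :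
    ((packL X π l : ℕ) : ℝ) = evP (fun a => (π a : ℝ)) X l := by
  induction l with
  | nil => simp [packL, evP]
  | cons a l ih =>
    simp only [packL, evP]
    push_cast
    rw [ih]

theorem packL_map {α β : Type} (X : ℕ) (π : β → ℕ) (f : α → β) (l : List α) :
    packL X π (l.map f) = packL X (fun a => π (f a)) l := by
  induction l with
  | nil => rfl
  | cons a l ih => simp [packL, ih]

theorem packL_congr {α : Type} (X : ℕ) (π ρ : α → ℕ) (l : List α) (h : ∀ a ∈ l, π a = ρ a) :
    packL X π l = packL X ρ l := by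
  induction l with
  | nil => rfl
  | cons a l ih =>
    simp only [packL]
    rw [h a (by simp), ih fun b hb => h b (by simp [hb])]

theorem packL_append {α : Type} (X : ℕ) (π : α → ℕ) (l m : List α) :
    packL X π (l ++ m) = packL X π l + X ^ l.length * packL X π m := by
  induction l with
  | nil => simp [packL]
  | cons a l ih =>
    simp only [List.cons_append, packL, ih, List.length_cons]
    ring

theorem packL_flatten {α : Type} (X : ℕ) (π : α → ℕ) (n : ℕ) (c : List (List α))
    (h : ∀ s ∈ c, s.length = n) :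
    packL (X ^ n) (packL X π) c = packL X π c.flatten := by
  induction c with
  | nil => rfl
  | cons s c ih =>
    simp only [packL, List.flatten_cons, packL_append]
    rw [h s (by simp), ih fun b hb => h b (by simp [hb])]

theorem length_flatten_rect {α : Type} (n : ℕ) (c : List (List α)) (h : ∀ s ∈ c, s.length = n) :
    c.flatten.length = c.length * n := by
  induction c with
  | nil => simp
  | cons s c ih =>
    simp only [List.flatten_cons, List.length_append, List.length_cons]
    rw [h s (by simp), ih fun b hb => h b (by simp [hb])]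
    ring

theorem packL_lt {α : Type} (k : ℕ) (π : α → ℕ) (l : List α) (h : ∀ a ∈ l, π a < 2 ^ k) :
    packL (2 ^ k) π l < 2 ^ (k * l.length) := by
  induction l with
  | nil => simp [packL]
  | cons a l ih =>
    simp only [packL, List.length_cons]
    have h1 := h a (by simp)
    have h2 := ih fun b hb => h b (by simp [hb])
    have h3 : 2 ^ (k * (l.length + 1)) = 2 ^ k * 2 ^ (k * l.length) := by
      rw [mul_add, mul_one, pow_add, mul_comm]
    rw [h3]
    have h4 : packL (2 ^ k) π l + 1 ≤ 2 ^ (k * l.length) := h2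
    have h5 : 2 ^ k * (packL (2 ^ k) π l + 1) ≤ 2 ^ k * 2 ^ (k * l.length) :=
      Nat.mul_le_mul_left _ h4
    have h6 : 2 ^ k * (packL (2 ^ k) π l + 1) = 2 ^ k * packL (2 ^ k) π l + 2 ^ k := by ring
    omega

/-! ### Bit fields -/

theorem land_field (k x m y : ℕ) (hm : m < 2 ^ k) :
    x &&& (m + 2 ^ k * y) = (x % 2 ^ k &&& m) + 2 ^ k * ((x / 2 ^ k) &&& y) := by
  apply Nat.eq_of_testBit_eq
  intro j
  have h1 : (x % 2 ^ k &&& m) < 2 ^ k := Nat.and_lt_two_pow _ hm
  rw [add_comm m, add_comm (x % 2 ^ k &&& m), Nat.testBit_and,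
    Nat.testBit_two_pow_mul_add _ hm, Nat.testBit_two_pow_mul_add _ h1]
  by_cases hj : j < k
  · simp [hj, Nat.testBit_and, Nat.testBit_mod_two_pow]
  · have hj' : j - k + k = j := by omega
    simp [hj, Nat.testBit_and, Nat.testBit_div_two_pow, hj']

theorem packL_mod {α : Type} (k : ℕ) (π : α → ℕ) (a : α) (l : List α) (h : π a < 2 ^ k) :
    (π a + 2 ^ k * packL (2 ^ k) π l) % 2 ^ k = π a := by
  rw [Nat.add_mul_mod_self_left, Nat.mod_eq_of_lt h]

theorem packL_div {α : Type} (k : ℕ) (π : α → ℕ) (a : α) (l : List α) (h : π a < 2 ^ k) :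
    (π a + 2 ^ k * packL (2 ^ k) π l) / 2 ^ k = packL (2 ^ k) π l := by
  rw [Nat.add_mul_div_left _ _ (by positivity), Nat.div_eq_of_lt h, zero_add]

theorem land_packL {α : Type} (k : ℕ) (π ρ : α → ℕ) (l : List α) (hπ : ∀ a ∈ l, π a < 2 ^ k)
    (hρ : ∀ a ∈ l, ρ a < 2 ^ k) :
    packL (2 ^ k) π l &&& packL (2 ^ k) ρ l = packL (2 ^ k) (fun a => π a &&& ρ a) l := by
  induction l with
  | nil => simp [packL]
  | cons a l ih =>
    have h1 := hπ a (by simp)
    have h2 := hρ a (by simp)
    simp only [packL]
    rw [land_field k _ _ _ h2, packL_mod k π a l h1, packL_div k π a l h1,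
      ih (fun b hb => hπ b (by simp [hb])) (fun b hb => hρ b (by simp [hb]))]

theorem packL_injective {α : Type} (k : ℕ) (π ρ : α → ℕ) (l : List α) (hπ : ∀ a ∈ l, π a < 2 ^ k)
    (hρ : ∀ a ∈ l, ρ a < 2 ^ k) (h : packL (2 ^ k) π l = packL (2 ^ k) ρ l) :
    ∀ a ∈ l, π a = ρ a := by
  induction l with
  | nil => simp
  | cons a l ih =>
    have h1 := hπ a (by simp)
    have h2 := hρ a (by simp)
    simp only [packL] at h
    have h3 : π a = ρ a := by
      have := congrArg (· % 2 ^ k) h
      simpa only [packL_mod k π a l h1, packL_mod k ρ a l h2] using this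
    have h4 : packL (2 ^ k) π l = packL (2 ^ k) ρ l := by
      have := congrArg (· / 2 ^ k) h
      simpa only [packL_div k π a l h1, packL_div k ρ a l h2] using this
    intro b hb
    rcases List.mem_cons.1 hb with rfl | hb
    · exact h3
    · exact ih (fun b hb => hπ b (by simp [hb])) (fun b hb => hρ b (by simp [hb])) h4 b hb

/-- Digit extraction. -/
theorem digit_spec (k : ℕ) (b : List ℕ) (hb : ∀ a ∈ b, a < 2 ^ k) (t : ℕ) :
    (packL (2 ^ k) id b / 2 ^ (k * t)) % 2 ^ k = b.getD t 0 := by
  induction t generalizing b with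
  | zero =>
    cases b with
    | nil => simp [packL]
    | cons a l =>
      have h1 := hb a (by simp)
      simp only [packL, id, mul_zero, pow_zero, Nat.div_one, List.getD_cons_zero]
      rw [Nat.add_mul_mod_self_left, Nat.mod_eq_of_lt h1]
  | succ t ih =>
    cases b with
    | nil => simp [packL]
    | cons a l =>
      have h1 := hb a (by simp)
      have h2 : 2 ^ (k * (t + 1)) = 2 ^ k * 2 ^ (k * t) := by
        rw [mul_add, mul_one, pow_add, mul_comm]
      simp only [packL, id, List.getD_cons_succ]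
      rw [h2, ← Nat.div_div_eq_div_mul, Nat.add_mul_div_left _ _ (by positivity),
        Nat.div_eq_of_lt h1, zero_add]
      exact ih l fun c hc => hb c (by simp [hc])

/-- Parallel extraction of the `t`-th cell of all blocks. -/
theorem ext_spec (k N t : ℕ) (ht : t < N) (blocks : List (List ℕ))
    (hlen : ∀ b ∈ blocks, b.length = N) (hd : ∀ b ∈ blocks, ∀ a ∈ b, a < 2 ^ k) :
    (packL (2 ^ (k * N)) (packL (2 ^ k) id) blocks / 2 ^ (k * t)) &&&
        packL (2 ^ (k * N)) (fun _ => 2 ^ k - 1) blocks
      = packL (2 ^ (k * N)) (fun b => b.getD t 0) blocks := by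
  induction blocks with
  | nil => simp [packL]
  | cons b rest ih =>
    have hN : 1 ≤ N := by omega
    have hk : k ≤ k * N := Nat.le_mul_of_pos_right _ hN
    have hm : 2 ^ k - 1 < 2 ^ (k * N) := by
      have h1 : 2 ^ k ≤ 2 ^ (k * N) := Nat.pow_le_pow_right (by norm_num) hk
      have h2 : 0 < 2 ^ k := by positivity
      omega
    have hb := hlen b (by simp)
    have hz : packL (2 ^ k) id b < 2 ^ (k * N) := by
      have := packL_lt k id b (hd b (by simp))
      rwa [hb] at this
    simp only [packL]
    rw [land_field (k * N) _ _ _ hm]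
    have hdvd : (2 : ℕ) ^ k ∣ 2 ^ (k * N) := pow_dvd_pow _ hk
    rw [Nat.and_two_pow_sub_one_eq_mod, Nat.mod_mod_of_dvd _ hdvd]
    -- the quotient
    have h1 : (packL (2 ^ k) id b + 2 ^ (k * N) * packL (2 ^ (k * N)) (packL (2 ^ k) id) rest)
        / 2 ^ (k * t) / 2 ^ (k * N)
        = packL (2 ^ (k * N)) (packL (2 ^ k) id) rest / 2 ^ (k * t) := by
      rw [Nat.div_div_eq_div_mul, mul_comm (2 ^ (k * t)), ← Nat.div_div_eq_div_mul,
        Nat.add_mul_div_left _ _ (by positivity), Nat.div_eq_of_lt hz, zero_add]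
    rw [h1, ih (fun c hc => hlen c (by simp [hc])) (fun c hc => hd c (by simp [hc]))]
    congr 1
    -- the low digit
    obtain ⟨e, he⟩ : ∃ e, N = t + 1 + e := ⟨N - t - 1, by omega⟩
    have h2 : 2 ^ (k * N) = 2 ^ (k * t) * (2 ^ k * 2 ^ (k * e)) := by
      rw [he, mul_add, mul_add, mul_one, pow_add, pow_add]
      ring
    have h3 : (packL (2 ^ k) id b + 2 ^ (k * N) * packL (2 ^ (k * N)) (packL (2 ^ k) id) rest)
        / 2 ^ (k * t) = packL (2 ^ k) id b / 2 ^ (k * t) + 2 ^ k * (2 ^ (k * e) *
          packL (2 ^ (k * N)) (packL (2 ^ k) id) rest) := by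
      rw [h2, mul_assoc, Nat.add_mul_div_left _ _ (by positivity)]
      ring
    rw [h3, Nat.add_mul_mod_self_left]
    exact digit_spec k b (hd b (by simp)) t

/-! ### Masks -/

/-- Repeated field. -/
def maskR (X m : ℕ) : ℕ → ℕ
  | 0 => 0
  | n + 1 => m + X * maskR X m n

theorem packL_const {α : Type} (X m : ℕ) (l : List α) :
    packL X (fun _ => m) l = maskR X m l.length := by
  induction l with
  | nil => rfl
  | cons a l ih => simp [packL, maskR, ih]

/-- Closed form of the mask, used for the computation. -/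
def maskC (X m n : ℕ) : ℕ := Nat.mul m (Nat.div (Nat.sub (Nat.pow X n) 1) (Nat.sub X 1))

theorem maskC_eq (X m n : ℕ) (hX : 2 ≤ X) : maskC X m n = maskR X m n := by
  have h1 : ∀ n, maskR X m n = m * ∑ k ∈ Finset.range n, X ^ k := by
    intro n
    induction n with
    | zero => simp [maskR]
    | succ n ih =>
      simp only [maskR, ih, Finset.sum_range_succ']
      simp only [pow_succ, pow_zero, Finset.mul_sum]
      ring_nf
      simp only [Finset.mul_sum]
      congr 1
      apply Finset.sum_congr rfl
      intros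
      ring
  rw [h1, Nat.geomSum_eq hX]
  rfl

/-! ### The folds -/

/-- Parallel extraction. -/
def extF (Z M k t : ℕ) : ℕ := Nat.land (Nat.shiftRight Z (k * t)) M

/-- Multiplication by `1 + 2 B`. -/
def stepL (k R : ℕ) : ℕ := Nat.add R (Nat.shiftLeft R (k + 1))

/-- Multiplication by `2 + B`. -/
def stepR (k R : ℕ) : ℕ := Nat.add (Nat.shiftLeft R 1) (Nat.shiftLeft R k)

/-- The left child. -/
def foldL (Z M k : ℕ) : ℕ → ℕ → ℕ
  | 0, _ => 0
  | n + 1, t => Nat.add (extF Z M k t) (stepL k (foldL Z M k n (t + 1)))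

/-- The right child. -/
def foldR (Z M k : ℕ) : ℕ → ℕ
  | 0 => 0
  | n + 1 => Nat.add (stepR k (foldR Z M k n)) (Nat.shiftLeft (extF Z M k n) (k * n))

theorem stepL_eq (k R : ℕ) : stepL k R = (1 + 2 * 2 ^ k) * R := by
  simp only [stepL, Nat.shiftLeft_eq', Nat.shiftLeft_eq, Nat.add_eq, pow_succ]
  ring

theorem stepR_eq (k R : ℕ) : stepR k R = (2 ^ k + 2) * R := by
  simp only [stepR, Nat.shiftLeft_eq', Nat.shiftLeft_eq, Nat.add_eq, pow_one]
  ring

/-- Digits as reals. -/
noncomputable def evN : ℕ → ℝ := fun a => (a : ℝ)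

theorem foldL_eq (Z M k n t : ℕ) :
    ((foldL Z M k n t : ℕ) : ℝ)
      = evP evN ((1 + 2 * 2 ^ k : ℕ) : ℝ) ((List.range' t n).map (extF Z M k)) := by
  induction n generalizing t with
  | zero => simp [foldL, evP]
  | succ n ih =>
    simp only [foldL, List.range'_succ, List.map_cons, evP, Nat.add_eq, stepL_eq]
    push_cast
    rw [ih (t + 1)]
    simp [evN]

theorem foldR_eq (Z M k n : ℕ) :
    ((foldR Z M k n : ℕ) : ℝ)
      = evH evN ((2 ^ k + 2 : ℕ) : ℝ) ((2 ^ k : ℕ) : ℝ) (n - 1)
          ((List.range' 0 n).map (extF Z M k)) := by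
  induction n with
  | zero => simp [foldR, evH]
  | succ n ih =>
    have h1 : List.range' 0 (n + 1) = List.range' 0 n ++ [n] := by
      simpa using (List.range'_concat : List.range' 0 (n + 1) = _)
    simp only [Nat.add_sub_cancel]
    rw [h1, List.map_append, List.map_singleton,
      evH_snoc _ _ _ _ n (by simp), ← ih]
    simp only [foldR, Nat.add_eq, stepR_eq, Nat.shiftLeft_eq', Nat.shiftLeft_eq, evN]
    push_cast
    rw [pow_mul]

/-! ### Linearity of forms along a column -/

theorem evH_range_linear (X : ℝ) (u v : ℝ) (f g : ℕ → ℕ) (X' : ℕ) (hX : (X' : ℝ) = X) (m s k : ℕ) :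
    evH evN u v m ((List.range' s k).map fun t => f t + X' * g t)
      = evH evN u v m ((List.range' s k).map f) + X * evH evN u v m ((List.range' s k).map g) := by
  induction k generalizing m s with
  | zero => simp [evH]
  | succ k ih =>
    simp only [List.range'_succ, List.map_cons, evH, ih, evN]
    push_cast
    rw [hX]
    ring

theorem evH_range_zero (u v : ℝ) (m s k : ℕ) :
    evH evN u v m ((List.range' s k).map fun _ => 0) = 0 := by
  induction k generalizing m s with
  | zero => simp [evH]
  | succ k ih =>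
    simp only [List.range'_succ, List.map_cons, evH, ih, evN]
    simp

theorem range'_map_succ (s n : ℕ) :
    List.range' (s + 1) n = (List.range' s n).map (· + 1) := by
  induction n generalizing s with
  | zero => rfl
  | succ n ih => simp only [List.range'_succ, List.map_cons, ih (s + 1)]

theorem evH_range_getD (u v : ℝ) (m : ℕ) (b : List ℕ) :
    evH evN u v m ((List.range' 0 b.length).map fun t => b.getD t 0) = evH evN u v m b := by
  induction b generalizing m with
  | nil => simp [evH]
  | cons a l ih =>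
    simp only [List.length_cons, List.range'_succ, List.map_cons, evH, List.getD_cons_zero]
    congr 2
    rw [← ih (m - 1)]
    rw [range'_map_succ 0 l.length, List.map_map]
    rfl

theorem evH_cols (u v : ℝ) (k N : ℕ) (blocks : List (List ℕ)) (hlen : ∀ b ∈ blocks, b.length = N) :
    evH evN u v (N - 1)
        ((List.range' 0 N).map fun t => packL (2 ^ (k * N)) (fun b => b.getD t 0) blocks)
      = evP (fun b => evH evN u v (N - 1) b) ((2 ^ (k * N) : ℕ) : ℝ) blocks := by
  induction blocks with
  | nil =>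
    simp only [packL, evP]
    exact evH_range_zero u v _ _ _
  | cons b rest ih =>
    have hb := hlen b (by simp)
    simp only [packL, evP]
    rw [evH_range_linear _ u v (fun t => b.getD t 0)
      (fun t => packL (2 ^ (k * N)) (fun b => b.getD t 0) rest) (2 ^ (k * N)) rfl,
      ih fun c hc => hlen c (by simp [hc])]
    congr 1
    have := evH_range_getD u v (N - 1) b
    rwa [hb] at this

theorem evP_congr {α : Type} (ev ev' : α → ℝ) (x : ℝ) (l : List α) (h : ∀ a ∈ l, ev a = ev' a) :
    evP ev x l = evP ev' x l := by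
  induction l with
  | nil => rfl
  | cons a l ih =>
    simp only [evP]
    rw [h a (by simp), ih fun b hb => h b (by simp [hb])]

/-- Doubling of digits. -/
def dblN : ℕ → ℕ := fun a => Nat.add a a

theorem evN_add (a b : ℕ) : evN (Nat.add a b) = evN a + evN b := by
  simp [evN]

theorem evN_dbl (a : ℕ) : evN (dblN a) = 2 * evN a := by
  simp [evN, dblN]
  ring

/-- The left child is computed by `foldL`. -/
theorem foldL_spec (k N : ℕ) (blocks : List (List ℕ)) (hN : 1 ≤ N)
    (hlen : ∀ b ∈ blocks, b.length = N) (hd : ∀ b ∈ blocks, ∀ a ∈ b, a < 2 ^ k) :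
    foldL (packL (2 ^ (k * N)) (packL (2 ^ k) id) blocks)
        (packL (2 ^ (k * N)) (fun _ => 2 ^ k - 1) blocks) k N 0
      = packL (2 ^ (k * N)) (fun b => packL (2 ^ k) id (shift Nat.add dblN b)) blocks := by
  apply Nat.cast_injective (R := ℝ)
  rw [foldL_eq, cast_packL]
  have h1 : (List.range' 0 N).map (extF (packL (2 ^ (k * N)) (packL (2 ^ k) id) blocks)
        (packL (2 ^ (k * N)) (fun _ => 2 ^ k - 1) blocks) k)
      = (List.range' 0 N).map fun t => packL (2 ^ (k * N)) (fun b => b.getD t 0) blocks := by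
    apply List.map_congr_left
    intro t ht
    have ht' : t < N := by
      have := List.mem_range'.1 ht
      obtain ⟨i, hi, rfl⟩ := this
      omega
    have := ext_spec k N t ht' blocks hlen hd
    simp only [extF]
    rw [← this]
    simp only [Nat.shiftRight_eq, Nat.shiftRight_eq_div_pow]
    rfl
  rw [h1, ← evH_one evN _ (N - 1), evH_cols 1 _ k N blocks hlen]
  apply evP_congr
  intro b hb
  have hbl := hlen b hb
  have h2 : ((packL (2 ^ k) id (shift Nat.add dblN b) : ℕ) : ℝ)
      = evH evN 1 ((2 ^ k : ℕ) : ℝ) (N - 1) (shift Nat.add dblN b) := by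
    rw [cast_packL, evH_one]
    rfl
  simp only [h2]
  have h3 := evH_shift (κ := 2) (add := Nat.add) (kap := dblN) (ev := evN) 1 ((2 ^ k : ℕ) : ℝ)
    evN_add evN_dbl b (N - 1) (by omega)
  rw [h3]
  push_cast
  congr 1

/-- The right child is computed by `foldR`. -/
theorem foldR_spec (k N : ℕ) (blocks : List (List ℕ)) (hN : 1 ≤ N)
    (hlen : ∀ b ∈ blocks, b.length = N) (hd : ∀ b ∈ blocks, ∀ a ∈ b, a < 2 ^ k) :
    foldR (packL (2 ^ (k * N)) (packL (2 ^ k) id) blocks)
        (packL (2 ^ (k * N)) (fun _ => 2 ^ k - 1) blocks) k N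
      = packL (2 ^ (k * N))
          (fun b => packL (2 ^ k) id (shift Nat.add dblN b.reverse).reverse) blocks := by
  apply Nat.cast_injective (R := ℝ)
  rw [foldR_eq, cast_packL]
  have h1 : (List.range' 0 N).map (extF (packL (2 ^ (k * N)) (packL (2 ^ k) id) blocks)
        (packL (2 ^ (k * N)) (fun _ => 2 ^ k - 1) blocks) k)
      = (List.range' 0 N).map fun t => packL (2 ^ (k * N)) (fun b => b.getD t 0) blocks := by
    apply List.map_congr_left
    intro t ht
    have ht' : t < N := by
      have := List.mem_range'.1 ht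
      obtain ⟨i, hi, rfl⟩ := this
      omega
    have := ext_spec k N t ht' blocks hlen hd
    simp only [extF]
    rw [← this]
    simp only [Nat.shiftRight_eq, Nat.shiftRight_eq_div_pow]
    rfl
  rw [h1, evH_cols _ _ k N blocks hlen]
  apply evP_congr
  intro b hb
  have hbl := hlen b hb
  have hsl : (shift Nat.add dblN b.reverse).length = N := by
    rw [length_shift, List.length_reverse, hbl]
  have h2 : ((packL (2 ^ k) id (shift Nat.add dblN b.reverse).reverse : ℕ) : ℝ)
      = evH evN 1 ((2 ^ k : ℕ) : ℝ) (N - 1) (shift Nat.add dblN b.reverse).reverse := by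
    rw [cast_packL, evH_one]
    rfl
  simp only [h2]
  rw [evH_reverse (ev := evN) 1 _ _ N hsl]
  have h3 := evH_shift (κ := 2) (add := Nat.add) (kap := dblN) (ev := evN) ((2 ^ k : ℕ) : ℝ) 1
    evN_add evN_dbl b.reverse (N - 1) (by rw [List.length_reverse]; omega)
  rw [h3]
  have h4 := evH_reverse (ev := evN) ((2 ^ k : ℕ) : ℝ) (((2 ^ k : ℕ) : ℝ) + 2 * 1) b N hbl
  rw [h4]
  push_cast
  congr 1
  ring

end Vale.Agent.Lib.P371.CalB
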