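import Vale.Agent.Lib.P371.CalDefs
import Vale.Agent.Lib.P371.CalBern

/-!
Calibrations given by polynomials: from kernel-checked data to `CalData`.

`F y g p = (1 - y²)² ∑ g^i p^j a_{ij}(y) / D` with integer polynomials `a_{ij}`, `i ≥ 1`.
-/

open Real

namespace Vale.Agent.Lib.P371.Cal.Bern

/-! ### Polynomials in one variable -/

lemma pe_nil (y : ℝ) : pe [] y = 0 := rfl

lemma pe_cons (x : ℤ) (u : List ℤ) (y : ℝ) : pe (x :: u) y = (x : ℝ) + y * pe u y := rfl

/-- Sum of polynomials. -/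
def padd (u v : List ℤ) : List ℤ := addL intOps u v

/-- Multiple of a polynomial. -/
def psmul (k : ℤ) (u : List ℤ) : List ℤ := smulL intOps k u

lemma pe_padd (u v : List ℤ) (y : ℝ) : pe (padd u v) y = pe u y + pe v y :=
  evalP_addL lin_int y u v

lemma pe_psmul (k : ℤ) (u : List ℤ) (y : ℝ) : pe (psmul k u) y = (k : ℝ) * pe u y :=
  evalP_smulL lin_int y k u

/-- Product of polynomials. -/
def pmul : List ℤ → List ℤ → List ℤ
  | [], _ => []
  | x :: xs, v => padd (psmul x v) (0 :: pmul xs v)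

lemma pe_pmul : ∀ (u v : List ℤ) (y : ℝ), pe (pmul u v) y = pe u y * pe v y
  | [], v, y => by simp [pmul, pe_nil]
  | x :: xs, v, y => by
      simp only [pmul, pe_padd, pe_psmul, pe_cons, pe_pmul xs v y]
      push_cast
      ring

/-- Derivative of a polynomial. -/
def pder : List ℤ → List ℤ
  | [] => []
  | _ :: xs => padd xs (0 :: pder xs)

lemma pe_hasDeriv : ∀ (u : List ℤ) (y : ℝ), HasDerivAt (pe u) (pe (pder u) y) y
  | [], y => by
      have : pe [] = fun _ => (0 : ℝ) := rfl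
      rw [this]
      exact hasDerivAt_const y 0
  | x :: xs, y => by
      have h := pe_hasDeriv xs y
      have h1 : HasDerivAt (fun s => (x : ℝ) + s * pe xs s) (1 * pe xs y + y * pe (pder xs) y) y :=
        ((hasDerivAt_id y).mul h).const_add _
      have h2 : pe (x :: xs) = fun s => (x : ℝ) + s * pe xs s := rfl
      rw [h2]
      convert h1 using 1
      simp only [pder, pe_padd, pe_cons]
      push_cast
      ring

lemma pe_continuous (u : List ℤ) : Continuous (pe u) :=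
  continuous_iff_continuousAt.mpr fun y => (pe_hasDeriv u y).continuousAt

/-- Sum of the absolute values of the coefficients. -/
def absSum : List ℤ → ℤ
  | [] => 0
  | x :: xs => |x| + absSum xs

lemma pe_abs_le {y : ℝ} (hy : |y| ≤ 1) : ∀ u : List ℤ, |pe u y| ≤ (absSum u : ℝ)
  | [] => by simp [pe_nil, absSum]
  | x :: xs => by
      have h := pe_abs_le hy xs
      have h0 : 0 ≤ |pe xs y| := abs_nonneg _
      have h1 : |y * pe xs y| ≤ |pe xs y| := by
        rw [abs_mul]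
        nlinarith [abs_nonneg y]
      calc |pe (x :: xs) y| ≤ |(x : ℝ)| + |y * pe xs y| := by
            rw [pe_cons]
            exact abs_add_le _ _
        _ ≤ (absSum (x :: xs) : ℝ) := by
            simp only [absSum]
            push_cast
            linarith

/-! ### Polynomials in `(y, g, p)` as lists of terms -/

/-- The term `g^i p^j a(y)`. -/
structure Term where
  i : ℕ
  j : ℕ
  a : List ℤ

/-- Sums of terms. -/
abbrev Flat := List Term

/-- Evaluation. -/
noncomputable def evF : Flat → ℝ → ℝ → ℝ → ℝ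
  | [], _, _, _ => 0
  | e :: es, y, g, p => g ^ e.i * p ^ e.j * pe e.a y + evF es y g p

lemma evF_nil (y g p : ℝ) : evF [] y g p = 0 := rfl

lemma evF_cons (e : Term) (es : Flat) (y g p : ℝ) :
    evF (e :: es) y g p = g ^ e.i * p ^ e.j * pe e.a y + evF es y g p := rfl

lemma evF_append : ∀ (P Q : Flat) (y g p : ℝ), evF (P ++ Q) y g p = evF P y g p + evF Q y g p
  | [], Q, y, g, p => by simp [evF_nil]
  | e :: es, Q, y, g, p => by
      simp only [List.cons_append, evF_cons, evF_append es Q y g p]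
      ring

/-- Multiple of a sum of terms. -/
def Fsmul (k : ℤ) (P : Flat) : Flat := P.map fun e => ⟨e.i, e.j, psmul k e.a⟩

lemma evF_Fsmul (k : ℤ) : ∀ (P : Flat) (y g p : ℝ), evF (Fsmul k P) y g p = (k : ℝ) * evF P y g p
  | [], y, g, p => by simp [Fsmul, evF_nil]
  | e :: es, y, g, p => by
      have := evF_Fsmul k es y g p
      simp only [Fsmul, List.map_cons, evF_cons] at this ⊢
      rw [this, pe_psmul]
      ring

/-- Product of a term with a sum of terms. -/
def Fmul1 (e : Term) (Q : Flat) : Flat := Q.map fun f => ⟨e.i + f.i, e.j + f.j, pmul e.a f.a⟩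

lemma evF_Fmul1 (e : Term) : ∀ (Q : Flat) (y g p : ℝ),
    evF (Fmul1 e Q) y g p = g ^ e.i * p ^ e.j * pe e.a y * evF Q y g p
  | [], y, g, p => by simp [Fmul1, evF_nil]
  | f :: fs, y, g, p => by
      have := evF_Fmul1 e fs y g p
      simp only [Fmul1, List.map_cons, evF_cons] at this ⊢
      rw [this, pe_pmul, pow_add, pow_add]
      ring

/-- Product of sums of terms. -/
def Fmul : Flat → Flat → Flat
  | [], _ => []
  | e :: es, Q => Fmul1 e Q ++ Fmul es Q

lemma evF_Fmul : ∀ (P Q : Flat) (y g p : ℝ), evF (Fmul P Q) y g p = evF P y g p * evF Q y g p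
  | [], Q, y, g, p => by simp [Fmul, evF_nil]
  | e :: es, Q, y, g, p => by
      simp only [Fmul, evF_append, evF_Fmul1, evF_Fmul es Q y g p, evF_cons]
      ring

/-- `∂_g`. -/
def dG (S : Flat) : Flat := S.map fun e => ⟨e.i - 1, e.j, psmul (e.i : ℤ) e.a⟩

/-- `∂_p`. -/
def dP (S : Flat) : Flat := S.map fun e => ⟨e.i, e.j - 1, psmul (e.j : ℤ) e.a⟩

/-- `∂_y`. -/
def dY (S : Flat) : Flat := S.map fun e => ⟨e.i, e.j, pder e.a⟩

/-- The weight `τ`, with `∂_p S = g τ`. -/
def tauF (S : Flat) : Flat := S.map fun e => ⟨e.i - 1, e.j - 1, psmul (e.j : ℤ) e.a⟩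

/-- `S = g (downF S)`. -/
def downF (S : Flat) : Flat := S.map fun e => ⟨e.i - 1, e.j, e.a⟩

/-- The polynomial `1 - y²`. -/
def c2L : List ℤ := [1, 0, -1]

lemma pe_c2L (y : ℝ) : pe c2L y = 1 - y ^ 2 := by
  simp only [c2L, pe_cons, pe_nil]
  push_cast
  ring

/-- The polynomial `(1 - y²) a' - 4 y a`. -/
def uL (a : List ℤ) : List ℤ := padd (pmul c2L (pder a)) (pmul [0, -4] a)

lemma pe_uL (a : List ℤ) (y : ℝ) :
    pe (uL a) y = (1 - y ^ 2) * pe (pder a) y - 4 * y * pe a y := by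
  simp only [uL, pe_padd, pe_pmul, pe_c2L, pe_cons, pe_nil]
  push_cast
  ring

/-- The polynomial `U`, with `g U = (1 - y²) ∂_y S - 4 y S`. -/
def uF (S : Flat) : Flat := S.map fun e => ⟨e.i - 1, e.j, uL e.a⟩

/-- The polynomial `L = (1 - y²) (p ∂_g S - g ∂_p S)`. -/
def lF : Flat → Flat
  | [] => []
  | e :: es => ⟨e.i - 1, e.j + 1, psmul (e.i : ℤ) (pmul c2L e.a)⟩ ::
      ⟨e.i + 1, e.j - 1, psmul (-(e.j : ℤ)) (pmul c2L e.a)⟩ :: lF es

/-- Remove the terms with zero coefficients. -/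
def clean : Flat → Flat
  | [] => []
  | e :: es => if e.a.all (fun z => decide (z = 0)) then clean es else e :: clean es

lemma pe_zero : ∀ (u : List ℤ) (y : ℝ), u.all (fun z => decide (z = 0)) = true → pe u y = 0
  | [], _, _ => rfl
  | x :: xs, y, h => by
      simp only [List.all_cons, Bool.and_eq_true, decide_eq_true_eq] at h
      rw [pe_cons, pe_zero xs y h.2, h.1]
      simp

lemma evF_clean : ∀ (Q : Flat) (y g p : ℝ), evF (clean Q) y g p = evF Q y g p
  | [], _, _, _ => rfl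
  | e :: es, y, g, p => by
      simp only [clean]
      split_ifs with h
      · rw [evF_cons, pe_zero _ _ h, evF_clean es y g p]
        simp
      · rw [evF_cons, evF_cons, evF_clean es y g p]

/-- The polynomial `q = 16 τ (D + L) - U²`. -/
def qF (S : Flat) (D : ℤ) : Flat :=
  Fsmul 16 (Fmul (clean (tauF S)) (⟨0, 0, [D]⟩ :: clean (lF S))) ++ Fsmul (-1) (Fmul (uF S) (uF S))

lemma evF_qF (S : Flat) (D : ℤ) (y g p : ℝ) : evF (qF S D) y g p =
    16 * evF (tauF S) y g p * ((D : ℝ) + evF (lF S) y g p) - evF (uF S) y g p ^ 2 := by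
  simp only [qF, evF_append, evF_Fsmul, evF_Fmul, evF_cons, pe_cons, pe_nil, evF_clean]
  push_cast
  ring

/-- All terms have `i ≥ 1`. -/
def ipos (S : Flat) : Bool := S.all fun e => decide (1 ≤ e.i)

lemma ipos_head {e : Term} {es : Flat} (h : ipos (e :: es) = true) : 1 ≤ e.i ∧ ipos es = true := by
  simpa [ipos] using h

lemma evF_tau : ∀ (S : Flat), ipos S = true → ∀ y g p : ℝ,
    g * evF (tauF S) y g p = evF (dP S) y g p
  | [], _, y, g, p => by simp [tauF, dP, evF_nil]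
  | e :: es, h, y, g, p => by
      obtain ⟨h1, h2⟩ := ipos_head h
      have := evF_tau es h2 y g p
      simp only [tauF, dP, List.map_cons, evF_cons] at this ⊢
      rw [mul_add, this, ← mul_assoc, ← mul_assoc, ← pow_succ', Nat.sub_add_cancel h1]

lemma evF_down : ∀ (S : Flat), ipos S = true → ∀ y g p : ℝ,
    g * evF (downF S) y g p = evF S y g p
  | [], _, y, g, p => by simp [downF, evF_nil]
  | e :: es, h, y, g, p => by
      obtain ⟨h1, h2⟩ := ipos_head h
      have := evF_down es h2 y g p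
      simp only [downF, List.map_cons, evF_cons] at this ⊢
      rw [mul_add, this, ← mul_assoc, ← mul_assoc, ← pow_succ', Nat.sub_add_cancel h1]

lemma evF_u : ∀ (S : Flat), ipos S = true → ∀ y g p : ℝ,
    g * evF (uF S) y g p = (1 - y ^ 2) * evF (dY S) y g p - 4 * y * evF S y g p
  | [], _, y, g, p => by simp [uF, dY, evF_nil]
  | e :: es, h, y, g, p => by
      obtain ⟨h1, h2⟩ := ipos_head h
      have := evF_u es h2 y g p
      simp only [uF, dY, List.map_cons, evF_cons] at this ⊢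
      rw [mul_add, this, pe_uL, ← mul_assoc, ← mul_assoc, ← pow_succ', Nat.sub_add_cancel h1]
      ring

lemma evF_l : ∀ (S : Flat) (y g p : ℝ),
    evF (lF S) y g p = (1 - y ^ 2) * (p * evF (dG S) y g p - g * evF (dP S) y g p)
  | [], y, g, p => by simp [lF, dG, dP, evF_nil]
  | e :: es, y, g, p => by
      have := evF_l es y g p
      simp only [dG, dP, List.map_cons] at this ⊢
      simp only [lF, evF_cons, this, pe_psmul, pe_pmul, pe_c2L]
      push_cast
      rcases Nat.eq_zero_or_pos e.j with hj | hj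
      · simp only [hj]
        simp
        ring
      · have e1 : g ^ (e.i + 1) = g * g ^ e.i := pow_succ' g e.i
        have e2 : p ^ (e.j + 1) = p * p ^ e.j := pow_succ' p e.j
        rw [e1, e2]
        ring

/-- Chain rule along curves. -/
lemma evF_chain (y g p : ℝ → ℝ) (y' g' p' x : ℝ) (hy : HasDerivAt y y' x) (hg : HasDerivAt g g' x)
    (hp : HasDerivAt p p' x) : ∀ S : Flat, HasDerivAt (fun t => evF S (y t) (g t) (p t))
      (evF (dY S) (y x) (g x) (p x) * y' + evF (dG S) (y x) (g x) (p x) * g' +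
        evF (dP S) (y x) (g x) (p x) * p') x
  | [] => by
      simp only [dY, dG, dP, List.map_nil, evF_nil]
      simpa using hasDerivAt_const x (0 : ℝ)
  | e :: es => by
      have h := evF_chain y g p y' g' p' x hy hg hp es
      have h1 : HasDerivAt (fun t => pe e.a (y t)) (pe (pder e.a) (y x) * y') x :=
        (pe_hasDeriv e.a (y x)).comp x hy
      have h2 := ((hg.pow e.i).mul (hp.pow e.j)).mul h1
      have h3 := h2.add h
      refine HasDerivAt.congr_deriv (f := fun t => evF (e :: es) (y t) (g t) (p t)) h3 ?_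
      simp only [dY, dG, dP, List.map_cons, evF_cons, pe_psmul, Pi.pow_apply, Pi.mul_apply]
      push_cast
      ring

lemma evF_continuous : ∀ S : Flat, Continuous fun v : ℝ × ℝ × ℝ => evF S v.1 v.2.1 v.2.2
  | [] => continuous_const
  | e :: es => by
      have h := evF_continuous es
      have h1 : Continuous fun v : ℝ × ℝ × ℝ => pe e.a v.1 := (pe_continuous e.a).comp continuous_fst
      simp only [evF_cons]
      fun_prop

/-- A bound for the values of a sum of terms on the relevant domain. -/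
def absF : Flat → ℤ
  | [] => 0
  | e :: es => absSum e.a + absF es

lemma evF_abs_le {y g p : ℝ} (hy : |y| ≤ 1) (hg : |g| ≤ 1) (hp : |p| ≤ 1) :
    ∀ S : Flat, |evF S y g p| ≤ (absF S : ℝ)
  | [] => by simp [evF_nil, absF]
  | e :: es => by
      have h := evF_abs_le hy hg hp es
      have h1 := pe_abs_le hy e.a
      have h2 : |g ^ e.i| ≤ 1 := by
        rw [abs_pow]
        exact pow_le_one₀ (abs_nonneg _) hg
      have h3 : |p ^ e.j| ≤ 1 := by
        rw [abs_pow]
        exact pow_le_one₀ (abs_nonneg _) hp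
      have h4 : |g ^ e.i * p ^ e.j * pe e.a y| ≤ |pe e.a y| := by
        rw [abs_mul, abs_mul]
        have : |g ^ e.i| * |p ^ e.j| ≤ 1 := mul_le_one₀ h2 (abs_nonneg _) h3
        nlinarith [abs_nonneg (pe e.a y)]
      calc |evF (e :: es) y g p| ≤ |g ^ e.i * p ^ e.j * pe e.a y| + |evF es y g p| := by
            rw [evF_cons]
            exact abs_add_le _ _
        _ ≤ (absF (e :: es) : ℝ) := by
            simp only [absF]
            push_cast
            linarith

lemma absF_downF : ∀ S : Flat, absF (downF S) = absF S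
  | [] => rfl
  | e :: es => by
      have := absF_downF es
      simp only [downF, List.map_cons, absF] at this ⊢
      rw [this]

/-! ### Rows -/

lemma row_eval (y r : ℝ) (k : ℕ) (c : List ℤ) :
    evalP (fun u => pe u y) (List.replicate k [] ++ [c]) r = r ^ k * pe c y := by
  induction k with
  | zero => simp [evalP]
  | succ n ih =>
      simp only [List.replicate_succ, List.cons_append, evalP, ih, pe_nil]
      ring

/-! ### The calibration -/

/-- `∑_{j = 0} a(y)`, the value of the sum at `g = 1`, `p = 0`. -/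
def startP : Flat → List ℤ
  | [] => []
  | e :: es => if e.j = 0 then padd e.a (startP es) else startP es

lemma evF_start : ∀ (S : Flat) (y : ℝ), evF S y 1 0 = pe (startP S) y
  | [], y => by simp [evF_nil, startP, pe_nil]
  | e :: es, y => by
      simp only [evF_cons, startP]
      rcases Nat.eq_zero_or_pos e.j with hj | hj
      · simp [hj, pe_padd, evF_start es y]
      · have : e.j ≠ 0 := by omega
        simp [this, evF_start es y]

/-- `Cd (1 - y²)² (∑_{j = 0} a) - Cn D`. -/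
def stPoly (S : Flat) (Cn Cd D : ℤ) : List ℤ :=
  padd (psmul Cd (pmul c2L (pmul c2L (startP S)))) [-(Cn * D)]

/-- The data for the calibration. -/
structure Data where
  S : Flat
  D : ℤ
  Cn : ℤ
  Cd : ℤ
  yd : ℤ

/-- The function `q` as a sum of terms. -/
def Data.q (d : Data) : Flat := qF d.S d.D

/-- The function `τ - 1` as a sum of terms. -/
def Data.t (d : Data) : Flat := clean (tauF d.S) ++ [⟨0, 0, [-1]⟩]

/-- The checks on the shape of the data. -/
def Data.okShape (d : Data) : Bool :=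
  decide (0 < d.D) && decide (0 < d.Cd) && decide (0 < d.yd) && ipos d.S

/-- The check of the start value. -/
def Data.okStart (d : Data) : Bool := testY 0 1 d.yd (stPoly d.S d.Cn d.Cd d.D)

/-- The calibration. -/
noncomputable def Data.Fc (d : Data) (y g p : ℝ) : ℝ := (1 - y ^ 2) ^ 2 * evF d.S y g p / d.D

lemma star_alg {A τ U w ζ : ℝ} (hτ : 1 ≤ τ) (hq : 0 ≤ 16 * τ * A - U ^ 2) (hw : |w| ≤ ζ / 2) :
    0 ≤ A + τ * ζ ^ 2 + U * w := by
  have hτ0 : 0 < τ := by linarith
  have h1 : -(|U| * (ζ / 2)) ≤ U * w := by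
    have : |U * w| ≤ |U| * (ζ / 2) := by
      rw [abs_mul]
      exact mul_le_mul_of_nonneg_left hw (abs_nonneg _)
    exact (abs_le.mp this).1
  have h2 : |U| ^ 2 = U ^ 2 := sq_abs U
  have h3 : 0 ≤ 16 * τ * (A + τ * ζ ^ 2 + U * w) := by
    have h4 : 16 * τ * (-(|U| * (ζ / 2))) ≤ 16 * τ * (U * w) :=
      mul_le_mul_of_nonneg_left h1 (by positivity)
    nlinarith [sq_nonneg (4 * τ * ζ - |U|)]
  exact nonneg_of_mul_nonneg_right h3 (by positivity)

lemma star_main (d : Data) (hD0 : (0 : ℝ) < d.D) (hi : ipos d.S = true)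
    (hq0 : ∀ {y g p : ℝ}, 0 ≤ y → y ≤ 1 → 0 ≤ g → g ^ 2 + p ^ 2 ≤ 1 → 0 ≤ evF d.q y g p)
    (ht0 : ∀ {y g p : ℝ}, 0 ≤ y → y ≤ 1 → 0 ≤ g → g ^ 2 + p ^ 2 ≤ 1 → 0 ≤ evF d.t y g p)
    {y g p κ z : ℝ} (hy0 : 0 ≤ y) (hy1 : y ≤ 1) (hg : 0 ≤ g) (hgp : g ^ 2 + p ^ 2 ≤ 1)
    (hz : |z| ≤ √(1 - y ^ 2) * κ / 2) :
    0 ≤ (1 - y ^ 2) + (1 - y ^ 2) ^ 2 * evF (dG d.S) y g p / d.D * p +
      (1 - y ^ 2) ^ 2 * evF (dP d.S) y g p / d.D * ((κ ^ 2 - 1) * g) +
      ((1 - y ^ 2) ^ 2 * evF (dY d.S) y g p - 4 * y * (1 - y ^ 2) * evF d.S y g p) / d.D * z := by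
  have hq := hq0 hy0 hy1 hg hgp
  have ht := ht0 hy0 hy1 hg hgp
  have hτ : 1 ≤ evF (tauF d.S) y g p := by
    have : evF d.t y g p = evF (tauF d.S) y g p - 1 := by
      simp only [Data.t, evF_append, evF_cons, evF_nil, pe_cons, pe_nil, evF_clean]
      push_cast
      ring
    rw [this] at ht
    linarith
  rw [Data.q, evF_qF] at hq
  have hc0 : 0 ≤ 1 - y ^ 2 := by nlinarith
  set c := √(1 - y ^ 2) with hc
  have hcc : c ^ 2 = 1 - y ^ 2 := Real.sq_sqrt hc0
  have e1 := evF_tau d.S hi y g p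
  have e2 := evF_u d.S hi y g p
  have e3 := evF_l d.S y g p
  have hz' : |g * z| ≤ (c * g * κ) / 2 := by
    rw [abs_mul, abs_of_nonneg hg]
    calc g * |z| ≤ g * (c * κ / 2) := mul_le_mul_of_nonneg_left hz hg
      _ = _ := by ring
  have h4 := star_alg (A := (d.D : ℝ) + evF (lF d.S) y g p) (τ := evF (tauF d.S) y g p)
    (U := evF (uF d.S) y g p) (w := g * z) (ζ := c * g * κ) hτ hq hz'
  have h5 : 0 ≤ (1 - y ^ 2) * ((d.D : ℝ) + evF (lF d.S) y g p +
      evF (tauF d.S) y g p * (c * g * κ) ^ 2 + evF (uF d.S) y g p * (g * z)) / d.D :=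
    div_nonneg (mul_nonneg hc0 h4) hD0.le
  have e4 : (c * g * κ) ^ 2 = (1 - y ^ 2) * g ^ 2 * κ ^ 2 := by
    rw [mul_pow, mul_pow, hcc]
  have e5 : evF (uF d.S) y g p * (g * z) =
      ((1 - y ^ 2) * evF (dY d.S) y g p - 4 * y * evF d.S y g p) * z := by
    rw [← e2]
    ring
  have e6 : evF (tauF d.S) y g p * ((1 - y ^ 2) * g ^ 2 * κ ^ 2) =
      (1 - y ^ 2) * g * evF (dP d.S) y g p * κ ^ 2 := by
    rw [← e1]
    ring
  rw [e4, e5, e6, e3] at h5
  convert h5 using 1
  field_simp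
  ring

lemma absF_nonneg (S : Flat) : (0 : ℝ) ≤ (absF S : ℝ) :=
  le_trans (abs_nonneg _) (evF_abs_le (y := 0) (g := 0) (p := 0) (by simp) (by simp) (by simp) S)

lemma terminal_main (d : Data) (hD0 : (0 : ℝ) < d.D) (hi : ipos d.S = true) {y g p η : ℝ} (hy0 : 0 ≤ y)
    (hy1 : y ≤ 1) (hg : 0 ≤ g) (hη : g ≤ η) (hgp : g ^ 2 + p ^ 2 ≤ 1) :
    d.Fc y g p ≤ (absF d.S : ℝ) / d.D * η := by
  have hy : |y| ≤ 1 := by rwa [abs_of_nonneg hy0]
  have hg1 : |g| ≤ 1 := abs_le.mpr ⟨by nlinarith [sq_nonneg p], by nlinarith [sq_nonneg p]⟩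
  have hp1 : |p| ≤ 1 := abs_le.mpr ⟨by nlinarith [sq_nonneg g], by nlinarith [sq_nonneg g]⟩
  have h1 := evF_abs_le hy hg1 hp1 (downF d.S)
  rw [absF_downF] at h1
  have h2 := (abs_le.mp h1).2
  have h3 := evF_down d.S hi y g p
  have hA := absF_nonneg d.S
  have hc0 : 0 ≤ 1 - y ^ 2 := by nlinarith
  have hc1 : (1 - y ^ 2) ^ 2 ≤ 1 := by nlinarith [sq_nonneg y]
  have hc2 : 0 ≤ (1 - y ^ 2) ^ 2 := sq_nonneg _
  have h4 : (1 - y ^ 2) ^ 2 * evF d.S y g p ≤ (absF d.S : ℝ) * η := by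
    rw [← h3]
    calc (1 - y ^ 2) ^ 2 * (g * evF (downF d.S) y g p)
        ≤ (1 - y ^ 2) ^ 2 * (g * (absF d.S : ℝ)) :=
          mul_le_mul_of_nonneg_left (mul_le_mul_of_nonneg_left h2 hg) hc2
      _ ≤ 1 * (g * (absF d.S : ℝ)) := mul_le_mul_of_nonneg_right hc1 (mul_nonneg hg hA)
      _ ≤ (absF d.S : ℝ) * η := by nlinarith
  unfold Data.Fc
  rw [div_le_iff₀ hD0]
  have : (absF d.S : ℝ) / d.D * η * d.D = (absF d.S : ℝ) * η := by
    field_simp
  rw [this]
  exact h4

lemma start_main (d : Data) (hD0 : (0 : ℝ) < d.D) (hCd0 : (0 : ℝ) < d.Cd) (hyd : 0 < d.yd)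
    (h : testY 0 1 d.yd (stPoly d.S d.Cn d.Cd d.D) = true) {y : ℝ} (hy0 : 0 ≤ y) (hy1 : y ≤ 1 / d.yd) :
    (d.Cn : ℝ) / d.Cd ≤ d.Fc y 1 0 := by
  have hyd' : (0 : ℝ) < d.yd := by exact_mod_cast hyd
  have h1 : (0 : ℝ) ≤ (d.yd : ℝ) * y := by positivity
  have h2 : (d.yd : ℝ) * y ≤ 1 := by
    rw [le_div_iff₀ hyd'] at hy1
    linarith
  have h3 := testY_sound hyd (by norm_num) h (x := y) (by simpa using h1) (by simpa using h2)
  simp only [stPoly, pe_padd, pe_psmul, pe_pmul, pe_c2L, pe_cons, pe_nil] at h3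
  push_cast at h3
  unfold Data.Fc
  rw [evF_start, div_le_div_iff₀ hCd0 hD0]
  nlinarith

/-- Building `CalData` from checked data. -/
noncomputable def Data.toCal (d : Data) (h1 : d.okShape = true) (h2 : d.okStart = true)
    (hq0 : ∀ {y g p : ℝ}, 0 ≤ y → y ≤ 1 → 0 ≤ g → g ^ 2 + p ^ 2 ≤ 1 → 0 ≤ evF d.q y g p)
    (ht0 : ∀ {y g p : ℝ}, 0 ≤ y → y ≤ 1 → 0 ≤ g → g ^ 2 + p ^ 2 ≤ 1 → 0 ≤ evF d.t y g p) :
    CalData :=
  have hD : 0 < d.D ∧ 0 < d.Cd ∧ 0 < d.yd ∧ ipos d.S = true := by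
    simpa [Data.okShape, and_assoc] using h1
  have hD0 : (0 : ℝ) < d.D := by exact_mod_cast hD.1
  have hCd0 : (0 : ℝ) < d.Cd := by exact_mod_cast hD.2.1
  have hyd0 : (0 : ℝ) < d.yd := by exact_mod_cast hD.2.2.1
  have hi : ipos d.S = true := hD.2.2.2
  { F := d.Fc
    Fy := fun y g p => ((1 - y ^ 2) ^ 2 * evF (dY d.S) y g p - 4 * y * (1 - y ^ 2) * evF d.S y g p) / d.D
    Fg := fun y g p => (1 - y ^ 2) ^ 2 * evF (dG d.S) y g p / d.D
    Fp := fun y g p => (1 - y ^ 2) ^ 2 * evF (dP d.S) y g p / d.D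
    chain := by
      intro y g p y' g' p' x hy hg hp
      have h4 := evF_chain y g p y' g' p' x hy hg hp d.S
      have h5 : HasDerivAt (fun t => (1 - y t ^ 2) ^ 2) (2 * (1 - y x ^ 2) ^ 1 * (0 - 2 * y x ^ 1 * y')) x := by
        exact ((hasDerivAt_const x (1 : ℝ)).sub (hy.pow 2)).pow 2 |>.congr_deriv (by norm_num)
      have h6 := (h5.mul h4).div_const (d.D : ℝ)
      refine HasDerivAt.congr_deriv (f := fun t => d.Fc (y t) (g t) (p t)) h6 ?_
      ring
    contF := by
      have h4 := evF_continuous d.S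
      unfold Data.Fc
      have : Continuous fun v : ℝ × ℝ × ℝ => v.1 := continuous_fst
      fun_prop
    star := by
      intro y g p κ z hy0 hy1 hg hgp _ hz
      exact star_main d hD0 hi hq0 ht0 hy0 hy1 hg hgp hz
    K₁ := (absF d.S : ℝ) / d.D
    K₁_nonneg := div_nonneg (absF_nonneg _) hD0.le
    terminal := fun y g p η hy0 hy1 hg hη hgp => terminal_main d hD0 hi hy0 hy1 hg hη hgp
    Cstart := (d.Cn : ℝ) / d.Cd
    ystart := 1 / d.yd
    ystart_pos := by positivity
    start := fun y hy0 hy1 => start_main d hD0 hCd0 hD.2.2.1 h2 hy0 hy1 }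

/-- The start value of the calibration. -/
lemma Data.toCal_Cstart (d : Data) (h1 : d.okShape = true) (h2 : d.okStart = true)
    (hq0 : ∀ {y g p : ℝ}, 0 ≤ y → y ≤ 1 → 0 ≤ g → g ^ 2 + p ^ 2 ≤ 1 → 0 ≤ evF d.q y g p)
    (ht0 : ∀ {y g p : ℝ}, 0 ≤ y → y ≤ 1 → 0 ≤ g → g ^ 2 + p ^ 2 ≤ 1 → 0 ≤ evF d.t y g p) :
    (d.toCal h1 h2 hq0 ht0).Cstart = (d.Cn : ℝ) / d.Cd := rfl

end Vale.Agent.Lib.P371.Cal.Bern
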