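import Vale.Agent.Lib.P371.CalP

/-!
The packed checker: tensors of pairs of digits (positive and negative part of each coefficient) are
stored in two natural numbers.  The checker computes only on these two numbers.
-/

namespace Vale.Agent.Lib.P371.CalB

/-! ### Tensors of pairs -/

/-- A coefficient as positive and negative part. -/
abbrev PD := ℕ × ℕ
/-- Lines. -/
abbrev PT1 := List PD
/-- Slices. -/
abbrev PT2 := List PT1
/-- Tensors. -/
abbrev PT3 := List PT2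

/-- Addition of pairs. -/
def padd (a b : PD) : PD := (Nat.add a.1 b.1, Nat.add a.2 b.2)
/-- Addition of lines. -/
def padd1 : PT1 → PT1 → PT1 := addL padd
/-- Addition of slices. -/
def padd2 : PT2 → PT2 → PT2 := addL padd1

/-- The value of a pair. -/
noncomputable def evD (a : PD) : ℝ := (a.1 : ℝ) - (a.2 : ℝ)

theorem evD_add (a b : PD) : evD (padd a b) = evD a + evD b := by
  simp only [evD, padd, Nat.add_eq]
  push_cast
  ring

/-- Evaluation of a tensor of pairs in homogeneous form. -/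
noncomputable def evFD (n₁ n₂ n₃ : ℕ) (u₁ v₁ u₂ v₂ u₃ v₃ : ℝ) (c : PT3) : ℝ :=
  evH (evH (evH evD u₃ v₃ n₃) u₂ v₂ n₂) u₁ v₁ n₁ c

/-! ### The spec-level children -/

/-- Left child in the outer variable. -/
def cL1 (c : PT3) : PT3 := shift padd2 (fun a => padd2 a a) c
/-- Right child in the outer variable. -/
def cR1 (c : PT3) : PT3 := (shift padd2 (fun a => padd2 a a) c.reverse).reverse
/-- Left child in the middle variable. -/
def cL2 (c : PT3) : PT3 := c.map (shift padd1 fun a => padd1 a a)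
/-- Right child in the middle variable. -/
def cR2 (c : PT3) : PT3 := c.map fun s => (shift padd1 (fun a => padd1 a a) s.reverse).reverse
/-- Left child in the inner variable. -/
def cL3 (c : PT3) : PT3 := c.map fun s => s.map (shift padd fun a => padd a a)
/-- Right child in the inner variable. -/
def cR3 (c : PT3) : PT3 :=
  c.map fun s => s.map fun l => (shift padd (fun a => padd a a) l.reverse).reverse

/-! ### Packing of tensors -/

/-- Packing of a line. -/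
def pi3 (W : ℕ) (π : PD → ℕ) (l : PT1) : ℕ := packL (2 ^ W) π l
/-- Packing of a slice. -/
def pi2 (W n₃ : ℕ) (π : PD → ℕ) (s : PT2) : ℕ := packL (2 ^ (W * (n₃ + 1))) (pi3 W π) s
/-- Packing of a tensor. -/
def pi1 (W n₂ n₃ : ℕ) (π : PD → ℕ) (c : PT3) : ℕ :=
  packL (2 ^ (W * (n₃ + 1) * (n₂ + 1))) (pi2 W n₃ π) c

theorem packL_addL {α : Type} (X : ℕ) (π : α → ℕ) (add : α → α → α)
    (h : ∀ a b, π (add a b) = π a + π b) (l m : List α) :
    packL X π (addL add l m) = packL X π l + packL X π m := by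
  induction l generalizing m with
  | nil => simp [addL, packL]
  | cons a l ih =>
    cases m with
    | nil => simp [addL, packL]
    | cons b m =>
      simp only [addL, packL, h, ih]
      ring

theorem map_mulW {α β : Type} (π : α → β) (add : α → α → α) (add' : β → β → β) (kap : α → α)
    (kap' : β → β) (h1 : ∀ a b, π (add a b) = add' (π a) (π b)) (h2 : ∀ a, π (kap a) = kap' (π a))
    (c : α) (l : List α) :
    (mulW add kap c l).map π = mulW add' kap' (π c) (l.map π) := by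
  induction l generalizing c with
  | nil => rfl
  | cons x l ih => simp [mulW, h1, h2, ih]

theorem map_shift {α β : Type} (π : α → β) (add : α → α → α) (add' : β → β → β) (kap : α → α)
    (kap' : β → β) (h1 : ∀ a b, π (add a b) = add' (π a) (π b)) (h2 : ∀ a, π (kap a) = kap' (π a))
    (l : List α) :
    (shift add kap l).map π = shift add' kap' (l.map π) := by
  induction l with
  | nil => rfl
  | cons a l ih =>
    simp only [shift, List.map_cons]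
    rw [map_mulW π add add' kap kap' h1 h2, ih]

/-- Additive digit maps. -/
def AddD (π : PD → ℕ) : Prop := ∀ a b, π (padd a b) = Nat.add (π a) (π b)

theorem addD_fst : AddD Prod.fst := fun _ _ => rfl
theorem addD_snd : AddD Prod.snd := fun _ _ => rfl

theorem pi3_add (W : ℕ) {π : PD → ℕ} (h : AddD π) (a b : PT1) :
    pi3 W π (padd1 a b) = Nat.add (pi3 W π a) (pi3 W π b) :=
  packL_addL _ _ _ (fun a b => h a b) a b

theorem pi2_add (W n₃ : ℕ) {π : PD → ℕ} (h : AddD π) (a b : PT2) :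
    pi2 W n₃ π (padd2 a b) = Nat.add (pi2 W n₃ π a) (pi2 W n₃ π b) :=
  packL_addL _ _ _ (fun a b => pi3_add W h a b) a b

/-- The line maps commute with packing: outer variable. -/
theorem map_shift1 (W n₃ : ℕ) {π : PD → ℕ} (h : AddD π) (l : PT3) :
    (shift padd2 (fun a => padd2 a a) l).map (pi2 W n₃ π)
      = shift Nat.add dblN (l.map (pi2 W n₃ π)) :=
  map_shift _ _ _ _ _ (pi2_add W n₃ h) (fun a => pi2_add W n₃ h a a) l

/-- The line maps commute with packing: middle variable. -/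
theorem map_shift2 (W : ℕ) {π : PD → ℕ} (h : AddD π) (l : PT2) :
    (shift padd1 (fun a => padd1 a a) l).map (pi3 W π)
      = shift Nat.add dblN (l.map (pi3 W π)) :=
  map_shift _ _ _ _ _ (pi3_add W h) (fun a => pi3_add W h a a) l

/-- The line maps commute with packing: inner variable. -/
theorem map_shift3 {π : PD → ℕ} (h : AddD π) (l : PT1) :
    (shift padd (fun a => padd a a) l).map π = shift Nat.add dblN (l.map π) :=
  map_shift _ _ _ _ _ h (fun a => h a a) l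

/-! ### Bounds -/

/-- Digit bound for a pair. -/
def Bd0 (x : ℕ) (a : PD) : Prop := a.1 < x ∧ a.2 < x

/-- Shape and bound for lists. -/
def BdL {α : Type} (Bd : ℕ → α → Prop) (n x : ℕ) (l : List α) : Prop :=
  l.length = n + 1 ∧ ∀ a ∈ l, Bd x a

/-- Shape and bound for lines. -/
abbrev Bd1 (n₃ : ℕ) : ℕ → PT1 → Prop := BdL Bd0 n₃
/-- Shape and bound for slices. -/
abbrev Bd2 (n₂ n₃ : ℕ) : ℕ → PT2 → Prop := BdL (Bd1 n₃) n₂
/-- Shape and bound for tensors. -/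
abbrev Bd3 (n₁ n₂ n₃ : ℕ) : ℕ → PT3 → Prop := BdL (Bd2 n₂ n₃) n₁

/-- A bound predicate with its closure properties. -/
structure BdOK {α : Type} (Bd : ℕ → α → Prop) (add : α → α → α) : Prop where
  mono : ∀ {x y a}, x ≤ y → Bd x a → Bd y a
  add : ∀ {x y a b}, Bd x a → Bd y b → Bd (x + y) (add a b)

theorem bdOK0 : BdOK Bd0 padd where
  mono := fun h ha => ⟨lt_of_lt_of_le ha.1 h, lt_of_lt_of_le ha.2 h⟩
  add := fun {x y a b} ha hb => by
    simp only [Bd0, padd, Nat.add_eq] at *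
    omega

theorem bdOK_L {α : Type} {Bd : ℕ → α → Prop} {add : α → α → α} (h : BdOK Bd add) (n : ℕ) :
    BdOK (BdL Bd n) (addL add) where
  mono := fun hxy ha => ⟨ha.1, fun b hb => h.mono hxy (ha.2 b hb)⟩
  add := by
    intro x y l m hl hm
    obtain ⟨hl1, hl2⟩ := hl
    obtain ⟨hm1, hm2⟩ := hm
    have key : ∀ (l m : List α), l.length = m.length → (∀ a ∈ l, Bd x a) → (∀ a ∈ m, Bd y a) →
        (addL add l m).length = l.length ∧ ∀ e ∈ addL add l m, Bd (x + y) e := by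
      intro l
      induction l with
      | nil =>
        intro m hlm _ _
        cases m with
        | nil => simp [addL]
        | cons _ _ => simp at hlm
      | cons a l ih =>
        intro m hlm hl hm
        cases m with
        | nil => simp at hlm
        | cons b m =>
          have h1 := ih m (by simpa using hlm) (fun c hc => hl c (by simp [hc]))
            (fun c hc => hm c (by simp [hc]))
          simp only [addL, List.length_cons, h1.1, List.mem_cons, forall_eq_or_imp, true_and]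
          exact ⟨h.add (hl a (by simp)) (hm b (by simp)), h1.2⟩
    have := key l m (by rw [hl1, hm1]) hl2 hm2
    exact ⟨by rw [this.1, hl1], this.2⟩

theorem bdOK1 (n₃ : ℕ) : BdOK (Bd1 n₃) padd1 := bdOK_L bdOK0 n₃
theorem bdOK2 (n₂ n₃ : ℕ) : BdOK (Bd2 n₂ n₃) padd2 := bdOK_L (bdOK1 n₃) n₂

theorem mulW_bd {α : Type} {Bd : ℕ → α → Prop} {add : α → α → α} (h : BdOK Bd add) {y : ℕ}
    (l : List α) (c : α) (hl : ∀ a ∈ l, Bd y a) (hc : Bd (2 * y) c) :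
    ∀ e ∈ mulW add (fun a => add a a) c l, Bd (3 * y) e := by
  induction l generalizing c with
  | nil =>
    intro e he
    simp only [mulW, List.mem_singleton] at he
    subst he
    exact h.mono (by omega) hc
  | cons x l ih =>
    intro e he
    simp only [mulW, List.mem_cons] at he
    have hx := hl x (by simp)
    rcases he with rfl | he
    · have := h.add hx hc
      exact h.mono (by omega) this
    · refine ih (add x x) (fun a ha => hl a (by simp [ha])) ?_ e he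
      have := h.add hx hx
      exact h.mono (by omega) this

theorem shift_bd {α : Type} {Bd : ℕ → α → Prop} {add : α → α → α} (h : BdOK Bd add) {y : ℕ}
    (l : List α) (hl : ∀ a ∈ l, Bd y a) :
    ∀ e ∈ shift add (fun a => add a a) l, Bd (3 ^ l.length * y) e := by
  induction l with
  | nil => simp [shift]
  | cons a l ih =>
    simp only [shift, List.length_cons]
    have h1 := ih fun b hb => hl b (by simp [hb])
    have h2 : 3 ^ (l.length + 1) * y = 3 * (3 ^ l.length * y) := by ring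
    rw [h2]
    refine mulW_bd h _ a h1 ?_
    have h3 : y ≤ 2 * (3 ^ l.length * y) := by
      have : 1 ≤ 3 ^ l.length := Nat.one_le_pow _ _ (by norm_num)
      nlinarith
    exact h.mono h3 (hl a (by simp))

/-- Digits of lines are below the width. -/
theorem Bd1.pi3_lt {W n₃ : ℕ} {π : PD → ℕ} (hπ : ∀ a : PD, ∀ x, Bd0 x a → π a < x) {l : PT1}
    (h : Bd1 n₃ (2 ^ W) l) : pi3 W π l < 2 ^ (W * (n₃ + 1)) := by
  have := packL_lt W π l fun a ha => hπ a _ (h.2 a ha)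
  rwa [h.1] at this

theorem Bd2.pi2_lt {W n₂ n₃ : ℕ} {π : PD → ℕ} (hπ : ∀ a : PD, ∀ x, Bd0 x a → π a < x) {s : PT2}
    (h : Bd2 n₂ n₃ (2 ^ W) s) : pi2 W n₃ π s < 2 ^ (W * (n₃ + 1) * (n₂ + 1)) := by
  have := packL_lt (W * (n₃ + 1)) (pi3 W π) s fun l hl => Bd1.pi3_lt hπ (h.2 l hl)
  rwa [h.1] at this

theorem fst_lt : ∀ a : PD, ∀ x, Bd0 x a → Prod.fst a < x := fun _ _ h => h.1
theorem snd_lt : ∀ a : PD, ∀ x, Bd0 x a → Prod.snd a < x := fun _ _ h => h.2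

/-! ### Regrouping for each variable -/

section Folds

variable {W n₁ n₂ n₃ : ℕ} {π : PD → ℕ} {c : PT3}

/-- Value, mask for the outer variable. -/
def mk1 (W n₂ n₃ : ℕ) : ℕ := 2 ^ (W * (n₃ + 1) * (n₂ + 1)) - 1

theorem fold1_common (h : Bd3 n₁ n₂ n₃ (2 ^ W) c) (hπ : ∀ a : PD, ∀ x, Bd0 x a → π a < x) :
    pi1 W n₂ n₃ π c = packL (2 ^ (W * (n₃ + 1) * (n₂ + 1) * (n₁ + 1)))
        (packL (2 ^ (W * (n₃ + 1) * (n₂ + 1))) id) [c.map (pi2 W n₃ π)] ∧
      mk1 W n₂ n₃ = packL (2 ^ (W * (n₃ + 1) * (n₂ + 1) * (n₁ + 1)))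
        (fun _ => 2 ^ (W * (n₃ + 1) * (n₂ + 1)) - 1) [c.map (pi2 W n₃ π)] ∧
      (∀ b ∈ [c.map (pi2 W n₃ π)], b.length = n₁ + 1) ∧
      (∀ b ∈ [c.map (pi2 W n₃ π)], ∀ a ∈ b, a < 2 ^ (W * (n₃ + 1) * (n₂ + 1))) := by
  refine ⟨?_, ?_, ?_, ?_⟩
  · simp only [packL, mul_zero, add_zero, packL_map, id]
    rfl
  · simp [packL, mk1]
  · simp [h.1]
  · intro b hb a ha
    simp only [List.mem_singleton] at hb
    subst hb
    obtain ⟨s, hs, rfl⟩ := List.mem_map.1 ha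
    exact Bd2.pi2_lt hπ (h.2 s hs)

theorem foldL1 (h : Bd3 n₁ n₂ n₃ (2 ^ W) c) (hπ : ∀ a : PD, ∀ x, Bd0 x a → π a < x)
    (hA : AddD π) :
    foldL (pi1 W n₂ n₃ π c) (mk1 W n₂ n₃) (W * (n₃ + 1) * (n₂ + 1)) (n₁ + 1) 0
      = pi1 W n₂ n₃ π (cL1 c) := by
  obtain ⟨h1, h2, h3, h4⟩ := fold1_common h hπ
  rw [h1, h2, foldL_spec _ _ _ (by omega) h3 h4]
  simp only [packL, mul_zero, add_zero]
  rw [← map_shift1 W n₃ hA, packL_map]
  rfl

theorem foldR1 (h : Bd3 n₁ n₂ n₃ (2 ^ W) c) (hπ : ∀ a : PD, ∀ x, Bd0 x a → π a < x)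
    (hA : AddD π) :
    foldR (pi1 W n₂ n₃ π c) (mk1 W n₂ n₃) (W * (n₃ + 1) * (n₂ + 1)) (n₁ + 1)
      = pi1 W n₂ n₃ π (cR1 c) := by
  obtain ⟨h1, h2, h3, h4⟩ := fold1_common h hπ
  rw [h1, h2, foldR_spec _ _ _ (by omega) h3 h4]
  simp only [packL, mul_zero, add_zero]
  rw [← List.map_reverse, ← map_shift1 W n₃ hA, ← List.map_reverse, packL_map]
  rfl

/-- Mask for the middle variable. -/
def mk2 (W n₁ n₂ n₃ : ℕ) : ℕ :=
  maskR (2 ^ (W * (n₃ + 1) * (n₂ + 1))) (2 ^ (W * (n₃ + 1)) - 1) (n₁ + 1)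

theorem fold2_common (h : Bd3 n₁ n₂ n₃ (2 ^ W) c) (hπ : ∀ a : PD, ∀ x, Bd0 x a → π a < x) :
    pi1 W n₂ n₃ π c = packL (2 ^ (W * (n₃ + 1) * (n₂ + 1)))
        (packL (2 ^ (W * (n₃ + 1))) id) (c.map (List.map (pi3 W π))) ∧
      mk2 W n₁ n₂ n₃ = packL (2 ^ (W * (n₃ + 1) * (n₂ + 1)))
        (fun _ => 2 ^ (W * (n₃ + 1)) - 1) (c.map (List.map (pi3 W π))) ∧
      (∀ b ∈ c.map (List.map (pi3 W π)), b.length = n₂ + 1) ∧
      (∀ b ∈ c.map (List.map (pi3 W π)), ∀ a ∈ b, a < 2 ^ (W * (n₃ + 1))) := by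
  refine ⟨?_, ?_, ?_, ?_⟩
  · simp only [packL_map, id]
    rfl
  · rw [packL_const]
    simp [mk2, h.1]
  · intro b hb
    obtain ⟨s, hs, rfl⟩ := List.mem_map.1 hb
    simpa using (h.2 s hs).1
  · intro b hb a ha
    obtain ⟨s, hs, rfl⟩ := List.mem_map.1 hb
    obtain ⟨l, hl, rfl⟩ := List.mem_map.1 ha
    exact Bd1.pi3_lt hπ ((h.2 s hs).2 l hl)

theorem foldL2 (h : Bd3 n₁ n₂ n₃ (2 ^ W) c) (hπ : ∀ a : PD, ∀ x, Bd0 x a → π a < x)
    (hA : AddD π) :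
    foldL (pi1 W n₂ n₃ π c) (mk2 W n₁ n₂ n₃) (W * (n₃ + 1)) (n₂ + 1) 0
      = pi1 W n₂ n₃ π (cL2 c) := by
  obtain ⟨h1, h2, h3, h4⟩ := fold2_common h hπ
  rw [h1, h2, foldL_spec _ _ _ (by omega) h3 h4, packL_map]
  unfold pi1 cL2
  rw [packL_map]
  apply packL_congr
  intro s _
  rw [← map_shift2 W hA, packL_map]
  rfl

theorem foldR2 (h : Bd3 n₁ n₂ n₃ (2 ^ W) c) (hπ : ∀ a : PD, ∀ x, Bd0 x a → π a < x)
    (hA : AddD π) :
    foldR (pi1 W n₂ n₃ π c) (mk2 W n₁ n₂ n₃) (W * (n₃ + 1)) (n₂ + 1)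
      = pi1 W n₂ n₃ π (cR2 c) := by
  obtain ⟨h1, h2, h3, h4⟩ := fold2_common h hπ
  rw [h1, h2, foldR_spec _ _ _ (by omega) h3 h4, packL_map]
  unfold pi1 cR2
  rw [packL_map]
  apply packL_congr
  intro s _
  rw [← List.map_reverse, ← map_shift2 W hA, ← List.map_reverse, packL_map]
  rfl

/-- Mask for the inner variable. -/
def mk3 (W n₁ n₂ n₃ : ℕ) : ℕ :=
  maskR (2 ^ (W * (n₃ + 1))) (2 ^ W - 1) ((n₁ + 1) * (n₂ + 1))

theorem pi1_flatten (h : Bd3 n₁ n₂ n₃ (2 ^ W) c) (f : PT1 → ℕ) :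
    packL (2 ^ (W * (n₃ + 1) * (n₂ + 1))) (packL (2 ^ (W * (n₃ + 1))) f) c
      = packL (2 ^ (W * (n₃ + 1))) f c.flatten := by
  have := packL_flatten (2 ^ (W * (n₃ + 1))) f (n₂ + 1) c fun s hs => (h.2 s hs).1
  rw [← this, ← pow_mul]

theorem fold3_common (h : Bd3 n₁ n₂ n₃ (2 ^ W) c) (hπ : ∀ a : PD, ∀ x, Bd0 x a → π a < x) :
    pi1 W n₂ n₃ π c = packL (2 ^ (W * (n₃ + 1)))
        (packL (2 ^ W) id) (c.flatten.map (List.map π)) ∧
      mk3 W n₁ n₂ n₃ = packL (2 ^ (W * (n₃ + 1)))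
        (fun _ => 2 ^ W - 1) (c.flatten.map (List.map π)) ∧
      (∀ b ∈ c.flatten.map (List.map π), b.length = n₃ + 1) ∧
      (∀ b ∈ c.flatten.map (List.map π), ∀ a ∈ b, a < 2 ^ W) := by
  refine ⟨?_, ?_, ?_, ?_⟩
  · simp only [packL_map, id]
    rw [← pi1_flatten h]
    rfl
  · rw [packL_const]
    simp only [mk3, List.length_map]
    rw [length_flatten_rect (n₂ + 1) c fun s hs => (h.2 s hs).1, h.1]
  · intro b hb
    obtain ⟨l, hl, rfl⟩ := List.mem_map.1 hb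
    obtain ⟨s, hs, hl⟩ := List.mem_flatten.1 hl
    simpa using ((h.2 s hs).2 l hl).1
  · intro b hb a ha
    obtain ⟨l, hl, rfl⟩ := List.mem_map.1 hb
    obtain ⟨s, hs, hl⟩ := List.mem_flatten.1 hl
    obtain ⟨e, he, rfl⟩ := List.mem_map.1 ha
    exact hπ e _ (((h.2 s hs).2 l hl).2 e he)

theorem foldL3 (h : Bd3 n₁ n₂ n₃ (2 ^ W) c) (hπ : ∀ a : PD, ∀ x, Bd0 x a → π a < x)
    (hA : AddD π) :
    foldL (pi1 W n₂ n₃ π c) (mk3 W n₁ n₂ n₃) W (n₃ + 1) 0 = pi1 W n₂ n₃ π (cL3 c) := by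
  obtain ⟨h1, h2, h3, h4⟩ := fold3_common h hπ
  rw [h1, h2, foldL_spec _ _ _ (by omega) h3 h4, packL_map]
  unfold pi1 cL3
  rw [packL_map]
  have h5 : ∀ s : PT2, pi2 W n₃ π (s.map (shift padd fun a => padd a a))
      = packL (2 ^ (W * (n₃ + 1)))
          (fun l => packL (2 ^ W) π (shift padd (fun a => padd a a) l)) s := by
    intro s
    unfold pi2
    rw [packL_map]
    rfl
  simp only [h5]
  rw [pi1_flatten h]
  apply packL_congr
  intro l _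
  rw [← map_shift3 hA, packL_map]
  rfl

theorem foldR3 (h : Bd3 n₁ n₂ n₃ (2 ^ W) c) (hπ : ∀ a : PD, ∀ x, Bd0 x a → π a < x)
    (hA : AddD π) :
    foldR (pi1 W n₂ n₃ π c) (mk3 W n₁ n₂ n₃) W (n₃ + 1) = pi1 W n₂ n₃ π (cR3 c) := by
  obtain ⟨h1, h2, h3, h4⟩ := fold3_common h hπ
  rw [h1, h2, foldR_spec _ _ _ (by omega) h3 h4, packL_map]
  unfold pi1 cR3
  rw [packL_map]
  have h5 : ∀ s : PT2, pi2 W n₃ π (s.map fun l => (shift padd (fun a => padd a a) l.reverse).reverse)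
      = packL (2 ^ (W * (n₃ + 1)))
          (fun l => packL (2 ^ W) π (shift padd (fun a => padd a a) l.reverse).reverse) s := by
    intro s
    unfold pi2
    rw [packL_map]
    rfl
  simp only [h5]
  rw [pi1_flatten h]
  apply packL_congr
  intro l _
  rw [← List.map_reverse, ← map_shift3 hA, ← List.map_reverse, packL_map]
  rfl

/-! ### Growth of the children -/

theorem bd_cL1 {y x : ℕ} (h : Bd3 n₁ n₂ n₃ y c) (hg : 3 ^ (n₁ + 1) * y ≤ x) :
    Bd3 n₁ n₂ n₃ x (cL1 c) := by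
  refine ⟨by simp only [cL1, length_shift, h.1], fun s hs => ?_⟩
  have := shift_bd (bdOK2 n₂ n₃) c h.2 s hs
  rw [h.1] at this
  exact (bdOK2 n₂ n₃).mono hg this

theorem bd_cR1 {y x : ℕ} (h : Bd3 n₁ n₂ n₃ y c) (hg : 3 ^ (n₁ + 1) * y ≤ x) :
    Bd3 n₁ n₂ n₃ x (cR1 c) := by
  refine ⟨by simp only [cR1, List.length_reverse, length_shift, h.1], fun s hs => ?_⟩
  have := shift_bd (bdOK2 n₂ n₃) c.reverse (fun a ha => h.2 a (List.mem_reverse.1 ha)) s
    (List.mem_reverse.1 hs)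
  rw [List.length_reverse, h.1] at this
  exact (bdOK2 n₂ n₃).mono hg this

theorem bd_cL2 {y x : ℕ} (h : Bd3 n₁ n₂ n₃ y c) (hg : 3 ^ (n₂ + 1) * y ≤ x) :
    Bd3 n₁ n₂ n₃ x (cL2 c) := by
  refine ⟨by simp only [cL2, List.length_map, h.1], fun s hs => ?_⟩
  obtain ⟨t, ht, rfl⟩ := List.mem_map.1 hs
  have hh := h.2 t ht
  refine ⟨by rw [length_shift, hh.1], fun l hl => ?_⟩
  have := shift_bd (bdOK1 n₃) t hh.2 l hl
  rw [hh.1] at this
  exact (bdOK1 n₃).mono hg this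

theorem bd_cR2 {y x : ℕ} (h : Bd3 n₁ n₂ n₃ y c) (hg : 3 ^ (n₂ + 1) * y ≤ x) :
    Bd3 n₁ n₂ n₃ x (cR2 c) := by
  refine ⟨by simp only [cR2, List.length_map, h.1], fun s hs => ?_⟩
  obtain ⟨t, ht, rfl⟩ := List.mem_map.1 hs
  have hh := h.2 t ht
  refine ⟨by rw [List.length_reverse, length_shift, List.length_reverse, hh.1], fun l hl => ?_⟩
  have := shift_bd (bdOK1 n₃) t.reverse (fun a ha => hh.2 a (List.mem_reverse.1 ha)) l
    (List.mem_reverse.1 hl)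
  rw [List.length_reverse, hh.1] at this
  exact (bdOK1 n₃).mono hg this

theorem bd_cL3 {y x : ℕ} (h : Bd3 n₁ n₂ n₃ y c) (hg : 3 ^ (n₃ + 1) * y ≤ x) :
    Bd3 n₁ n₂ n₃ x (cL3 c) := by
  refine ⟨by simp only [cL3, List.length_map, h.1], fun s hs => ?_⟩
  obtain ⟨t, ht, rfl⟩ := List.mem_map.1 hs
  have hh := h.2 t ht
  refine ⟨by rw [List.length_map, hh.1], fun l hl => ?_⟩
  obtain ⟨m, hm, rfl⟩ := List.mem_map.1 hl
  have hh2 := hh.2 m hm
  refine ⟨by rw [length_shift, hh2.1], fun a ha => ?_⟩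
  have := shift_bd bdOK0 m hh2.2 a ha
  rw [hh2.1] at this
  exact bdOK0.mono hg this

theorem bd_cR3 {y x : ℕ} (h : Bd3 n₁ n₂ n₃ y c) (hg : 3 ^ (n₃ + 1) * y ≤ x) :
    Bd3 n₁ n₂ n₃ x (cR3 c) := by
  refine ⟨by simp only [cR3, List.length_map, h.1], fun s hs => ?_⟩
  obtain ⟨t, ht, rfl⟩ := List.mem_map.1 hs
  have hh := h.2 t ht
  refine ⟨by rw [List.length_map, hh.1], fun l hl => ?_⟩
  obtain ⟨m, hm, rfl⟩ := List.mem_map.1 hl
  have hh2 := hh.2 m hm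
  refine ⟨by rw [List.length_reverse, length_shift, List.length_reverse, hh2.1], fun a ha => ?_⟩
  have := shift_bd bdOK0 m.reverse (fun b hb => hh2.2 b (List.mem_reverse.1 hb)) a
    (List.mem_reverse.1 ha)
  rw [List.length_reverse, hh2.1] at this
  exact bdOK0.mono hg this

/-! ### Head and leaf tests -/

theorem pi1_flat (h : Bd3 n₁ n₂ n₃ (2 ^ W) c) :
    pi1 W n₂ n₃ π c = packL (2 ^ W) π c.flatten.flatten := by
  have h1 := pi1_flatten h (packL (2 ^ W) π)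
  have h2 : pi1 W n₂ n₃ π c = packL (2 ^ (W * (n₃ + 1) * (n₂ + 1)))
      (packL (2 ^ (W * (n₃ + 1))) (packL (2 ^ W) π)) c := rfl
  rw [h2, h1]
  have h3 := packL_flatten (2 ^ W) π (n₃ + 1) c.flatten (fun l hl => by
    obtain ⟨s, hs, hl⟩ := List.mem_flatten.1 hl
    exact ((h.2 s hs).2 l hl).1)
  rw [← h3, ← pow_mul]

theorem length_flat (h : Bd3 n₁ n₂ n₃ (2 ^ W) c) :
    c.flatten.flatten.length = (n₁ + 1) * (n₂ + 1) * (n₃ + 1) := by
  rw [length_flatten_rect (n₃ + 1) c.flatten (fun l hl => by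
    obtain ⟨s, hs, hl⟩ := List.mem_flatten.1 hl
    exact ((h.2 s hs).2 l hl).1),
    length_flatten_rect (n₂ + 1) c fun s hs => (h.2 s hs).1, h.1]

theorem mem_flat_bd {x : ℕ} (h : Bd3 n₁ n₂ n₃ x c) {a : PD} (ha : a ∈ c.flatten.flatten) :
    Bd0 x a := by
  obtain ⟨l, hl, ha⟩ := List.mem_flatten.1 ha
  obtain ⟨s, hs, hl⟩ := List.mem_flatten.1 hl
  exact ((h.2 s hs).2 l hl).2 a ha

theorem lt_of_land_high {W h a : ℕ} (hW : h ≤ W) (ha : a < 2 ^ W)
    (h0 : a &&& (2 ^ W - 2 ^ (W - h)) = 0) : a < 2 ^ (W - h) := by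
  apply Nat.lt_pow_two_of_testBit
  intro i hi
  by_cases hiW : W ≤ i
  · exact Nat.testBit_lt_two_pow (lt_of_lt_of_le ha (Nat.pow_le_pow_right (by norm_num) hiW))
  · have h1 : 2 ^ W - 2 ^ (W - h) = 2 ^ (W - h) * (2 ^ h - 1) := by
      have h2 : 2 ^ W = 2 ^ (W - h) * 2 ^ h := by
        rw [← pow_add]
        congr 1
        omega
      rw [h2, Nat.mul_sub, mul_one]
    have h3 : (2 ^ W - 2 ^ (W - h)).testBit i = true := by
      rw [h1, Nat.testBit_two_pow_mul, Nat.testBit_two_pow_sub_one]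
      simp only [Bool.and_eq_true, decide_eq_true_eq]
      omega
    have h4 := congrArg (fun z => z.testBit i) h0
    simp only [Nat.testBit_and, h3, Bool.and_true, Nat.zero_testBit] at h4
    exact h4

theorem head_spec {h : ℕ} (hW : h ≤ W) (hc : Bd3 n₁ n₂ n₃ (2 ^ W) c)
    (hπ : ∀ a : PD, ∀ x, Bd0 x a → π a < x)
    (hh : pi1 W n₂ n₃ π c &&&
      maskR (2 ^ W) (2 ^ W - 2 ^ (W - h)) ((n₁ + 1) * (n₂ + 1) * (n₃ + 1)) = 0) :
    ∀ a ∈ c.flatten.flatten, π a < 2 ^ (W - h) := by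
  have hlen := length_flat hc
  rw [pi1_flat hc, ← hlen, ← packL_const (2 ^ W) _ c.flatten.flatten,
    land_packL W π _ _ (fun a ha => hπ a _ (mem_flat_bd hc ha))
      (fun a _ => Nat.sub_lt (by positivity) (by positivity))] at hh
  have h0 : packL (2 ^ W) (fun a => π a &&& (2 ^ W - 2 ^ (W - h))) c.flatten.flatten
      = packL (2 ^ W) (fun _ => 0) c.flatten.flatten := by
    rw [hh, packL_const]
    have : ∀ k, maskR (2 ^ W) 0 k = 0 := by
      intro k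
      induction k with
      | zero => rfl
      | succ k ih => simp [maskR, ih]
    rw [this]
  have h1 := packL_injective W _ _ _ (fun a _ => Nat.and_lt_two_pow _
    (Nat.sub_lt (by positivity) (by positivity))) (fun _ _ => by positivity) h0
  intro a ha
  exact lt_of_land_high hW (hπ a _ (mem_flat_bd hc ha)) (h1 a ha)

theorem leaf_spec (hW : 1 ≤ W) (hc : Bd3 n₁ n₂ n₃ (2 ^ (W - 1)) c)
    (hc' : Bd3 n₁ n₂ n₃ (2 ^ W) c)
    (hh : Nat.sub (Nat.add (pi1 W n₂ n₃ Prod.fst c)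
        (maskR (2 ^ W) (2 ^ (W - 1)) ((n₁ + 1) * (n₂ + 1) * (n₃ + 1))))
        (pi1 W n₂ n₃ Prod.snd c) &&&
      maskR (2 ^ W) (2 ^ (W - 1)) ((n₁ + 1) * (n₂ + 1) * (n₃ + 1))
        = maskR (2 ^ W) (2 ^ (W - 1)) ((n₁ + 1) * (n₂ + 1) * (n₃ + 1))) :
    ∀ a ∈ c.flatten.flatten, a.2 ≤ a.1 := by
  have hlen := length_flat hc'
  set O := 2 ^ (W - 1) with hO
  have hWO : 2 ^ W = 2 * O := by
    rw [hO, ← pow_succ']
    congr 1
    omega
  have hOpos : 0 < O := by positivity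
  rw [pi1_flat hc', pi1_flat hc', ← hlen, ← packL_const (2 ^ W) O c.flatten.flatten] at hh
  set l := c.flatten.flatten with hl
  have hb : ∀ a ∈ l, a.1 < O ∧ a.2 < O := fun a ha => mem_flat_bd hc ha
  have key : ∀ l : List PD, (∀ a ∈ l, a.1 < O ∧ a.2 < O) →
      packL (2 ^ W) Prod.fst l + packL (2 ^ W) (fun _ => O) l - packL (2 ^ W) Prod.snd l
        = packL (2 ^ W) (fun a => a.1 + O - a.2) l := by
    intro l hl
    have : packL (2 ^ W) Prod.fst l + packL (2 ^ W) (fun _ => O) l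
        = packL (2 ^ W) (fun a => a.1 + O - a.2) l + packL (2 ^ W) Prod.snd l := by
      induction l with
      | nil => rfl
      | cons a l ih =>
        have h1 := hl a (by simp)
        simp only [packL]
        have h2 := ih fun b hb => hl b (by simp [hb])
        have h3 : a.1 + O - a.2 + a.2 = a.1 + O := by omega
        calc a.1 + 2 ^ W * packL (2 ^ W) Prod.fst l + (O + 2 ^ W * packL (2 ^ W) (fun _ => O) l)
            = (a.1 + O) + 2 ^ W * (packL (2 ^ W) Prod.fst l + packL (2 ^ W) (fun _ => O) l) := by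
              ring
          _ = (a.1 + O - a.2 + a.2) + 2 ^ W * (packL (2 ^ W) (fun a => a.1 + O - a.2) l
                + packL (2 ^ W) Prod.snd l) := by rw [h3, h2]
          _ = _ := by ring
    rw [this]
    simp
  have hh' : (packL (2 ^ W) Prod.fst l + packL (2 ^ W) (fun _ => O) l - packL (2 ^ W) Prod.snd l)
      &&& packL (2 ^ W) (fun _ => O) l = packL (2 ^ W) (fun _ => O) l := hh
  rw [key l hb, land_packL W _ _ _ (fun a ha => by
      have := hb a ha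
      omega) (fun _ _ => by omega)] at hh'
  have h1 := packL_injective W _ _ _ (fun a _ => Nat.and_lt_two_pow _ (by omega))
    (fun _ _ => by omega) hh'
  intro a ha
  have h2 := h1 a ha
  have h3 : O ≤ a.1 + O - a.2 := by
    calc O = (a.1 + O - a.2) &&& O := h2.symm
      _ ≤ _ := Nat.and_le_left
  have := hb a ha
  omega

end Folds

/-! ### The checker -/

/-- Parameters of the packed checker. -/
structure PP where
  /-- width of a digit -/
  W : ℕ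
  /-- degree in the outer variable -/
  n₁ : ℕ
  /-- degree in the middle variable -/
  n₂ : ℕ
  /-- degree in the inner variable -/
  n₃ : ℕ
  /-- width of a cell in the outer variable -/
  k₁ : ℕ
  /-- width of a cell in the middle variable -/
  k₂ : ℕ
  /-- mask, outer variable -/
  M₁ : ℕ
  /-- mask, middle variable -/
  M₂ : ℕ
  /-- mask, inner variable -/
  M₃ : ℕ
  /-- head room mask -/
  HI : ℕ
  /-- top bits -/
  OF : ℕ

/-- The parameters for given width and degrees. -/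
def mkPP (W h n₁ n₂ n₃ : ℕ) : PP where
  W := W
  n₁ := n₁
  n₂ := n₂
  n₃ := n₃
  k₁ := W * (n₃ + 1) * (n₂ + 1)
  k₂ := W * (n₃ + 1)
  M₁ := 2 ^ (W * (n₃ + 1) * (n₂ + 1)) - 1
  M₂ := maskC (2 ^ (W * (n₃ + 1) * (n₂ + 1))) (2 ^ (W * (n₃ + 1)) - 1) (n₁ + 1)
  M₃ := maskC (2 ^ (W * (n₃ + 1))) (2 ^ W - 1) ((n₁ + 1) * (n₂ + 1))
  HI := maskC (2 ^ W) (2 ^ W - 2 ^ (W - h)) ((n₁ + 1) * (n₂ + 1) * (n₃ + 1))
  OF := maskC (2 ^ W) (2 ^ (W - 1)) ((n₁ + 1) * (n₂ + 1) * (n₃ + 1))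

/-- Head room test. -/
def headOK (P : PP) (Z : ℕ) : Bool := Nat.beq (Nat.land Z P.HI) 0

/-- Leaf test. -/
def leafOK (P : PP) (a b : ℕ) : Bool :=
  Nat.beq (Nat.land (Nat.sub (Nat.add a P.OF) b) P.OF) P.OF

/-- The packed checker. -/
def pcheck (P : PP) : Tree → ℕ → ℕ → Bool
  | .leaf, a, b => headOK P a && headOK P b && leafOK P a b
  | .n1 l r, a, b =>
    headOK P a && headOK P b &&
      pcheck P l (foldL a P.M₁ P.k₁ (P.n₁ + 1) 0) (foldL b P.M₁ P.k₁ (P.n₁ + 1) 0) &&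
      pcheck P r (foldR a P.M₁ P.k₁ (P.n₁ + 1)) (foldR b P.M₁ P.k₁ (P.n₁ + 1))
  | .n2 l r, a, b =>
    headOK P a && headOK P b &&
      pcheck P l (foldL a P.M₂ P.k₂ (P.n₂ + 1) 0) (foldL b P.M₂ P.k₂ (P.n₂ + 1) 0) &&
      pcheck P r (foldR a P.M₂ P.k₂ (P.n₂ + 1)) (foldR b P.M₂ P.k₂ (P.n₂ + 1))
  | .n3 l r, a, b =>
    headOK P a && headOK P b &&
      pcheck P l (foldL a P.M₃ P.W (P.n₃ + 1) 0) (foldL b P.M₃ P.W (P.n₃ + 1) 0) &&
      pcheck P r (foldR a P.M₃ P.W (P.n₃ + 1)) (foldR b P.M₃ P.W (P.n₃ + 1))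

/-- Numerical conditions on the parameters. -/
def parOK (W h n₁ n₂ n₃ : ℕ) : Bool :=
  decide (1 ≤ h) && decide (h ≤ W) && decide (3 ^ (n₁ + 1) ≤ 2 ^ h) &&
    decide (3 ^ (n₂ + 1) ≤ 2 ^ h) && decide (3 ^ (n₃ + 1) ≤ 2 ^ h)

theorem evH2D_add (n₂ n₃ : ℕ) (u₂ v₂ u₃ v₃ : ℝ) (a b : PT2) :
    evH (evH evD u₃ v₃ n₃) u₂ v₂ n₂ (padd2 a b) =
      evH (evH evD u₃ v₃ n₃) u₂ v₂ n₂ a + evH (evH evD u₃ v₃ n₃) u₂ v₂ n₂ b :=
  evH_addL u₂ v₂ (fun a b => evH_addL u₃ v₃ evD_add n₃ a b) n₂ a b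

theorem evH1D_add (n₃ : ℕ) (u₃ v₃ : ℝ) (a b : PT1) :
    evH evD u₃ v₃ n₃ (padd1 a b) = evH evD u₃ v₃ n₃ a + evH evD u₃ v₃ n₃ b :=
  evH_addL u₃ v₃ evD_add n₃ a b

theorem pow_growth {W h n : ℕ} (hW : h ≤ W) (hg : 3 ^ n ≤ 2 ^ h) :
    3 ^ n * 2 ^ (W - h) ≤ 2 ^ W := by
  calc 3 ^ n * 2 ^ (W - h) ≤ 2 ^ h * 2 ^ (W - h) := Nat.mul_le_mul_right _ hg
    _ = 2 ^ W := by
      rw [← pow_add]
      congr 1
      omega

/-- Digits below `2^(W-h)` on the flat list give the bound on the tensor. -/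
theorem bd_of_flat {x n₁ n₂ n₃ y : ℕ} {c : PT3} (h : Bd3 n₁ n₂ n₃ y c)
    (hx : ∀ a ∈ c.flatten.flatten, Bd0 x a) : Bd3 n₁ n₂ n₃ x c := by
  refine ⟨h.1, fun s hs => ⟨(h.2 s hs).1, fun l hl => ⟨((h.2 s hs).2 l hl).1, fun a ha => ?_⟩⟩⟩
  exact hx a (List.mem_flatten.2 ⟨l, List.mem_flatten.2 ⟨s, hs, hl⟩, ha⟩)

theorem pcheck_spec {W h n₁ n₂ n₃ : ℕ} (hpar : parOK W h n₁ n₂ n₃ = true) (t : Tree) (c : PT3)
    (hc : Bd3 n₁ n₂ n₃ (2 ^ W) c)
    (hp : pcheck (mkPP W h n₁ n₂ n₃) t (pi1 W n₂ n₃ Prod.fst c) (pi1 W n₂ n₃ Prod.snd c) = true)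
    {u₁ v₁ u₂ v₂ u₃ v₃ : ℝ} (h1 : 0 ≤ u₁) (h1' : 0 ≤ v₁)
    (h2 : 0 ≤ u₂) (h2' : 0 ≤ v₂) (h3 : 0 ≤ u₃) (h3' : 0 ≤ v₃) :
    0 ≤ evFD n₁ n₂ n₃ u₁ v₁ u₂ v₂ u₃ v₃ c := by
  simp only [parOK, Bool.and_eq_true, decide_eq_true_eq] at hpar
  obtain ⟨⟨⟨⟨hh1, hhW⟩, hg1⟩, hg2⟩, hg3⟩ := hpar
  have hW1 : 1 ≤ W := by omega
  have hX (k : ℕ) (hk : 1 ≤ k) : 2 ≤ 2 ^ k := by
    calc 2 = 2 ^ 1 := by norm_num
      _ ≤ 2 ^ k := Nat.pow_le_pow_right (by norm_num) hk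
  have hHI : (mkPP W h n₁ n₂ n₃).HI
      = maskR (2 ^ W) (2 ^ W - 2 ^ (W - h)) ((n₁ + 1) * (n₂ + 1) * (n₃ + 1)) :=
    maskC_eq _ _ _ (hX W hW1)
  have hOF : (mkPP W h n₁ n₂ n₃).OF
      = maskR (2 ^ W) (2 ^ (W - 1)) ((n₁ + 1) * (n₂ + 1) * (n₃ + 1)) :=
    maskC_eq _ _ _ (hX W hW1)
  have hM₂ : (mkPP W h n₁ n₂ n₃).M₂ = mk2 W n₁ n₂ n₃ :=
    maskC_eq _ _ _ (hX _ (Nat.succ_le_of_lt (by positivity)))
  have hM₃ : (mkPP W h n₁ n₂ n₃).M₃ = mk3 W n₁ n₂ n₃ :=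
    maskC_eq _ _ _ (hX _ (Nat.succ_le_of_lt (by positivity)))
  have head : ∀ (c : PT3), Bd3 n₁ n₂ n₃ (2 ^ W) c →
      headOK (mkPP W h n₁ n₂ n₃) (pi1 W n₂ n₃ Prod.fst c) = true →
      headOK (mkPP W h n₁ n₂ n₃) (pi1 W n₂ n₃ Prod.snd c) = true →
      Bd3 n₁ n₂ n₃ (2 ^ (W - h)) c := by
    intro c hc ha hb
    simp only [headOK, hHI] at ha hb
    have ha' := head_spec hhW hc fst_lt (Nat.eq_of_beq_eq_true ha)
    have hb' := head_spec hhW hc snd_lt (Nat.eq_of_beq_eq_true hb)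
    exact bd_of_flat hc fun a ha => ⟨ha' a ha, hb' a ha⟩
  induction t generalizing c u₁ v₁ u₂ v₂ u₃ v₃ with
  | leaf =>
    simp only [pcheck, Bool.and_eq_true] at hp
    obtain ⟨⟨ha, hb⟩, hl⟩ := hp
    have hbd := head c hc ha hb
    have hbd' : Bd3 n₁ n₂ n₃ (2 ^ (W - 1)) c :=
      bd_of_flat hc fun a ha => bdOK0.mono (Nat.pow_le_pow_right (by norm_num) (by omega))
        (mem_flat_bd hbd ha)
    simp only [leafOK, hOF] at hl
    have hle := leaf_spec hW1 hbd' hc (Nat.eq_of_beq_eq_true hl)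
    refine evH_nonneg h1 h1' _ _ fun s hs => evH_nonneg h2 h2' _ _ fun l hl =>
      evH_nonneg h3 h3' _ _ fun a ha => ?_
    have := hle a (List.mem_flatten.2 ⟨l, List.mem_flatten.2 ⟨s, hs, hl⟩, ha⟩)
    simp only [evD]
    have h5 : (a.2 : ℝ) ≤ a.1 := by exact_mod_cast this
    linarith
  | n1 l r ihl ihr =>
    simp only [pcheck, Bool.and_eq_true] at hp
    obtain ⟨⟨⟨ha, hb⟩, hl⟩, hr⟩ := hp
    have hbd := head c hc ha hb
    have hg := pow_growth hhW hg1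
    by_cases huv : u₁ ≤ v₁
    · have hl' : pcheck (mkPP W h n₁ n₂ n₃) l (pi1 W n₂ n₃ Prod.fst (cL1 c))
          (pi1 W n₂ n₃ Prod.snd (cL1 c)) = true := by
        rw [← foldL1 hc fst_lt addD_fst, ← foldL1 hc snd_lt addD_snd]
        exact hl
      have := ihl (cL1 c) (bd_cL1 hbd hg) hl' h1 (by linarith : 0 ≤ (v₁ - u₁) / 2) h2 h2' h3 h3'
      unfold evFD at this ⊢
      rw [evH_left u₁ v₁ (evH2D_add n₂ n₃ u₂ v₂ u₃ v₃) n₁ c hc.1]
      exact this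
    · have huv' : v₁ ≤ u₁ := le_of_not_ge huv
      have hr' : pcheck (mkPP W h n₁ n₂ n₃) r (pi1 W n₂ n₃ Prod.fst (cR1 c))
          (pi1 W n₂ n₃ Prod.snd (cR1 c)) = true := by
        rw [← foldR1 hc fst_lt addD_fst, ← foldR1 hc snd_lt addD_snd]
        exact hr
      have := ihr (cR1 c) (bd_cR1 hbd hg) hr' (by linarith : 0 ≤ (u₁ - v₁) / 2) h1' h2 h2' h3 h3'
      unfold evFD at this ⊢
      rw [evH_right u₁ v₁ (evH2D_add n₂ n₃ u₂ v₂ u₃ v₃) n₁ c hc.1]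
      exact this
  | n2 l r ihl ihr =>
    simp only [pcheck, Bool.and_eq_true] at hp
    obtain ⟨⟨⟨ha, hb⟩, hl⟩, hr⟩ := hp
    have hbd := head c hc ha hb
    have hg := pow_growth hhW hg2
    by_cases huv : u₂ ≤ v₂
    · have hl' : pcheck (mkPP W h n₁ n₂ n₃) l (pi1 W n₂ n₃ Prod.fst (cL2 c))
          (pi1 W n₂ n₃ Prod.snd (cL2 c)) = true := by
        rw [← foldL2 hc fst_lt addD_fst, ← foldL2 hc snd_lt addD_snd, ← hM₂]
        exact hl
      have := ihl (cL2 c) (bd_cL2 hbd hg) hl' h1 h1' h2 (by linarith : 0 ≤ (v₂ - u₂) / 2) h3 h3'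
      unfold evFD cL2 at this
      unfold evFD
      have hh : ∀ a ∈ c, evH (evH evD u₃ v₃ n₃) u₂ ((v₂ - u₂) / 2) n₂
            (shift padd1 (fun a => padd1 a a) a)
          = evH (evH evD u₃ v₃ n₃) u₂ v₂ n₂ a := fun a ha =>
        (evH_left u₂ v₂ (evH1D_add n₃ u₃ v₃) n₂ a (hc.2 a ha).1).symm
      have h5 := evH_map (ev := evH (evH evD u₃ v₃ n₃) u₂ v₂ n₂)
        (ev' := evH (evH evD u₃ v₃ n₃) u₂ ((v₂ - u₂) / 2) n₂)
        (shift padd1 fun a => padd1 a a) u₁ v₁ n₁ c hh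
      rw [← h5]
      exact this
    · have huv' : v₂ ≤ u₂ := le_of_not_ge huv
      have hr' : pcheck (mkPP W h n₁ n₂ n₃) r (pi1 W n₂ n₃ Prod.fst (cR2 c))
          (pi1 W n₂ n₃ Prod.snd (cR2 c)) = true := by
        rw [← foldR2 hc fst_lt addD_fst, ← foldR2 hc snd_lt addD_snd, ← hM₂]
        exact hr
      have := ihr (cR2 c) (bd_cR2 hbd hg) hr' h1 h1' (by linarith : 0 ≤ (u₂ - v₂) / 2) h2' h3 h3'
      unfold evFD cR2 at this
      unfold evFD
      have hh : ∀ a ∈ c, evH (evH evD u₃ v₃ n₃) ((u₂ - v₂) / 2) v₂ n₂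
            ((shift padd1 (fun a => padd1 a a) a.reverse).reverse)
          = evH (evH evD u₃ v₃ n₃) u₂ v₂ n₂ a := fun a ha =>
        (evH_right u₂ v₂ (evH1D_add n₃ u₃ v₃) n₂ a (hc.2 a ha).1).symm
      have h5 := evH_map (ev := evH (evH evD u₃ v₃ n₃) u₂ v₂ n₂)
        (ev' := evH (evH evD u₃ v₃ n₃) ((u₂ - v₂) / 2) v₂ n₂)
        (fun s => (shift padd1 (fun a => padd1 a a) s.reverse).reverse) u₁ v₁ n₁ c hh
      rw [← h5]
      exact this
  | n3 l r ihl ihr =>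
    simp only [pcheck, Bool.and_eq_true] at hp
    obtain ⟨⟨⟨ha, hb⟩, hl⟩, hr⟩ := hp
    have hbd := head c hc ha hb
    have hg := pow_growth hhW hg3
    by_cases huv : u₃ ≤ v₃
    · have hl' : pcheck (mkPP W h n₁ n₂ n₃) l (pi1 W n₂ n₃ Prod.fst (cL3 c))
          (pi1 W n₂ n₃ Prod.snd (cL3 c)) = true := by
        rw [← foldL3 hc fst_lt addD_fst, ← foldL3 hc snd_lt addD_snd, ← hM₃]
        exact hl
      have := ihl (cL3 c) (bd_cL3 hbd hg) hl' h1 h1' h2 h2' h3 (by linarith : 0 ≤ (v₃ - u₃) / 2)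
      unfold evFD cL3 at this
      unfold evFD
      have hh : ∀ s ∈ c, evH (evH evD u₃ ((v₃ - u₃) / 2) n₃) u₂ v₂ n₂
            (s.map (shift padd fun a => padd a a))
          = evH (evH evD u₃ v₃ n₃) u₂ v₂ n₂ s := fun s hs' =>
        evH_map (shift padd fun a => padd a a) u₂ v₂ n₂ s fun a ha =>
          (evH_left u₃ v₃ evD_add n₃ a ((hc.2 s hs').2 a ha).1).symm
      have h5 := evH_map (ev := evH (evH evD u₃ v₃ n₃) u₂ v₂ n₂)
        (ev' := evH (evH evD u₃ ((v₃ - u₃) / 2) n₃) u₂ v₂ n₂)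
        (fun s => s.map (shift padd fun a => padd a a)) u₁ v₁ n₁ c hh
      rw [← h5]
      exact this
    · have huv' : v₃ ≤ u₃ := le_of_not_ge huv
      have hr' : pcheck (mkPP W h n₁ n₂ n₃) r (pi1 W n₂ n₃ Prod.fst (cR3 c))
          (pi1 W n₂ n₃ Prod.snd (cR3 c)) = true := by
        rw [← foldR3 hc fst_lt addD_fst, ← foldR3 hc snd_lt addD_snd, ← hM₃]
        exact hr
      have := ihr (cR3 c) (bd_cR3 hbd hg) hr' h1 h1' h2 h2' (by linarith : 0 ≤ (u₃ - v₃) / 2) h3'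
      unfold evFD cR3 at this
      unfold evFD
      have hh : ∀ s ∈ c, evH (evH evD ((u₃ - v₃) / 2) v₃ n₃) u₂ v₂ n₂
            (s.map fun l => (shift padd (fun a => padd a a) l.reverse).reverse)
          = evH (evH evD u₃ v₃ n₃) u₂ v₂ n₂ s := fun s hs' =>
        evH_map (fun l => (shift padd (fun a => padd a a) l.reverse).reverse) u₂ v₂ n₂ s
          fun a ha => (evH_right u₃ v₃ evD_add n₃ a ((hc.2 s hs').2 a ha).1).symm
      have h5 := evH_map (ev := evH (evH evD u₃ v₃ n₃) u₂ v₂ n₂)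
        (ev' := evH (evH evD ((u₃ - v₃) / 2) v₃ n₃) u₂ v₂ n₂)
        (fun s => s.map fun l => (shift padd (fun a => padd a a) l.reverse).reverse) u₁ v₁ n₁ c hh
      rw [← h5]
      exact this

/-! ### From integer tensors -/

/-- Splitting of an integer. -/
def toPD : ℤ → PD
  | .ofNat n => (n, 0)
  | .negSucc n => (0, n + 1)

theorem evD_toPD (a : ℤ) : evD (toPD a) = ev0 a := by
  cases a with
  | ofNat n => simp [toPD, evD, ev0]
  | negSucc n =>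
    simp only [toPD, evD, ev0, Int.cast_negSucc]
    push_cast
    ring

/-- Splitting of a tensor. -/
def toPT (c : T3) : PT3 := c.map fun s => s.map fun l => l.map toPD

theorem evFD_toPT (n₁ n₂ n₃ : ℕ) (u₁ v₁ u₂ v₂ u₃ v₃ : ℝ) (c : T3) :
    evFD n₁ n₂ n₃ u₁ v₁ u₂ v₂ u₃ v₃ (toPT c) = evF n₁ n₂ n₃ u₁ v₁ u₂ v₂ u₃ v₃ c := by
  unfold evFD evF toPT
  apply evH_map
  intro s _
  apply evH_map
  intro l _
  apply evH_map
  intro a _
  exact evD_toPD a

/-- Boolean test of shape and size. -/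
def rectB (W n₁ n₂ n₃ : ℕ) (c : PT3) : Bool :=
  (c.length == n₁ + 1) && c.all fun s => (s.length == n₂ + 1) && s.all fun l =>
    (l.length == n₃ + 1) && l.all fun a => Nat.blt a.1 (2 ^ W) && Nat.blt a.2 (2 ^ W)

theorem rectB_spec {W n₁ n₂ n₃ : ℕ} {c : PT3} (h : rectB W n₁ n₂ n₃ c = true) :
    Bd3 n₁ n₂ n₃ (2 ^ W) c := by
  simp only [rectB, Bool.and_eq_true, beq_iff_eq, List.all_eq_true, Nat.blt_eq] at h
  exact ⟨h.1, fun s hs => ⟨(h.2 s hs).1, fun l hl => ⟨((h.2 s hs).2 l hl).1, fun a ha =>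
    ((h.2 s hs).2 l hl).2 a ha⟩⟩⟩

/-- Main certificate theorem of the packed checker. -/
theorem nonneg_of_pcheck (W h n₁ n₂ n₃ : ℕ) (t : Tree) (c : T3)
    (hchk : (shapeP n₁ n₂ n₃ c && parOK W h n₁ n₂ n₃ &&
      rectB W n₁ n₂ n₃ (toPT (conv3 n₁ n₂ n₃ c)) &&
      pcheck (mkPP W h n₁ n₂ n₃) t (pi1 W n₂ n₃ Prod.fst (toPT (conv3 n₁ n₂ n₃ c)))
        (pi1 W n₂ n₃ Prod.snd (toPT (conv3 n₁ n₂ n₃ c)))) = true)
    {y r x : ℝ} (hy : 0 ≤ y) (hy' : y ≤ 1)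
    (hr : 0 ≤ r) (hr' : r ≤ 1) (hx : 0 ≤ x) (hx' : x ≤ 1) : 0 ≤ evT y r x c := by
  simp only [Bool.and_eq_true] at hchk
  obtain ⟨⟨⟨hs, hpar⟩, hrect⟩, hp⟩ := hchk
  rw [← conv3_spec n₁ n₂ n₃ y r x c hs, ← evFD_toPT]
  exact pcheck_spec hpar t _ (rectB_spec hrect) hp hy (by linarith) hr (by linarith) hx
    (by linarith)

end Vale.Agent.Lib.P371.CalB
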