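import Vale.Agent.Lib.P371.KyFan

/-!
The extension step and the inductive construction of the `W`-orthonormal trial families.
-/

open Real MeasureTheory Set Filter Topology Function Matrix
open scoped ComplexOrder

namespace Vale.Agent.Lib.P371

variable {m : ℕ} {W : ℝ → Matrix (Fin m) (Fin m) ℂ} {p : ℝ}

lemma wf_combo_right {κ : Type*} [Fintype κ] {M : ℝ → Matrix (Fin m) (Fin m) ℂ}
    (g : ℝ → Fin m → ℂ) (b : κ → ℂ) {G : κ → ℝ → Fin m → ℂ}
    (h : ∀ k, Integrable fun x => star (g x) ⬝ᵥ M x *ᵥ G k x) :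
    wf M g (combo b G) = ∑ k, b k * wf M g (G k) := by
  unfold wf
  have hform : ∀ x, star (g x) ⬝ᵥ M x *ᵥ combo b G x = ∑ k, b k * (star (g x) ⬝ᵥ M x *ᵥ G k x) := by
    intro x
    rw [combo_eq, mulVec_sum, dotProduct_sum]
    refine Finset.sum_congr rfl fun k _ => ?_
    rw [mulVec_smul, dotProduct_smul, smul_eq_mul]
  simp only [hform]
  rw [integral_finsetSum _ fun k _ => (h k).const_mul _]
  refine Finset.sum_congr rfl fun k _ => ?_
  rw [integral_const_mul]

lemma form_herm {A : Matrix (Fin m) (Fin m) ℂ} (hA : A.IsHermitian) (y z : Fin m → ℂ) :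
    star y ⬝ᵥ A *ᵥ z = (starRingEnd ℂ) (star z ⬝ᵥ A *ᵥ y) := by
  rw [polar_form hA, polar_form hA, map_sum]
  refine Finset.sum_congr rfl fun α _ => ?_
  simp only [map_mul, Complex.conj_ofReal, Complex.conj_conj]
  ring

lemma wf_herm {M : ℝ → Matrix (Fin m) (Fin m) ℂ} (hM : ∀ x, (M x).IsHermitian)
    (g h : ℝ → Fin m → ℂ) : wf M g h = (starRingEnd ℂ) (wf M h g) := by
  unfold wf
  rw [← integral_conj]
  refine integral_congr_ae (Eventually.of_forall fun x => ?_)
  exact form_herm (hM x) _ _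

lemma form_cauchy_pt {A : Matrix (Fin m) (Fin m) ℂ} (hA : A.PosSemidef) (y z : Fin m → ℂ) (t : ℝ) :
    2 * t * (star y ⬝ᵥ A *ᵥ z).re ≤ (star y ⬝ᵥ A *ᵥ y).re + t ^ 2 * (star z ⬝ᵥ A *ᵥ z).re := by
  have h1 := norm_form_le hA y ((t : ℂ) • z)
  have h2 : star y ⬝ᵥ A *ᵥ ((t : ℂ) • z) = (t : ℂ) * (star y ⬝ᵥ A *ᵥ z) := by
    rw [mulVec_smul, dotProduct_smul, smul_eq_mul]
  have h3 : star ((t : ℂ) • z) ⬝ᵥ A *ᵥ ((t : ℂ) • z) = ((t ^ 2 : ℝ) : ℂ) * (star z ⬝ᵥ A *ᵥ z) := by
    rw [mulVec_smul, star_smul, smul_dotProduct, dotProduct_smul]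
    simp only [smul_eq_mul, Complex.star_def, Complex.conj_ofReal]
    push_cast
    ring
  rw [h2, h3, Complex.re_ofReal_mul] at h1
  have h4 := Complex.re_le_norm ((t : ℂ) * (star y ⬝ᵥ A *ᵥ z))
  rw [Complex.re_ofReal_mul] at h4
  linarith

/-- Cauchy-Schwarz for the integrated form, without square roots. -/
lemma wf_cauchy {M : ℝ → Matrix (Fin m) (Fin m) ℂ} (hM : ∀ x, (M x).PosSemidef)
    {g h : ℝ → Fin m → ℂ} (h1 : Integrable fun x => star (g x) ⬝ᵥ M x *ᵥ g x)
    (h2 : Integrable fun x => star (g x) ⬝ᵥ M x *ᵥ h x)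
    (h3 : Integrable fun x => star (h x) ⬝ᵥ M x *ᵥ h x) (t : ℝ) :
    2 * t * (wf M g h).re ≤ (wf M g g).re + t ^ 2 * (wf M h h).re := by
  have r1 : ∀ {f : ℝ → ℂ}, Integrable f → (∫ x, f x).re = ∫ x, (f x).re := by
    intro f hf
    have := integral_re (𝕜 := ℂ) hf
    simp only [RCLike.re_to_complex] at this
    exact this.symm
  unfold wf
  rw [r1 h1, r1 h2, r1 h3, ← integral_const_mul, ← integral_const_mul]
  have i1 : Integrable fun x => (star (g x) ⬝ᵥ M x *ᵥ g x).re := h1.re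
  have i2 : Integrable fun x => (star (g x) ⬝ᵥ M x *ᵥ h x).re := h2.re
  have i3 : Integrable fun x => (star (h x) ⬝ᵥ M x *ᵥ h x).re := h3.re
  rw [← integral_add i1 (i3.const_mul _)]
  refine integral_mono (i2.const_mul _) (i1.add (i3.const_mul _)) fun x => ?_
  exact form_cauchy_pt (hM x) _ _ t

lemma oneF_psd (x : ℝ) : ((oneF m) x).PosSemidef := PosSemidef.one

/-- The real value of the `H¹_z` norm. -/
lemma hzf_self_re {g g' : ℝ → Fin m → ℂ} (hg : H1c g g') (z : ℝ) :
    (hzf z g g' g g').re = (∑ c, ∫ x, ‖g' x c‖ ^ 2) + z ^ 2 * ∑ c, ∫ x, ‖g x c‖ ^ 2 := by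
  unfold hzf
  rw [wf_one_self hg.l2', wf_one_self hg.l2, Complex.add_re, Complex.re_ofReal_mul, Complex.ofReal_re,
    Complex.ofReal_re]

/-- The Cauchy-Schwarz inequality for `H¹_z`. -/
lemma hzf_cauchy {g g' h h' : ℝ → Fin m → ℂ} (hg : H1c g g') (hh : H1c h h') (z t : ℝ) :
    2 * t * (hzf z g g' h h').re ≤ (hzf z g g' g g').re + t ^ 2 * (hzf z h h' h h').re := by
  have h1 := wf_cauchy (M := oneF m) oneF_psd (integrable_one hg.l2' hg.l2')
    (integrable_one hg.l2' hh.l2') (integrable_one hh.l2' hh.l2') t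
  have h2 := wf_cauchy (M := oneF m) oneF_psd (integrable_one hg.l2 hg.l2)
    (integrable_one hg.l2 hh.l2) (integrable_one hh.l2 hh.l2) t
  unfold hzf
  simp only [Complex.add_re, Complex.re_ofReal_mul]
  have h3 := mul_le_mul_of_nonneg_left h2 (sq_nonneg z)
  nlinarith

/-- The energy of a normalized `H¹` function. -/
theorem energy_lower (hW : GoodW W p) {v v' : ℝ → Fin m → ℂ} (hv : H1c v v') {z : ℝ} (hz : 0 < z)
    (hunit : wf W v v = 1) {a : ℝ} (ha : 0 < a) (hA : (hzf z v v' v v').re ≤ a) :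
    z / a ≤ Eh z W v := by
  have hP := Pot_H1c hW hv.tame hz
  have h1 := hzf_cauchy hv hP z a
  rw [weak_vec hW hv hv.tame hz, hunit] at h1
  simp only [Complex.one_re, mul_one] at h1
  rw [Eh_eq hW hv.tame hz]
  set B := (hzf z (Pot z W v) (dPot z W v) (Pot z W v) (dPot z W v)).re with hB
  have h2 : 1 ≤ a * B := by
    have : a * 1 ≤ a * (a * B) := by nlinarith
    exact le_of_mul_le_mul_left this ha
  rw [div_le_iff₀ ha]
  nlinarith

/-- The hypotheses on the trial family. -/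
structure Flag (W : ℝ → Matrix (Fin m) (Fin m) ℂ) (N : ℕ) (ψ ψ' : ℕ → ℝ → Fin m → ℂ) (κ : ℕ → ℝ) :
    Prop where
  h1 : ∀ j, j < N → H1c (ψ j) (ψ' j)
  orth : ∀ j k, j < N → k < N → wf (oneF m) (ψ j) (ψ k) = if j = k then 1 else 0
  diag : ∀ j k, j < N → k < N → wf (oneF m) (ψ' j) (ψ' k) - wf W (ψ j) (ψ k) =
    if j = k then -((κ k ^ 2 : ℝ) : ℂ) else 0
  pos : ∀ j, j < N → 0 < κ j
  anti : ∀ j k, j ≤ k → k < N → κ k ≤ κ j

/-- The extension step. -/
theorem extend (hW : GoodW W p) {N : ℕ} {ψ ψ' : ℕ → ℝ → Fin m → ℂ} {κ : ℕ → ℝ}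
    (hF : Flag W N ψ ψ' κ) {n : ℕ} (hn : n < N) {f : ℕ → ℝ → Fin m → ℂ}
    (hf : ∀ i, i < n → Tame (f i)) :
    ∃ v v' : ℝ → Fin m → ℂ, H1c v v' ∧ (∀ i, i < n → wf W (f i) v = 0) ∧ wf W v v = 1 ∧
      ∀ z : ℝ, κ n ≤ z → (hzf z v v' v v').re ≤ z ^ 2 / κ n ^ 2 := by
  set F : Fin (n + 1) → ℝ → Fin m → ℂ := fun j => ψ j with hFdef
  set F' : Fin (n + 1) → ℝ → Fin m → ℂ := fun j => ψ' j with hF'def
  have hjN : ∀ j : Fin (n + 1), (j : ℕ) < N := fun j => by
    have := j.2
    omega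
  have hH : ∀ j, H1c (F j) (F' j) := fun j => hF.h1 j (hjN j)
  have hT : ∀ j, Tame (F j) := fun j => (hH j).tame
  -- kernel vector
  set B : Matrix (Fin n) (Fin (n + 1)) ℂ := Matrix.of fun i j => wf W (f i) (F j) with hB
  have hker : LinearMap.ker B.mulVecLin ≠ ⊥ := by
    apply LinearMap.ker_ne_bot_of_finrank_lt
    simp
  obtain ⟨c, hc, hc0⟩ := (Submodule.ne_bot_iff _).mp hker
  have hBc : ∀ i : Fin n, ∑ j, c j * wf W (f i) (F j) = 0 := by
    intro i
    have h1 : B *ᵥ c = 0 := by simpa using hc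
    have h2 := congrFun h1 i
    simp only [mulVec, dotProduct, hB, Matrix.of_apply, Pi.zero_apply] at h2
    rw [← h2]
    refine Finset.sum_congr rfl fun j _ => ?_
    ring
  -- general identities for combinations
  have hKexp : ∀ d : Fin (n + 1) → ℂ, wf (oneF m) (combo d F') (combo d F') =
      ∑ j, ∑ k, (starRingEnd ℂ) (d j) * d k * wf (oneF m) (F' j) (F' k) := fun d =>
    wf_combo d d fun i k => integrable_one (hH i).l2' (hH k).l2'
  have hMexp : ∀ d : Fin (n + 1) → ℂ, wf (oneF m) (combo d F) (combo d F) =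
      ∑ j, ∑ k, (starRingEnd ℂ) (d j) * d k * wf (oneF m) (F j) (F k) := fun d =>
    wf_combo d d fun i k => integrable_one (hH i).l2 (hH k).l2
  have hWexp : ∀ d : Fin (n + 1) → ℂ, wf W (combo d F) (combo d F) =
      ∑ j, ∑ k, (starRingEnd ℂ) (d j) * d k * wf W (F j) (F k) := fun d =>
    wf_combo d d fun i k => hW.integrable_form (hT i) (hT k)
  have hHc : ∀ d : Fin (n + 1) → ℂ, H1c (combo d F) (combo d F') := fun d => H1c.combo hH d
  set K : (Fin (n + 1) → ℂ) → ℝ := fun d => ∑ c', ∫ x, ‖combo d F' x c'‖ ^ 2 with hK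
  set Mm : (Fin (n + 1) → ℂ) → ℝ := fun d => ∑ c', ∫ x, ‖combo d F x c'‖ ^ 2 with hMm
  have hK0 : ∀ d, 0 ≤ K d := fun d => Finset.sum_nonneg fun c' _ =>
    integral_nonneg fun x => by positivity
  have hM0 : ∀ d, 0 ≤ Mm d := fun d => Finset.sum_nonneg fun c' _ =>
    integral_nonneg fun x => by positivity
  have hKv : ∀ d, wf (oneF m) (combo d F') (combo d F') = ((K d : ℝ) : ℂ) := fun d =>
    wf_one_self (hHc d).l2'
  have hMv : ∀ d, wf (oneF m) (combo d F) (combo d F) = ((Mm d : ℝ) : ℂ) := fun d =>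
    wf_one_self (hHc d).l2
  -- the norm of a combination
  have hMsum : ∀ d, Mm d = ∑ j, ‖d j‖ ^ 2 := by
    intro d
    have h1 := hMexp d
    rw [hMv d] at h1
    have h2 : ∑ j, ∑ k, (starRingEnd ℂ) (d j) * d k * wf (oneF m) (F j) (F k) =
        ((∑ j, ‖d j‖ ^ 2 : ℝ) : ℂ) := by
      push_cast
      refine Finset.sum_congr rfl fun j _ => ?_
      rw [Finset.sum_eq_single j]
      · rw [hF.orth j j (hjN j) (hjN j)]
        simp only [if_true, mul_one]
        rw [Complex.conj_mul']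
      · intro k _ hk
        have hne : (j : ℕ) ≠ k := fun h => hk (Fin.ext h).symm
        rw [hF.orth j k (hjN j) (hjN k), if_neg hne, mul_zero]
      · simp
    rw [h2] at h1
    exact_mod_cast h1
  -- the quadratic form
  have hWsum : ∀ d, wf W (combo d F) (combo d F) =
      ((K d + ∑ j, ‖d j‖ ^ 2 * κ j ^ 2 : ℝ) : ℂ) := by
    intro d
    have h0 : wf (oneF m) (combo d F') (combo d F') - wf W (combo d F) (combo d F) =
        ∑ j, ∑ k, (starRingEnd ℂ) (d j) * d k *
          (wf (oneF m) (F' j) (F' k) - wf W (F j) (F k)) := by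
      rw [hKexp, hWexp, ← Finset.sum_sub_distrib]
      refine Finset.sum_congr rfl fun j _ => ?_
      rw [← Finset.sum_sub_distrib]
      refine Finset.sum_congr rfl fun k _ => ?_
      ring
    have h1 : ∑ j, ∑ k, (starRingEnd ℂ) (d j) * d k *
          (wf (oneF m) (F' j) (F' k) - wf W (F j) (F k)) =
        -((∑ j, ‖d j‖ ^ 2 * κ j ^ 2 : ℝ) : ℂ) := by
      push_cast
      rw [← Finset.sum_neg_distrib]
      refine Finset.sum_congr rfl fun j _ => ?_
      rw [Finset.sum_eq_single j]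
      · rw [hF.diag j j (hjN j) (hjN j)]
        simp only [if_true]
        rw [Complex.conj_mul']
        push_cast
        ring
      · intro k _ hk
        have hne : (j : ℕ) ≠ k := fun h => hk (Fin.ext h).symm
        rw [hF.diag j k (hjN j) (hjN k), if_neg hne, mul_zero]
      · simp
    rw [h1, hKv] at h0
    push_cast at h0 ⊢
    linear_combination -h0
  -- scaling
  have hscale : ∀ (t : ℝ) (d : Fin (n + 1) → ℂ),
      wf W (combo (fun j => (t : ℂ) * d j) F) (combo (fun j => (t : ℂ) * d j) F) =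
        ((t ^ 2 : ℝ) : ℂ) * wf W (combo d F) (combo d F) := by
    intro t d
    rw [hWexp, hWexp, Finset.mul_sum]
    refine Finset.sum_congr rfl fun j _ => ?_
    rw [Finset.mul_sum]
    refine Finset.sum_congr rfl fun k _ => ?_
    simp only [map_mul, Complex.conj_ofReal]
    push_cast
    ring
  -- the norm lower bound
  have hκn : 0 < κ n := hF.pos n hn
  have hκle : ∀ j : Fin (n + 1), κ n ^ 2 ≤ κ j ^ 2 := by
    intro j
    have h1 : κ n ≤ κ j := hF.anti j n (by have := j.2; omega) hn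
    gcongr
  have hcpos : 0 < ∑ j, ‖c j‖ ^ 2 := by
    obtain ⟨j, hj⟩ := Function.ne_iff.mp hc0
    have h1 : 0 < ‖c j‖ ^ 2 := by
      have : 0 < ‖c j‖ := norm_pos_iff.mpr hj
      positivity
    exact lt_of_lt_of_le h1 (Finset.single_le_sum (f := fun j => ‖c j‖ ^ 2)
      (fun j _ => by positivity) (Finset.mem_univ j))
  have hflag : ∀ d : Fin (n + 1) → ℂ,
      κ n ^ 2 * Mm d ≤ ∑ j, ‖d j‖ ^ 2 * κ j ^ 2 := by
    intro d
    rw [hMsum d, Finset.mul_sum]
    refine Finset.sum_le_sum fun j _ => ?_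
    have := mul_le_mul_of_nonneg_left (hκle j) (by positivity : 0 ≤ ‖d j‖ ^ 2)
    linarith
  set a₀ : ℝ := K c + ∑ j, ‖c j‖ ^ 2 * κ j ^ 2 with ha₀
  have ha₀pos : 0 < a₀ := by
    have h1 := hflag c
    rw [hMsum c] at h1
    have h2 : 0 < κ n ^ 2 * ∑ j, ‖c j‖ ^ 2 := by positivity
    have := hK0 c
    rw [ha₀]
    linarith
  set t : ℝ := (√a₀)⁻¹ with ht
  have ht2 : t ^ 2 * a₀ = 1 := by
    rw [ht, inv_pow, Real.sq_sqrt ha₀pos.le]
    field_simp
  set d : Fin (n + 1) → ℂ := fun j => (t : ℂ) * c j with hd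
  have hWd : wf W (combo d F) (combo d F) = 1 := by
    rw [hd, hscale, hWsum c, ← Complex.ofReal_mul]
    rw [← ha₀, ht2]
    simp
  have hsum1 : K d + ∑ j, ‖d j‖ ^ 2 * κ j ^ 2 = 1 := by
    have h1 := hWsum d
    rw [hWd] at h1
    have h2 : ((K d + ∑ j, ‖d j‖ ^ 2 * κ j ^ 2 : ℝ) : ℂ) = ((1 : ℝ) : ℂ) := by
      rw [← h1]
      simp
    exact_mod_cast h2
  refine ⟨combo d F, combo d F', hHc d, ?_, hWd, ?_⟩
  · intro i hi
    rw [wf_combo_right _ _ fun j => hW.integrable_form (hf i hi) (hT j)]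
    have := hBc ⟨i, hi⟩
    simp only at this
    have h2 : ∑ j, d j * wf W (f i) (F j) = (t : ℂ) * ∑ j, c j * wf W (f i) (F j) := by
      rw [Finset.mul_sum]
      refine Finset.sum_congr rfl fun j _ => ?_
      simp only [hd]
      ring
    rw [h2, this, mul_zero]
  · intro z hz
    rw [hzf_self_re (hHc d)]
    have h1 := hflag d
    have hK1 := hK0 d
    have hzκ : 1 ≤ z ^ 2 / κ n ^ 2 := by
      rw [le_div_iff₀ (by positivity), one_mul]
      gcongr
    have h2 : (∑ c', ∫ x, ‖combo d F' x c'‖ ^ 2) = K d := rfl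
    have h3 : (∑ c', ∫ x, ‖combo d F x c'‖ ^ 2) = Mm d := rfl
    rw [h2, h3]
    have h4 : K d + κ n ^ 2 * Mm d ≤ 1 := by linarith
    have h5 : z ^ 2 * Mm d = (z ^ 2 / κ n ^ 2) * (κ n ^ 2 * Mm d) := by
      field_simp
    rw [h5]
    have h6 : 0 ≤ K d := hK1
    have h7 := mul_le_mul_of_nonneg_left h4 (by positivity : 0 ≤ z ^ 2 / κ n ^ 2)
    nlinarith

/-- The value reached by the chain. -/
noncomputable def dd (z κ : ℝ) : ℝ := if z ≤ κ then κ else κ ^ 2 / z

/-- One extension step at one level. -/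
lemma chain_step (hW : GoodW W p) {N : ℕ} {ψ ψ' : ℕ → ℝ → Fin m → ℂ} {κ : ℕ → ℝ}
    (hF : Flag W N ψ ψ' κ) {n : ℕ} (hn : n < N) {z : ℝ} (hz : κ n ≤ z)
    {f : ℕ → ℝ → Fin m → ℂ} (hf : ∀ i, i < n → Tame (f i))
    (hON : ∀ i k, i < n → k < n → wf W (f i) (f k) = if i = k then 1 else 0) :
    ∃ g : ℕ → ℝ → Fin m → ℂ, (∀ i, i < n + 1 → Tame (g i)) ∧
      (∀ i k, i < n + 1 → k < n + 1 → wf W (g i) (g k) = if i = k then 1 else 0) ∧
      (∑ i ∈ Finset.range n, Eh z W (f i)) + κ n ^ 2 / z ≤ ∑ i ∈ Finset.range (n + 1), Eh z W (g i) := by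
  obtain ⟨v, v', hv, hperp, hunit, hbd⟩ := extend hW hF hn hf
  have hκ := hF.pos n hn
  have hz0 : 0 < z := hκ.trans_le hz
  have hherm : ∀ x, (W x).IsHermitian := fun x => (hW.psd x).isHermitian
  refine ⟨Function.update f n v, ?_, ?_, ?_⟩
  · intro i hi
    by_cases h : i = n
    · subst h
      simp only [Function.update_self]
      exact hv.tame
    · rw [Function.update_of_ne h]
      exact hf i (by omega)
  · intro i k hi hk
    by_cases h : i = n
    · subst h
      by_cases h2 : k = i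
      · subst h2
        simp [hunit]
      · rw [Function.update_self, Function.update_of_ne h2, wf_herm hherm, hperp k (by omega)]
        simp [Ne.symm h2]
    · by_cases h2 : k = n
      · subst h2
        rw [Function.update_of_ne h, Function.update_self, hperp i (by omega)]
        simp [h]
      · rw [Function.update_of_ne h, Function.update_of_ne h2]
        exact hON i k (by omega) (by omega)
  · rw [Finset.sum_range_succ, Function.update_self]
    have h1 : ∑ i ∈ Finset.range n, Eh z W (Function.update f n v i) =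
        ∑ i ∈ Finset.range n, Eh z W (f i) := by
      refine Finset.sum_congr rfl fun i hi => ?_
      have : i ≠ n := by
        have := Finset.mem_range.mp hi
        omega
      rw [Function.update_of_ne this]
    rw [h1]
    have h2 := energy_lower hW hv hz0 hunit (a := z ^ 2 / κ n ^ 2) (by positivity) (hbd z hz)
    have h3 : z / (z ^ 2 / κ n ^ 2) = κ n ^ 2 / z := by
      field_simp
    rw [h3] at h2
    linarith

/-- The chain of trial families. -/
theorem chain (hW : GoodW W p) {N : ℕ} {ψ ψ' : ℕ → ℝ → Fin m → ℂ} {κ : ℕ → ℝ}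
    (hF : Flag W N ψ ψ' κ) {n : ℕ} (hn : n ≤ N) : ∀ z : ℝ, 0 < z →
    ∃ f : ℕ → ℝ → Fin m → ℂ, (∀ i, i < n → Tame (f i)) ∧
      (∀ i k, i < n → k < n → wf W (f i) (f k) = if i = k then 1 else 0) ∧
      ∑ i ∈ Finset.range n, dd z (κ i) ≤ ∑ i ∈ Finset.range n, Eh z W (f i) := by
  induction n with
  | zero =>
    intro z _
    refine ⟨fun _ => 0, ?_, ?_, ?_⟩
    · intro i hi
      omega
    · intro i k hi
      omega
    · simp
  | succ n ih =>
    intro z hz
    have hn' : n < N := by omega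
    have ih' := ih (by omega)
    have hκ := hF.pos n hn'
    rcases le_or_gt z (κ n) with hzκ | hzκ
    · -- `z ≤ κ n`: build the family at `κ n`, and transfer it down
      obtain ⟨f, hf, hON, hS⟩ := ih' (κ n) hκ
      obtain ⟨g, hg, hgON, hgS⟩ := chain_step hW hF hn' le_rfl hf hON
      obtain ⟨ξ, hξ⟩ := exists_twist' hW (Finset.range (n + 1)) (f := g)
        (fun i hi => hg i (Finset.mem_range.mp hi)) hzκ hz.le
      refine ⟨fun i => twist ξ (g i), fun i hi => (hg i hi).twist ξ, ?_, ?_⟩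
      · intro i k hi hk
        rw [wf_twist]
        exact hgON i k hi hk
      · refine le_trans ?_ (hξ.trans' hgS)
        rw [Finset.sum_range_succ]
        have e1 : ∀ i ∈ Finset.range n, dd z (κ i) = dd (κ n) (κ i) := by
          intro i hi
          have hi' := Finset.mem_range.mp hi
          have h1 : κ n ≤ κ i := hF.anti i n (by omega) hn'
          unfold dd
          rw [if_pos (hzκ.trans h1), if_pos h1]
        rw [Finset.sum_congr rfl e1]
        have e2 : dd z (κ n) = κ n ^ 2 / κ n := by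
          unfold dd
          rw [if_pos hzκ]
          field_simp
        rw [e2]
        linarith
    · -- `κ n < z`: one more step at the level `z`
      obtain ⟨f, hf, hON, hS⟩ := ih' z hz
      obtain ⟨g, hg, hgON, hgS⟩ := chain_step hW hF hn' hzκ.le hf hON
      refine ⟨g, hg, hgON, ?_⟩
      refine le_trans ?_ hgS
      rw [Finset.sum_range_succ]
      have e2 : dd z (κ n) = κ n ^ 2 / z := by
        unfold dd
        rw [if_neg (not_le.mpr hzκ)]
      rw [e2]
      linarith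

end Vale.Agent.Lib.P371
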