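import Mathlib

/-!
Definitions used in the statement of the matrix Lieb-Thirring bound at `γ = 1`.
-/

open MeasureTheory

namespace Vale.Agent.Lib.P371

/-- `IsH1 f f'`: the function `f : ℝ → ℂ` lies in the Sobolev space `H¹(ℝ)` with weak derivative
`f'`, that is, `f` and `f'` are square integrable and `f` is a primitive of `f'`. -/
structure IsH1 (f f' : ℝ → ℂ) : Prop where
  memLp : MemLp f 2 volume
  memLp_deriv : MemLp f' 2 volume
  primitive : ∀ a b : ℝ, ∫ t in a..b, f' t = f b - f a

end Vale.Agent.Lib.P371
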