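import Vale.Agent.Lib.P371.Energy
import Vale.Agent.Lib.P371.Defs

/-!
Complex-valued square function estimate.
-/

open Real MeasureTheory Set Filter Topology Function

namespace Vale.Agent.Lib.P371

lemma memLp_shift {v : ℝ → ℂ} (hv : MemLp v 2) (x : ℝ) : MemLp (fun t => v (x - t)) 2 :=
  hv.comp_measurePreserving (Measure.measurePreserving_sub_left volume x)

lemma integrable_real_mul_shift {k : ℝ → ℝ} (hk : MemLp k 2) {v : ℝ → ℂ} (hv : MemLp v 2) (x : ℝ) :
    Integrable (fun t => (k t : ℂ) * v (x - t)) := by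
  have h1 : MemLp (fun t => (k t : ℂ)) 2 := hk.ofReal
  exact h1.integrable_mul (memLp_shift hv x)

lemma memLp_kern {r : ℝ} (hr : 0 < r) : MemLp (kern r) 2 := by
  rw [memLp_two_iff_integrable_sq (measurable_kern r).aestronglyMeasurable]
  have hb : 0 < 1 / (2 * r) := by positivity
  have h := (integrable_sq_mul_exp hb).const_mul ((1 / (4 * r ^ 2)) * (4 * π * r)⁻¹)
  refine h.congr (Eventually.of_forall fun t => ?_)
  have h0 : 0 < 4 * π * r := by positivity
  have hs : (√(4 * π * r))⁻¹ ^ 2 = (4 * π * r)⁻¹ := by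
    rw [inv_pow, Real.sq_sqrt h0.le]
  have he : exp (-(1 / (2 * r)) * t ^ 2) = exp (-(t ^ 2) / (4 * r)) ^ 2 := by
    rw [← Real.exp_nat_mul]
    congr 1
    field_simp
    ring
  simp only
  unfold kern gauss
  rw [he, mul_pow, mul_pow, hs]
  field_simp
  ring

/-- The heat-smoothed complex function. -/
noncomputable def cheat (r : ℝ) (v : ℝ → ℂ) (x : ℝ) : ℂ := ∫ t, (kern r t : ℂ) * v (x - t)

lemma cheat_congr {v u : ℝ → ℂ} (h : v =ᵐ[volume] u) (r x : ℝ) : cheat r v x = cheat r u x := by
  unfold cheat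
  apply integral_congr_ae
  have := (Measure.measurePreserving_sub_left volume x).quasiMeasurePreserving.ae_eq h
  filter_upwards [this] with t ht
  simp only [Function.comp] at ht
  rw [ht]

lemma re_cheat {r : ℝ} (hr : 0 < r) {v : ℝ → ℂ} (hv : MemLp v 2) (x : ℝ) :
    (cheat r v x).re = heat r (fun y => (v y).re) x := by
  unfold cheat heat
  have := integral_re (𝕜 := ℂ) (integrable_real_mul_shift (memLp_kern hr) hv x)
  simp only [RCLike.re_to_complex] at this
  rw [← this]
  congr 1
  funext t
  simp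

lemma im_cheat {r : ℝ} (hr : 0 < r) {v : ℝ → ℂ} (hv : MemLp v 2) (x : ℝ) :
    (cheat r v x).im = heat r (fun y => (v y).im) x := by
  unfold cheat heat
  have := integral_im (𝕜 := ℂ) (integrable_real_mul_shift (memLp_kern hr) hv x)
  simp only [RCLike.im_to_complex] at this
  rw [← this]
  congr 1
  funext t
  simp

lemma norm_cheat_sq {r : ℝ} (hr : 0 < r) {v : ℝ → ℂ} (hv : MemLp v 2) (x : ℝ) :
    ‖cheat r v x‖ ^ 2 = heat r (fun y => (v y).re) x ^ 2 + heat r (fun y => (v y).im) x ^ 2 := by
  rw [← re_cheat hr hv, ← im_cheat hr hv, Complex.sq_norm, Complex.normSq_apply]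
  ring

/-- The square function estimate for complex-valued functions. -/
theorem energy_complex {v : ℝ → ℂ} (hv : MemLp v 2) :
    ∫⁻ x, ∫⁻ r in Ioi (0 : ℝ), ENNReal.ofReal (2 * ‖cheat r v x‖ ^ 2) ≤
      ENNReal.ofReal (∫ x, ‖v x‖ ^ 2) := by
  set u := hv.1.mk v with hu
  have huv : v =ᵐ[volume] u := hv.1.ae_eq_mk
  have hum : Measurable u := hv.1.stronglyMeasurable_mk.measurable
  have hu2 : MemLp u 2 := (memLp_congr_ae huv).mp hv
  have hre : Measurable (fun y => (u y).re) := Complex.measurable_re.comp hum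
  have him : Measurable (fun y => (u y).im) := Complex.measurable_im.comp hum
  have hre2 : Integrable (fun y => (u y).re ^ 2) := by
    have := (hu2.re).integrable_sq
    simpa using this
  have him2 : Integrable (fun y => (u y).im ^ 2) := by
    have := (hu2.im).integrable_sq
    simpa using this
  have hnorm : ∫ x, ‖v x‖ ^ 2 = (∫ x, (u x).re ^ 2) + ∫ x, (u x).im ^ 2 := by
    rw [← integral_add hre2 him2]
    apply integral_congr_ae
    filter_upwards [huv] with x hx
    rw [hx, Complex.sq_norm, Complex.normSq_apply]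
    ring
  have hin : ∀ x, ∫⁻ r in Ioi (0 : ℝ), ENNReal.ofReal (2 * ‖cheat r v x‖ ^ 2) =
      (∫⁻ r in Ioi (0 : ℝ), ENNReal.ofReal (2 * heat r (fun y => (u y).re) x ^ 2)) +
        ∫⁻ r in Ioi (0 : ℝ), ENNReal.ofReal (2 * heat r (fun y => (u y).im) x ^ 2) := by
    intro x
    rw [← lintegral_add_left]
    · apply setLIntegral_congr_fun measurableSet_Ioi
      intro r hr
      simp only
      rw [cheat_congr huv, norm_cheat_sq hr hu2, ← ENNReal.ofReal_add (by positivity) (by positivity)]
      congr 1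
      ring
    · have h1 : Measurable (fun r : ℝ => heat r (fun y => (u y).re) x) :=
        (measurable_heat hre).comp (measurable_id.prodMk measurable_const)
      fun_prop
  simp only [hin]
  have hmeas : ∀ w : ℝ → ℝ, Measurable w →
      Measurable (fun x => ∫⁻ r in Ioi (0 : ℝ), ENNReal.ofReal (2 * heat r w x ^ 2)) := by
    intro w hw
    have h1 : Measurable (fun p : ℝ × ℝ => heat p.2 w p.1) :=
      (measurable_heat hw).comp measurable_swap
    have h2 : Measurable (fun p : ℝ × ℝ => ENNReal.ofReal (2 * heat p.2 w p.1 ^ 2)) := by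
      fun_prop
    exact h2.lintegral_prod_right'
  rw [lintegral_add_left (hmeas _ hre), hnorm,
    ENNReal.ofReal_add (integral_nonneg fun x => sq_nonneg _) (integral_nonneg fun x => sq_nonneg _)]
  exact add_le_add (energy_real hre hre2) (energy_real him him2)

end Vale.Agent.Lib.P371
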