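import Vale.Agent.Lib.P371.MainBound

/-!
The explicit constants: three-term test weight, `K₀ ≥ 1.524`, and the Young inequality.
-/

open Real MeasureTheory Set Filter Topology Function Matrix
open scoped ComplexOrder

namespace Vale.Agent.Lib.P371

lemma young {C K γ : ℝ} (hK : 0 ≤ K) (hγ : 0 ≤ γ) (h1 : 1 ≤ 3 * K * γ ^ 2) (h2 : 2 * K * γ ^ 3 ≤ C)
    (w ρ : ℝ) (hw : 0 ≤ w) (hρ : 0 ≤ ρ) : w * ρ ≤ C * w ^ (3 / 2 : ℝ) + K * ρ ^ 3 := by
  set s := √w with hs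
  have hs0 : 0 ≤ s := Real.sqrt_nonneg w
  have hsq : s ^ 2 = w := Real.sq_sqrt hw
  have h32 : w ^ (3 / 2 : ℝ) = s ^ 3 := by
    rw [hs, Real.sqrt_eq_rpow, ← Real.rpow_natCast, ← Real.rpow_mul hw]
    norm_num
  rw [h32, ← hsq]
  set t := γ * s with ht
  have ht0 : 0 ≤ t := mul_nonneg hγ hs0
  have htan : 3 * t ^ 2 * ρ - 2 * t ^ 3 ≤ ρ ^ 3 := by
    have : 0 ≤ (ρ - t) ^ 2 * (ρ + 2 * t) := by positivity
    nlinarith [this]
  have h3 : K * (3 * t ^ 2 * ρ - 2 * t ^ 3) ≤ K * ρ ^ 3 := mul_le_mul_of_nonneg_left htan hK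
  have h4 : s ^ 2 * ρ ≤ (3 * K * γ ^ 2) * (s ^ 2 * ρ) := by
    have : 0 ≤ s ^ 2 * ρ := by positivity
    nlinarith [this]
  have h5 : (2 * K * γ ^ 3) * s ^ 3 ≤ C * s ^ 3 := mul_le_mul_of_nonneg_right h2 (by positivity)
  have h6 : K * (3 * t ^ 2 * ρ - 2 * t ^ 3) =
      (3 * K * γ ^ 2) * (s ^ 2 * ρ) - (2 * K * γ ^ 3) * s ^ 3 := by
    rw [ht]
    ring
  linarith

/-- coefficients of the test weight -/
noncomputable def a3 : Fin 3 → ℝ := ![115, 49, -29]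
/-- rates of the test weight -/
noncomputable def p3 : Fin 3 → ℝ := ![50, 17, 87]

lemma p3_pos (i : Fin 3) : 0 < p3 i := by
  fin_cases i <;> simp [p3]

lemma lam3 : lamC a3 p3 = 4060 := by
  simp [lamC, a3, p3, Fin.sum_univ_three]
  norm_num

lemma nn3 : nnC a3 p3 ≤ 124926343 := by
  simp [nnC, a3, p3, Fin.sum_univ_three]
  norm_num

lemma dd3 : ddC a3 p3 ≤ 41259 / 10 := by
  simp [ddC, a3, p3, Fin.sum_univ_three]
  norm_num

lemma dd3' : 4125 ≤ ddC a3 p3 := by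
  simp [ddC, a3, p3, Fin.sum_univ_three]
  norm_num

/-- The lower bound `K₀ ≥ 1.524` for the explicit parameters. -/
lemma K3 : (1524 / 1000 : ℝ) ≤ 2 * (192 / 10000) * ((293 / 5000) * lamC a3 p3 - 1586 / 10) -
    (192 / 10000) ^ 2 * ddC a3 p3 := by
  rw [lam3]
  have := dd3
  norm_num at this ⊢
  linarith

lemma kappa3 : ((293 / 5000 : ℝ)) ^ 3 * nnC a3 p3 ≤ (1586 / 10) ^ 2 := by
  have := nn3
  have h : ((293 / 5000 : ℝ)) ^ 3 * nnC a3 p3 ≤ ((293 / 5000 : ℝ)) ^ 3 * 124926343 :=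
    mul_le_mul_of_nonneg_left this (by norm_num)
  refine h.trans ?_
  norm_num

/-- The Young inequality with the constant `1.47 * 2 / (3 π)`. -/
lemma young3 {K : ℝ} (hK : (1524 / 1000 : ℝ) ≤ K) (w ρ : ℝ) (hw : 0 ≤ w) (hρ : 0 ≤ ρ) :
    w * ρ ≤ (147 / 100) * (2 / (3 * π)) * w ^ (3 / 2 : ℝ) + K * ρ ^ 3 := by
  have hpi : π < 3.1416 := Real.pi_lt_d4
  have hpi0 : 0 < π := Real.pi_pos
  have hC : 2 * (1524 / 1000 : ℝ) * (4677 / 10000) ^ 3 ≤ (147 / 100) * (2 / (3 * π)) := by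
    have h1 : (2 : ℝ) / (3 * π) ≥ 2 / (3 * 3.1416) := by
      apply div_le_div_of_nonneg_left (by norm_num) (by positivity)
      linarith
    have h2 : (147 / 100 : ℝ) * (2 / (3 * 3.1416)) ≤ (147 / 100) * (2 / (3 * π)) :=
      mul_le_mul_of_nonneg_left h1 (by norm_num)
    refine le_trans ?_ h2
    norm_num
  have h := young (C := (147 / 100) * (2 / (3 * π))) (K := 1524 / 1000) (γ := 4677 / 10000)
    (by norm_num) (by norm_num) (by norm_num) hC w ρ hw hρ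
  have h3 : (1524 / 1000 : ℝ) * ρ ^ 3 ≤ K * ρ ^ 3 := mul_le_mul_of_nonneg_right hK (by positivity)
  linarith

/-- The matrix Lieb-Thirring bound at `γ = 1` with constant `1.47 L^cl_1`. -/
theorem matrix_bound {m N : ℕ} {W : ℝ → Matrix (Fin m) (Fin m) ℂ} (hW : ∀ x, (W x).PosSemidef)
    (hWm : ∀ i j, Measurable fun x => W x i j)
    (hWint : Integrable fun x => ∑ i, (hW x).isHermitian.eigenvalues i ^ (3 / 2 : ℝ))
    {ψ ψ' : Fin N → ℝ → Fin m → ℂ}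
    (hH : ∀ j c, IsH1 (fun x => ψ j x c) (fun x => ψ' j x c))
    (horth : ∀ j k, ∑ c, ∫ x, star (ψ j x c) * ψ k x c = if j = k then 1 else 0) :
    (∀ j, Integrable fun x => (star (ψ j x) ⬝ᵥ W x *ᵥ ψ j x).re) ∧
      ∑ j, ((∫ x, (star (ψ j x) ⬝ᵥ W x *ᵥ ψ j x).re) - ∑ c, ∫ x, ‖ψ' j x c‖ ^ 2) ≤
        (147 / 100) * (2 / (3 * π)) *
          ∫ x, ∑ i, (hW x).isHermitian.eigenvalues i ^ (3 / 2 : ℝ) :=
  main_inequality hW hWm hWint hH horth (a := a3) (p := p3) p3_pos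
    (κ := 293 / 5000) (η := 1586 / 10) (ν := 192 / 10000) (by norm_num) (by norm_num) (by norm_num)
    kappa3 rfl (le_trans (by norm_num) K3) (young3 K3)

end Vale.Agent.Lib.P371
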