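import Mathlib

/-!
The energy of a convolution in terms of autocorrelations.
-/

open Real MeasureTheory Set Filter Topology Function

namespace Vale.Agent.Lib.P371

/-- Autocorrelation of a real function. -/
noncomputable def auto (v : ℝ → ℝ) (u : ℝ) : ℝ := ∫ y, v (y + u) * v y

section
variable {k v : ℝ → ℝ}

lemma integrable_shift_mul (hv : Measurable v) (hv2 : Integrable (fun x => v x ^ 2)) (a b : ℝ) :
    Integrable (fun x => v (x + a) * v (x + b)) := by
  have h1 : Integrable (fun x => v (x + a) ^ 2) := hv2.comp_add_right a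
  have h2 : Integrable (fun x => v (x + b) ^ 2) := hv2.comp_add_right b
  refine Integrable.mono' ((h1.add h2).const_mul (1 / 2)) ?_ ?_
  · exact ((hv.comp (measurable_add_const a)).mul (hv.comp (measurable_add_const b))).aestronglyMeasurable
  · refine Eventually.of_forall fun x => ?_
    simp only [Pi.add_apply, Real.norm_eq_abs, abs_mul]
    have := sq_nonneg (|v (x + a)| - |v (x + b)|)
    rw [← sq_abs (v (x + a)), ← sq_abs (v (x + b))]
    nlinarith

lemma integrable_shift_mul' (hv : Measurable v) (hv2 : Integrable (fun x => v x ^ 2)) (a : ℝ) :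
    Integrable (fun x => v (x + a) * v x) := by
  simpa using integrable_shift_mul hv hv2 a 0

lemma abs_auto_le (hv : Measurable v) (hv2 : Integrable (fun x => v x ^ 2)) (u : ℝ) :
    |auto v u| ≤ ∫ x, v x ^ 2 := by
  unfold auto
  have h1 : Integrable (fun x => v (x + u) ^ 2) := hv2.comp_add_right u
  have hi := (h1.add hv2).const_mul (1 / 2)
  calc |∫ y, v (y + u) * v y| ≤ ∫ y, ‖v (y + u) * v y‖ := abs_integral_le_integral_abs
    _ ≤ ∫ y, (1 / 2) * (v (y + u) ^ 2 + v y ^ 2) := by
        refine integral_mono (integrable_shift_mul' hv hv2 u).norm hi fun x => ?_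
        simp only [Real.norm_eq_abs, abs_mul]
        have := sq_nonneg (|v (x + u)| - |v x|)
        rw [← sq_abs (v (x + u)), ← sq_abs (v x)]
        nlinarith
    _ = ∫ x, v x ^ 2 := by
        rw [integral_const_mul, integral_add h1 hv2,
          integral_add_right_eq_self (fun x => v x ^ 2) u]
        ring

lemma measurable_auto (hv : Measurable v) : Measurable (auto v) := by
  unfold auto
  have h : StronglyMeasurable (fun p : ℝ × ℝ => v (p.2 + p.1) * v p.2) := by
    apply Measurable.stronglyMeasurable
    fun_prop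
  exact (h.integral_prod_right (ν := volume)).measurable

lemma integrable_kk (hk : Measurable k) (hk1 : Integrable k) :
    Integrable (fun p : ℝ × ℝ => |k p.1| * |k (p.1 + p.2)|) (volume.prod volume) := by
  have hm : Measurable (fun p : ℝ × ℝ => |k p.1| * |k (p.1 + p.2)|) := by fun_prop
  rw [integrable_prod_iff hm.aestronglyMeasurable]
  constructor
  · refine Eventually.of_forall fun t => ?_
    exact (hk1.abs.comp_add_left t).const_mul (|k t|)
  · have : (fun t => ∫ u, ‖|k t| * |k (t + u)|‖) = fun t => |k t| * ∫ u, |k u| := by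
      funext t
      simp only [norm_mul, Real.norm_eq_abs, abs_abs]
      rw [integral_const_mul, integral_add_left_eq_self (fun u => |k u|) t]
    rw [this]
    exact hk1.abs.mul_const _

/-- Main energy identity. -/
theorem conv_sq (hk : Measurable k) (hk1 : Integrable k) (hv : Measurable v)
    (hv2 : Integrable (fun x => v x ^ 2)) :
    Integrable (fun x => (∫ t, k t * v (x - t)) ^ 2) ∧
      ∫ x, (∫ t, k t * v (x - t)) ^ 2 = ∫ u, (∫ t, k t * k (t + u)) * auto v u := by
  set H : ℝ → ℝ × ℝ → ℝ := fun x p => (k p.1 * v (x - p.1)) * (k p.2 * v (x - p.2)) with hH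
  have hHm : Measurable (uncurry H) := by
    simp only [hH, uncurry_def]
    fun_prop
  -- majorants
  have hkk : Integrable (fun p : ℝ × ℝ => |k p.1| * |k p.2|) (volume.prod volume) :=
    hk1.abs.mul_prod hk1.abs
  have hg1 : Integrable (fun q : ℝ × (ℝ × ℝ) => |k q.2.1| * |k q.2.2| * v (q.1 - q.2.1) ^ 2)
      (volume.prod (volume.prod volume)) := by
    have hm : Measurable (fun q : ℝ × (ℝ × ℝ) => |k q.2.1| * |k q.2.2| * v (q.1 - q.2.1) ^ 2) := by
      fun_prop
    rw [integrable_prod_iff' hm.aestronglyMeasurable]
    constructor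
    · refine Eventually.of_forall fun p => ?_
      exact (hv2.comp_sub_right p.1).const_mul (|k p.1| * |k p.2|)
    · have : (fun p : ℝ × ℝ => ∫ x, ‖|k p.1| * |k p.2| * v (x - p.1) ^ 2‖)
          = fun p : ℝ × ℝ => (|k p.1| * |k p.2|) * ∫ x, v x ^ 2 := by
        funext p
        have h1 : ∀ x, ‖|k p.1| * |k p.2| * v (x - p.1) ^ 2‖
            = |k p.1| * |k p.2| * v (x - p.1) ^ 2 := fun x =>
          Real.norm_of_nonneg (by positivity)
        simp only [h1]
        rw [integral_const_mul, integral_sub_right_eq_self (fun x => v x ^ 2) p.1]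
      simp only [this]
      exact hkk.mul_const _
  have hg2 : Integrable (fun q : ℝ × (ℝ × ℝ) => |k q.2.1| * |k q.2.2| * v (q.1 - q.2.2) ^ 2)
      (volume.prod (volume.prod volume)) := by
    have hm : Measurable (fun q : ℝ × (ℝ × ℝ) => |k q.2.1| * |k q.2.2| * v (q.1 - q.2.2) ^ 2) := by
      fun_prop
    rw [integrable_prod_iff' hm.aestronglyMeasurable]
    constructor
    · refine Eventually.of_forall fun p => ?_
      exact (hv2.comp_sub_right p.2).const_mul (|k p.1| * |k p.2|)
    · have : (fun p : ℝ × ℝ => ∫ x, ‖|k p.1| * |k p.2| * v (x - p.2) ^ 2‖)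
          = fun p : ℝ × ℝ => (|k p.1| * |k p.2|) * ∫ x, v x ^ 2 := by
        funext p
        have h1 : ∀ x, ‖|k p.1| * |k p.2| * v (x - p.2) ^ 2‖
            = |k p.1| * |k p.2| * v (x - p.2) ^ 2 := fun x =>
          Real.norm_of_nonneg (by positivity)
        simp only [h1]
        rw [integral_const_mul, integral_sub_right_eq_self (fun x => v x ^ 2) p.2]
      simp only [this]
      exact hkk.mul_const _
  have hHint : Integrable (uncurry H) (volume.prod (volume.prod volume)) := by
    refine Integrable.mono' ((hg1.add hg2).const_mul (1 / 2)) hHm.aestronglyMeasurable ?_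
    refine Eventually.of_forall fun q => ?_
    rcases q with ⟨x, t, s⟩
    simp only [hH, uncurry_apply_pair, Real.norm_eq_abs, abs_mul, Pi.add_apply]
    have h0 : 0 ≤ |k t| * |k s| := by positivity
    have h1 : |v (x - t)| * |v (x - s)| ≤ (1 / 2) * (v (x - t) ^ 2 + v (x - s) ^ 2) := by
      have := sq_nonneg (|v (x - t)| - |v (x - s)|)
      rw [← sq_abs (v (x - t)), ← sq_abs (v (x - s))]
      nlinarith
    calc |k t| * |v (x - t)| * (|k s| * |v (x - s)|)
        = (|k t| * |k s|) * (|v (x - t)| * |v (x - s)|) := by ring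
      _ ≤ (|k t| * |k s|) * ((1 / 2) * (v (x - t) ^ 2 + v (x - s) ^ 2)) :=
        mul_le_mul_of_nonneg_left h1 h0
      _ = _ := by ring
  -- inner integrals
  have hin1 : ∀ x, ∫ p : ℝ × ℝ, H x p ∂(volume.prod volume) = (∫ t, k t * v (x - t)) ^ 2 := by
    intro x
    have := integral_prod_mul (μ := volume) (ν := volume) (fun t => k t * v (x - t))
      (fun t => k t * v (x - t))
    simp only [hH]
    rw [sq, ← this]
  have hin2 : ∀ p : ℝ × ℝ, ∫ x, H x p = k p.1 * k p.2 * auto v (p.2 - p.1) := by
    intro p
    simp only [hH]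
    have h1 : ∀ x, k p.1 * v (x - p.1) * (k p.2 * v (x - p.2)) =
        k p.1 * k p.2 * (v (x - p.1) * v (x - p.2)) := fun x => by ring
    simp only [h1]
    rw [integral_const_mul]
    congr 1
    unfold auto
    have := integral_sub_right_eq_self (μ := volume) (fun x => v (x + (p.2 - p.1)) * v x) p.2
    rw [← this]
    congr 1
    funext x
    congr 2
    ring
  have hInt1 : Integrable (fun x => (∫ t, k t * v (x - t)) ^ 2) := by
    have := hHint.integral_prod_left
    refine this.congr (Eventually.of_forall fun x => ?_)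
    exact hin1 x
  refine ⟨hInt1, ?_⟩
  have hswap := integral_integral_swap (f := H) hHint
  simp only [hin1, hin2] at hswap
  rw [hswap]
  have hInt2 : Integrable (fun p : ℝ × ℝ => k p.1 * k p.2 * auto v (p.2 - p.1))
      (volume.prod volume) := by
    have := hHint.integral_prod_right
    refine this.congr (Eventually.of_forall fun p => ?_)
    exact hin2 p
  rw [integral_prod _ hInt2]
  -- shift `s = t + u`
  have hshift : ∀ t, ∫ s, k (t, s).1 * k (t, s).2 * auto v ((t, s).2 - (t, s).1)
      = ∫ u, k t * k (t + u) * auto v u := by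
    intro t
    have := integral_add_left_eq_self (μ := volume) (fun s => k t * k s * auto v (s - t)) t
    simp only
    rw [← this]
    simp
  simp only [hshift]
  have hC : ∀ u, |auto v u| ≤ ∫ x, v x ^ 2 := abs_auto_le hv hv2
  have hAm := measurable_auto hv
  have hInt3 : Integrable (uncurry fun t u => k t * k (t + u) * auto v u) (volume.prod volume) := by
    have hm : Measurable (uncurry fun t u => k t * k (t + u) * auto v u) := by
      simp only [uncurry_def]
      fun_prop
    refine Integrable.mono' ((integrable_kk hk hk1).mul_const (∫ x, v x ^ 2))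
      hm.aestronglyMeasurable ?_
    refine Eventually.of_forall fun q => ?_
    rcases q with ⟨t, u⟩
    simp only [uncurry_apply_pair, Real.norm_eq_abs, abs_mul]
    exact mul_le_mul_of_nonneg_left (hC u) (by positivity)
  rw [integral_integral_swap hInt3]
  congr 1
  funext u
  rw [integral_mul_const]

end

end Vale.Agent.Lib.P371
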