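import Vale.Agent.Lib.P371.Levy
import Vale.Agent.Lib.P371.Conv

/-!
Square function estimate for the heat family (real version):
`∫ dx ∫_0^∞ dr 2 |kern r * v (x)|^2 ≤ ‖v‖^2`.
-/

open Real MeasureTheory Set Filter Topology Function

namespace Vale.Agent.Lib.P371

lemma integrable_kern {r : ℝ} (hr : 0 < r) : Integrable (kern r) := by
  unfold kern gauss
  have h := (integrable_mul_exp_neg_mul_sq (b := 1 / (4 * r)) (by positivity)).const_mul
    ((1 / (2 * r)) * (√(4 * π * r))⁻¹)
  refine h.congr (Eventually.of_forall fun z => ?_)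
  simp only [exp_form]
  ring

/-- heat-smoothed real function -/
noncomputable def heat (r : ℝ) (v : ℝ → ℝ) (x : ℝ) : ℝ := ∫ t, kern r t * v (x - t)

lemma heat_energy {r : ℝ} (hr : 0 < r) {v : ℝ → ℝ} (hv : Measurable v)
    (hv2 : Integrable (fun x => v x ^ 2)) :
    Integrable (fun x => heat r v x ^ 2) ∧
      ∫ x, heat r v x ^ 2 = ∫ u, autoK r u * auto v u := by
  have h := conv_sq (measurable_kern r) (integrable_kern hr) hv hv2
  refine ⟨h.1, ?_⟩
  unfold heat
  rw [h.2]
  simp only [autocorr_kern hr]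

lemma gauss_form_nonneg {r : ℝ} (hr : 0 < r) {v : ℝ → ℝ} (hv : Measurable v)
    (hv2 : Integrable (fun x => v x ^ 2)) :
    0 ≤ ∫ u, gauss (2 * r) u * auto v u := by
  have h := conv_sq (measurable_gauss r) (integrable_gauss hr) hv hv2
  simp only [autocorr_gauss hr] at h
  rw [← h.2]
  exact integral_nonneg fun x => sq_nonneg _

lemma gauss_form_le {r : ℝ} (hr : 0 < r) {v : ℝ → ℝ} (hv : Measurable v)
    (hv2 : Integrable (fun x => v x ^ 2)) :
    ∫ u, gauss r u * auto v u ≤ ∫ x, v x ^ 2 := by
  have hC := abs_auto_le hv hv2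
  have hAm := measurable_auto hv
  have hi : Integrable (fun u => gauss r u * auto v u) := by
    refine Integrable.mono' ((integrable_gauss hr).mul_const (∫ x, v x ^ 2))
      ((measurable_gauss r).mul hAm).aestronglyMeasurable ?_
    refine Eventually.of_forall fun u => ?_
    rw [Real.norm_eq_abs, abs_mul, abs_of_pos (gauss_pos hr u)]
    exact mul_le_mul_of_nonneg_left (hC u) (gauss_pos hr u).le
  calc ∫ u, gauss r u * auto v u ≤ ∫ u, gauss r u * ∫ x, v x ^ 2 := by
        refine integral_mono hi ((integrable_gauss hr).mul_const _) fun u => ?_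
        exact mul_le_mul_of_nonneg_left ((le_abs_self _).trans (hC u)) (gauss_pos hr u).le
    _ = ∫ x, v x ^ 2 := by
        rw [integral_mul_const, integral_gauss hr, one_mul]

/-- uniform domination of `autoK` on a compact interval of times -/
lemma abs_autoK_le {ε Λ : ℝ} (hε : 0 < ε) {r : ℝ} (hr : r ∈ Ioc ε Λ) (u : ℝ) :
    |autoK r u| ≤ (√(8 * π * ε))⁻¹ * ((1 / (4 * ε)) * exp (-(1 / (8 * Λ)) * u ^ 2) +
      (1 / (16 * ε ^ 2)) * (u ^ 2 * exp (-(1 / (8 * Λ)) * u ^ 2))) := by
  obtain ⟨hr1, hr2⟩ := hr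
  have hr0 : 0 < r := hε.trans hr1
  have hΛ : 0 < Λ := hr0.trans_le hr2
  unfold autoK
  rw [abs_mul, abs_of_pos (gauss_pos (by positivity) u)]
  have h1 : |1 / (4 * r) - u ^ 2 / (16 * r ^ 2)| ≤ 1 / (4 * ε) + (1 / (16 * ε ^ 2)) * u ^ 2 := by
    have ha : 1 / (4 * r) ≤ 1 / (4 * ε) := by
      apply one_div_le_one_div_of_le (by positivity)
      linarith
    have hb : u ^ 2 / (16 * r ^ 2) ≤ (1 / (16 * ε ^ 2)) * u ^ 2 := by
      have : 1 / (16 * r ^ 2) ≤ 1 / (16 * ε ^ 2) := by
        apply one_div_le_one_div_of_le (by positivity)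
        have : ε ^ 2 ≤ r ^ 2 := by gcongr
        linarith
      calc u ^ 2 / (16 * r ^ 2) = (1 / (16 * r ^ 2)) * u ^ 2 := by ring
        _ ≤ _ := mul_le_mul_of_nonneg_right this (sq_nonneg u)
    have hc : 0 ≤ 1 / (4 * r) := by positivity
    have hd : 0 ≤ u ^ 2 / (16 * r ^ 2) := by positivity
    rw [abs_le]
    constructor <;> linarith
  have h2 : gauss (2 * r) u ≤ (√(8 * π * ε))⁻¹ * exp (-(1 / (8 * Λ)) * u ^ 2) := by
    unfold gauss
    have h3 : 4 * π * (2 * r) = 8 * π * r := by ring
    have h4 : 4 * (2 * r) = 8 * r := by ring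
    rw [h3, h4]
    apply mul_le_mul _ _ (exp_pos _).le (by positivity)
    · apply inv_anti₀ (by positivity)
      apply Real.sqrt_le_sqrt
      have : 0 < π := Real.pi_pos
      nlinarith
    · apply Real.exp_le_exp.mpr
      have : -(u ^ 2) / (8 * r) = -(1 / (8 * r)) * u ^ 2 := by ring
      rw [this]
      apply mul_le_mul_of_nonneg_right _ (sq_nonneg u)
      apply neg_le_neg
      apply one_div_le_one_div_of_le (by positivity)
      linarith
  calc |1 / (4 * r) - u ^ 2 / (16 * r ^ 2)| * gauss (2 * r) u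
      ≤ (1 / (4 * ε) + (1 / (16 * ε ^ 2)) * u ^ 2) *
          ((√(8 * π * ε))⁻¹ * exp (-(1 / (8 * Λ)) * u ^ 2)) :=
        mul_le_mul h1 h2 (gauss_pos (by positivity) u).le (by positivity)
    _ = _ := by ring

lemma measurable_autoK_uncurry : Measurable (fun p : ℝ × ℝ => autoK p.1 p.2) := by
  unfold autoK
  have := measurable_gauss_uncurry
  have h2 : Measurable (fun p : ℝ × ℝ => gauss (2 * p.1) p.2) :=
    measurable_gauss_uncurry.comp ((measurable_const.mul measurable_fst).prodMk measurable_snd)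
  fun_prop

lemma continuousOn_autoK (u : ℝ) {ε Λ : ℝ} (hε : 0 < ε) :
    ContinuousOn (fun r => 2 * autoK r u) (uIcc ε Λ) ∨ Λ < ε := by
  rcases lt_or_ge Λ ε with h | h
  · exact Or.inr h
  left
  rw [uIcc_of_le h]
  intro r hr
  have hr0 : 0 < r := hε.trans_le hr.1
  have h1 := (hasDerivAt_gauss_two_mul hr0 u).continuousAt
  apply ContinuousAt.continuousWithinAt
  unfold autoK
  have h2 : r ≠ 0 := hr0.ne'
  fun_prop (disch := simp [h2])

/-- Fundamental theorem in the time variable. -/
lemma integral_autoK {ε Λ : ℝ} (hε : 0 < ε) (h : ε ≤ Λ) (u : ℝ) :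
    ∫ r in Ioc ε Λ, 2 * autoK r u = gauss (2 * ε) u - gauss (2 * Λ) u := by
  have hc : ContinuousOn (fun r => 2 * autoK r u) (uIcc ε Λ) := by
    rcases continuousOn_autoK u (Λ := Λ) hε with h1 | h1
    · exact h1
    · exact absurd h1 (not_lt.mpr h)
  rw [← intervalIntegral.integral_of_le h]
  have hd : ∀ r ∈ uIcc ε Λ, HasDerivAt (fun s => -gauss (2 * s) u) (2 * autoK r u) r := by
    intro r hr
    rw [uIcc_of_le h] at hr
    have hr0 : 0 < r := hε.trans_le hr.1
    have := (hasDerivAt_gauss_two_mul hr0 u).fun_neg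
    simpa using this
  rw [intervalIntegral.integral_eq_sub_of_hasDerivAt hd hc.intervalIntegrable]
  ring

section
variable {v : ℝ → ℝ}

lemma prod_restrict_eq (ε Λ : ℝ) :
    (volume.restrict (Ioc ε Λ)).prod (volume : Measure ℝ) =
      ((volume : Measure ℝ).prod (volume : Measure ℝ)).restrict (Ioc ε Λ ×ˢ univ) := by
  rw [← Measure.prod_restrict, Measure.restrict_univ]

lemma integrable_autoK_auto {ε Λ : ℝ} (hε : 0 < ε) (h : ε ≤ Λ) (hv : Measurable v)
    (hv2 : Integrable (fun x => v x ^ 2)) :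
    Integrable (uncurry fun r u => 2 * autoK r u * auto v u)
      ((volume.restrict (Ioc ε Λ)).prod volume) := by
  have hΛ : 0 < Λ := hε.trans_le h
  have hb : 0 < 1 / (8 * Λ) := by positivity
  have hAm := measurable_auto hv
  have hC := abs_auto_le hv hv2
  have hI0 : 0 ≤ ∫ x, v x ^ 2 := integral_nonneg fun x => sq_nonneg _
  set dom : ℝ → ℝ := fun u => (√(8 * π * ε))⁻¹ * ((1 / (4 * ε)) * exp (-(1 / (8 * Λ)) * u ^ 2) +
      (1 / (16 * ε ^ 2)) * (u ^ 2 * exp (-(1 / (8 * Λ)) * u ^ 2))) with hdom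
  have hdomi : Integrable dom :=
    (((integrable_exp_neg_mul_sq hb).const_mul _).add
      ((integrable_sq_mul_exp hb).const_mul _)).const_mul _
  have hfin : IsFiniteMeasure (volume.restrict (Ioc ε Λ)) :=
    ⟨by simp⟩
  have hg : Integrable (fun q : ℝ × ℝ => (2 * (∫ x, v x ^ 2)) * ((1 : ℝ) * dom q.2))
      ((volume.restrict (Ioc ε Λ)).prod volume) :=
    ((integrable_const (1 : ℝ)).mul_prod hdomi).const_mul _
  have hm : Measurable (uncurry fun r u => 2 * autoK r u * auto v u) := by
    simp only [uncurry_def]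
    have := measurable_autoK_uncurry
    fun_prop
  refine Integrable.mono' hg hm.aestronglyMeasurable ?_
  rw [prod_restrict_eq]
  refine ae_restrict_of_forall_mem (measurableSet_Ioc.prod MeasurableSet.univ) ?_
  rintro ⟨r, u⟩ ⟨hr, -⟩
  simp only [uncurry_apply_pair, Real.norm_eq_abs, abs_mul, one_mul]
  have h1 := abs_autoK_le hε hr u
  have h2 := hC u
  rw [abs_of_pos (by norm_num : (0 : ℝ) < 2)]
  calc 2 * |autoK r u| * |auto v u| ≤ 2 * dom u * ∫ x, v x ^ 2 := by
        apply mul_le_mul _ h2 (abs_nonneg _) _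
        · exact mul_le_mul_of_nonneg_left h1 (by norm_num)
        · have := abs_nonneg (autoK r u)
          have : 0 ≤ dom u := this.trans h1
          positivity
    _ = _ := by ring

/-- truncated square function estimate -/
lemma truncated_energy {ε Λ : ℝ} (hε : 0 < ε) (h : ε ≤ Λ) (hv : Measurable v)
    (hv2 : Integrable (fun x => v x ^ 2)) :
    IntegrableOn (fun r => 2 * ∫ x, heat r v x ^ 2) (Ioc ε Λ) ∧
      ∫ r in Ioc ε Λ, 2 * ∫ x, heat r v x ^ 2 ≤ ∫ x, v x ^ 2 := by
  have hΛ : 0 < Λ := hε.trans_le h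
  have hint := integrable_autoK_auto hε h hv hv2
  have hform : ∀ r ∈ Ioc ε Λ, 2 * ∫ x, heat r v x ^ 2 = ∫ u, 2 * autoK r u * auto v u := by
    intro r hr
    rw [(heat_energy (hε.trans hr.1) hv hv2).2, ← integral_const_mul]
    congr 1
    funext u
    ring
  constructor
  · have := hint.integral_prod_left
    refine IntegrableOn.congr_fun this ?_ measurableSet_Ioc
    intro r hr
    exact (hform r hr).symm
  · rw [setIntegral_congr_fun measurableSet_Ioc hform]
    rw [integral_integral_swap hint]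
    have hin : ∀ u, ∫ r in Ioc ε Λ, 2 * autoK r u * auto v u =
        gauss (2 * ε) u * auto v u - gauss (2 * Λ) u * auto v u := by
      intro u
      rw [integral_mul_const, integral_autoK hε h u]
      ring
    simp only [hin]
    have hC := abs_auto_le hv hv2
    have hAm := measurable_auto hv
    have hi : ∀ r, 0 < r → Integrable (fun u => gauss r u * auto v u) := by
      intro r hr
      refine Integrable.mono' ((integrable_gauss hr).mul_const (∫ x, v x ^ 2))
        ((measurable_gauss r).mul hAm).aestronglyMeasurable ?_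
      refine Eventually.of_forall fun u => ?_
      rw [Real.norm_eq_abs, abs_mul, abs_of_pos (gauss_pos hr u)]
      exact mul_le_mul_of_nonneg_left (hC u) (gauss_pos hr u).le
    rw [integral_sub (hi _ (by positivity)) (hi _ (by positivity))]
    have h1 := gauss_form_le (r := 2 * ε) (by positivity) hv hv2
    have h2 := gauss_form_nonneg hΛ hv hv2
    linarith

lemma measurable_heat (hv : Measurable v) :
    Measurable (fun p : ℝ × ℝ => heat p.1 v p.2) := by
  unfold heat
  have h : StronglyMeasurable (fun q : (ℝ × ℝ) × ℝ => kern q.1.1 q.2 * v (q.1.2 - q.2)) := by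
    apply Measurable.stronglyMeasurable
    have h1 : Measurable (fun q : (ℝ × ℝ) × ℝ => kern q.1.1 q.2) :=
      measurable_kern_uncurry.comp ((measurable_fst.comp measurable_fst).prodMk measurable_snd)
    fun_prop
  exact (h.integral_prod_right (ν := volume)).measurable

/-- The square function estimate for real functions. -/
theorem energy_real (hv : Measurable v) (hv2 : Integrable (fun x => v x ^ 2)) :
    ∫⁻ x, ∫⁻ r in Ioi (0 : ℝ), ENNReal.ofReal (2 * heat r v x ^ 2) ≤
      ENNReal.ofReal (∫ x, v x ^ 2) := by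
  have hm : Measurable (uncurry fun (x r : ℝ) => ENNReal.ofReal (2 * heat r v x ^ 2)) := by
    simp only [uncurry_def]
    have h1 : Measurable (fun p : ℝ × ℝ => heat p.2 v p.1) :=
      (measurable_heat hv).comp measurable_swap
    fun_prop
  rw [lintegral_lintegral_swap hm.aemeasurable]
  -- exhaustion
  set s : ℕ → Set ℝ := fun n => Ioc (1 / ((n : ℝ) + 1)) ((n : ℝ) + 1) with hs
  have hU : Ioi (0 : ℝ) = ⋃ n, s n := by
    ext r
    simp only [mem_Ioi, mem_iUnion, hs, mem_Ioc]
    constructor
    · intro hr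
      obtain ⟨n, hn⟩ := exists_nat_gt (max r (1 / r))
      have h1 : r < n := (le_max_left _ _).trans_lt hn
      have h2 : 1 / r < n := (le_max_right _ _).trans_lt hn
      refine ⟨n, ?_, by linarith⟩
      have hn0 : (0 : ℝ) < n := (hr.trans h1)
      rw [div_lt_iff₀ (by positivity)]
      rw [div_lt_iff₀ hr] at h2
      nlinarith
    · rintro ⟨n, h1, -⟩
      exact lt_trans (by positivity) h1
  have hd : Directed (· ⊆ ·) s := by
    apply Monotone.directed_le
    intro a b hab
    simp only [hs]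
    apply Ioc_subset_Ioc
    · apply one_div_le_one_div_of_le (by positivity)
      have : (a : ℝ) ≤ b := by exact_mod_cast hab
      linarith
    · have : (a : ℝ) ≤ b := by exact_mod_cast hab
      linarith
  rw [hU, setLIntegral_iUnion_of_directed _ hd]
  apply iSup_le
  intro n
  have hε : (0 : ℝ) < 1 / ((n : ℝ) + 1) := by positivity
  have hle : 1 / ((n : ℝ) + 1) ≤ (n : ℝ) + 1 := by
    rw [div_le_iff₀ (by positivity)]
    have : (0 : ℝ) ≤ n := by positivity
    nlinarith
  have ht := truncated_energy hε hle hv hv2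
  have hin : ∀ r ∈ s n, ∫⁻ x, ENNReal.ofReal (2 * heat r v x ^ 2) =
      ENNReal.ofReal (2 * ∫ x, heat r v x ^ 2) := by
    intro r hr
    have hr0 : 0 < r := hε.trans hr.1
    have hie := (heat_energy hr0 hv hv2).1
    rw [← integral_const_mul, ofReal_integral_eq_lintegral_ofReal (hie.const_mul 2)]
    exact Eventually.of_forall fun x => by positivity
  rw [setLIntegral_congr_fun (measurableSet_Ioc) hin]
  rw [← ofReal_integral_eq_lintegral_ofReal ht.1]
  · exact ENNReal.ofReal_le_ofReal ht.2
  · refine Eventually.of_forall fun r => ?_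
    exact mul_nonneg (by norm_num) (integral_nonneg fun x => sq_nonneg _)

end

end Vale.Agent.Lib.P371
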