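import Vale.Agent.Lib.P371.ComplexEnergy

/-!
Exponential kernels, the subordination (Fubini) formula and the representation formula
`φ - f_P * φ = s_P * φ'`.
-/

open Real MeasureTheory Set Filter Topology Function

namespace Vale.Agent.Lib.P371

/-- The symmetric exponential kernel. -/
noncomputable def fk (P t : ℝ) : ℝ := (P / 2) * exp (-(P * |t|))

lemma measurable_exp_abs (a : ℝ) : Measurable (fun t : ℝ => exp (-(a * |t|))) := by
  fun_prop

lemma integrable_exp_abs {a : ℝ} (ha : 0 < a) : Integrable (fun t : ℝ => exp (-(a * |t|))) := by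
  rw [← integrableOn_univ, ← Iic_union_Ioi (a := (0 : ℝ))]
  apply IntegrableOn.union
  · refine IntegrableOn.congr_fun (integrableOn_exp_mul_Iic ha 0) ?_ measurableSet_Iic
    intro t ht
    have ht' : t ≤ 0 := ht
    simp only
    rw [abs_of_nonpos ht']
    congr 1
    ring
  · have h0 : -a < 0 := by linarith
    refine IntegrableOn.congr_fun (integrableOn_exp_mul_Ioi h0 0) ?_ measurableSet_Ioi
    intro t ht
    have ht' : 0 < t := ht
    simp only
    rw [abs_of_pos ht']
    congr 1
    ring

lemma integral_exp_Ioi {a : ℝ} (ha : 0 < a) : ∫ t in Ioi (0 : ℝ), exp (-(a * t)) = 1 / a := by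
  have h0 : -a < 0 := by linarith
  have := integral_exp_mul_Ioi h0 0
  simp only [mul_zero, exp_zero] at this
  have h2 : ∀ t : ℝ, exp (-(a * t)) = exp (-a * t) := fun t => by congr 1; ring
  simp only [h2]
  rw [this]
  field_simp

lemma integral_exp_abs {a : ℝ} (ha : 0 < a) : ∫ t : ℝ, exp (-(a * |t|)) = 2 / a := by
  have := integral_comp_abs (f := fun t : ℝ => exp (-(a * t)))
  rw [this, integral_exp_Ioi ha]
  ring

lemma measurable_fk (P : ℝ) : Measurable (fk P) := by
  unfold fk
  fun_prop

lemma integrable_fk {P : ℝ} (hP : 0 < P) : Integrable (fk P) := by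
  unfold fk
  exact (integrable_exp_abs hP).const_mul _

lemma integral_fk {P : ℝ} (hP : 0 < P) : ∫ t, fk P t = 1 := by
  unfold fk
  rw [integral_const_mul, integral_exp_abs hP]
  field_simp

lemma integral_fk_mul {P Q : ℝ} (hP : 0 < P) (hQ : 0 < Q) :
    ∫ t, fk P t * fk Q t = P * Q / (2 * (P + Q)) := by
  unfold fk
  have h : ∀ t : ℝ, P / 2 * exp (-(P * |t|)) * (Q / 2 * exp (-(Q * |t|))) =
      (P * Q / 4) * exp (-((P + Q) * |t|)) := by
    intro t
    have : exp (-((P + Q) * |t|)) = exp (-(P * |t|)) * exp (-(Q * |t|)) := by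
      rw [← Real.exp_add]
      congr 1
      ring
    rw [this]
    ring
  simp only [h]
  rw [integral_const_mul, integral_exp_abs (by positivity)]
  field_simp
  ring

lemma memLp_exp_abs {a : ℝ} (ha : 0 < a) : MemLp (fun t : ℝ => exp (-(a * |t|))) 2 := by
  rw [memLp_two_iff_integrable_sq (measurable_exp_abs a).aestronglyMeasurable]
  have h := integrable_exp_abs (a := 2 * a) (by positivity)
  refine h.congr (Eventually.of_forall fun t => ?_)
  simp only
  rw [← Real.exp_nat_mul]
  congr 1
  push_cast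
  ring

lemma memLp_fk {P : ℝ} (hP : 0 < P) : MemLp (fk P) 2 := by
  unfold fk
  exact (memLp_exp_abs hP).const_mul _

lemma memLp_skern {P : ℝ} (hP : 0 < P) : MemLp (skern P) 2 := by
  have h := (memLp_exp_abs hP).const_mul (1 / 2 : ℝ)
  refine h.mono (measurable_skern P).aestronglyMeasurable (Eventually.of_forall fun t => ?_)
  rw [Real.norm_eq_abs, Real.norm_eq_abs]
  refine (abs_skern_le P t).trans (le_abs_self _)

/-- Fubini for the subordination formula. -/
theorem levy_fubini {P : ℝ} (hP : 0 < P) {v : ℝ → ℂ} (hv : MemLp v 2) (x : ℝ) :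
    IntegrableOn (fun r => ((exp (-(P ^ 2 * r)) : ℝ) : ℂ) * cheat r v x) (Ioi 0) ∧
      ∫ r in Ioi (0 : ℝ), ((exp (-(P ^ 2 * r)) : ℝ) : ℂ) * cheat r v x =
        ∫ t, (skern P t : ℂ) * v (x - t) := by
  set H : ℝ → ℝ → ℂ := fun r t => ((exp (-(P ^ 2 * r)) * kern r t : ℝ) : ℂ) * v (x - t) with hH
  have hvs : AEStronglyMeasurable (fun t => v (x - t)) volume := (memLp_shift hv x).1
  have hEK : Measurable (fun q : ℝ × ℝ => exp (-(P ^ 2 * q.1)) * kern q.1 q.2) := by
    have := measurable_kern_uncurry
    fun_prop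
  have hHm : AEStronglyMeasurable (uncurry H) ((volume.restrict (Ioi 0)).prod volume) := by
    simp only [hH, uncurry_def]
    apply AEStronglyMeasurable.mul
    · exact (Complex.measurable_ofReal.comp hEK).aestronglyMeasurable
    · exact hvs.comp_snd
  have hBm : Measurable (fun t : ℝ => ∫ r in Ioi (0 : ℝ), |exp (-(P ^ 2 * r)) * kern r t|) := by
    have h1 : StronglyMeasurable (fun q : ℝ × ℝ => |exp (-(P ^ 2 * q.2)) * kern q.2 q.1|) := by
      apply Measurable.stronglyMeasurable
      have h2 : Measurable (fun q : ℝ × ℝ => exp (-(P ^ 2 * q.2)) * kern q.2 q.1) :=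
        hEK.comp measurable_swap
      fun_prop
    exact (h1.integral_prod_right (ν := volume.restrict (Ioi 0))).measurable
  have hint : Integrable (uncurry H) ((volume.restrict (Ioi 0)).prod volume) := by
    rw [integrable_prod_iff' hHm]
    constructor
    · refine Eventually.of_forall fun t => ?_
      simp only [hH, uncurry_apply_pair]
      exact ((levy hP t).1.ofReal).mul_const _
    · have hform : (fun t => ∫ r in Ioi (0 : ℝ), ‖uncurry H (r, t)‖) =
          fun t => (∫ r in Ioi (0 : ℝ), |exp (-(P ^ 2 * r)) * kern r t|) * ‖v (x - t)‖ := by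
        funext t
        simp only [hH, uncurry_apply_pair, norm_mul, Complex.norm_real, Real.norm_eq_abs, abs_mul]
        rw [integral_mul_const]
      rw [hform]
      have hg : Integrable (fun t : ℝ => exp (-(P * |t|)) * ‖v (x - t)‖) :=
        (memLp_exp_abs hP).integrable_mul (memLp_shift hv x).norm
      refine Integrable.mono' (hg.const_mul (1 / 2)) ?_ (Eventually.of_forall fun t => ?_)
      · exact hBm.aestronglyMeasurable.mul hvs.norm
      · rw [Real.norm_of_nonneg (mul_nonneg (integral_nonneg fun r => abs_nonneg _) (norm_nonneg _))]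
        have := levy_abs hP t
        rw [← mul_assoc]
        exact mul_le_mul_of_nonneg_right this (norm_nonneg _)
  have hin1 : ∀ r, ∫ t, H r t = ((exp (-(P ^ 2 * r)) : ℝ) : ℂ) * cheat r v x := by
    intro r
    unfold cheat
    rw [← integral_const_mul]
    congr 1
    funext t
    simp only [hH]
    push_cast
    ring
  have hin2 : ∀ t, ∫ r in Ioi (0 : ℝ), H r t = (skern P t : ℂ) * v (x - t) := by
    intro t
    simp only [hH]
    rw [integral_mul_const, integral_complex_ofReal, (levy hP t).2]
  constructor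
  · have := hint.integral_prod_left
    simp only [uncurry_def] at this
    refine this.congr (Eventually.of_forall fun r => ?_)
    exact hin1 r
  · have := integral_integral_swap (f := H) hint
    simp only [hin1, hin2] at this
    exact this

/-! ### Representation formula -/

namespace IsH1
variable {φ v : ℝ → ℂ}

lemma intervalIntegrable (h : IsH1 φ v) (a b : ℝ) : IntervalIntegrable v volume a b := by
  rw [intervalIntegrable_iff]
  have : IsFiniteMeasure (volume.restrict (uIoc a b)) := ⟨by simp [uIoc]⟩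
  have h1 : MemLp v 1 (volume.restrict (uIoc a b)) :=
    (h.memLp_deriv.restrict _).mono_exponent (by norm_num)
  exact memLp_one_iff_integrable.mp h1

lemma shift (h : IsH1 φ v) (x : ℝ) : IsH1 (fun s => φ (x + s)) (fun s => v (x + s)) where
  memLp := h.memLp.comp_measurePreserving (measurePreserving_add_left volume x)
  memLp_deriv := h.memLp_deriv.comp_measurePreserving (measurePreserving_add_left volume x)
  primitive := by
    intro a b
    rw [intervalIntegral.integral_comp_add_left (fun s => v s) x, h.primitive]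

lemma reflect (h : IsH1 φ v) (x : ℝ) : IsH1 (fun s => φ (x - s)) (fun s => -v (x - s)) where
  memLp := memLp_shift h.memLp x
  memLp_deriv := (memLp_shift h.memLp_deriv x).neg
  primitive := by
    intro a b
    rw [intervalIntegral.integral_neg, intervalIntegral.integral_comp_sub_left (fun s => v s) x,
      h.primitive]
    ring

end IsH1

/-- Half-line integration by parts, via Fubini. -/
lemma halfline {φ v : ℝ → ℂ} (h : IsH1 φ v) {P : ℝ} (hP : 0 < P) :
    ∫ t in Ioi (0 : ℝ), ((P * exp (-(P * t)) : ℝ) : ℂ) * (φ t - φ 0) =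
      ∫ t in Ioi (0 : ℝ), ((exp (-(P * t)) : ℝ) : ℂ) * v t := by
  set μ : Measure ℝ := volume.restrict (Ioi 0) with hμ
  set a : ℝ → ℝ → ℝ := fun t s => if s ≤ t then P * exp (-(P * t)) else 0 with ha
  set J : ℝ → ℝ → ℂ := fun t s => (a t s : ℂ) * v s with hJ
  have ham : Measurable (uncurry a) := by
    simp only [ha, uncurry_def]
    refine Measurable.ite (measurableSet_le measurable_snd measurable_fst) ?_ measurable_const
    fun_prop
  have hvμ : AEStronglyMeasurable v μ := h.memLp_deriv.1.restrict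
  have hJm : AEStronglyMeasurable (uncurry J) (μ.prod μ) := by
    simp only [hJ, uncurry_def]
    apply AEStronglyMeasurable.mul
    · exact (Complex.measurable_ofReal.comp ham).aestronglyMeasurable
    · exact hvμ.comp_snd
  have hnonneg : ∀ t s, 0 ≤ a t s := by
    intro t s
    simp only [ha]
    split_ifs <;> positivity
  -- the time integral of `a`
  have haform : ∀ s, (fun t => a t s) = (Ici s).indicator (fun t => P * exp (-(P * t))) := by
    intro s
    funext t
    simp only [ha, indicator_apply, mem_Ici]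
  have hP' : -P < 0 := by linarith
  have hexpi : ∀ c, IntegrableOn (fun t => P * exp (-(P * t))) (Ioi c) := by
    intro c
    have := (integrableOn_exp_mul_Ioi hP' c).const_mul P
    refine IntegrableOn.congr_fun this ?_ measurableSet_Ioi
    intro t _
    simp only
    congr 2
    ring
  have hai : ∀ s, 0 < s → IntegrableOn (fun t => a t s) (Ioi 0) := by
    intro s hs
    rw [haform s]
    have h1 : IntegrableOn (fun t => P * exp (-(P * t))) (Ioi 0) := hexpi 0
    exact h1.indicator measurableSet_Ici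
  have hainteg : ∀ s, 0 < s → ∫ t in Ioi (0 : ℝ), a t s = exp (-(P * s)) := by
    intro s hs
    rw [haform s, setIntegral_indicator measurableSet_Ici]
    have h1 : Ioi (0 : ℝ) ∩ Ici s = Ici s := by
      ext t
      simp only [mem_inter_iff, mem_Ioi, mem_Ici]
      constructor
      · exact fun h => h.2
      · exact fun h => ⟨lt_of_lt_of_le hs h, h⟩
    rw [h1, integral_Ici_eq_integral_Ioi, integral_const_mul]
    have h2 := integral_exp_mul_Ioi hP' s
    have h3 : ∀ t : ℝ, exp (-(P * t)) = exp (-P * t) := fun t => by congr 1; ring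
    simp only [h3]
    rw [h2]
    field_simp
  have hint : Integrable (uncurry J) (μ.prod μ) := by
    rw [integrable_prod_iff' hJm]
    constructor
    · rw [hμ, ae_restrict_iff' measurableSet_Ioi]
      refine Eventually.of_forall fun s hs => ?_
      simp only [hJ, uncurry_apply_pair]
      exact ((hai s hs).ofReal).mul_const _
    · have hg : Integrable (fun s : ℝ => exp (-(P * |s|)) * ‖v s‖) :=
        (memLp_exp_abs hP).integrable_mul h.memLp_deriv.norm
      have hg2 : IntegrableOn (fun s : ℝ => exp (-(P * |s|)) * ‖v s‖) (Ioi 0) := hg.integrableOn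
      refine IntegrableOn.congr_fun hg2 ?_ measurableSet_Ioi
      intro s hs
      have hs' : (0 : ℝ) < s := hs
      simp only [hJ, uncurry_apply_pair, norm_mul, Complex.norm_real, Real.norm_eq_abs]
      rw [integral_mul_const, abs_of_pos hs']
      congr 1
      have : ∀ t, |a t s| = a t s := fun t => abs_of_nonneg (hnonneg t s)
      simp only [this]
      rw [← hμ] at hainteg
      exact (hainteg s hs').symm
  have hswap := integral_integral_swap (f := J) hint
  have hin1 : ∀ t ∈ Ioi (0 : ℝ), ∫ s, J t s ∂μ = ((P * exp (-(P * t)) : ℝ) : ℂ) * (φ t - φ 0) := by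
    intro t ht
    have ht' : (0 : ℝ) < t := ht
    have hform : ∀ s, J t s = (Iic t).indicator (fun s => ((P * exp (-(P * t)) : ℝ) : ℂ) * v s) s := by
      intro s
      simp only [hJ, ha, indicator_apply, mem_Iic]
      split_ifs <;> simp
    simp only [hform]
    rw [hμ, setIntegral_indicator measurableSet_Iic, Ioi_inter_Iic, integral_const_mul]
    congr 1
    rw [← intervalIntegral.integral_of_le ht'.le, h.primitive]
  have hin2 : ∀ s ∈ Ioi (0 : ℝ), ∫ t, J t s ∂μ = ((exp (-(P * s)) : ℝ) : ℂ) * v s := by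
    intro s hs
    simp only [hJ]
    rw [integral_mul_const, integral_complex_ofReal, hμ, hainteg s hs]
  rw [hμ] at hswap
  rw [setIntegral_congr_fun measurableSet_Ioi hin1, setIntegral_congr_fun measurableSet_Ioi hin2] at hswap
  exact hswap

lemma integrableOn_exp_mul {u : ℝ → ℂ} (hu : MemLp u 2) {P : ℝ} (hP : 0 < P) :
    IntegrableOn (fun s => ((exp (-(P * s)) : ℝ) : ℂ) * u s) (Ioi 0) := by
  have h1 : MemLp (fun t : ℝ => ((exp (-(P * |t|)) : ℝ) : ℂ)) 2 := (memLp_exp_abs hP).ofReal
  have h2 : Integrable (fun t : ℝ => ((exp (-(P * |t|)) : ℝ) : ℂ) * u t) := h1.integrable_mul hu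
  have h3 : IntegrableOn (fun t : ℝ => ((exp (-(P * |t|)) : ℝ) : ℂ) * u t) (Ioi 0) := h2.integrableOn
  refine IntegrableOn.congr_fun h3 ?_ measurableSet_Ioi
  intro s hs
  have hs' : (0 : ℝ) < s := hs
  simp only
  rw [abs_of_pos hs']

lemma integral_split {g : ℝ → ℂ} (hg : Integrable g) :
    ∫ t, g t = (∫ s in Ioi (0 : ℝ), g s) + ∫ s in Ioi (0 : ℝ), g (-s) := by
  have h1 := integral_add_compl (measurableSet_Ioi (a := (0 : ℝ))) hg
  rw [compl_Ioi] at h1
  have h2 := integral_comp_neg_Ioi (0 : ℝ) g
  rw [neg_zero] at h2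
  rw [h2, h1]

lemma skern_pos {P s : ℝ} (hs : 0 < s) : skern P s = (1 / 2) * exp (-(P * s)) := by
  unfold skern
  rw [Real.sign_of_pos hs, abs_of_pos hs]
  ring

lemma skern_neg {P s : ℝ} (hs : 0 < s) : skern P (-s) = -((1 / 2) * exp (-(P * s))) := by
  unfold skern
  rw [Real.sign_of_neg (by linarith), abs_neg, abs_of_pos hs]
  ring

lemma fk_pos {P s : ℝ} (hs : 0 < s) : fk P s = (P / 2) * exp (-(P * s)) := by
  unfold fk
  rw [abs_of_pos hs]

lemma fk_neg {P s : ℝ} (hs : 0 < s) : fk P (-s) = (P / 2) * exp (-(P * s)) := by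
  unfold fk
  rw [abs_neg, abs_of_pos hs]

/-- The representation formula: `∫ s_P(t) φ'(x - t) dt = φ(x) - ∫ f_P(t) φ(x - t) dt`. -/
theorem repr_skern {φ v : ℝ → ℂ} (h : IsH1 φ v) {P : ℝ} (hP : 0 < P) (x : ℝ) :
    ∫ t, (skern P t : ℂ) * v (x - t) = φ x - ∫ t, (fk P t : ℂ) * φ (x - t) := by
  have h1 := h.shift x
  have h2 := h.reflect x
  have hA := integrable_real_mul_shift (memLp_skern hP) h.memLp_deriv x
  have hB := integrable_real_mul_shift (memLp_fk hP) h.memLp x
  rw [integral_split hA, integral_split hB]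
  -- abbreviations
  set E1 := ∫ s in Ioi (0 : ℝ), ((exp (-(P * s)) : ℝ) : ℂ) * v (x + s) with hE1
  set E2 := ∫ s in Ioi (0 : ℝ), ((exp (-(P * s)) : ℝ) : ℂ) * v (x - s) with hE2
  set F1 := ∫ s in Ioi (0 : ℝ), ((exp (-(P * s)) : ℝ) : ℂ) * φ (x + s) with hF1
  set F2 := ∫ s in Ioi (0 : ℝ), ((exp (-(P * s)) : ℝ) : ℂ) * φ (x - s) with hF2
  have hiF1 := integrableOn_exp_mul h1.memLp hP
  have hiF2 := integrableOn_exp_mul h2.memLp hP
  have hq : ∫ s in Ioi (0 : ℝ), ((P * exp (-(P * s)) : ℝ) : ℂ) = 1 := by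
    rw [integral_complex_ofReal, integral_const_mul, integral_exp_Ioi hP]
    have hPc : (P : ℂ) ≠ 0 := Complex.ofReal_ne_zero.mpr hP.ne'
    push_cast
    field_simp
  have hiq : IntegrableOn (fun s : ℝ => ((P * exp (-(P * s)) : ℝ) : ℂ)) (Ioi 0) := by
    have h0 : -P < 0 := by linarith
    have : IntegrableOn (fun s : ℝ => ((P * exp (-P * s) : ℝ) : ℂ)) (Ioi 0) :=
      ((integrableOn_exp_mul_Ioi h0 0).const_mul P).ofReal
    refine IntegrableOn.congr_fun this ?_ measurableSet_Ioi
    intro t _
    simp only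
    congr 3
    ring
  -- the two half-line identities
  have hL : ∀ (u : ℝ → ℂ), MemLp u 2 → ∀ c : ℂ,
      ∫ s in Ioi (0 : ℝ), ((P * exp (-(P * s)) : ℝ) : ℂ) * (u s - c) =
        (P : ℂ) * (∫ s in Ioi (0 : ℝ), ((exp (-(P * s)) : ℝ) : ℂ) * u s) - c := by
    intro u hu c
    have hsplit : ∀ s, ((P * exp (-(P * s)) : ℝ) : ℂ) * (u s - c) =
        (P : ℂ) * (((exp (-(P * s)) : ℝ) : ℂ) * u s) - ((P * exp (-(P * s)) : ℝ) : ℂ) * c := by
      intro s
      push_cast
      ring
    simp only [hsplit]
    rw [integral_sub ((integrableOn_exp_mul hu hP).const_mul _) (hiq.mul_const _),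
      integral_const_mul, integral_mul_const, hq, one_mul]
  have h3 := halfline h1 hP
  have h4 := halfline h2 hP
  simp only [add_zero, sub_zero] at h3 h4
  rw [hL _ h1.memLp] at h3
  rw [hL _ h2.memLp] at h4
  have h5 : ∫ t in Ioi (0 : ℝ), ((exp (-(P * t)) : ℝ) : ℂ) * -v (x - t) = -E2 := by
    rw [hE2, ← integral_neg]
    congr 1
    funext t
    ring
  rw [h5, ← hF2] at h4
  rw [← hF1, ← hE1] at h3
  -- the four pieces
  have p1 : ∫ s in Ioi (0 : ℝ), (skern P s : ℂ) * v (x - s) = (1 / 2 : ℂ) * E2 := by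
    rw [hE2, ← integral_const_mul]
    apply setIntegral_congr_fun measurableSet_Ioi
    intro s hs
    simp only
    rw [skern_pos hs]
    push_cast
    ring
  have p2 : ∫ s in Ioi (0 : ℝ), (skern P (-s) : ℂ) * v (x - -s) = -((1 / 2 : ℂ) * E1) := by
    rw [hE1, ← integral_const_mul, ← integral_neg]
    apply setIntegral_congr_fun measurableSet_Ioi
    intro s hs
    simp only
    rw [skern_neg hs, sub_neg_eq_add]
    push_cast
    ring
  have p3 : ∫ s in Ioi (0 : ℝ), (fk P s : ℂ) * φ (x - s) = ((P / 2 : ℝ) : ℂ) * F2 := by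
    rw [hF2, ← integral_const_mul]
    apply setIntegral_congr_fun measurableSet_Ioi
    intro s hs
    simp only
    rw [fk_pos hs]
    push_cast
    ring
  have p4 : ∫ s in Ioi (0 : ℝ), (fk P (-s) : ℂ) * φ (x - -s) = ((P / 2 : ℝ) : ℂ) * F1 := by
    rw [hF1, ← integral_const_mul]
    apply setIntegral_congr_fun measurableSet_Ioi
    intro s hs
    simp only
    rw [fk_neg hs, sub_neg_eq_add]
    push_cast
    ring
  rw [p1, p2, p3, p4]
  push_cast
  linear_combination (1 / 2 : ℂ) * h3 + (1 / 2 : ℂ) * h4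

end Vale.Agent.Lib.P371
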