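import Mathlib

/-!
Heat kernel on the line and its spatial derivative: basic integrals.
-/

open Real MeasureTheory Set Filter Topology

namespace Vale.Agent.Lib.P371

/-- The heat kernel `(4 π r)^(-1/2) exp (-z^2/(4 r))`. -/
noncomputable def gauss (r z : ℝ) : ℝ := (√(4 * π * r))⁻¹ * exp (-(z ^ 2) / (4 * r))

/-- Minus the spatial derivative of the heat kernel. -/
noncomputable def kern (r z : ℝ) : ℝ := z / (2 * r) * gauss r z

lemma gauss_pos {r : ℝ} (hr : 0 < r) (z : ℝ) : 0 < gauss r z := by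
  unfold gauss
  have : 0 < 4 * π * r := by positivity
  positivity

lemma gauss_neg (r z : ℝ) : gauss r (-z) = gauss r z := by
  unfold gauss; simp

lemma kern_neg (r z : ℝ) : kern r (-z) = - kern r z := by
  unfold kern; rw [gauss_neg]; ring

lemma measurable_gauss_uncurry : Measurable (fun p : ℝ × ℝ => gauss p.1 p.2) := by
  unfold gauss
  fun_prop

lemma measurable_kern_uncurry : Measurable (fun p : ℝ × ℝ => kern p.1 p.2) := by
  unfold kern
  have := measurable_gauss_uncurry
  fun_prop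

lemma measurable_gauss (r : ℝ) : Measurable (gauss r) :=
  measurable_gauss_uncurry.comp (measurable_const.prodMk measurable_id)

lemma measurable_kern (r : ℝ) : Measurable (kern r) :=
  measurable_kern_uncurry.comp (measurable_const.prodMk measurable_id)

lemma exp_form (r z : ℝ) : exp (-(z ^ 2) / (4 * r)) = exp (-(1 / (4 * r)) * z ^ 2) := by
  congr 1; ring

lemma integrable_gauss {r : ℝ} (hr : 0 < r) : Integrable (gauss r) := by
  unfold gauss
  have h : Integrable (fun z : ℝ => exp (-(1 / (4 * r)) * z ^ 2)) :=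
    integrable_exp_neg_mul_sq (by positivity)
  simp only [exp_form]
  exact h.const_mul _

lemma integral_gauss {r : ℝ} (hr : 0 < r) : ∫ z, gauss r z = 1 := by
  unfold gauss
  simp only [exp_form]
  rw [integral_const_mul, integral_gaussian]
  have h : π / (1 / (4 * r)) = 4 * π * r := by field_simp
  rw [h]
  have : 0 < √(4 * π * r) := by positivity
  field_simp

/-- second moment of the Gaussian -/
lemma integrable_sq_mul_exp {b : ℝ} (hb : 0 < b) :
    Integrable (fun s : ℝ => s ^ 2 * exp (-b * s ^ 2)) := by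
  have := integrable_rpow_mul_exp_neg_mul_sq hb (s := 2) (by norm_num)
  simpa using this

lemma integral_sq_mul_exp {b : ℝ} (hb : 0 < b) :
    ∫ s : ℝ, s ^ 2 * exp (-b * s ^ 2) = √(π / b) / (2 * b) := by
  have hd : ∀ s : ℝ, HasDerivAt (fun s : ℝ => s * exp (-b * s ^ 2))
      (exp (-b * s ^ 2) - 2 * b * (s ^ 2 * exp (-b * s ^ 2))) s := by
    intro s
    have h1 : HasDerivAt (fun s : ℝ => -b * s ^ 2) (-b * (2 * s)) s := by
      have := (hasDerivAt_pow 2 s).const_mul (-b)
      simpa using this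
    have h2 := (hasDerivAt_id s).mul h1.exp
    refine h2.congr_deriv ?_
    simp only [id]
    ring
  have hi1 : Integrable (fun s : ℝ => exp (-b * s ^ 2)) := integrable_exp_neg_mul_sq hb
  have hi2 := integrable_sq_mul_exp hb
  have hf : Integrable (fun s : ℝ => s * exp (-b * s ^ 2)) := integrable_mul_exp_neg_mul_sq hb
  have h0 := integral_eq_zero_of_hasDerivAt_of_integrable hd
    (hi1.sub (hi2.const_mul (2 * b))) hf
  rw [integral_sub hi1 (hi2.const_mul (2 * b)), integral_const_mul, integral_gaussian] at h0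
  rw [eq_div_iff (by positivity)]
  linarith

/-- product of two shifted Gaussians -/
lemma gauss_mul_gauss {r : ℝ} (hr : 0 < r) (t u : ℝ) :
    gauss r t * gauss r (t + u) =
      (4 * π * r)⁻¹ * exp (-(u ^ 2) / (8 * r)) * exp (-(1 / (2 * r)) * (t + u / 2) ^ 2) := by
  unfold gauss
  have h : 0 < 4 * π * r := by positivity
  have hs : (√(4 * π * r))⁻¹ * (√(4 * π * r))⁻¹ = (4 * π * r)⁻¹ := by
    rw [← mul_inv, Real.mul_self_sqrt h.le]
  calc _ = ((√(4 * π * r))⁻¹ * (√(4 * π * r))⁻¹) *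
        (exp (-(t ^ 2) / (4 * r)) * exp (-((t + u) ^ 2) / (4 * r))) := by ring
    _ = _ := by
        have he : exp (-(t ^ 2) / (4 * r)) * exp (-((t + u) ^ 2) / (4 * r)) =
            exp (-(u ^ 2) / (8 * r)) * exp (-(1 / (2 * r)) * (t + u / 2) ^ 2) := by
          rw [← Real.exp_add, ← Real.exp_add]
          congr 1
          field_simp
          ring
        rw [hs, he]
        ring

lemma gauss_two_mul {r : ℝ} (hr : 0 < r) (u : ℝ) :
    gauss (2 * r) u = (4 * π * r)⁻¹ * exp (-(u ^ 2) / (8 * r)) * √(π / (1 / (2 * r))) := by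
  unfold gauss
  have h1 : π / (1 / (2 * r)) = 2 * π * r := by field_simp
  have h2 : 4 * π * (2 * r) = 8 * π * r := by ring
  have h3 : 4 * (2 * r) = 8 * r := by ring
  rw [h1, h2, h3]
  have hA : 0 < √(8 * π * r) := by positivity
  have hB : 0 < √(2 * π * r) := by positivity
  have hAB : √(8 * π * r) * √(2 * π * r) = 4 * π * r := by
    rw [← Real.sqrt_mul (by positivity)]
    have : 8 * π * r * (2 * π * r) = (4 * π * r) ^ 2 := by ring
    rw [this, Real.sqrt_sq (by positivity)]
  rw [← hAB]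
  field_simp

lemma autocorr_gauss {r : ℝ} (hr : 0 < r) (u : ℝ) :
    ∫ t, gauss r t * gauss r (t + u) = gauss (2 * r) u := by
  simp only [gauss_mul_gauss hr]
  rw [integral_const_mul]
  have : ∫ t : ℝ, exp (-(1 / (2 * r)) * (t + u / 2) ^ 2)
      = ∫ t : ℝ, exp (-(1 / (2 * r)) * t ^ 2) :=
    integral_add_right_eq_self (fun t : ℝ => exp (-(1 / (2 * r)) * t ^ 2)) (u / 2)
  rw [this, integral_gaussian, gauss_two_mul hr]

/-- The autocorrelation of `kern r`. -/
noncomputable def autoK (r u : ℝ) : ℝ := (1 / (4 * r) - u ^ 2 / (16 * r ^ 2)) * gauss (2 * r) u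

lemma autocorr_kern {r : ℝ} (hr : 0 < r) (u : ℝ) :
    ∫ t, kern r t * kern r (t + u) = autoK r u := by
  have hb : 0 < 1 / (2 * r) := by positivity
  have key : ∀ t : ℝ, kern r t * kern r (t + u) =
      (1 / (4 * r ^ 2) * ((4 * π * r)⁻¹ * exp (-(u ^ 2) / (8 * r)))) *
        (((t + u / 2) ^ 2 * exp (-(1 / (2 * r)) * (t + u / 2) ^ 2)) -
          u ^ 2 / 4 * exp (-(1 / (2 * r)) * (t + u / 2) ^ 2)) := by
    intro t
    unfold kern
    have := gauss_mul_gauss hr t u
    calc _ = (t / (2 * r) * ((t + u) / (2 * r))) * (gauss r t * gauss r (t + u)) := by ring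
      _ = _ := by rw [this]; field_simp; ring
  simp only [key]
  rw [integral_const_mul, integral_sub]
  · have h1 : ∫ t : ℝ, (t + u / 2) ^ 2 * exp (-(1 / (2 * r)) * (t + u / 2) ^ 2)
        = ∫ t : ℝ, t ^ 2 * exp (-(1 / (2 * r)) * t ^ 2) :=
      integral_add_right_eq_self (fun t : ℝ => t ^ 2 * exp (-(1 / (2 * r)) * t ^ 2)) (u / 2)
    have h2 : ∫ t : ℝ, u ^ 2 / 4 * exp (-(1 / (2 * r)) * (t + u / 2) ^ 2)
        = u ^ 2 / 4 * √(π / (1 / (2 * r))) := by
      rw [integral_const_mul]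
      have : ∫ t : ℝ, exp (-(1 / (2 * r)) * (t + u / 2) ^ 2)
          = ∫ t : ℝ, exp (-(1 / (2 * r)) * t ^ 2) :=
        integral_add_right_eq_self (fun t : ℝ => exp (-(1 / (2 * r)) * t ^ 2)) (u / 2)
      rw [this, integral_gaussian]
    rw [h1, h2, integral_sq_mul_exp hb]
    unfold autoK
    rw [gauss_two_mul hr]
    field_simp
    ring
  · exact (integrable_sq_mul_exp hb).comp_add_right (u / 2)
  · exact ((integrable_exp_neg_mul_sq hb).comp_add_right (u / 2)).const_mul _

lemma hasDerivAt_gauss_two_mul {r : ℝ} (hr : 0 < r) (u : ℝ) :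
    HasDerivAt (fun s : ℝ => gauss (2 * s) u) (-(2 * autoK r u)) r := by
  have hform : ∀ s : ℝ, 0 < s → gauss (2 * s) u =
      (√(8 * π))⁻¹ * (s ^ (-(1 / 2) : ℝ) * exp (-(u ^ 2) / (8 * s))) := by
    intro s hs
    unfold gauss
    have h2 : 4 * π * (2 * s) = (8 * π) * s := by ring
    have h3 : 4 * (2 * s) = 8 * s := by ring
    rw [h2, h3, Real.sqrt_mul (by positivity), Real.sqrt_eq_rpow s, Real.rpow_neg hs.le]
    rw [mul_inv]
    ring
  have hd1 : HasDerivAt (fun s : ℝ => s ^ (-(1 / 2) : ℝ)) ((-(1 / 2) : ℝ) * r ^ ((-(1 / 2) : ℝ) - 1)) r :=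
    Real.hasDerivAt_rpow_const (Or.inl hr.ne')
  have hd2 : HasDerivAt (fun s : ℝ => -(u ^ 2) / (8 * s)) (u ^ 2 / (8 * r ^ 2)) r := by
    have h8 : HasDerivAt (fun s : ℝ => 8 * s) 8 r := by simpa using (hasDerivAt_id r).const_mul 8
    have := (hasDerivAt_const r (-(u ^ 2))).div h8 (by positivity)
    refine this.congr_deriv ?_
    field_simp
    ring
  have hd := ((hd1.mul hd2.exp).const_mul (√(8 * π))⁻¹)
  have hev : (fun s : ℝ => gauss (2 * s) u) =ᶠ[𝓝 r]
      (fun s : ℝ => (√(8 * π))⁻¹ * (s ^ (-(1 / 2) : ℝ) * exp (-(u ^ 2) / (8 * s)))) := by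
    filter_upwards [lt_mem_nhds hr] with s hs using hform s hs
  refine (hd.congr_of_eventuallyEq hev).congr_deriv ?_
  unfold autoK
  rw [hform r hr]
  have h1 : r ^ ((-(1 / 2) : ℝ) - 1) = r ^ (-(1 / 2) : ℝ) / r := by
    rw [Real.rpow_sub_one hr.ne']
  rw [h1]
  field_simp
  ring

end Vale.Agent.Lib.P371
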