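import Vale.Agent.Lib.P371.Potential

/-!
The twisting step: the double integral of `½ exp (-z' |x-y|)` is an average of twisted double
integrals of `½ exp (-z |x-y|)` when `z ≤ z'`.
-/

open Real MeasureTheory Set Filter Topology Function Matrix FourierTransform
open scoped ComplexOrder

namespace Vale.Agent.Lib.P371

/-- The Cauchy density. -/
noncomputable def rhoF (a ξ : ℝ) : ℝ := 2 * a / (a ^ 2 + 4 * π ^ 2 * ξ ^ 2)

/-- The character. -/
noncomputable def ee (ξ x : ℝ) : ℂ := Complex.exp (((2 * π * ξ * x : ℝ) : ℂ) * Complex.I)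

lemma norm_ee (ξ x : ℝ) : ‖ee ξ x‖ = 1 := Complex.norm_exp_ofReal_mul_I _

lemma star_ee_mul (ξ x y : ℝ) : star (ee ξ y) * ee ξ x = ee ξ (x - y) := by
  unfold ee
  rw [Complex.star_def, ← Complex.exp_conj, ← Complex.exp_add]
  congr 1
  simp only [map_mul, Complex.conj_ofReal, Complex.conj_I]
  push_cast
  ring

lemma star_ee_self (ξ x : ℝ) : star (ee ξ x) * ee ξ x = 1 := by
  rw [star_ee_mul]
  simp [ee]

lemma ee_zero (ξ : ℝ) : ee ξ 0 = 1 := by
  simp [ee]

lemma continuous_ee_uncurry : Continuous (fun q : ℝ × ℝ => ee q.1 q.2) := by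
  unfold ee
  fun_prop

lemma rhoF_pos {a : ℝ} (ha : 0 < a) (ξ : ℝ) : 0 < rhoF a ξ := by
  unfold rhoF
  have : 0 < π := Real.pi_pos
  positivity

lemma measurable_rhoF (a : ℝ) : Measurable (rhoF a) := by
  unfold rhoF
  fun_prop

lemma integrable_rhoF {a : ℝ} (ha : 0 < a) : Integrable (rhoF a) := by
  set c := min (a ^ 2) 1 with hc
  have hc0 : 0 < c := lt_min (by positivity) (by norm_num)
  have h1 := integrable_inv_one_add_sq.const_mul (2 * a / c)
  refine Integrable.mono' h1 (measurable_rhoF a).aestronglyMeasurable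
    (Eventually.of_forall fun ξ => ?_)
  rw [Real.norm_of_nonneg (rhoF_pos ha ξ).le]
  unfold rhoF
  have hpi : (1 : ℝ) ≤ 4 * π ^ 2 := by
    have := Real.pi_gt_three
    nlinarith
  have h2 : c * (1 + ξ ^ 2) ≤ a ^ 2 + 4 * π ^ 2 * ξ ^ 2 := by
    have h3 : c ≤ a ^ 2 := min_le_left _ _
    have h4 : c ≤ 1 := min_le_right _ _
    have h5 : 0 ≤ ξ ^ 2 := sq_nonneg ξ
    nlinarith
  have h3 : 2 * a / c * (1 + ξ ^ 2)⁻¹ = 2 * a / (c * (1 + ξ ^ 2)) := by
    field_simp
  rw [h3]
  exact div_le_div_of_nonneg_left (by positivity) (by positivity) h2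

/-- The two-sided exponential. -/
noncomputable def expC (a t : ℝ) : ℂ := ((exp (-(a * |t|)) : ℝ) : ℂ)

lemma continuous_expC (a : ℝ) : Continuous (expC a) := by
  unfold expC
  fun_prop

lemma integrable_expC {a : ℝ} (ha : 0 < a) : Integrable (expC a) :=
  (integrable_exp_abs ha).ofReal

lemma fourier_expC {a : ℝ} (ha : 0 < a) (ξ : ℝ) : 𝓕 (expC a) ξ = (rhoF a ξ : ℂ) := by
  rw [Real.fourier_real_eq_integral_exp_smul]
  set g : ℝ → ℂ := fun v => Complex.exp (((-2 * π * v * ξ : ℝ) : ℂ) * Complex.I) • expC a v with hg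
  have hgi : Integrable g := by
    refine (integrable_expC ha).norm.mono' ?_ (Eventually.of_forall fun v => ?_)
    · have : Continuous g := by
        simp only [hg, smul_eq_mul]
        exact Continuous.mul (by fun_prop) (continuous_expC a)
      exact this.aestronglyMeasurable
    · simp only [hg, smul_eq_mul, norm_mul, Complex.norm_exp_ofReal_mul_I, one_mul, le_refl]
  rw [integral_split hgi]
  have hw : ((a : ℂ) + 2 * π * ξ * Complex.I) ≠ 0 := by
    intro h
    have := congrArg Complex.re h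
    simp at this
    linarith
  have hw' : ((a : ℂ) - 2 * π * ξ * Complex.I) ≠ 0 := by
    intro h
    have := congrArg Complex.re h
    simp at this
    linarith
  have i1 : ∫ s in Ioi (0 : ℝ), g s = 1 / ((a : ℂ) + 2 * π * ξ * Complex.I) := by
    have h1 : ∀ s ∈ Ioi (0 : ℝ), g s = Complex.exp ((-((a : ℂ) + 2 * π * ξ * Complex.I)) * s) := by
      intro s hs
      have hs' : (0 : ℝ) < s := hs
      simp only [hg, smul_eq_mul, expC]
      rw [abs_of_pos hs']
      simp only [Complex.ofReal_exp]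
      rw [← Complex.exp_add]
      congr 1
      push_cast
      ring
    rw [setIntegral_congr_fun measurableSet_Ioi h1]
    rw [integral_exp_mul_complex_Ioi (by simp; linarith) 0]
    simp only [Complex.ofReal_zero, mul_zero, Complex.exp_zero]
    field_simp
  have i2 : ∫ s in Ioi (0 : ℝ), g (-s) = 1 / ((a : ℂ) - 2 * π * ξ * Complex.I) := by
    have h1 : ∀ s ∈ Ioi (0 : ℝ), g (-s) = Complex.exp ((-((a : ℂ) - 2 * π * ξ * Complex.I)) * s) := by
      intro s hs
      have hs' : (0 : ℝ) < s := hs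
      simp only [hg, smul_eq_mul, expC]
      rw [abs_neg, abs_of_pos hs']
      simp only [Complex.ofReal_exp]
      rw [← Complex.exp_add]
      congr 1
      push_cast
      ring
    rw [setIntegral_congr_fun measurableSet_Ioi h1]
    rw [integral_exp_mul_complex_Ioi (by simp; linarith) 0]
    simp only [Complex.ofReal_zero, mul_zero, Complex.exp_zero]
    field_simp
  rw [i1, i2]
  unfold rhoF
  have hAB : ((a : ℂ) + 2 * π * ξ * Complex.I) * ((a : ℂ) - 2 * π * ξ * Complex.I) =
      ((a : ℂ) ^ 2 + 4 * π ^ 2 * ξ ^ 2) := by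
    ring_nf
    simp only [Complex.I_sq]
    ring
  rw [div_add_div _ _ hw hw', hAB]
  push_cast
  congr 1
  ring

lemma integrable_fourier_expC {a : ℝ} (ha : 0 < a) : Integrable (𝓕 (expC a)) := by
  have : 𝓕 (expC a) = fun ξ => (rhoF a ξ : ℂ) := by
    funext ξ
    exact fourier_expC ha ξ
  rw [this]
  exact (integrable_rhoF ha).ofReal

/-- The Fourier inversion formula for the two sided exponential. -/
theorem four_inv {a : ℝ} (ha : 0 < a) (t : ℝ) :
    ∫ ξ, (rhoF a ξ : ℂ) * ee ξ t = ((exp (-(a * |t|)) : ℝ) : ℂ) := by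
  have h := (continuous_expC a).fourierInv_fourier_eq (integrable_expC ha)
    (integrable_fourier_expC ha)
  have h2 := congrFun h t
  rw [Real.fourierInv_eq'] at h2
  simp only [fourier_expC ha] at h2
  unfold expC at h2
  rw [← h2]
  refine integral_congr_ae (Eventually.of_forall fun ξ => ?_)
  simp only [smul_eq_mul, ee]
  have : inner ℝ ξ t = ξ * t := by
    simp [mul_comm]
  rw [this, mul_comm]
  congr 3
  ring

lemma integral_rhoF {a : ℝ} (ha : 0 < a) : ∫ ξ, rhoF a ξ = 1 := by
  have h := four_inv ha 0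
  simp only [ee_zero, mul_one, abs_zero, mul_zero, neg_zero, exp_zero, Complex.ofReal_one] at h
  rw [integral_complex_ofReal] at h
  exact_mod_cast h

/-! ### Double integrals -/

/-- The double integral with the kernel `½ exp (-z |x-y|)`. -/
noncomputable def dk (z : ℝ) (u : ℝ → ℂ) : ℂ :=
  ∫ p : ℝ × ℝ, ((((1 / 2) * exp (-(z * |p.1 - p.2|)) : ℝ)) : ℂ) * (star (u p.2) * u p.1)

/-- The twist of a scalar function. -/
noncomputable def tw (ξ : ℝ) (u : ℝ → ℂ) (x : ℝ) : ℂ := ee ξ x * u x

lemma dk_tw (z ξ : ℝ) (u : ℝ → ℂ) : dk z (tw ξ u) =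
    ∫ p : ℝ × ℝ, ((((1 / 2) * exp (-(z * |p.1 - p.2|)) : ℝ)) : ℂ) *
      (ee ξ (p.1 - p.2) * (star (u p.2) * u p.1)) := by
  unfold dk tw
  refine integral_congr_ae (Eventually.of_forall fun p => ?_)
  simp only
  rw [star_mul', ← star_ee_mul]
  ring

/-- The averaging formula. -/
theorem dk_average {z a : ℝ} (ha : 0 < a) (hz0 : 0 ≤ z) {u : ℝ → ℂ} (hum : Measurable u) (hu : Integrable u) :
    Integrable (fun ξ => (rhoF a ξ : ℂ) * dk z (tw ξ u)) ∧
      ∫ ξ, (rhoF a ξ : ℂ) * dk z (tw ξ u) = dk (z + a) u := by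
  set K : ℝ × ℝ → ℂ := fun p => (((1 / 2) * exp (-(z * |p.1 - p.2|)) : ℝ) : ℂ) with hK
  set F : ℝ → ℝ × ℝ → ℂ := fun ξ p => (rhoF a ξ : ℂ) * (K p * (ee ξ (p.1 - p.2) *
    (star (u p.2) * u p.1))) with hF
  have hFm : Measurable (uncurry F) := by
    simp only [hF, hK, uncurry_def]
    have h1 : Measurable (fun q : ℝ × (ℝ × ℝ) => ee q.1 (q.2.1 - q.2.2)) :=
      continuous_ee_uncurry.measurable.comp (measurable_fst.prodMk
        ((measurable_fst.comp measurable_snd).sub (measurable_snd.comp measurable_snd)))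
    have h2 : Measurable (fun q : ℝ × (ℝ × ℝ) => (rhoF a q.1 : ℂ)) :=
      Complex.measurable_ofReal.comp ((measurable_rhoF a).comp measurable_fst)
    have h3 : Measurable (fun q : ℝ × (ℝ × ℝ) => star (u q.2.2)) :=
      continuous_star.measurable.comp (hum.comp (measurable_snd.comp measurable_snd))
    have h4 : Measurable (fun q : ℝ × (ℝ × ℝ) => u q.2.1) :=
      hum.comp (measurable_fst.comp measurable_snd)
    have h5 : Measurable (fun q : ℝ × (ℝ × ℝ) =>
        (((1 / 2) * exp (-(z * |q.2.1 - q.2.2|)) : ℝ) : ℂ)) := by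
      apply Complex.measurable_ofReal.comp
      fun_prop
    exact h2.mul (h5.mul (h1.mul (h3.mul h4)))
  have hG : Integrable (fun p : ℝ × ℝ => ‖u p.1‖ * ‖u p.2‖) (volume.prod volume) :=
    hu.norm.mul_prod hu.norm
  have hH : Integrable (fun q : ℝ × (ℝ × ℝ) => rhoF a q.1 * (‖u q.2.1‖ * ‖u q.2.2‖))
      (volume.prod (volume.prod volume)) := (integrable_rhoF ha).mul_prod hG
  have hint : Integrable (uncurry F) (volume.prod (volume.prod volume)) := by
    refine Integrable.mono' hH hFm.aestronglyMeasurable (Eventually.of_forall fun q => ?_)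
    rcases q with ⟨ξ, x, y⟩
    simp only [hF, hK, uncurry_apply_pair, norm_mul, Complex.norm_real, Real.norm_eq_abs, norm_ee,
      norm_star, one_mul]
    rw [abs_of_pos (rhoF_pos ha ξ)]
    apply mul_le_mul_of_nonneg_left _ (rhoF_pos ha ξ).le
    have h6 : |(1 / 2 : ℝ)| * |exp (-(z * |x - y|))| ≤ 1 := by
      rw [abs_of_pos (by positivity : (0 : ℝ) < 1 / 2), abs_of_pos (exp_pos _)]
      have h7 : exp (-(z * |x - y|)) ≤ 1 := by
        rw [Real.exp_le_one_iff]
        have : 0 ≤ z * |x - y| := mul_nonneg hz0 (abs_nonneg _)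
        linarith
      linarith
    have h8 : 0 ≤ ‖u y‖ * ‖u x‖ := by positivity
    calc |(1 / 2 : ℝ)| * |exp (-(z * |x - y|))| * (‖u y‖ * ‖u x‖) ≤ 1 * (‖u y‖ * ‖u x‖) :=
          mul_le_mul_of_nonneg_right h6 h8
      _ = ‖u x‖ * ‖u y‖ := by ring
  have hin1 : ∀ ξ, ∫ p, F ξ p ∂(volume.prod volume) = (rhoF a ξ : ℂ) * dk z (tw ξ u) := by
    intro ξ
    simp only [hF]
    rw [integral_const_mul, dk_tw]
    rfl
  have hin2 : ∀ p : ℝ × ℝ, ∫ ξ, F ξ p = ((((1 / 2) * exp (-((z + a) * |p.1 - p.2|)) : ℝ)) : ℂ) *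
      (star (u p.2) * u p.1) := by
    intro p
    simp only [hF]
    have h1 : ∀ ξ, (rhoF a ξ : ℂ) * (K p * (ee ξ (p.1 - p.2) * (star (u p.2) * u p.1))) =
        (K p * (star (u p.2) * u p.1)) * ((rhoF a ξ : ℂ) * ee ξ (p.1 - p.2)) := by
      intro ξ
      ring
    simp only [h1]
    rw [integral_const_mul, four_inv ha]
    simp only [hK]
    have h2 : exp (-((z + a) * |p.1 - p.2|)) = exp (-(z * |p.1 - p.2|)) * exp (-(a * |p.1 - p.2|)) := by
      rw [← Real.exp_add]
      congr 1
      ring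
    rw [h2]
    push_cast
    ring
  constructor
  · have := hint.integral_prod_left
    simp only [uncurry_def] at this
    refine this.congr (Eventually.of_forall fun ξ => ?_)
    exact hin1 ξ
  · have := integral_integral_swap (f := F) hint
    simp only [hin1, hin2] at this
    exact this

/-! ### Vector valued twists -/

variable {m : ℕ} {W : ℝ → Matrix (Fin m) (Fin m) ℂ} {p : ℝ}

/-- The twist of a vector function. -/
noncomputable def twist (ξ : ℝ) (f : ℝ → Fin m → ℂ) : ℝ → Fin m → ℂ := fun x c => ee ξ x * f x c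

lemma twist_eq (ξ : ℝ) (f : ℝ → Fin m → ℂ) (x : ℝ) : twist ξ f x = ee ξ x • f x := by
  funext c
  simp [twist]

lemma twist_mulVec (ξ : ℝ) (f : ℝ → Fin m → ℂ) (A : Matrix (Fin m) (Fin m) ℂ) (x : ℝ) (c : Fin m) :
    (A *ᵥ twist ξ f x) c = ee ξ x * (A *ᵥ f x) c := by
  rw [twist_eq, mulVec_smul]
  simp

lemma Tame.twist {f : ℝ → Fin m → ℂ} (h : Tame f) (ξ : ℝ) : Tame (Vale.Agent.Lib.P371.twist ξ f) where
  meas := fun c => by
    have h1 : Continuous (fun x => ee ξ x) :=
      continuous_ee_uncurry.comp (continuous_const.prodMk continuous_id)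
    exact h1.measurable.mul (h.meas c)
  memLp := fun c => by
    have h1 : Continuous (fun x => ee ξ x) :=
      continuous_ee_uncurry.comp (continuous_const.prodMk continuous_id)
    have hm : AEStronglyMeasurable (fun x => Vale.Agent.Lib.P371.twist ξ f x c) volume :=
      (h1.measurable.mul (h.meas c)).aestronglyMeasurable
    refine (h.memLp c).of_le hm (Eventually.of_forall fun x => ?_)
    simp only [Vale.Agent.Lib.P371.twist, norm_mul, norm_ee, one_mul, le_refl]
  bdd := by
    obtain ⟨C, hC⟩ := h.bdd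
    refine ⟨C, fun x c => ?_⟩
    simp only [Vale.Agent.Lib.P371.twist, norm_mul, norm_ee, one_mul]
    exact hC x c

lemma wf_twist (M : ℝ → Matrix (Fin m) (Fin m) ℂ) (ξ : ℝ) (g h : ℝ → Fin m → ℂ) :
    wf M (twist ξ g) (twist ξ h) = wf M g h := by
  unfold wf
  refine integral_congr_ae (Eventually.of_forall fun x => ?_)
  simp only
  rw [twist_eq, twist_eq, mulVec_smul, star_smul, smul_dotProduct, dotProduct_smul]
  simp only [smul_eq_mul]
  rw [← mul_assoc, star_ee_self, one_mul]

/-- The double integral of `W f`. -/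
noncomputable def Eh (z : ℝ) (W : ℝ → Matrix (Fin m) (Fin m) ℂ) (f : ℝ → Fin m → ℂ) : ℝ :=
  ∑ c, (dk z (fun x => (W x *ᵥ f x) c)).re

lemma Eh_twist (z ξ : ℝ) (f : ℝ → Fin m → ℂ) :
    Eh z W (twist ξ f) = ∑ c, (dk z (tw ξ (fun x => (W x *ᵥ f x) c))).re := by
  unfold Eh
  refine Finset.sum_congr rfl fun c _ => ?_
  congr 2
  funext x
  rw [twist_mulVec]
  rfl

lemma measurable_u (hW : GoodW W p) {f : ℝ → Fin m → ℂ} (hf : Tame f) (c : Fin m) :
    Measurable fun x => (W x *ᵥ f x) c := by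
  simp only [mulVec, dotProduct]
  exact Finset.measurable_fun_sum _ fun b _ => (hW.meas c b).mul (hf.meas b)

/-- One real averaging formula. -/
lemma Eh_average (hW : GoodW W p) {f : ℝ → Fin m → ℂ} (hf : Tame f) {z a : ℝ} (ha : 0 < a)
    (hz : 0 ≤ z) :
    Integrable (fun ξ => rhoF a ξ * Eh z W (twist ξ f)) ∧
      ∫ ξ, rhoF a ξ * Eh z W (twist ξ f) = Eh (z + a) W f := by
  have h := fun c => dk_average ha hz (measurable_u hW hf c) (hW.integrable_u hf c)
  simp only [Eh_twist, Finset.mul_sum]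
  have hre : ∀ c ξ, rhoF a ξ * (dk z (tw ξ (fun x => (W x *ᵥ f x) c))).re =
      ((rhoF a ξ : ℂ) * dk z (tw ξ (fun x => (W x *ᵥ f x) c))).re := by
    intro c ξ
    rw [Complex.re_ofReal_mul]
  simp only [hre]
  have hi : ∀ c, Integrable (fun ξ => ((rhoF a ξ : ℂ) * dk z (tw ξ (fun x => (W x *ᵥ f x) c))).re) :=
    fun c => (h c).1.re
  constructor
  · exact integrable_finsetSum _ fun c _ => hi c
  · rw [integral_finsetSum _ fun c _ => hi c]
    unfold Eh
    refine Finset.sum_congr rfl fun c _ => ?_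
    have := integral_re (𝕜 := ℂ) (h c).1
    simp only [RCLike.re_to_complex] at this
    rw [this, (h c).2]

/-- The twisting step. -/
theorem exists_twist (hW : GoodW W p) {ι : Type*} (s : Finset ι) {f : ι → ℝ → Fin m → ℂ}
    (hf : ∀ i ∈ s, Tame (f i)) {z a : ℝ} (ha : 0 < a) (hz : 0 ≤ z) :
    ∃ ξ, ∑ i ∈ s, Eh (z + a) W (f i) ≤ ∑ i ∈ s, Eh z W (twist ξ (f i)) := by
  by_contra hcon
  push Not at hcon
  set c := ∑ i ∈ s, Eh (z + a) W (f i) with hc
  set H : ℝ → ℝ := fun ξ => ∑ i ∈ s, Eh z W (twist ξ (f i)) with hH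
  have h1 : Integrable (fun ξ => rhoF a ξ * H ξ) := by
    simp only [hH, Finset.mul_sum]
    exact integrable_finsetSum _ fun i hi => (Eh_average hW (hf i hi) ha hz).1
  have h2 : ∫ ξ, rhoF a ξ * H ξ = c := by
    simp only [hH, Finset.mul_sum]
    rw [integral_finsetSum _ fun i hi => (Eh_average hW (hf i hi) ha hz).1]
    exact Finset.sum_congr rfl fun i hi => (Eh_average hW (hf i hi) ha hz).2
  set G : ℝ → ℝ := fun ξ => rhoF a ξ * c - rhoF a ξ * H ξ with hG
  have hGi : Integrable G := ((integrable_rhoF ha).mul_const c).sub h1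
  have hGpos : ∀ ξ, 0 < G ξ := by
    intro ξ
    have := hcon ξ
    simp only [hG]
    have h3 := rhoF_pos ha ξ
    nlinarith
  have hG0 : ∫ ξ, G ξ = 0 := by
    simp only [hG]
    rw [integral_sub ((integrable_rhoF ha).mul_const c) h1, integral_mul_const, integral_rhoF ha, h2]
    ring
  have hsupp : 0 < (volume : Measure ℝ) (Function.support G) := by
    have : Function.support G = univ := by
      ext ξ
      simp [(hGpos ξ).ne']
    rw [this]
    simp
  have := (integral_pos_iff_support_of_nonneg (fun ξ => (hGpos ξ).le) hGi).mpr hsupp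
  linarith

/-- The monotonicity in `z`. -/
theorem exists_twist' (hW : GoodW W p) {ι : Type*} (s : Finset ι) {f : ι → ℝ → Fin m → ℂ}
    (hf : ∀ i ∈ s, Tame (f i)) {z z' : ℝ} (hzz : z ≤ z') (hz : 0 ≤ z) :
    ∃ ξ, ∑ i ∈ s, Eh z' W (f i) ≤ ∑ i ∈ s, Eh z W (twist ξ (f i)) := by
  rcases hzz.eq_or_lt with h | h
  · refine ⟨0, le_of_eq ?_⟩
    subst h
    refine Finset.sum_congr rfl fun i _ => ?_
    unfold Eh
    refine Finset.sum_congr rfl fun c _ => ?_
    congr 2
    funext x
    rw [twist_mulVec]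
    simp [ee_zero, ee]
  · have := exists_twist hW s hf (a := z' - z) (by linarith) hz
    simpa using this

/-! ### Relation with the potential -/

lemma dk_eq_pot {u : ℝ → ℂ} (hum : Measurable u) (hu : Integrable u) {z : ℝ} (hz : 0 < z) :
    dk z u = (z : ℂ) * ∫ x, star (pot z u x) * u x := by
  set F : ℝ → ℝ → ℂ := fun x y => (gk z (x - y) : ℂ) * (star (u y) * u x) with hF
  have hFm : Measurable (uncurry F) := by
    simp only [hF, uncurry_def]
    have h1 : Measurable (fun q : ℝ × ℝ => (gk z (q.1 - q.2) : ℂ)) :=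
      Complex.measurable_ofReal.comp ((measurable_gk z).comp (measurable_fst.sub measurable_snd))
    have h3 : Measurable (fun q : ℝ × ℝ => star (u q.2)) :=
      continuous_star.measurable.comp (hum.comp measurable_snd)
    have h4 : Measurable (fun q : ℝ × ℝ => u q.1) := hum.comp measurable_fst
    exact h1.mul (h3.mul h4)
  have hG : Integrable (fun q : ℝ × ℝ => (1 / (2 * z)) * (‖u q.1‖ * ‖u q.2‖)) (volume.prod volume) :=
    (hu.norm.mul_prod hu.norm).const_mul _
  have hint : Integrable (uncurry F) (volume.prod volume) := by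
    refine Integrable.mono' hG hFm.aestronglyMeasurable (Eventually.of_forall fun q => ?_)
    rcases q with ⟨x, y⟩
    simp only [hF, uncurry_apply_pair, norm_mul, Complex.norm_real, Real.norm_eq_abs, norm_star]
    have h8 : 0 ≤ ‖u y‖ * ‖u x‖ := by positivity
    calc |gk z (x - y)| * (‖u y‖ * ‖u x‖) ≤ (1 / (2 * z)) * (‖u y‖ * ‖u x‖) :=
          mul_le_mul_of_nonneg_right (gk_bound hz _) h8
      _ = _ := by ring
  have hin : ∀ x, star (pot z u x) * u x = ∫ y, F x y := by
    intro x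
    simp only [hF, pot]
    rw [Complex.star_def, ← integral_conj, ← integral_mul_const]
    refine integral_congr_ae (Eventually.of_forall fun y => ?_)
    simp only [map_mul, Complex.conj_ofReal, Complex.star_def]
    ring
  simp only [hin]
  have e := integral_prod (f := uncurry F) hint
  simp only [uncurry_apply_pair] at e
  rw [← e, ← integral_const_mul]
  unfold dk
  refine integral_congr_ae (Eventually.of_forall fun q => ?_)
  rcases q with ⟨x, y⟩
  simp only [hF, uncurry_apply_pair]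
  have h1 : (1 / 2) * exp (-(z * |x - y|)) = z * gk z (x - y) := by
    unfold gk
    field_simp
  rw [h1]
  push_cast
  ring

/-- `E_z = z ⟨P, P⟩_z`. -/
theorem Eh_eq (hW : GoodW W p) {f : ℝ → Fin m → ℂ} (hf : Tame f) {z : ℝ} (hz : 0 < z) :
    Eh z W f = z * (hzf z (Pot z W f) (dPot z W f) (Pot z W f) (dPot z W f)).re := by
  have hP := Pot_H1c hW hf hz
  rw [weak_vec hW hP hf hz, wf_eq_sum_u hW hP hf]
  unfold Eh
  rw [Complex.re_sum, Finset.mul_sum]
  refine Finset.sum_congr rfl fun c _ => ?_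
  rw [dk_eq_pot (measurable_u hW hf c) (hW.integrable_u hf c) hz, Complex.re_ofReal_mul]
  rfl

end Vale.Agent.Lib.P371
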