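import Mathlib

/-!
The semiclassical constant.
-/

namespace Vale.Agent.Lib.P371

/-- The semiclassical constant `L^cl_γ = (1 / 2π) ∫_{-1}^{1} (1 - ξ²)^γ dξ`. -/
noncomputable def Lcl (γ : ℝ) : ℝ := (1 / (2 * Real.pi)) * ∫ ξ in (-1 : ℝ)..1, (1 - ξ ^ 2) ^ γ

end Vale.Agent.Lib.P371
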