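import Vale.Agent.Lib.P371.Gauss

/-!
The Laplace transform of the Levy density:
`∫_0^∞ exp (-P^2 r) kern r z dr = (1/2) sign z exp (-P |z|)`.
-/

open Real MeasureTheory Set Filter Topology

namespace Vale.Agent.Lib.P371

section
variable {P z : ℝ}

private noncomputable def yy (P z r : ℝ) : ℝ := z / (2 * √r) - P * √r
private noncomputable def yy' (P z r : ℝ) : ℝ := -(z / (4 * r * √r) + P / (2 * √r))
private noncomputable def EE (P z r : ℝ) : ℝ := exp (-(P ^ 2 * r) - z ^ 2 / (4 * r))
private noncomputable def AA (P z r : ℝ) : ℝ := EE P z r * (z / (4 * r * √r))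
private noncomputable def BB (P z r : ℝ) : ℝ := EE P z r * (P / (2 * √r))

private lemma hasDeriv_yy {r : ℝ} (hr : 0 < r) : HasDerivAt (yy P z) (yy' P z r) r := by
  have hs : HasDerivAt (fun r : ℝ => √r) (1 / (2 * √r)) r := Real.hasDerivAt_sqrt hr.ne'
  have h0 : 0 < √r := Real.sqrt_pos.mpr hr
  have h1 : HasDerivAt (fun r : ℝ => z / (2 * √r)) (-(z / (4 * r * √r))) r := by
    have h2 : HasDerivAt (fun r : ℝ => 2 * √r) (2 * (1 / (2 * √r))) r := hs.const_mul 2
    have := (hasDerivAt_const r z).div h2 (by positivity)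
    refine this.congr_deriv ?_
    have hsq : √r * √r = r := Real.mul_self_sqrt hr.le
    generalize √r = s at h0 hsq ⊢
    subst hsq
    field_simp
    ring
  have h3 := h1.sub (hs.const_mul P)
  unfold yy yy'
  refine h3.congr_deriv ?_
  field_simp
  ring

private lemma injOn_yy (hP : 0 < P) (hz : 0 < z) : InjOn (yy P z) (Ioi 0) := by
  intro a ha b hb hab
  have ha' : 0 < √a := Real.sqrt_pos.mpr ha
  have hb' : 0 < √b := Real.sqrt_pos.mpr hb
  unfold yy at hab
  have h : (√b - √a) * (z / (2 * √a * √b) + P) = 0 := by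
    field_simp at hab ⊢
    nlinarith [hab]
  have hpos : 0 < z / (2 * √a * √b) + P := by positivity
  have h2 : √b - √a = 0 := by
    rcases mul_eq_zero.mp h with h | h
    · exact h
    · exact absurd h hpos.ne'
  have h3 : √a = √b := by linarith
  exact (Real.sqrt_inj (le_of_lt ha) (le_of_lt hb)).mp h3

private lemma image_yy (hP : 0 < P) (hz : 0 < z) : yy P z '' Ioi 0 = univ := by
  apply eq_univ_of_forall
  intro w
  have hD : 0 < w ^ 2 + 2 * P * z := by positivity
  have hsD : w < √(w ^ 2 + 2 * P * z) := by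
    apply Real.lt_sqrt_of_sq_lt
    nlinarith [mul_pos hP hz]
  set a := (-w + √(w ^ 2 + 2 * P * z)) / (2 * P) with ha
  have ha0 : 0 < a := by
    apply div_pos _ (by positivity)
    linarith
  refine ⟨a ^ 2, by simp only [mem_Ioi]; positivity, ?_⟩
  unfold yy
  rw [Real.sqrt_sq ha0.le]
  have hs := Real.sq_sqrt hD.le
  have hq : P * a ^ 2 + w * a - z / 2 = 0 := by
    rw [ha]
    generalize √(w ^ 2 + 2 * P * z) = S at hs
    field_simp
    linear_combination hs
  have h5 : z / (2 * a) = P * a + w := by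
    field_simp
    linear_combination (-2 : ℝ) * hq
  rw [h5]
  ring

private lemma yy_sq {r : ℝ} (hr : 0 < r) :
    (yy P z r) ^ 2 = z ^ 2 / (4 * r) + P ^ 2 * r - P * z := by
  unfold yy
  have h0 : 0 < √r := Real.sqrt_pos.mpr hr
  have hsq : √r * √r = r := Real.mul_self_sqrt hr.le
  calc (z / (2 * √r) - P * √r) ^ 2
      = z ^ 2 / (4 * (√r * √r)) + P ^ 2 * (√r * √r) - P * z := by
        field_simp
        ring
    _ = _ := by rw [hsq]

private lemma abs_yy' (hP : 0 < P) (hz : 0 < z) {r : ℝ} (hr : 0 < r) :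
    |yy' P z r| = z / (4 * r * √r) + P / (2 * √r) := by
  unfold yy'
  have h0 : 0 < √r := Real.sqrt_pos.mpr hr
  rw [abs_neg, abs_of_pos (by positivity)]

private lemma sum_form (hP : 0 < P) (hz : 0 < z) {r : ℝ} (hr : 0 < r) :
    |yy' P z r| • exp (-(yy P z r) ^ 2) = exp (P * z) * (AA P z r + BB P z r) := by
  rw [abs_yy' hP hz hr, yy_sq hr, smul_eq_mul]
  unfold AA BB EE
  have : exp (-(z ^ 2 / (4 * r) + P ^ 2 * r - P * z)) =
      exp (P * z) * exp (-(P ^ 2 * r) - z ^ 2 / (4 * r)) := by
    rw [← Real.exp_add]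
    congr 1
    ring
  rw [this]
  ring

private lemma measurable_AA : Measurable (AA P z) := by
  unfold AA EE
  fun_prop

private lemma measurable_BB : Measurable (BB P z) := by
  unfold BB EE
  fun_prop

private lemma AA_nonneg (hz : 0 < z) {r : ℝ} (hr : 0 < r) : 0 ≤ AA P z r := by
  unfold AA EE
  have h0 : 0 < √r := Real.sqrt_pos.mpr hr
  positivity

private lemma BB_nonneg (hP : 0 < P) {r : ℝ} (hr : 0 < r) : 0 ≤ BB P z r := by
  unfold BB EE
  have h0 : 0 < √r := Real.sqrt_pos.mpr hr
  positivity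

private lemma integrableOn_sum (hP : 0 < P) (hz : 0 < z) :
    IntegrableOn (fun r => AA P z r + BB P z r) (Ioi 0) := by
  have him : IntegrableOn (fun w : ℝ => exp (-w ^ 2)) (yy P z '' Ioi 0) := by
    rw [image_yy hP hz]
    have := integrable_exp_neg_mul_sq (b := 1) one_pos
    simpa [IntegrableOn] using this
  have h1 := (integrableOn_image_iff_integrableOn_abs_deriv_smul (measurableSet_Ioi)
      (fun r hr => (hasDeriv_yy hr).hasDerivWithinAt) (injOn_yy hP hz)
      (fun w : ℝ => exp (-w ^ 2))).mp him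
  have h2 := h1.const_mul (exp (-(P * z)))
  refine IntegrableOn.congr_fun h2 ?_ measurableSet_Ioi
  intro r hr
  simp only
  rw [sum_form hP hz hr, ← mul_assoc, ← Real.exp_add]
  simp

private lemma integral_sum (hP : 0 < P) (hz : 0 < z) :
    ∫ r in Ioi 0, (AA P z r + BB P z r) = exp (-(P * z)) * √π := by
  have h0 := integral_image_eq_integral_abs_deriv_smul (measurableSet_Ioi)
      (fun r hr => (hasDeriv_yy (P := P) (z := z) hr).hasDerivWithinAt) (injOn_yy hP hz)
      (fun w : ℝ => exp (-w ^ 2))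
  rw [image_yy hP hz, Measure.restrict_univ] at h0
  have h1 : ∫ w : ℝ, exp (-w ^ 2) = √π := by
    have := integral_gaussian 1
    simpa using this
  rw [h1] at h0
  rw [h0, ← integral_const_mul]
  apply setIntegral_congr_fun measurableSet_Ioi
  intro r hr
  simp only
  rw [sum_form hP hz hr, ← mul_assoc, ← Real.exp_add]
  simp

/-- inversion symmetry -/
private lemma image_inv {c : ℝ} (hc : 0 < c) : (fun r : ℝ => c / r) '' Ioi 0 = Ioi 0 := by
  ext w
  constructor
  · rintro ⟨r, hr, rfl⟩
    exact div_pos hc hr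
  · intro hw
    have hw' : (0 : ℝ) < w := hw
    refine ⟨c / w, div_pos hc hw', ?_⟩
    field_simp

private lemma injOn_inv {c : ℝ} (hc : 0 < c) : InjOn (fun r : ℝ => c / r) (Ioi 0) := by
  intro a ha b hb hab
  have ha' : (0 : ℝ) < a := ha
  have hb' : (0 : ℝ) < b := hb
  simp only at hab
  field_simp at hab
  linarith

private lemma hasDeriv_inv {c : ℝ} {r : ℝ} (hr : 0 < r) :
    HasDerivAt (fun r : ℝ => c / r) (-(c / r ^ 2)) r := by
  have := (hasDerivAt_const r c).div (hasDerivAt_id r) hr.ne'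
  refine this.congr_deriv ?_
  simp only [id]
  ring

private lemma inv_form (hP : 0 < P) (hz : 0 < z) {r : ℝ} (hr : 0 < r) :
    |(-((z ^ 2 / (4 * P ^ 2)) / r ^ 2))| • BB P z ((z ^ 2 / (4 * P ^ 2)) / r) = AA P z r := by
  have h0 : 0 < √r := Real.sqrt_pos.mpr hr
  have hsq : √r * √r = r := Real.mul_self_sqrt hr.le
  have hc : 0 < z ^ 2 / (4 * P ^ 2) := by positivity
  have hcs : √((z ^ 2 / (4 * P ^ 2)) / r) = (z / (2 * P)) / √r := by
    rw [Real.sqrt_div hc.le]
    congr 1
    have : z ^ 2 / (4 * P ^ 2) = (z / (2 * P)) ^ 2 := by field_simp; ring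
    rw [this, Real.sqrt_sq (by positivity)]
  unfold BB AA EE
  rw [abs_neg, abs_of_pos (by positivity), smul_eq_mul, hcs]
  have hE : -(P ^ 2 * ((z ^ 2 / (4 * P ^ 2)) / r)) - z ^ 2 / (4 * ((z ^ 2 / (4 * P ^ 2)) / r))
      = -(P ^ 2 * r) - z ^ 2 / (4 * r) := by
    field_simp
    ring
  rw [hE]
  have : z ^ 2 / (4 * P ^ 2) / r ^ 2 * (P / (2 * (z / (2 * P) / √r))) = z / (4 * r * √r) := by
    generalize √r = s at h0 hsq ⊢
    subst hsq
    field_simp
  rw [mul_left_comm, this]

private lemma integral_BB_eq_AA (hP : 0 < P) (hz : 0 < z) :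
    ∫ r in Ioi 0, BB P z r = ∫ r in Ioi 0, AA P z r := by
  have hc : 0 < z ^ 2 / (4 * P ^ 2) := by positivity
  have h0 := integral_image_eq_integral_abs_deriv_smul (measurableSet_Ioi)
      (fun r hr => (hasDeriv_inv (c := z ^ 2 / (4 * P ^ 2)) hr).hasDerivWithinAt)
      (injOn_inv hc) (BB P z)
  rw [image_inv hc] at h0
  rw [h0]
  apply setIntegral_congr_fun measurableSet_Ioi
  intro r hr
  exact inv_form hP hz hr

private lemma integrableOn_AA (hP : 0 < P) (hz : 0 < z) : IntegrableOn (AA P z) (Ioi 0) := by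
  refine Integrable.mono' (integrableOn_sum hP hz) measurable_AA.aestronglyMeasurable ?_
  rw [ae_restrict_iff' measurableSet_Ioi]
  refine Eventually.of_forall fun r hr => ?_
  rw [Real.norm_of_nonneg (AA_nonneg hz hr)]
  linarith [BB_nonneg (z := z) hP hr]

private lemma integrableOn_BB (hP : 0 < P) (hz : 0 < z) : IntegrableOn (BB P z) (Ioi 0) := by
  refine Integrable.mono' (integrableOn_sum hP hz) measurable_BB.aestronglyMeasurable ?_
  rw [ae_restrict_iff' measurableSet_Ioi]
  refine Eventually.of_forall fun r hr => ?_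
  rw [Real.norm_of_nonneg (BB_nonneg (z := z) hP hr)]
  linarith [AA_nonneg (P := P) hz hr]

private lemma integral_AA (hP : 0 < P) (hz : 0 < z) :
    ∫ r in Ioi 0, AA P z r = exp (-(P * z)) * √π / 2 := by
  have h := integral_sum hP hz
  rw [integral_add (integrableOn_AA hP hz) (integrableOn_BB hP hz), integral_BB_eq_AA hP hz] at h
  linarith

private lemma exp_kern_eq {r : ℝ} (hr : 0 < r) :
    exp (-(P ^ 2 * r)) * kern r z = (√π)⁻¹ * AA P z r := by
  unfold kern gauss AA EE
  have h0 : 0 < √r := Real.sqrt_pos.mpr hr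
  have hs : √(4 * π * r) = 2 * √π * √r := by
    rw [Real.sqrt_mul (by positivity), Real.sqrt_mul (by norm_num)]
    have : √(4 : ℝ) = 2 := by
      rw [show (4 : ℝ) = 2 ^ 2 by norm_num, Real.sqrt_sq (by norm_num)]
    rw [this]
  rw [hs]
  have he : exp (-(P ^ 2 * r) - z ^ 2 / (4 * r)) =
      exp (-(P ^ 2 * r)) * exp (-(z ^ 2) / (4 * r)) := by
    rw [← Real.exp_add]
    congr 1
    ring
  rw [he]
  have hpi : 0 < √π := by positivity
  field_simp
  ring

/-- Levy-Laplace formula for `z > 0`. -/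
lemma levy_pos (hP : 0 < P) (hz : 0 < z) :
    IntegrableOn (fun r => exp (-(P ^ 2 * r)) * kern r z) (Ioi 0) ∧
      ∫ r in Ioi 0, exp (-(P ^ 2 * r)) * kern r z = (1 / 2) * exp (-(P * z)) := by
  have hpi : 0 < √π := by positivity
  constructor
  · refine IntegrableOn.congr_fun ((integrableOn_AA hP hz).const_mul (√π)⁻¹) ?_ measurableSet_Ioi
    intro r hr
    exact (exp_kern_eq hr).symm
  · rw [setIntegral_congr_fun (g := fun r => (√π)⁻¹ * AA P z r) measurableSet_Ioi
      (fun r hr => exp_kern_eq hr)]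
    rw [integral_const_mul, integral_AA hP hz]
    field_simp

end

/-- The kernel `(1/2) sign z exp (-P |z|)`. -/
noncomputable def skern (P z : ℝ) : ℝ := (1 / 2) * Real.sign z * exp (-(P * |z|))

lemma measurable_skern (P : ℝ) : Measurable (skern P) := by
  unfold skern
  have : Measurable Real.sign := by
    have h : Real.sign = fun x => if x < 0 then (-1 : ℝ) else if 0 < x then 1 else 0 := by
      funext x
      unfold Real.sign
      rfl
    rw [h]
    refine Measurable.ite measurableSet_Iio measurable_const ?_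
    exact Measurable.ite measurableSet_Ioi measurable_const measurable_const
  fun_prop

lemma abs_skern_le (P z : ℝ) : |skern P z| ≤ (1 / 2) * exp (-(P * |z|)) := by
  unfold skern
  rw [abs_mul, abs_mul, abs_of_pos (exp_pos _), abs_of_pos (by norm_num : (0 : ℝ) < 1 / 2)]
  have : |Real.sign z| ≤ 1 := by
    rcases Real.sign_apply_eq z with h | h | h <;> simp [h]
  have he := exp_pos (-(P * |z|))
  nlinarith

lemma levy {P : ℝ} (hP : 0 < P) (z : ℝ) :
    IntegrableOn (fun r => exp (-(P ^ 2 * r)) * kern r z) (Ioi 0) ∧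
      ∫ r in Ioi 0, exp (-(P ^ 2 * r)) * kern r z = skern P z := by
  rcases lt_trichotomy z 0 with hz | hz | hz
  · have h := levy_pos hP (neg_pos.mpr hz)
    simp only [kern_neg] at h
    constructor
    · have := h.1.neg
      refine this.congr_fun ?_ measurableSet_Ioi
      intro r _
      simp only [Pi.neg_apply]
      ring
    · have h2 : ∫ r in Ioi 0, exp (-(P ^ 2 * r)) * kern r z
          = -∫ r in Ioi 0, exp (-(P ^ 2 * r)) * -kern r z := by
        rw [← integral_neg]
        congr 1
        funext r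
        ring
      rw [h2, h.2]
      unfold skern
      rw [Real.sign_of_neg hz, abs_of_neg hz]
      ring
  · subst hz
    have : ∀ r, kern r 0 = 0 := fun r => by unfold kern; simp
    simp only [this, mul_zero]
    refine ⟨integrableOn_zero, ?_⟩
    unfold skern
    simp
  · have h := levy_pos hP hz
    refine ⟨h.1, ?_⟩
    rw [h.2]
    unfold skern
    rw [Real.sign_of_pos hz, abs_of_pos hz]
    ring

lemma abs_kern (r z : ℝ) (hr : 0 < r) : |kern r z| = kern r |z| := by
  unfold kern
  have hg : gauss r |z| = gauss r z := by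
    unfold gauss
    simp
  rw [hg, abs_mul, abs_of_pos (gauss_pos hr z), abs_div, abs_of_pos (by positivity : 0 < 2 * r)]

/-- The absolute integrand. -/
lemma levy_abs {P : ℝ} (hP : 0 < P) (z : ℝ) :
    ∫ r in Ioi 0, |exp (-(P ^ 2 * r)) * kern r z| ≤ (1 / 2) * exp (-(P * |z|)) := by
  have hcongr : ∫ r in Ioi 0, |exp (-(P ^ 2 * r)) * kern r z|
      = ∫ r in Ioi 0, exp (-(P ^ 2 * r)) * kern r |z| := by
    apply setIntegral_congr_fun measurableSet_Ioi
    intro r hr
    simp only
    rw [abs_mul, abs_of_pos (exp_pos _), abs_kern r z hr]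
  rw [hcongr]
  rcases eq_or_ne z 0 with hz | hz
  · subst hz
    have : ∀ r, kern r 0 = 0 := fun r => by unfold kern; simp
    simp only [abs_zero, this, mul_zero, integral_zero]
    positivity
  · have h := levy_pos hP (abs_pos.mpr hz)
    rw [h.2]

end Vale.Agent.Lib.P371
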