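import Vale.Agent.Lib.P371.Assemble

/-!
The main inequality with free constants.
-/

open Real MeasureTheory Set Filter Topology Function Matrix
open scoped ComplexOrder

namespace Vale.Agent.Lib.P371

variable {m N n : ℕ}

lemma key_point {A : Matrix (Fin m) (Fin m) ℂ} (hA : A.IsHermitian)
    (hAnn : ∀ α, 0 ≤ hA.eigenvalues α) (z : Fin N → Fin m → ℂ) {C K0 : ℝ}
    (hY : ∀ w ρ : ℝ, 0 ≤ w → 0 ≤ ρ → w * ρ ≤ C * w ^ (3 / 2 : ℝ) + K0 * ρ ^ 3) :
    ∑ j, (star (z j) ⬝ᵥ A *ᵥ z j).re - C * ∑ α, hA.eigenvalues α ^ (3 / 2 : ℝ) ≤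
      ∑ α, (∑ j, ‖∑ c, rowsU hA α c * z j c‖ ^ 2) ^ 3 * K0 := by
  have h1 : ∑ j, (star (z j) ⬝ᵥ A *ᵥ z j).re =
      ∑ α, hA.eigenvalues α * ∑ j, ‖∑ c, rowsU hA α c * z j c‖ ^ 2 := by
    simp only [quad_form hA, Finset.mul_sum]
    rw [Finset.sum_comm]
  rw [h1, Finset.mul_sum, ← Finset.sum_sub_distrib]
  refine Finset.sum_le_sum fun α _ => ?_
  have h2 := hY (hA.eigenvalues α) (∑ j, ‖∑ c, rowsU hA α c * z j c‖ ^ 2) (hAnn α)
    (Finset.sum_nonneg fun j _ => by positivity)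
  linarith

lemma measurable_quad {W : ℝ → Matrix (Fin m) (Fin m) ℂ} (hWm : ∀ i j, Measurable fun x => W x i j)
    {ψ : ℝ → Fin m → ℂ} (hψ : ∀ c, Measurable fun x => ψ x c) :
    Measurable fun x => (star (ψ x) ⬝ᵥ W x *ᵥ ψ x).re := by
  apply Complex.measurable_re.comp
  simp only [dotProduct, mulVec, Pi.star_apply]
  refine Finset.measurable_fun_sum _ fun a _ => ?_
  refine Measurable.mul ?_ ?_
  · exact continuous_star.measurable.comp (hψ a)
  · refine Finset.measurable_fun_sum _ fun b _ => ?_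
    exact (hWm a b).mul (hψ b)

theorem main_inequality {W : ℝ → Matrix (Fin m) (Fin m) ℂ} (hW : ∀ x, (W x).PosSemidef)
    (hWm : ∀ i j, Measurable fun x => W x i j)
    (hWint : Integrable fun x => ∑ i, (hW x).isHermitian.eigenvalues i ^ (3 / 2 : ℝ))
    {ψ ψ' : Fin N → ℝ → Fin m → ℂ}
    (hH : ∀ j c, IsH1 (fun x => ψ j x c) (fun x => ψ' j x c))
    (horth : ∀ j k, ∑ c, ∫ x, star (ψ j x c) * ψ k x c = if j = k then 1 else 0)
    {a p : Fin n → ℝ} (hp : ∀ i, 0 < p i) {κ η ν K0 C : ℝ} (hκ : 0 < κ) (hη : 0 < η) (hν : 0 ≤ ν)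
    (hκη : κ ^ 3 * nnC a p ≤ η ^ 2)
    (hK0 : K0 = 2 * ν * (κ * lamC a p - η) - ν ^ 2 * ddC a p) (hK0nn : 0 ≤ K0)
    (hY : ∀ w ρ : ℝ, 0 ≤ w → 0 ≤ ρ → w * ρ ≤ C * w ^ (3 / 2 : ℝ) + K0 * ρ ^ 3) :
    (∀ j, Integrable fun x => (star (ψ j x) ⬝ᵥ W x *ᵥ ψ j x).re) ∧
      ∑ j, ((∫ x, (star (ψ j x) ⬝ᵥ W x *ᵥ ψ j x).re) - ∑ c, ∫ x, ‖ψ' j x c‖ ^ 2) ≤
        C * ∫ x, ∑ i, (hW x).isHermitian.eigenvalues i ^ (3 / 2 : ℝ) := by
  set V : Fin N → ℝ → ℝ := fun j x => (star (ψ j x) ⬝ᵥ W x *ᵥ ψ j x).re with hV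
  set S : ℝ → ℝ := fun x => ∑ j, V j x with hS
  set tr : ℝ → ℝ := fun x => ∑ i, (hW x).isHermitian.eigenvalues i ^ (3 / 2 : ℝ) with htr
  set T : ℝ := ∑ j, ∑ c, ∫ x, ‖ψ' j x c‖ ^ 2 with hT
  have hψm : ∀ j c, Measurable fun x => ψ j x c := fun j c => (hH j c).continuous.measurable
  have hVm : ∀ j, Measurable (V j) := fun j => measurable_quad hWm (hψm j)
  have hSm : Measurable S := Finset.measurable_fun_sum _ fun j _ => hVm j
  have hVnn : ∀ j x, 0 ≤ V j x := by
    intro j x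
    simp only [hV]
    rw [quad_form (hW x).isHermitian]
    refine Finset.sum_nonneg fun α _ => mul_nonneg ((hW x).eigenvalues_nonneg α) (by positivity)
  have hTnn : 0 ≤ T := Finset.sum_nonneg fun j _ => Finset.sum_nonneg fun c _ =>
    integral_nonneg fun x => by positivity
  -- the pointwise inequality
  have hpt : ∀ x, ENNReal.ofReal (S x - C * tr x) ≤ tau ψ' x := by
    intro x
    have h1 := key_point (A := W x) (hW x).isHermitian (hW x).eigenvalues_nonneg
      (fun j => ψ j x) hY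
    have h2 := sum_alpha_le_tau (E := fun α c => rowsU (hW x).isHermitian α c)
      (parseval (hW x).isHermitian) (rows_unit (hW x).isHermitian) hH horth hp hκ hη hν hκη x
    rw [← hK0] at h2
    refine le_trans (ENNReal.ofReal_le_ofReal h1) (le_trans (le_of_eq ?_) h2)
    exact ENNReal.ofReal_sum_of_nonneg fun α _ =>
      mul_nonneg (pow_nonneg (Finset.sum_nonneg fun j _ => by positivity) 3) hK0nn
  have hint : ∫⁻ x, ENNReal.ofReal (S x - C * tr x) ≤ ENNReal.ofReal T :=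
    (lintegral_mono hpt).trans (lintegral_tau_le hH)
  -- positive part
  set g : ℝ → ℝ := fun x => max (S x - C * tr x) 0 with hg
  have hgnn : ∀ x, 0 ≤ g x := fun x => le_max_right _ _
  have hofg : ∀ x, ENNReal.ofReal (g x) = ENNReal.ofReal (S x - C * tr x) := by
    intro x
    simp only [hg]
    rcases le_total (S x - C * tr x) 0 with h | h
    · rw [max_eq_right h, ENNReal.ofReal_of_nonpos h]
      simp
    · rw [max_eq_left h]
  have hgm : AEStronglyMeasurable g := by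
    have h1 : AEStronglyMeasurable (fun x => S x - C * tr x) :=
      hSm.aestronglyMeasurable.sub (hWint.1.const_mul C)
    exact h1.sup aestronglyMeasurable_const
  have hgint : Integrable g := by
    refine ⟨hgm, ?_⟩
    rw [hasFiniteIntegral_iff_ofReal (Eventually.of_forall hgnn)]
    simp only [hofg]
    exact lt_of_le_of_lt hint ENNReal.ofReal_lt_top
  have hgT : ∫ x, g x ≤ T := by
    rw [integral_eq_lintegral_of_nonneg_ae (Eventually.of_forall hgnn) hgm]
    simp only [hofg]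
    exact ENNReal.toReal_le_of_le_ofReal hTnn hint
  have hSle : ∀ x, S x ≤ g x + C * tr x := by
    intro x
    have : S x - C * tr x ≤ g x := le_max_left _ _
    linarith
  have hdom : Integrable (fun x => g x + C * tr x) := hgint.add (hWint.const_mul C)
  have hSi : Integrable S := by
    refine Integrable.mono' hdom hSm.aestronglyMeasurable (Eventually.of_forall fun x => ?_)
    rw [Real.norm_of_nonneg (Finset.sum_nonneg fun j _ => hVnn j x)]
    exact hSle x
  have hVi : ∀ j, Integrable (V j) := by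
    intro j
    refine Integrable.mono' hSi (hVm j).aestronglyMeasurable (Eventually.of_forall fun x => ?_)
    rw [Real.norm_of_nonneg (hVnn j x)]
    exact Finset.single_le_sum (f := fun j => V j x) (fun j _ => hVnn j x) (Finset.mem_univ j)
  refine ⟨hVi, ?_⟩
  rw [Finset.sum_sub_distrib, ← integral_finsetSum _ fun j _ => hVi j]
  have h1 : ∫ x, S x ≤ ∫ x, (g x + C * tr x) := integral_mono hSi hdom hSle
  rw [integral_add hgint (hWint.const_mul C), integral_const_mul] at h1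
  have h2 : ∫ x, ∑ j, V j x = ∫ x, S x := rfl
  rw [h2]
  linarith

end Vale.Agent.Lib.P371
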