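import Vale.Agent.Lib.P371.Chain

/-!
From a `W`-orthonormal family to a Bessel family in `H¹_z`: diagonalization of the Gram matrix of
the potentials.
-/

open Real MeasureTheory Set Filter Topology Function Matrix
open scoped ComplexOrder

namespace Vale.Agent.Lib.P371

variable {m : ℕ} {W : ℝ → Matrix (Fin m) (Fin m) ℂ} {p : ℝ}

lemma hzf_combo {ι κ : Type*} [Fintype ι] [Fintype κ] (z : ℝ) (b : ι → ℂ) (c : κ → ℂ)
    {G G' : ι → ℝ → Fin m → ℂ} {H H' : κ → ℝ → Fin m → ℂ}
    (hG : ∀ i, H1c (G i) (G' i)) (hH : ∀ k, H1c (H k) (H' k)) :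
    hzf z (combo b G) (combo b G') (combo c H) (combo c H') =
      ∑ i, ∑ k, (starRingEnd ℂ) (b i) * c k * hzf z (G i) (G' i) (H k) (H' k) := by
  unfold hzf
  rw [wf_combo b c fun i k => integrable_one (hG i).l2' (hH k).l2',
    wf_combo b c fun i k => integrable_one (hG i).l2 (hH k).l2, Finset.mul_sum,
    ← Finset.sum_add_distrib]
  refine Finset.sum_congr rfl fun i _ => ?_
  rw [Finset.mul_sum, ← Finset.sum_add_distrib]
  refine Finset.sum_congr rfl fun k _ => ?_
  ring

lemma hzf_herm (z : ℝ) (g g' h h' : ℝ → Fin m → ℂ) :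
    hzf z g g' h h' = (starRingEnd ℂ) (hzf z h h' g g') := by
  have hM : ∀ x, ((oneF m) x).IsHermitian := fun x => (oneF_psd x).isHermitian
  unfold hzf
  rw [wf_herm hM g' h', wf_herm hM g h]
  simp only [map_add, map_mul, Complex.conj_ofReal]

/-- The weak equation for combinations. -/
lemma weak_combo (hW : GoodW W p) {ι : Type*} [Fintype ι] {f : ι → ℝ → Fin m → ℂ}
    (hf : ∀ i, Tame (f i)) {z : ℝ} (hz : 0 < z) (c : ι → ℂ) {ζ ζ' : ℝ → Fin m → ℂ} (hζ : H1c ζ ζ') :
    hzf z ζ ζ' (combo c fun i => Pot z W (f i)) (combo c fun i => dPot z W (f i)) =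
      wf W ζ (combo c f) := by
  have hP : ∀ i, H1c (Pot z W (f i)) (dPot z W (f i)) := fun i => Pot_H1c hW (hf i) hz
  unfold hzf
  rw [wf_combo_right _ c fun i => integrable_one hζ.l2' (hP i).l2',
    wf_combo_right _ c fun i => integrable_one hζ.l2 (hP i).l2,
    wf_combo_right _ c fun i => hW.integrable_form hζ.tame (hf i), Finset.mul_sum,
    ← Finset.sum_add_distrib]
  refine Finset.sum_congr rfl fun i _ => ?_
  rw [← weak_vec hW hζ (hf i) hz]
  unfold hzf
  ring

lemma unitary_sum (n : ℕ) (U a : Matrix (Fin n) (Fin n) ℂ) (l k : Fin n) :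
    ∑ i, ∑ j, (starRingEnd ℂ) (U i l) * U j k * a i j = (star U * a * U) l k := by
  simp only [Matrix.mul_apply, Finset.sum_mul, Matrix.star_apply, Complex.star_def]
  rw [Finset.sum_comm]
  refine Finset.sum_congr rfl fun i _ => Finset.sum_congr rfl fun j _ => ?_
  ring

/-- The passage to a Bessel family. -/
theorem partC (hW : GoodW W p) {z : ℝ} (hz : 0 < z) {n : ℕ} {f : Fin n → ℝ → Fin m → ℂ}
    (hf : ∀ i, Tame (f i))
    (hON : ∀ i k, wf W (f i) (f k) = if i = k then 1 else 0) {θ : ℝ} (hθ : 0 ≤ θ) :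
    ∃ Ψ Ψ' : Fin n → ℝ → Fin m → ℂ, (∀ l, H1c (Ψ l) (Ψ' l)) ∧
      (∀ b : Fin n → ℂ, (hzf z (combo b Ψ) (combo b Ψ') (combo b Ψ) (combo b Ψ')).re ≤
        ∑ l, ‖b l‖ ^ 2) ∧
      ∑ i, ((hzf z (Pot z W (f i)) (dPot z W (f i)) (Pot z W (f i)) (dPot z W (f i))).re - θ) ≤
        ∑ l, ((wf W (Ψ l) (Ψ l)).re - θ * (hzf z (Ψ l) (Ψ' l) (Ψ l) (Ψ' l)).re) := by
  set P : Fin n → ℝ → Fin m → ℂ := fun i => Pot z W (f i) with hPdef
  set dP : Fin n → ℝ → Fin m → ℂ := fun i => dPot z W (f i) with hdPdef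
  have hP : ∀ i, H1c (P i) (dP i) := fun i => Pot_H1c hW (hf i) hz
  set a : Matrix (Fin n) (Fin n) ℂ := Matrix.of fun i k => hzf z (P i) (dP i) (P k) (dP k) with ha
  have hA : a.IsHermitian := by
    apply Matrix.IsHermitian.ext
    intro i k
    simp only [ha, Matrix.of_apply, Complex.star_def]
    exact (hzf_herm z _ _ _ _).symm
  set U : Matrix (Fin n) (Fin n) ℂ := hA.eigenvectorUnitary.1 with hU
  have hUU : star U * U = 1 := Unitary.coe_star_mul_self hA.eigenvectorUnitary
  have hUU' : U * star U = 1 := Unitary.coe_mul_star_self hA.eigenvectorUnitary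
  set lam : Fin n → ℝ := hA.eigenvalues with hlam
  have hdiag : star U * a * U = Matrix.diagonal (RCLike.ofReal ∘ lam) := by
    have h1 : a = U * Matrix.diagonal (RCLike.ofReal ∘ lam) * star U := by
      have := hA.spectral_theorem
      rwa [Unitary.conjStarAlgAut_apply] at this
    rw [h1]
    calc star U * (U * Matrix.diagonal (RCLike.ofReal ∘ lam) * star U) * U
        = (star U * U) * Matrix.diagonal (RCLike.ofReal ∘ lam) * (star U * U) := by
          simp only [Matrix.mul_assoc]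
      _ = _ := by rw [hUU, Matrix.one_mul, Matrix.mul_one]
  set c : Fin n → ℝ := fun l => (√(lam l))⁻¹ with hc
  set β : Fin n → Fin n → ℂ := fun l i => (c l : ℂ) * U i l with hβ
  set Ψ : Fin n → ℝ → Fin m → ℂ := fun l => combo (β l) P with hΨ
  set Ψ' : Fin n → ℝ → Fin m → ℂ := fun l => combo (β l) dP with hΨ'
  set G : Fin n → ℝ → Fin m → ℂ := fun l => combo (β l) f with hG
  have hH : ∀ l, H1c (Ψ l) (Ψ' l) := fun l => H1c.combo hP (β l)
  have hGT : ∀ l, Tame (G l) := fun l => Tame.combo hf (β l)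
  -- Gram matrix of the new family
  have hGram : ∀ l k, hzf z (Ψ l) (Ψ' l) (Ψ k) (Ψ' k) =
      (c l : ℂ) * (c k : ℂ) * (Matrix.diagonal (RCLike.ofReal ∘ lam) l k : ℂ) := by
    intro l k
    rw [hzf_combo z (β l) (β k) hP hP, ← hdiag, ← unitary_sum, Finset.mul_sum]
    refine Finset.sum_congr rfl fun i _ => ?_
    rw [Finset.mul_sum]
    refine Finset.sum_congr rfl fun j _ => ?_
    simp only [hβ, map_mul, Complex.conj_ofReal, ha, Matrix.of_apply]
    ring
  have hc2 : ∀ l, 0 ≤ lam l → c l ^ 2 * lam l ≤ 1 := by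
    intro l hl
    simp only [hc]
    rw [inv_pow, Real.sq_sqrt hl]
    rcases hl.eq_or_lt with h | h
    · rw [← h]
      norm_num
    · rw [inv_mul_cancel₀ h.ne']
  have hself : ∀ l, (hzf z (Ψ l) (Ψ' l) (Ψ l) (Ψ' l)).re = c l ^ 2 * lam l := by
    intro l
    rw [hGram, Matrix.diagonal_apply_eq]
    simp only [Function.comp, RCLike.ofReal_eq_complex_ofReal]
    have : (c l : ℂ) * (c l : ℂ) * (lam l : ℂ) = ((c l ^ 2 * lam l : ℝ) : ℂ) := by
      push_cast
      ring
    rw [this, Complex.ofReal_re]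
  -- eigenvalues are nonnegative
  have hUcombo : ∀ l, 0 ≤ lam l := by
    intro l
    set Q := combo (fun i => U i l) P with hQ
    set Q' := combo (fun i => U i l) dP with hQ'
    have h1 : hzf z Q Q' Q Q' = (lam l : ℂ) := by
      rw [hzf_combo z _ _ hP hP]
      have h2 := unitary_sum n U a l l
      rw [hdiag, Matrix.diagonal_apply_eq] at h2
      simp only [Function.comp, RCLike.ofReal_eq_complex_ofReal] at h2
      rw [← h2]
      refine Finset.sum_congr rfl fun i _ => Finset.sum_congr rfl fun j _ => ?_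
      simp only [ha, Matrix.of_apply]
    have h2 : (hzf z Q Q' Q Q').re = lam l := by
      rw [h1, Complex.ofReal_re]
    rw [← h2, hzf_self_re (H1c.combo hP _)]
    have h3 : 0 ≤ ∑ c', ∫ x, ‖Q' x c'‖ ^ 2 := Finset.sum_nonneg fun c' _ =>
      integral_nonneg fun x => by positivity
    have h4 : 0 ≤ ∑ c', ∫ x, ‖Q x c'‖ ^ 2 := Finset.sum_nonneg fun c' _ =>
      integral_nonneg fun x => by positivity
    positivity
  -- the `W`-norm of the `G`
  have hGON : ∀ l, wf W (G l) (G l) = ((c l ^ 2 : ℝ) : ℂ) := by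
    intro l
    rw [wf_combo _ _ fun i k => hW.integrable_form (hf i) (hf k)]
    have h1 : ∑ i, ∑ k, (starRingEnd ℂ) (β l i) * β l k * wf W (f i) (f k) =
        ((c l : ℂ) * (c l : ℂ)) * (star U * U) l l := by
      rw [Matrix.mul_apply, Finset.mul_sum]
      refine Finset.sum_congr rfl fun i _ => ?_
      rw [Finset.sum_eq_single i]
      · rw [hON i i, if_pos rfl]
        simp only [hβ, map_mul, Complex.conj_ofReal, Matrix.star_apply, Complex.star_def]
        ring
      · intro k _ hk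
        rw [hON i k, if_neg (Ne.symm hk), mul_zero]
      · simp
    rw [h1, hUU, Matrix.one_apply_eq]
    push_cast
    ring
  -- the lower bound for the `W`-energy
  have hlow : ∀ l, lam l ≤ (wf W (Ψ l) (Ψ l)).re := by
    intro l
    have hl := hUcombo l
    have hX0 : 0 ≤ (wf W (Ψ l) (Ψ l)).re := by
      unfold wf
      have h1 : Integrable fun x => star (Ψ l x) ⬝ᵥ W x *ᵥ Ψ l x :=
        hW.integrable_form (hH l).tame (hH l).tame
      have h2 := integral_re (𝕜 := ℂ) h1
      simp only [RCLike.re_to_complex] at h2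
      rw [← h2]
      exact integral_nonneg fun x => quad_nonneg (hW.psd x) _
    rcases hl.eq_or_lt with h0 | h0
    · rw [← h0]
      exact hX0
    · have h1 := wf_cauchy (M := W) hW.psd (g := Ψ l) (h := G l)
        (hW.integrable_form (hH l).tame (hH l).tame)
        (hW.integrable_form (hH l).tame (hGT l))
        (hW.integrable_form (hGT l) (hGT l)) (lam l)
      have h2 : wf W (Ψ l) (G l) = hzf z (Ψ l) (Ψ' l) (Ψ l) (Ψ' l) :=
        (weak_combo hW hf hz (β l) (hH l)).symm
      rw [h2, hself, hGON, Complex.ofReal_re] at h1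
      have h3 : c l ^ 2 = (lam l)⁻¹ := by
        simp only [hc]
        rw [inv_pow, Real.sq_sqrt hl]
      rw [h3] at h1
      have h4 : (lam l)⁻¹ * lam l = 1 := inv_mul_cancel₀ h0.ne'
      have h5 : lam l ^ 2 * (lam l)⁻¹ = lam l := by
        field_simp
      rw [h4, h5] at h1
      linarith
  refine ⟨Ψ, Ψ', hH, ?_, ?_⟩
  · intro b
    rw [hzf_combo z b b hH hH]
    rw [Complex.re_sum]
    refine Finset.sum_le_sum fun l _ => ?_
    rw [Finset.sum_eq_single l]
    · rw [hGram, Matrix.diagonal_apply_eq]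
      simp only [Function.comp, RCLike.ofReal_eq_complex_ofReal]
      rw [Complex.conj_mul']
      have : ((‖b l‖ : ℂ)) ^ 2 * ((c l : ℂ) * (c l : ℂ) * (lam l : ℂ)) =
          ((‖b l‖ ^ 2 * (c l ^ 2 * lam l) : ℝ) : ℂ) := by
        push_cast
        ring
      rw [this, Complex.ofReal_re]
      have h1 := hc2 l (hUcombo l)
      have h2 : 0 ≤ ‖b l‖ ^ 2 := by positivity
      nlinarith
    · intro k _ hk
      rw [hGram, Matrix.diagonal_apply_ne _ (Ne.symm hk)]
      simp
    · simp
  · have htr : ∑ i, (hzf z (P i) (dP i) (P i) (dP i)).re = ∑ l, lam l := by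
      have h1 := hA.trace_eq_sum_eigenvalues
      have h2 := congrArg Complex.re h1
      simp only [Matrix.trace, Matrix.diag, ha, Matrix.of_apply, Complex.re_sum] at h2
      rw [h2]
      refine Finset.sum_congr rfl fun l _ => ?_
      simp [hlam]
    rw [Finset.sum_sub_distrib, htr, ← Finset.sum_sub_distrib]
    · refine Finset.sum_le_sum fun l _ => ?_
      rw [hself]
      have h1 := hc2 l (hUcombo l)
      have h2 := hlow l
      have h3 := mul_le_mul_of_nonneg_left h1 hθ
      linarith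

end Vale.Agent.Lib.P371
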