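import Vale.Agent.Lib.P371.ExpKernel

/-!
The pointwise lower bound for the square function of a Bessel family.
-/

open Real MeasureTheory Set Filter Topology Function

namespace Vale.Agent.Lib.P371

section params
variable {n : ℕ} (a p : Fin n → ℝ)

/-- the coefficient `λ` -/
noncomputable def lamC : ℝ := ∑ i, a i * p i
/-- the coefficient `N` (squared norm of the kernel) -/
noncomputable def nnC : ℝ := ∑ i, ∑ k, a i * a k * (p i ^ 2 * p k ^ 2) / (2 * (p i + p k))
/-- the coefficient `D` (half squared norm of the test weight) -/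
noncomputable def ddC : ℝ := (1 / 2) * ∑ i, ∑ k, a i * a k * (p i * p k) / (p i ^ 2 + p k ^ 2)

/-- the test weight in the time variable -/
noncomputable def omg (b r : ℝ) : ℝ := ∑ i, a i * (b * p i) * exp (-((b * p i) ^ 2 * r))
/-- the resulting kernel in the space variable -/
noncomputable def Ff (b t : ℝ) : ℝ := ∑ i, a i * (b * p i) * fk (b * p i) t

variable {a p}

lemma omg_sq {b : ℝ} (hb : 0 < b) (hp : ∀ i, 0 < p i) :
    IntegrableOn (fun r => omg a p b r ^ 2) (Ioi 0) ∧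
      ∫ r in Ioi (0 : ℝ), omg a p b r ^ 2 = 2 * ddC a p := by
  have hexp : ∀ r, omg a p b r ^ 2 = ∑ i, ∑ k, (a i * (b * p i) * (a k * (b * p k))) *
      exp (-(((b * p i) ^ 2 + (b * p k) ^ 2) * r)) := by
    intro r
    unfold omg
    rw [sq, Finset.sum_mul_sum]
    refine Finset.sum_congr rfl fun i _ => Finset.sum_congr rfl fun k _ => ?_
    have : exp (-(((b * p i) ^ 2 + (b * p k) ^ 2) * r)) =
        exp (-((b * p i) ^ 2 * r)) * exp (-((b * p k) ^ 2 * r)) := by
      rw [← Real.exp_add]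
      congr 1
      ring
    rw [this]
    ring
  have hpos : ∀ i k, 0 < (b * p i) ^ 2 + (b * p k) ^ 2 := by
    intro i k
    have := hp i
    positivity
  have hi : ∀ i k, IntegrableOn (fun r => (a i * (b * p i) * (a k * (b * p k))) *
      exp (-(((b * p i) ^ 2 + (b * p k) ^ 2) * r))) (Ioi 0) := by
    intro i k
    have h0 : -((b * p i) ^ 2 + (b * p k) ^ 2) < 0 := by linarith [hpos i k]
    have := (integrableOn_exp_mul_Ioi h0 0).const_mul (a i * (b * p i) * (a k * (b * p k)))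
    refine IntegrableOn.congr_fun this ?_ measurableSet_Ioi
    intro r _
    simp only
    congr 2
    ring
  simp only [hexp]
  constructor
  · exact integrable_finsetSum _ fun i _ => integrable_finsetSum _ fun k _ => hi i k
  · rw [integral_finsetSum _ fun i _ => integrable_finsetSum _ fun k _ => hi i k]
    unfold ddC
    rw [← mul_assoc]
    norm_num
    refine Finset.sum_congr rfl fun i _ => ?_
    rw [integral_finsetSum _ fun k _ => hi i k]
    refine Finset.sum_congr rfl fun k _ => ?_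
    rw [integral_const_mul, integral_exp_Ioi (hpos i k)]
    have h1 := hp i
    have h2 := hp k
    field_simp

lemma measurable_Ff (b : ℝ) : Measurable (Ff a p b) := by
  unfold Ff
  refine Finset.measurable_fun_sum _ fun i _ => ?_
  exact (measurable_fk _).const_mul _

lemma Ff_sq {b : ℝ} (hb : 0 < b) (hp : ∀ i, 0 < p i) :
    Integrable (fun t => Ff a p b t ^ 2) ∧ ∫ t, Ff a p b t ^ 2 = b ^ 3 * nnC a p := by
  have hexp : ∀ t, Ff a p b t ^ 2 = ∑ i, ∑ k, (a i * (b * p i) * (a k * (b * p k))) *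
      (fk (b * p i) t * fk (b * p k) t) := by
    intro t
    unfold Ff
    rw [sq, Finset.sum_mul_sum]
    refine Finset.sum_congr rfl fun i _ => Finset.sum_congr rfl fun k _ => ?_
    ring
  have hP : ∀ i, 0 < b * p i := fun i => mul_pos hb (hp i)
  have hi : ∀ i k, Integrable (fun t => (a i * (b * p i) * (a k * (b * p k))) *
      (fk (b * p i) t * fk (b * p k) t)) := by
    intro i k
    have h1 : Integrable (fun t => fk (b * p i) t * fk (b * p k) t) :=
      (memLp_fk (hP i)).integrable_mul (memLp_fk (hP k))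
    exact h1.const_mul _
  simp only [hexp]
  constructor
  · exact integrable_finsetSum _ fun i _ => integrable_finsetSum _ fun k _ => hi i k
  · rw [integral_finsetSum _ fun i _ => integrable_finsetSum _ fun k _ => hi i k]
    unfold nnC
    rw [Finset.mul_sum]
    refine Finset.sum_congr rfl fun i _ => ?_
    rw [integral_finsetSum _ fun k _ => hi i k, Finset.mul_sum]
    refine Finset.sum_congr rfl fun k _ => ?_
    rw [integral_const_mul, integral_fk_mul (hP i) (hP k)]
    have h1 := hp i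
    have h2 := hp k
    field_simp

lemma memLp_Ff {b : ℝ} (hb : 0 < b) (hp : ∀ i, 0 < p i) : MemLp (Ff a p b) 2 := by
  rw [memLp_two_iff_integrable_sq (measurable_Ff b).aestronglyMeasurable]
  exact (Ff_sq hb hp).1

/-- The test functional applied to one function. -/
lemma test_integral {φ v : ℝ → ℂ} (h : IsH1 φ v) {b : ℝ} (hb : 0 < b) (hp : ∀ i, 0 < p i) (x : ℝ) :
    IntegrableOn (fun r => (omg a p b r : ℂ) * cheat r v x) (Ioi 0) ∧
      ∫ r in Ioi (0 : ℝ), (omg a p b r : ℂ) * cheat r v x =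
        ((b * lamC a p : ℝ) : ℂ) * φ x - ∫ t, (Ff a p b t : ℂ) * φ (x - t) := by
  have hP : ∀ i, 0 < b * p i := fun i => mul_pos hb (hp i)
  have hexp : ∀ r, (omg a p b r : ℂ) * cheat r v x =
      ∑ i, ((a i * (b * p i) : ℝ) : ℂ) * (((exp (-((b * p i) ^ 2 * r)) : ℝ) : ℂ) * cheat r v x) := by
    intro r
    unfold omg
    push_cast
    rw [Finset.sum_mul]
    refine Finset.sum_congr rfl fun i _ => ?_
    ring
  have hi : ∀ i, IntegrableOn (fun r => ((a i * (b * p i) : ℝ) : ℂ) *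
      (((exp (-((b * p i) ^ 2 * r)) : ℝ) : ℂ) * cheat r v x)) (Ioi 0) :=
    fun i => (levy_fubini (hP i) h.memLp_deriv x).1.const_mul _
  simp only [hexp]
  constructor
  · exact integrable_finsetSum _ fun i _ => hi i
  · rw [integral_finsetSum _ fun i _ => hi i]
    have hj : ∀ i, ∫ r in Ioi (0 : ℝ), ((a i * (b * p i) : ℝ) : ℂ) *
        (((exp (-((b * p i) ^ 2 * r)) : ℝ) : ℂ) * cheat r v x) =
        ((a i * (b * p i) : ℝ) : ℂ) * (φ x - ∫ t, (fk (b * p i) t : ℂ) * φ (x - t)) := by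
      intro i
      rw [integral_const_mul, (levy_fubini (hP i) h.memLp_deriv x).2, repr_skern h (hP i) x]
    simp only [hj]
    have hF : ∫ t, (Ff a p b t : ℂ) * φ (x - t) =
        ∑ i, ((a i * (b * p i) : ℝ) : ℂ) * ∫ t, (fk (b * p i) t : ℂ) * φ (x - t) := by
      have hs : ∀ t, (Ff a p b t : ℂ) * φ (x - t) =
          ∑ i, ((a i * (b * p i) : ℝ) : ℂ) * ((fk (b * p i) t : ℂ) * φ (x - t)) := by
        intro t
        unfold Ff
        push_cast
        rw [Finset.sum_mul]
        refine Finset.sum_congr rfl fun i _ => ?_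
        ring
      simp only [hs]
      rw [integral_finsetSum _ fun i _ =>
        (integrable_real_mul_shift (memLp_fk (hP i)) h.memLp x).const_mul _]
      refine Finset.sum_congr rfl fun i _ => ?_
      rw [integral_const_mul]
    rw [hF]
    simp only [mul_sub]
    rw [Finset.sum_sub_distrib]
    congr 1
    unfold lamC
    push_cast
    rw [Finset.mul_sum, Finset.sum_mul]
    refine Finset.sum_congr rfl fun i _ => ?_
    ring

/-- The Cauchy-Schwarz bound without square roots. -/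
lemma Ff_pairing {b : ℝ} (hb : 0 < b) (hp : ∀ i, 0 < p i) {h : ℝ → ℂ} (hh : MemLp h 2) (x : ℝ)
    {A : ℝ} (hA : 0 < A) :
    ‖∫ t, (Ff a p b t : ℂ) * h (x - t)‖ ≤
      (A / 2) * (b ^ 3 * nnC a p) + (1 / (2 * A)) * ∫ y, ‖h y‖ ^ 2 := by
  have hF := Ff_sq (a := a) hb hp
  have hh2 : Integrable (fun y => ‖h y‖ ^ 2) := hh.integrable_norm_pow (by norm_num)
  have hs : Integrable (fun t => ‖h (x - t)‖ ^ 2) := hh2.comp_sub_left x
  have hi := integrable_real_mul_shift (memLp_Ff (a := a) hb hp) hh x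
  calc ‖∫ t, (Ff a p b t : ℂ) * h (x - t)‖ ≤ ∫ t, ‖(Ff a p b t : ℂ) * h (x - t)‖ :=
        norm_integral_le_integral_norm _
    _ ≤ ∫ t, ((A / 2) * Ff a p b t ^ 2 + (1 / (2 * A)) * ‖h (x - t)‖ ^ 2) := by
        refine integral_mono hi.norm ((hF.1.const_mul _).add (hs.const_mul _)) fun t => ?_
        simp only [norm_mul, Complex.norm_real, Real.norm_eq_abs]
        have h1 : 0 ≤ ‖h (x - t)‖ := norm_nonneg _
        have h2 : |Ff a p b t| * ‖h (x - t)‖ ≤
            (A / 2) * |Ff a p b t| ^ 2 + (1 / (2 * A)) * ‖h (x - t)‖ ^ 2 := by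
          have h3 := sq_nonneg (A * |Ff a p b t| - ‖h (x - t)‖)
          have h4 : (A / 2) * |Ff a p b t| ^ 2 + (1 / (2 * A)) * ‖h (x - t)‖ ^ 2 -
              |Ff a p b t| * ‖h (x - t)‖ = (A * |Ff a p b t| - ‖h (x - t)‖) ^ 2 / (2 * A) := by
            field_simp
            ring
          have h5 : 0 ≤ (A * |Ff a p b t| - ‖h (x - t)‖) ^ 2 / (2 * A) := by positivity
          linarith
        rwa [sq_abs] at h2
    _ = _ := by
        rw [integral_add (hF.1.const_mul _) (hs.const_mul _), integral_const_mul,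
          integral_const_mul, hF.2, integral_sub_left_eq_self (fun y => ‖h y‖ ^ 2) volume x]

lemma quad_bound (m w : ℝ) (V G : ℂ) :
    2 * m * ((starRingEnd ℂ) V * ((w : ℂ) * G)).re - m ^ 2 * ‖V‖ ^ 2 * w ^ 2 / 2 ≤ 2 * ‖G‖ ^ 2 := by
  have h1 : ((starRingEnd ℂ) V * ((w : ℂ) * G)).re = w * (V.re * G.re + V.im * G.im) := by
    simp [Complex.mul_re, Complex.mul_im]
    ring
  rw [h1, Complex.sq_norm, Complex.sq_norm, Complex.normSq_apply, Complex.normSq_apply]
  nlinarith [sq_nonneg (G.re - (m * w / 2) * V.re), sq_nonneg (G.im - (m * w / 2) * V.im)]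

lemma ofReal_integral_le {α : Type*} [MeasurableSpace α] {μ : Measure α} {f : α → ℝ}
    (hf : Integrable f μ) : ENNReal.ofReal (∫ x, f x ∂μ) ≤ ∫⁻ x, ENNReal.ofReal (f x) ∂μ := by
  rw [integral_eq_lintegral_pos_part_sub_lintegral_neg_part hf]
  refine le_trans (ENNReal.ofReal_le_ofReal (sub_le_self _ ENNReal.toReal_nonneg)) ?_
  exact ENNReal.ofReal_toReal_le

/-- The pointwise lower bound. -/
theorem pointwise_bound {N : ℕ} {φ v : Fin N → ℝ → ℂ} (hH : ∀ j, IsH1 (φ j) (v j))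
    (hB : ∀ c : Fin N → ℂ, ∫ y, ‖∑ j, c j * φ j y‖ ^ 2 ≤ ∑ j, ‖c j‖ ^ 2)
    (hp : ∀ i, 0 < p i) {κ η ν : ℝ} (hκ : 0 < κ) (hη : 0 < η) (hν : 0 ≤ ν)
    (hκη : κ ^ 3 * nnC a p ≤ η ^ 2) (x : ℝ) :
    ENNReal.ofReal ((∑ j, ‖φ j x‖ ^ 2) ^ 3 * (2 * ν * (κ * lamC a p - η) - ν ^ 2 * ddC a p)) ≤
      ∫⁻ r in Ioi (0 : ℝ), ENNReal.ofReal (2 * ∑ j, ‖cheat r (v j) x‖ ^ 2) := by
  set ρ : ℝ := ∑ j, ‖φ j x‖ ^ 2 with hρdef
  have hρnn : 0 ≤ ρ := Finset.sum_nonneg fun j _ => by positivity
  rcases hρnn.eq_or_lt with hρ | hρ0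
  · rw [← hρ]
    simp
  set b : ℝ := κ * ρ with hbdef
  have hb : 0 < b := mul_pos hκ hρ0
  set m : ℝ := ν * ρ with hmdef
  have hm : 0 ≤ m := mul_nonneg hν hρnn
  set Z : Fin N → ℝ → ℂ := fun j r => (omg a p b r : ℂ) * cheat r (v j) x with hZdef
  have hZ : ∀ j, IntegrableOn (Z j) (Ioi 0) := fun j => (test_integral (hH j) hb hp x).1
  have hZI : ∀ j, ∫ r in Ioi (0 : ℝ), Z j r =
      ((b * lamC a p : ℝ) : ℂ) * φ j x - ∫ t, (Ff a p b t : ℂ) * φ j (x - t) :=
    fun j => (test_integral (hH j) hb hp x).2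
  set conjV : Fin N → ℂ := fun j => (starRingEnd ℂ) (φ j x) with hconj
  have hZre : ∀ j, IntegrableOn (fun r => (conjV j * Z j r).re) (Ioi 0) := by
    intro j
    exact ((hZ j).const_mul (conjV j)).re
  have homg := omg_sq (a := a) hb hp
  -- the lower test function
  set l : ℝ → ℝ := fun r =>
    (∑ j, 2 * m * (conjV j * Z j r).re) - m ^ 2 * ρ * omg a p b r ^ 2 / 2 with hl
  have hlI : IntegrableOn l (Ioi 0) := by
    refine Integrable.sub (integrable_finsetSum _ fun j _ => (hZre j).const_mul _) ?_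
    exact (homg.1.const_mul (m ^ 2 * ρ)).div_const 2
  -- pointwise comparison
  have hcomp : ∀ r, l r ≤ 2 * ∑ j, ‖cheat r (v j) x‖ ^ 2 := by
    intro r
    simp only [hl]
    have h1 : m ^ 2 * ρ * omg a p b r ^ 2 / 2 =
        ∑ j, m ^ 2 * ‖φ j x‖ ^ 2 * omg a p b r ^ 2 / 2 := by
      rw [hρdef, ← Finset.sum_div, ← Finset.sum_mul, ← Finset.mul_sum]
    rw [h1, ← Finset.sum_sub_distrib, Finset.mul_sum]
    refine Finset.sum_le_sum fun j _ => ?_
    exact quad_bound m (omg a p b r) (φ j x) (cheat r (v j) x)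
  -- the integral of `l`
  set h : ℝ → ℂ := fun y => ∑ j, conjV j * φ j y with hhdef
  have hhm : MemLp h 2 := memLp_finsetSum _ fun j _ => (hH j).memLp.const_mul _
  have hS : ∑ j, conjV j * ∫ t, (Ff a p b t : ℂ) * φ j (x - t) =
      ∫ t, (Ff a p b t : ℂ) * h (x - t) := by
    have h1 : ∀ t, (Ff a p b t : ℂ) * h (x - t) =
        ∑ j, conjV j * ((Ff a p b t : ℂ) * φ j (x - t)) := by
      intro t
      simp only [hhdef]
      rw [Finset.mul_sum]
      refine Finset.sum_congr rfl fun j _ => ?_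
      ring
    simp only [h1]
    rw [integral_finsetSum _ fun j _ =>
      (integrable_real_mul_shift (memLp_Ff hb hp) (hH j).memLp x).const_mul _]
    refine Finset.sum_congr rfl fun j _ => ?_
    rw [integral_const_mul]
  have hsumre : ∑ j, (conjV j * ∫ r in Ioi (0 : ℝ), Z j r).re =
      b * lamC a p * ρ - (∫ t, (Ff a p b t : ℂ) * h (x - t)).re := by
    rw [← hS, Complex.re_sum, hρdef, Finset.mul_sum, ← Finset.sum_sub_distrib]
    refine Finset.sum_congr rfl fun j _ => ?_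
    rw [hZI j, mul_sub, Complex.sub_re]
    congr 1
    have h2 : conjV j * (((b * lamC a p : ℝ) : ℂ) * φ j x) =
        ((b * lamC a p : ℝ) : ℂ) * (conjV j * φ j x) := by ring
    rw [h2, Complex.re_ofReal_mul]
    congr 1
    simp only [hconj]
    rw [mul_comm, Complex.mul_conj, Complex.normSq_eq_norm_sq, Complex.ofReal_re]
  have hlint : ∫ r in Ioi (0 : ℝ), l r =
      2 * m * (b * lamC a p * ρ - (∫ t, (Ff a p b t : ℂ) * h (x - t)).re) -
        m ^ 2 * ρ * ddC a p := by
    simp only [hl]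
    rw [integral_sub (integrable_finsetSum _ fun j _ => (hZre j).const_mul _)
      ((homg.1.const_mul (m ^ 2 * ρ)).div_const 2)]
    rw [integral_finsetSum _ fun j _ => (hZre j).const_mul _]
    rw [integral_div, integral_const_mul, homg.2, ← hsumre,
      Finset.mul_sum Finset.univ (fun j => (conjV j * ∫ r in Ioi (0 : ℝ), Z j r).re) (2 * m)]
    congr 1
    · refine Finset.sum_congr rfl fun j _ => ?_
      rw [integral_const_mul]
      congr 1
      have h3 := integral_re (𝕜 := ℂ) ((hZ j).const_mul (conjV j))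
      simp only [RCLike.re_to_complex] at h3
      rw [h3, integral_const_mul]
    · ring
  -- the Bessel bound
  have hbes : ‖∫ t, (Ff a p b t : ℂ) * h (x - t)‖ ≤ η * ρ ^ 2 := by
    have hA : 0 < 1 / (η * ρ) := by positivity
    have h1 := Ff_pairing (a := a) hb hp hhm x hA
    have h2 : ∫ y, ‖h y‖ ^ 2 ≤ ρ := by
      have := hB conjV
      simp only [hconj, RCLike.norm_conj] at this
      exact this
    have h3 : (1 / (2 * (1 / (η * ρ)))) * ∫ y, ‖h y‖ ^ 2 ≤ (η * ρ / 2) * ρ := by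
      have : 1 / (2 * (1 / (η * ρ))) = η * ρ / 2 := by field_simp
      rw [this]
      exact mul_le_mul_of_nonneg_left h2 (by positivity)
    have h4 : (1 / (η * ρ) / 2) * (b ^ 3 * nnC a p) ≤ η * ρ ^ 2 / 2 := by
      have h5 : b ^ 3 * nnC a p = ρ ^ 3 * (κ ^ 3 * nnC a p) := by
        rw [hbdef]
        ring
      rw [h5]
      have h6 : ρ ^ 3 * (κ ^ 3 * nnC a p) ≤ ρ ^ 3 * η ^ 2 :=
        mul_le_mul_of_nonneg_left hκη (by positivity)
      have h7 := mul_le_mul_of_nonneg_left h6 (by positivity : 0 ≤ 1 / (η * ρ) / 2)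
      refine h7.trans (le_of_eq ?_)
      field_simp
    linarith
  have hre : (∫ t, (Ff a p b t : ℂ) * h (x - t)).re ≤ η * ρ ^ 2 :=
    (Complex.re_le_norm _).trans hbes
  have hfinal : ρ ^ 3 * (2 * ν * (κ * lamC a p - η) - ν ^ 2 * ddC a p) ≤ ∫ r in Ioi (0 : ℝ), l r := by
    rw [hlint]
    have h1 : m * (∫ t, (Ff a p b t : ℂ) * h (x - t)).re ≤ m * (η * ρ ^ 2) :=
      mul_le_mul_of_nonneg_left hre hm
    have h2 : ρ ^ 3 * (2 * ν * (κ * lamC a p - η) - ν ^ 2 * ddC a p) =
        2 * m * (b * lamC a p * ρ) - 2 * (m * (η * ρ ^ 2)) - m ^ 2 * ρ * ddC a p := by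
      rw [hmdef, hbdef]
      ring
    rw [h2]
    nlinarith [h1]
  calc ENNReal.ofReal (ρ ^ 3 * (2 * ν * (κ * lamC a p - η) - ν ^ 2 * ddC a p))
      ≤ ENNReal.ofReal (∫ r in Ioi (0 : ℝ), l r) := ENNReal.ofReal_le_ofReal hfinal
    _ ≤ ∫⁻ r in Ioi (0 : ℝ), ENNReal.ofReal (l r) := ofReal_integral_le hlI
    _ ≤ _ := lintegral_mono fun r => ENNReal.ofReal_le_ofReal (hcomp r)

end params

end Vale.Agent.Lib.P371
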