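import Vale.Agent.Lib.P371.VecForm

/-!
The potential `G_z * u` of an integrable function: it lies in `H¹` and solves the weak equation.
-/

open Real MeasureTheory Set Filter Topology Function Matrix
open scoped ComplexOrder

namespace Vale.Agent.Lib.P371

/-- The potential. -/
noncomputable def pot (z : ℝ) (u : ℝ → ℂ) (x : ℝ) : ℂ := ∫ y, (gk z (x - y) : ℂ) * u y

/-- The derivative of the potential. -/
noncomputable def dpot (z : ℝ) (u : ℝ → ℂ) (x : ℝ) : ℂ := ∫ y, ((-skern z (x - y) : ℝ) : ℂ) * u y

section general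
variable {k : ℝ → ℝ} {u : ℝ → ℂ}

lemma aesm_kernel (hkm : Measurable k) (hu : AEStronglyMeasurable u volume) :
    AEStronglyMeasurable (uncurry fun x y : ℝ => (k (x - y) : ℂ) * u y) (volume.prod volume) := by
  simp only [uncurry_def]
  apply AEStronglyMeasurable.mul
  · have : Measurable (fun p : ℝ × ℝ => (k (p.1 - p.2) : ℂ)) :=
      Complex.measurable_ofReal.comp (hkm.comp (measurable_fst.sub measurable_snd))
    exact this.aestronglyMeasurable
  · exact hu.comp_snd

lemma conv_prod (hkm : Measurable k) (hk1 : Integrable k) (hu : Integrable u) :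
    Integrable (uncurry fun x y : ℝ => (k (x - y) : ℂ) * u y) (volume.prod volume) := by
  rw [integrable_prod_iff' (aesm_kernel hkm hu.1)]
  constructor
  · refine Eventually.of_forall fun y => ?_
    simp only [uncurry_apply_pair]
    exact ((hk1.comp_sub_right y).ofReal).mul_const _
  · have : (fun y => ∫ x, ‖uncurry (fun x y : ℝ => (k (x - y) : ℂ) * u y) (x, y)‖) =
        fun y => (∫ x, |k x|) * ‖u y‖ := by
      funext y
      simp only [uncurry_apply_pair, norm_mul, Complex.norm_real, Real.norm_eq_abs]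
      rw [integral_mul_const, integral_sub_right_eq_self (fun x => |k x|) y]
    rw [this]
    exact hu.norm.const_mul _

lemma conv_integrable (hkm : Measurable k) (hk1 : Integrable k) (hu : Integrable u) :
    Integrable fun x => ∫ y, (k (x - y) : ℂ) * u y :=
  (conv_prod hkm hk1 hu).integral_prod_left

lemma conv_bound {K : ℝ} (hK : ∀ t, |k t| ≤ K) (hu : Integrable u) (x : ℝ) :
    ‖∫ y, (k (x - y) : ℂ) * u y‖ ≤ K * ∫ y, ‖u y‖ := by
  calc ‖∫ y, (k (x - y) : ℂ) * u y‖ ≤ ∫ y, K * ‖u y‖ := by
        refine norm_integral_le_of_norm_le (hu.norm.const_mul K) (Eventually.of_forall fun y => ?_)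
        rw [norm_mul, Complex.norm_real, Real.norm_eq_abs]
        exact mul_le_mul_of_nonneg_right (hK _) (norm_nonneg _)
    _ = _ := integral_const_mul _ _

lemma memLp_of_bdd {g : ℝ → ℂ} (hg : Integrable g) {M : ℝ} (hM : ∀ x, ‖g x‖ ≤ M) :
    MemLp g 2 := by
  rw [memLp_two_iff_integrable_sq_norm hg.1]
  refine Integrable.mono' (hg.norm.const_mul M) (hg.1.norm.pow 2) (Eventually.of_forall fun x => ?_)
  rw [Real.norm_of_nonneg (by positivity)]
  have := hM x
  have h0 := norm_nonneg (g x)
  nlinarith

/-- Fubini for the pairing with an `L²` function. -/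
lemma pair_prod (hkm : Measurable k) (hk2 : MemLp k 2) {ζ : ℝ → ℂ} (hζ : MemLp ζ 2)
    (hu : Integrable u) :
    Integrable (uncurry fun x y : ℝ => ζ x * ((k (x - y) : ℂ) * u y)) (volume.prod volume) := by
  have hm : AEStronglyMeasurable (uncurry fun x y : ℝ => ζ x * ((k (x - y) : ℂ) * u y))
      (volume.prod volume) := by
    have h1 : AEStronglyMeasurable (fun p : ℝ × ℝ => ζ p.1) (volume.prod volume) := hζ.1.comp_fst
    exact h1.mul (aesm_kernel hkm hu.1)
  have hk22 : Integrable (fun t => k t ^ 2) := hk2.integrable_sq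
  have hζ2 : Integrable (fun t => ‖ζ t‖ ^ 2) := hζ.integrable_norm_pow (by norm_num)
  rw [integrable_prod_iff' hm]
  have hshift : ∀ y, MemLp (fun x => (k (x - y) : ℂ)) 2 := fun y =>
    (hk2.comp_measurePreserving (measurePreserving_sub_right volume y)).ofReal
  constructor
  · refine Eventually.of_forall fun y => ?_
    have h1 : Integrable (fun x => ζ x * (k (x - y) : ℂ)) := hζ.integrable_mul (hshift y)
    refine (h1.mul_const (u y)).congr (Eventually.of_forall fun x => ?_)
    simp only [uncurry_apply_pair]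
    ring
  · set C : ℝ := (1 / 2) * (∫ t, ‖ζ t‖ ^ 2) + (1 / 2) * ∫ t, k t ^ 2 with hC
    refine Integrable.mono' (hu.norm.const_mul C) ?_ (Eventually.of_forall fun y => ?_)
    · exact (hm.norm.prod_swap.integral_prod_right')
    · rw [Real.norm_of_nonneg (integral_nonneg fun x => norm_nonneg _)]
      have hin : ∀ x, ‖uncurry (fun x y : ℝ => ζ x * ((k (x - y) : ℂ) * u y)) (x, y)‖ =
          (‖ζ x‖ * |k (x - y)|) * ‖u y‖ := by
        intro x
        simp only [uncurry_apply_pair, norm_mul, Complex.norm_real, Real.norm_eq_abs]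
        ring
      simp only [hin]
      rw [integral_mul_const]
      apply mul_le_mul_of_nonneg_right _ (norm_nonneg _)
      have hs : Integrable (fun x => k (x - y) ^ 2) := hk22.comp_sub_right y
      calc ∫ x, ‖ζ x‖ * |k (x - y)| ≤ ∫ x, ((1 / 2) * ‖ζ x‖ ^ 2 + (1 / 2) * k (x - y) ^ 2) := by
            refine integral_mono_of_nonneg (Eventually.of_forall fun x => by positivity)
              ((hζ2.const_mul _).add (hs.const_mul _)) (Eventually.of_forall fun x => ?_)
            have := sq_nonneg (‖ζ x‖ - |k (x - y)|)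
            simp only
            rw [← sq_abs (k (x - y))]
            nlinarith
        _ = C := by
            rw [integral_add (hζ2.const_mul _) (hs.const_mul _), integral_const_mul,
              integral_const_mul, integral_sub_right_eq_self (fun x => k x ^ 2) y]

/-- Fubini: the pairing of `ζ` with a convolution. -/
lemma pair_swap (hkm : Measurable k) (hk2 : MemLp k 2) {ζ : ℝ → ℂ} (hζ : MemLp ζ 2)
    (hu : Integrable u) :
    Integrable (fun y => (∫ t, (k (-t) : ℂ) * ζ (y - t)) * u y) ∧
      ∫ x, ζ x * ∫ y, (k (x - y) : ℂ) * u y = ∫ y, (∫ t, (k (-t) : ℂ) * ζ (y - t)) * u y := by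
  have hint := pair_prod hkm hk2 hζ hu
  have hin1 : ∀ x, ∫ y, ζ x * ((k (x - y) : ℂ) * u y) = ζ x * ∫ y, (k (x - y) : ℂ) * u y := fun x =>
    integral_const_mul _ _
  have hin2 : ∀ y, ∫ x, ζ x * ((k (x - y) : ℂ) * u y) = (∫ t, (k (-t) : ℂ) * ζ (y - t)) * u y := by
    intro y
    rw [← integral_mul_const, ← integral_sub_left_eq_self _ volume y]
    refine integral_congr_ae (Eventually.of_forall fun t => ?_)
    simp only
    have : y - t - y = -t := by ring
    rw [this]
    ring
  constructor
  · have := hint.integral_prod_right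
    simp only [uncurry_apply_pair] at this
    simpa only [hin2] using this
  · have := integral_integral_swap (f := fun x y : ℝ => ζ x * ((k (x - y) : ℂ) * u y)) hint
    simp only [hin1, hin2] at this
    exact this

end general

lemma gk_bound {z : ℝ} (hz : 0 < z) (t : ℝ) : |gk z t| ≤ 1 / (2 * z) := by
  rw [abs_of_nonneg (gk_nonneg hz t)]
  unfold gk
  rw [div_le_div_iff_of_pos_right (by positivity)]
  rw [Real.exp_le_one_iff]
  have : 0 ≤ z * |t| := by positivity
  linarith

lemma neg_skern_bound {z : ℝ} (hz : 0 < z) (t : ℝ) : |-skern z t| ≤ 1 / 2 := by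
  rw [abs_neg]
  refine (abs_skern_le z t).trans ?_
  have : exp (-(z * |t|)) ≤ 1 := by
    rw [Real.exp_le_one_iff]
    have : 0 ≤ z * |t| := by positivity
    linarith
  linarith

lemma gk_even (z t : ℝ) : gk z (-t) = gk z t := by
  unfold gk
  rw [abs_neg]

lemma skern_odd (z t : ℝ) : skern z (-t) = -skern z t := by
  unfold skern
  rw [abs_neg, Real.sign_neg]
  ring

lemma measurable_neg_skern (z : ℝ) : Measurable (fun t => -skern z t) := (measurable_skern z).neg

lemma hasDerivAt_gk {z t : ℝ} (hz : 0 < z) (ht : t ≠ 0) : HasDerivAt (gk z) (-skern z t) t := by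
  rcases lt_or_gt_of_ne ht with h | h
  · have h1 : HasDerivAt (fun s : ℝ => |s|) (-1) t := hasDerivAt_abs_neg h
    have h2 := (((h1.const_mul z).fun_neg).exp).div_const (2 * z)
    unfold gk
    refine h2.congr_deriv ?_
    rw [skern_neg' h, abs_of_neg h]
    have : -(z * -t) = z * t := by ring
    rw [this]
    field_simp
  · have h1 : HasDerivAt (fun s : ℝ => |s|) 1 t := hasDerivAt_abs_pos h
    have h2 := (((h1.const_mul z).fun_neg).exp).div_const (2 * z)
    unfold gk
    refine h2.congr_deriv ?_
    rw [skern_pos' h, abs_of_pos h]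
    field_simp

lemma continuous_gk (z : ℝ) : Continuous (gk z) := by
  unfold gk
  fun_prop

lemma integral_neg_skern {z : ℝ} (hz : 0 < z) (a b y : ℝ) :
    ∫ x in a..b, -skern z (x - y) = gk z (b - y) - gk z (a - y) := by
  have hs : ({y} : Set ℝ).Countable := Set.countable_singleton y
  have h1 : IntervalIntegrable (fun x => -skern z (x - y)) volume a b := by
    have : Integrable (fun x => -skern z (x - y)) := ((integrable_skern hz).comp_sub_right y).neg
    exact this.intervalIntegrable
  have h2 : Continuous (fun x => gk z (x - y)) := (continuous_gk z).comp (continuous_id.sub continuous_const)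
  refine integral_eq_of_hasDerivAt_off_countable (fun x => gk z (x - y))
    (fun x => -skern z (x - y)) hs h2.continuousOn ?_ h1
  rintro x ⟨-, hx⟩
  have hxy : x - y ≠ 0 := sub_ne_zero.mpr hx
  have h3 := hasDerivAt_gk hz hxy
  exact h3.comp_sub_const x y

section scalar
variable {z : ℝ} {u : ℝ → ℂ}

lemma pot_integrable (hz : 0 < z) (hu : Integrable u) : Integrable (pot z u) :=
  conv_integrable (measurable_gk z) (integrable_gk hz) hu

lemma dpot_integrable (hz : 0 < z) (hu : Integrable u) : Integrable (dpot z u) := by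
  have := conv_integrable (k := fun t => -skern z t) (measurable_neg_skern z)
    (integrable_skern hz).neg hu
  exact this

lemma pot_bound (hz : 0 < z) (hu : Integrable u) (x : ℝ) :
    ‖pot z u x‖ ≤ (1 / (2 * z)) * ∫ y, ‖u y‖ :=
  conv_bound (gk_bound hz) hu x

lemma dpot_bound (hz : 0 < z) (hu : Integrable u) (x : ℝ) :
    ‖dpot z u x‖ ≤ (1 / 2) * ∫ y, ‖u y‖ :=
  conv_bound (k := fun t => -skern z t) (neg_skern_bound hz) hu x

lemma pot_primitive (hz : 0 < z) (hu : Integrable u) (a b : ℝ) :
    ∫ x in a..b, dpot z u x = pot z u b - pot z u a := by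
  have key : ∀ a b : ℝ, a ≤ b → ∫ x in a..b, dpot z u x = pot z u b - pot z u a := by
    intro a b hab
    rw [intervalIntegral.integral_of_le hab]
    have hint : Integrable (uncurry fun x y : ℝ => ((-skern z (x - y) : ℝ) : ℂ) * u y)
        ((volume.restrict (Ioc a b)).prod volume) := by
      have h1 := conv_prod (k := fun t => -skern z t) (measurable_neg_skern z)
        (integrable_skern hz).neg hu
      rw [prod_restrict_eq']
      exact h1.restrict
    unfold dpot
    rw [integral_integral_swap hint]
    have hin : ∀ y, ∫ x in Ioc a b, ((-skern z (x - y) : ℝ) : ℂ) * u y =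
        ((gk z (b - y) : ℂ) * u y) - ((gk z (a - y) : ℂ) * u y) := by
      intro y
      rw [integral_mul_const, integral_complex_ofReal, ← intervalIntegral.integral_of_le hab,
        integral_neg_skern hz]
      push_cast
      ring
    simp only [hin]
    have hi : ∀ c : ℝ, Integrable (fun y => (gk z (c - y) : ℂ) * u y) := by
      intro c
      have h2 : Measurable (fun y => gk z (c - y)) := (measurable_gk z).comp (measurable_const.sub measurable_id)
      have h3 := hu.bdd_mul (c := 1 / (2 * z)) (f := fun y => (gk z (c - y) : ℂ))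
        (Complex.measurable_ofReal.comp h2).aestronglyMeasurable
        (Eventually.of_forall fun y => by
          rw [Complex.norm_real, Real.norm_eq_abs]
          exact gk_bound hz _)
      exact h3
    rw [integral_sub (hi b) (hi a)]
    rfl
  rcases le_total a b with h | h
  · exact key a b h
  · rw [intervalIntegral.integral_symm, key b a h]
    ring

lemma pot_isH1 (hz : 0 < z) (hu : Integrable u) : IsH1 (pot z u) (dpot z u) where
  memLp := memLp_of_bdd (pot_integrable hz hu) (pot_bound hz hu)
  memLp_deriv := memLp_of_bdd (dpot_integrable hz hu) (dpot_bound hz hu)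
  primitive := pot_primitive hz hu

/-- The weak equation. -/
theorem weak_scalar {ζ ζ' : ℝ → ℂ} (h : IsH1 ζ ζ') (hz : 0 < z) (hu : Integrable u) :
    (∫ x, ζ' x * dpot z u x) + ((z ^ 2 : ℝ) : ℂ) * ∫ x, ζ x * pot z u x = ∫ y, ζ y * u y := by
  have hA := pair_swap (k := fun t => -skern z t) (measurable_neg_skern z)
    (memLp_skern hz).neg h.memLp_deriv hu
  have hB := pair_swap (k := gk z) (measurable_gk z) (memLp_gk hz) h.memLp hu
  unfold dpot pot
  have e1 : ∀ t, ((-skern z (-t) : ℝ) : ℂ) = (skern z t : ℂ) := by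
    intro t
    rw [skern_odd, neg_neg]
  simp only [e1] at hA
  simp only [gk_even] at hB
  rw [hA.2, hB.2, ← integral_const_mul, ← integral_add hA.1 (hB.1.const_mul _)]
  refine integral_congr_ae (Eventually.of_forall fun y => ?_)
  simp only
  have h1 := repr_skern h hz y
  have h2 : ∫ t, (fk z t : ℂ) * ζ (y - t) = ((z ^ 2 : ℝ) : ℂ) * ∫ t, (gk z t : ℂ) * ζ (y - t) := by
    rw [← integral_const_mul]
    refine integral_congr_ae (Eventually.of_forall fun t => ?_)
    simp only
    rw [fk_eq_gk hz]
    push_cast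
    ring
  rw [h2] at h1
  rw [h1]
  ring

end scalar

lemma IsH1.star {φ v : ℝ → ℂ} (h : IsH1 φ v) :
    IsH1 (fun x => star (φ x)) (fun x => star (v x)) where
  memLp := h.memLp.star
  memLp_deriv := h.memLp_deriv.star
  primitive := by
    intro a b
    have := h.primitive a b
    simp only [Complex.star_def]
    have h2 : ∫ t in a..b, (starRingEnd ℂ) (v t) = (starRingEnd ℂ) (∫ t in a..b, v t) := by
      simp only [intervalIntegral, integral_conj, map_sub]
    rw [h2, this, map_sub]

/-! ### Vector valued potentials -/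

variable {m : ℕ} {W : ℝ → Matrix (Fin m) (Fin m) ℂ} {p : ℝ}

/-- The vector potential of a function `f`. -/
noncomputable def Pot (z : ℝ) (W : ℝ → Matrix (Fin m) (Fin m) ℂ) (f : ℝ → Fin m → ℂ) :
    ℝ → Fin m → ℂ := fun x c => pot z (fun y => (W y *ᵥ f y) c) x

/-- The derivative of the vector potential. -/
noncomputable def dPot (z : ℝ) (W : ℝ → Matrix (Fin m) (Fin m) ℂ) (f : ℝ → Fin m → ℂ) :
    ℝ → Fin m → ℂ := fun x c => dpot z (fun y => (W y *ᵥ f y) c) x

lemma Pot_H1c (hW : GoodW W p) {f : ℝ → Fin m → ℂ} (hf : Tame f) {z : ℝ} (hz : 0 < z) :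
    H1c (Pot z W f) (dPot z W f) := fun c => pot_isH1 hz (hW.integrable_u hf c)

/-- The inner product of `H¹_z`. -/
noncomputable def hzf (z : ℝ) (g g' h h' : ℝ → Fin m → ℂ) : ℂ :=
  wf (oneF m) g' h' + ((z ^ 2 : ℝ) : ℂ) * wf (oneF m) g h

lemma wf_eq_sum_u (hW : GoodW W p) {ζ ζ' f : ℝ → Fin m → ℂ} (hζ : H1c ζ ζ') (hf : Tame f) :
    wf W ζ f = ∑ c, ∫ x, star (ζ x c) * (W x *ᵥ f x) c := by
  unfold wf
  simp only [dotProduct, Pi.star_apply]
  rw [integral_finsetSum]
  intro c _
  have h1 := hW.integrable_u hf c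
  obtain ⟨C, hC⟩ := (hζ.tame).bdd
  have h2 := h1.bdd_mul (c := C) (f := fun x => star (ζ x c))
    (continuous_star.measurable.comp ((hζ.tame).meas c)).aestronglyMeasurable
    (Eventually.of_forall fun x => by
      rw [norm_star]
      exact hC x c)
  exact h2

/-- The weak equation for the vector potential. -/
theorem weak_vec (hW : GoodW W p) {ζ ζ' f : ℝ → Fin m → ℂ} (hζ : H1c ζ ζ') (hf : Tame f) {z : ℝ}
    (hz : 0 < z) : hzf z ζ ζ' (Pot z W f) (dPot z W f) = wf W ζ f := by
  have hP := Pot_H1c hW hf hz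
  unfold hzf
  rw [wf_one hζ.l2' hP.l2', wf_one hζ.l2 hP.l2, wf_eq_sum_u hW hζ hf, Finset.mul_sum,
    ← Finset.sum_add_distrib]
  refine Finset.sum_congr rfl fun c _ => ?_
  exact weak_scalar (hζ c).star hz (hW.integrable_u hf c)

end Vale.Agent.Lib.P371
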