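import Vale.Agent.Lib.P371.ResEnergy
import Vale.Agent.Lib.P371.Assemble

/-!
The evaluation functional in the resolvent frame, its norm, and the resulting pointwise
lower bound for the resolvent transforms of a Bessel family.
-/

open Real MeasureTheory Set Filter Topology Function

namespace Vale.Agent.Lib.P371

/-- The Green kernel of `-d²/dx² + a²`. -/
noncomputable def gk (a t : ℝ) : ℝ := exp (-(a * |t|)) / (2 * a)

lemma fk_eq_gk {a : ℝ} (ha : 0 < a) (t : ℝ) : fk a t = a ^ 2 * gk a t := by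
  unfold fk gk
  field_simp

lemma measurable_gk (a : ℝ) : Measurable (gk a) := by
  unfold gk
  fun_prop

lemma integrable_gk {a : ℝ} (ha : 0 < a) : Integrable (gk a) :=
  (integrable_exp_abs ha).div_const _

lemma memLp_gk {a : ℝ} (ha : 0 < a) : MemLp (gk a) 2 := by
  have h := (memLp_exp_abs ha).const_mul (1 / (2 * a))
  refine h.ae_eq (Eventually.of_forall fun t => ?_)
  show (1 / (2 * a)) * exp (-(a * |t|)) = exp (-(a * |t|)) / (2 * a)
  ring

lemma integral_three {f g h : ℝ → ℝ} (hf : Integrable f) (hg : Integrable g) (hh : Integrable h)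
    (a b c : ℝ) :
    ∫ t, (a * f t + b * g t + c * h t) = a * (∫ t, f t) + b * (∫ t, g t) + c * ∫ t, h t := by
  have h1 : Integrable (fun t => a * f t + b * g t) := (hf.const_mul a).add (hg.const_mul b)
  rw [integral_add h1 (hh.const_mul c), integral_add (hf.const_mul a) (hg.const_mul b),
    integral_const_mul, integral_const_mul, integral_const_mul]

lemma gk_nonneg {a : ℝ} (ha : 0 < a) (t : ℝ) : 0 ≤ gk a t := by
  unfold gk
  positivity

lemma integral_gk_mul {a b : ℝ} (ha : 0 < a) (hb : 0 < b) :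
    ∫ t, gk a t * gk b t = 1 / (2 * a * b * (a + b)) := by
  have h : ∀ t : ℝ, gk a t * gk b t = (1 / (4 * a * b)) * exp (-((a + b) * |t|)) := by
    intro t
    unfold gk
    have : exp (-((a + b) * |t|)) = exp (-(a * |t|)) * exp (-(b * |t|)) := by
      rw [← Real.exp_add]
      congr 1
      ring
    rw [this]
    field_simp
    ring
  simp only [h]
  rw [integral_const_mul, integral_exp_abs (by positivity)]
  field_simp
  ring

lemma integral_skern_mul {a b : ℝ} (ha : 0 < a) (hb : 0 < b) :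
    ∫ t, skern a t * skern b t = 1 / (2 * (a + b)) := by
  have hae : (fun t => skern a t * skern b t) =ᵐ[volume]
      fun t => (1 / 4) * exp (-((a + b) * |t|)) := by
    have h0 : ∀ᵐ t : ℝ, t ≠ 0 := by
      have := (Set.countable_singleton (0 : ℝ)).ae_notMem (volume : Measure ℝ)
      simpa using this
    filter_upwards [h0] with t ht
    have hsq : Real.sign t * Real.sign t = 1 := by
      rcases lt_or_gt_of_ne ht with h | h
      · rw [Real.sign_of_neg h]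
        norm_num
      · rw [Real.sign_of_pos h]
        norm_num
    unfold skern
    have : exp (-((a + b) * |t|)) = exp (-(a * |t|)) * exp (-(b * |t|)) := by
      rw [← Real.exp_add]
      congr 1
      ring
    rw [this]
    calc 1 / 2 * Real.sign t * exp (-(a * |t|)) * (1 / 2 * Real.sign t * exp (-(b * |t|)))
        = (1 / 4) * (Real.sign t * Real.sign t) * (exp (-(a * |t|)) * exp (-(b * |t|))) := by ring
      _ = _ := by rw [hsq]; ring
  rw [integral_congr_ae hae, integral_const_mul, integral_exp_abs (by positivity)]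
  field_simp
  ring

lemma pairing_half {k : ℝ → ℝ} (hk : MemLp k 2) {h : ℝ → ℂ} (hh : MemLp h 2) (x : ℝ) :
    ‖∫ t, (k t : ℂ) * h (x - t)‖ ≤ (1 / 2) * (∫ t, k t ^ 2) + (1 / 2) * ∫ y, ‖h y‖ ^ 2 := by
  have hk2 : Integrable (fun t => k t ^ 2) := hk.integrable_sq
  have hh2 : Integrable (fun y => ‖h y‖ ^ 2) := hh.integrable_norm_pow (by norm_num)
  have hs : Integrable (fun t => ‖h (x - t)‖ ^ 2) := hh2.comp_sub_left x
  have hi := integrable_real_mul_shift hk hh x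
  calc ‖∫ t, (k t : ℂ) * h (x - t)‖ ≤ ∫ t, ‖(k t : ℂ) * h (x - t)‖ :=
        norm_integral_le_integral_norm _
    _ ≤ ∫ t, ((1 / 2) * k t ^ 2 + (1 / 2) * ‖h (x - t)‖ ^ 2) := by
        refine integral_mono hi.norm ((hk2.const_mul _).add (hs.const_mul _)) fun t => ?_
        simp only [norm_mul, Complex.norm_real, Real.norm_eq_abs]
        have h3 := sq_nonneg (|k t| - ‖h (x - t)‖)
        rw [← sq_abs (k t)]
        nlinarith
    _ = _ := by
        rw [integral_add (hk2.const_mul _) (hs.const_mul _), integral_const_mul,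
          integral_const_mul, integral_sub_left_eq_self (fun y => ‖h y‖ ^ 2) volume x]

/-- Linearity of a real convolution. -/
lemma conv_add {k₁ k₂ : ℝ → ℝ} (h1 : MemLp k₁ 2) (h2 : MemLp k₂ 2) {h : ℝ → ℂ} (hh : MemLp h 2)
    (A B : ℝ) (x : ℝ) :
    ∫ t, ((A * k₁ t + B * k₂ t : ℝ) : ℂ) * h (x - t) =
      (A : ℂ) * (∫ t, (k₁ t : ℂ) * h (x - t)) + (B : ℂ) * ∫ t, (k₂ t : ℂ) * h (x - t) := by
  have i1 := integrable_real_mul_shift h1 hh x
  have i2 := integrable_real_mul_shift h2 hh x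
  rw [← integral_const_mul, ← integral_const_mul, ← integral_add (i1.const_mul _) (i2.const_mul _)]
  congr 1
  funext t
  push_cast
  ring

/-- squared kernel norm -/
noncomputable def qf (z v C : ℝ) : ℝ :=
  (2 * (1 - C) ^ 2 + 4 * (1 - C) * C * v ^ 2 + C ^ 2 * v ^ 2 * (v ^ 4 + 1)) / (4 * z)

/-- The bound for one function. -/
theorem res_functional {Φ V : ℝ → ℂ} (h : IsH1 Φ V) {z v : ℝ} (hz : 0 < z) (hv : 0 < v) (C : ℝ)
    (x : ℝ) :
    ‖Φ x - ((C * (1 - v ^ 4) : ℝ) : ℂ) * cres (z * v ^ 2) V x‖ ≤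
      (1 / 2) * qf z v C + (1 / 2) * ((∫ y, ‖V y‖ ^ 2) + z ^ 2 * ∫ y, ‖Φ y‖ ^ 2) := by
  set s := z * v ^ 2 with hs
  have hs0 : 0 < s := by positivity
  set A : ℝ := 1 - C with hA
  set B : ℝ := C * v ^ 4 with hB
  set k₁ : ℝ → ℝ := fun t => A * skern z t + B * skern s t with hk₁
  set k₂ : ℝ → ℝ := fun t => A * gk z t + B * gk s t with hk₂
  have hk₁m : MemLp k₁ 2 := ((memLp_skern hz).const_mul _).add ((memLp_skern hs0).const_mul _)
  have hk₂m : MemLp k₂ 2 := ((memLp_gk hz).const_mul _).add ((memLp_gk hs0).const_mul _)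
  set a₁ := ∫ t, (skern z t : ℂ) * V (x - t) with ha₁
  set a₂ := ∫ t, (skern s t : ℂ) * V (x - t) with ha₂
  set b₁ := ∫ t, (gk z t : ℂ) * Φ (x - t) with hb₁
  set b₂ := ∫ t, (gk s t : ℂ) * Φ (x - t) with hb₂
  have hfk : ∀ a : ℝ, 0 < a → ∫ t, (fk a t : ℂ) * Φ (x - t) =
      ((a ^ 2 : ℝ) : ℂ) * ∫ t, (gk a t : ℂ) * Φ (x - t) := by
    intro a ha
    rw [← integral_const_mul]
    congr 1
    funext t
    rw [fk_eq_gk ha]
    push_cast
    ring
  have e1 : a₁ + ((z ^ 2 : ℝ) : ℂ) * b₁ = Φ x := by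
    have := repr_skern h hz x
    rw [hfk z hz] at this
    rw [ha₁, this]
    ring
  have e2 : a₂ + ((s ^ 2 : ℝ) : ℂ) * b₂ = Φ x := by
    have := repr_skern h hs0 x
    rw [hfk s hs0] at this
    rw [ha₂, this]
    ring
  have hL : Φ x - ((C * (1 - v ^ 4) : ℝ) : ℂ) * cres s V x =
      (∫ t, (k₁ t : ℂ) * V (x - t)) + ((z ^ 2 : ℝ) : ℂ) * ∫ t, (k₂ t : ℂ) * Φ (x - t) := by
    rw [hk₁, hk₂, conv_add (memLp_skern hz) (memLp_skern hs0) h.memLp_deriv,
      conv_add (memLp_gk hz) (memLp_gk hs0) h.memLp]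
    unfold cres
    rw [← ha₁, ← ha₂, ← hb₁, ← hb₂]
    have hs2 : ((s ^ 2 : ℝ) : ℂ) = ((z ^ 2 : ℝ) : ℂ) * (v : ℂ) ^ 4 := by
      rw [hs]
      push_cast
      ring
    rw [hs2] at e2
    rw [hA, hB]
    push_cast at e1 e2 ⊢
    linear_combination (-(1 : ℂ) + C) * e1 - (C : ℂ) * e2
  rw [hL]
  have hq : (∫ t, k₁ t ^ 2) + z ^ 2 * ∫ t, k₂ t ^ 2 = qf z v C := by
    have i1 : ∫ t, k₁ t ^ 2 = A ^ 2 * (1 / (2 * (z + z))) + 2 * A * B * (1 / (2 * (z + s))) +
        B ^ 2 * (1 / (2 * (s + s))) := by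
      have m1 : Integrable fun t => skern z t * skern z t :=
        (memLp_skern hz).integrable_mul (memLp_skern hz)
      have m2 : Integrable fun t => skern z t * skern s t :=
        (memLp_skern hz).integrable_mul (memLp_skern hs0)
      have m3 : Integrable fun t => skern s t * skern s t :=
        (memLp_skern hs0).integrable_mul (memLp_skern hs0)
      have hexp : ∀ t, k₁ t ^ 2 = A ^ 2 * (skern z t * skern z t) +
          2 * A * B * (skern z t * skern s t) + B ^ 2 * (skern s t * skern s t) := by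
        intro t
        simp only [hk₁]
        ring
      simp only [hexp]
      rw [integral_three m1 m2 m3, integral_skern_mul hz hz, integral_skern_mul hz hs0,
        integral_skern_mul hs0 hs0]
    have i2 : ∫ t, k₂ t ^ 2 = A ^ 2 * (1 / (2 * z * z * (z + z))) +
        2 * A * B * (1 / (2 * z * s * (z + s))) + B ^ 2 * (1 / (2 * s * s * (s + s))) := by
      have m1 : Integrable fun t => gk z t * gk z t :=
        (memLp_gk hz).integrable_mul (memLp_gk hz)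
      have m2 : Integrable fun t => gk z t * gk s t :=
        (memLp_gk hz).integrable_mul (memLp_gk hs0)
      have m3 : Integrable fun t => gk s t * gk s t :=
        (memLp_gk hs0).integrable_mul (memLp_gk hs0)
      have hexp : ∀ t, k₂ t ^ 2 = A ^ 2 * (gk z t * gk z t) +
          2 * A * B * (gk z t * gk s t) + B ^ 2 * (gk s t * gk s t) := by
        intro t
        simp only [hk₂]
        ring
      simp only [hexp]
      rw [integral_three m1 m2 m3, integral_gk_mul hz hz, integral_gk_mul hz hs0,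
        integral_gk_mul hs0 hs0]
    rw [i1, i2, hA, hB, hs]
    unfold qf
    field_simp
    ring
  have p1 := pairing_half hk₁m h.memLp_deriv x
  have p2 := pairing_half hk₂m h.memLp x
  have hz2 : 0 ≤ z ^ 2 := by positivity
  calc ‖(∫ t, (k₁ t : ℂ) * V (x - t)) + ((z ^ 2 : ℝ) : ℂ) * ∫ t, (k₂ t : ℂ) * Φ (x - t)‖
      ≤ ‖∫ t, (k₁ t : ℂ) * V (x - t)‖ + z ^ 2 * ‖∫ t, (k₂ t : ℂ) * Φ (x - t)‖ := by
        refine (norm_add_le _ _).trans (le_of_eq ?_)
        rw [norm_mul, Complex.norm_real, Real.norm_of_nonneg hz2]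
    _ ≤ ((1 / 2) * (∫ t, k₁ t ^ 2) + (1 / 2) * ∫ y, ‖V y‖ ^ 2) +
          z ^ 2 * ((1 / 2) * (∫ t, k₂ t ^ 2) + (1 / 2) * ∫ y, ‖Φ y‖ ^ 2) :=
        add_le_add p1 (mul_le_mul_of_nonneg_left p2 hz2)
    _ = _ := by
        rw [← hq]
        ring

lemma cres_lin {n : ℕ} {u : Fin n → ℝ → ℂ} (hu : ∀ c, MemLp (u c) 2) (E : Fin n → ℂ) {s : ℝ}
    (hs : 0 < s) (x : ℝ) :
    cres s (fun y => ∑ c, E c * u c y) x = ∑ c, E c * cres s (u c) x := by
  unfold cres
  have h : ∀ t, (skern s t : ℂ) * ∑ c, E c * u c (x - t) =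
      ∑ c, E c * ((skern s t : ℂ) * u c (x - t)) := by
    intro t
    rw [Finset.mul_sum]
    refine Finset.sum_congr rfl fun c _ => ?_
    ring
  simp only [h]
  rw [integral_finsetSum _ fun c _ =>
    (integrable_real_mul_shift (memLp_skern hs) (hu c) x).const_mul _]
  refine Finset.sum_congr rfl fun c _ => ?_
  rw [integral_const_mul]

/-- The bound for a Bessel family. -/
theorem res_family {n : ℕ} {Φ V : Fin n → ℝ → ℂ} (hH : ∀ l, IsH1 (Φ l) (V l)) {z v : ℝ}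
    (hz : 0 < z) (hv : 0 < v)
    (hB : ∀ c : Fin n → ℂ, (∫ y, ‖∑ l, c l * V l y‖ ^ 2) + z ^ 2 * ∫ y, ‖∑ l, c l * Φ l y‖ ^ 2 ≤
      ∑ l, ‖c l‖ ^ 2) (C : ℝ) (x : ℝ) :
    ∑ l, ‖Φ l x - ((C * (1 - v ^ 4) : ℝ) : ℂ) * cres (z * v ^ 2) (V l) x‖ ^ 2 ≤ qf z v C := by
  set μ : ℂ := ((C * (1 - v ^ 4) : ℝ) : ℂ) with hμ
  set L : Fin n → ℂ := fun l => Φ l x - μ * cres (z * v ^ 2) (V l) x with hL
  set c : Fin n → ℂ := fun l => (starRingEnd ℂ) (L l) with hc
  set S : ℝ := ∑ l, ‖L l‖ ^ 2 with hS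
  have hHc : IsH1 (fun y => ∑ l, c l * Φ l y) (fun y => ∑ l, c l * V l y) := IsH1.lin hH c
  have h1 := res_functional hHc hz hv C x
  have hs0 : 0 < z * v ^ 2 := by positivity
  rw [cres_lin (fun l => (hH l).memLp_deriv) c hs0 x, ← hμ] at h1
  have h2 : (∑ l, c l * Φ l x) - μ * ∑ l, c l * cres (z * v ^ 2) (V l) x = (S : ℂ) := by
    rw [Finset.mul_sum, ← Finset.sum_sub_distrib, hS]
    push_cast
    refine Finset.sum_congr rfl fun l _ => ?_
    have : c l * Φ l x - μ * (c l * cres (z * v ^ 2) (V l) x) = c l * L l := by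
      simp only [hL]
      ring
    rw [this, hc]
    simp only
    rw [mul_comm, Complex.mul_conj, Complex.normSq_eq_norm_sq]
    push_cast
    rfl
  rw [h2, Complex.norm_real, Real.norm_of_nonneg (Finset.sum_nonneg fun l _ => by positivity)] at h1
  have h3 := hB c
  have h4 : ∑ l, ‖c l‖ ^ 2 = S := by
    rw [hS]
    refine Finset.sum_congr rfl fun l _ => ?_
    simp only [hc, RCLike.norm_conj]
  rw [h4] at h3
  show S ≤ _
  linarith

lemma qf_eq {z v m : ℝ} (hz : 0 < z) (hv : v ^ 2 ≠ 1) :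
    qf z v (m / (1 - v ^ 2)) = (2 - 4 * m + (2 + v ^ 2) * m ^ 2) / (4 * z) := by
  have h : 1 - v ^ 2 ≠ 0 := fun h0 => hv (by linarith)
  unfold qf
  field_simp
  ring

/-- The `ℓ²` triangle inequality. -/
lemma tri_l2 {n : ℕ} (a b : Fin n → ℂ) {μ Q : ℝ} (hμ : 0 ≤ μ) (hQ : 0 ≤ Q)
    (h : ∑ l, ‖a l - (μ : ℂ) * b l‖ ^ 2 ≤ Q ^ 2) :
    √(∑ l, ‖a l‖ ^ 2) ≤ Q + μ * √(∑ l, ‖b l‖ ^ 2) := by
  let a' : EuclideanSpace ℂ (Fin n) := WithLp.toLp 2 a
  let b' : EuclideanSpace ℂ (Fin n) := WithLp.toLp 2 b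
  have ha : ‖a'‖ = √(∑ l, ‖a l‖ ^ 2) := by
    rw [EuclideanSpace.norm_eq]
  have hb : ‖b'‖ = √(∑ l, ‖b l‖ ^ 2) := by
    rw [EuclideanSpace.norm_eq]
  have hd : ‖a' - (μ : ℂ) • b'‖ ≤ Q := by
    rw [EuclideanSpace.norm_eq]
    apply Real.sqrt_le_iff.mpr
    exact ⟨hQ, h⟩
  have ht : ‖a'‖ ≤ ‖a' - (μ : ℂ) • b'‖ + ‖(μ : ℂ) • b'‖ := by
    have := norm_add_le (a' - (μ : ℂ) • b') ((μ : ℂ) • b')
    simpa using this
  have hn : ‖(μ : ℂ) • b'‖ = μ * ‖b'‖ := by
    rw [norm_smul, Complex.norm_real, Real.norm_of_nonneg hμ]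
  rw [ha, hb] at *
  linarith

/-- The pointwise lower bound for the resolvent frame coefficient. -/
theorem res_lower {n : ℕ} {Φ V : Fin n → ℝ → ℂ} (hH : ∀ l, IsH1 (Φ l) (V l)) {z v r₀ b₀ r : ℝ}
    (hz : 0 < z) (hv : 0 < v) (hv1 : v ≠ 1)
    (hB : ∀ c : Fin n → ℂ, (∫ y, ‖∑ l, c l * V l y‖ ^ 2) + z ^ 2 * ∫ y, ‖∑ l, c l * Φ l y‖ ^ 2 ≤
      ∑ l, ‖c l‖ ^ 2) (hr₀ : 0 ≤ r₀) (hb₀ : 0 < b₀) (hrb : 2 * r₀ ^ 2 + b₀ ^ 2 = 1) (x : ℝ)
    (hr : 0 ≤ r) (hrρ : r ^ 2 = z * ∑ l, ‖Φ l x‖ ^ 2)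
    (hY : 0 ≤ 2 * r * b₀ + (2 * r * r₀ - 1) * v) :
    (2 * r * b₀ + (2 * r * r₀ - 1) * v) ^ 2 / (4 * (1 + v ^ 2) ^ 2 * b₀ ^ 2) ≤
      z * ∑ l, ‖cres (z * v ^ 2) (V l) x‖ ^ 2 := by
  have hv2 : v ^ 2 ≠ 1 := by
    intro h
    have h2 : (v - 1) * (v + 1) = 0 := by nlinarith
    rcases mul_eq_zero.mp h2 with h3 | h3
    · exact hv1 (by linarith)
    · linarith
  have hw : 1 - v ^ 2 ≠ 0 := fun h0 => hv2 (by linarith)
  set d := b₀ + r₀ * v with hd
  have hd0 : 0 < d := by positivity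
  set m := b₀ / d with hm
  set C := m / (1 - v ^ 2) with hC
  set μ : ℝ := (1 + v ^ 2) * m with hμ
  have hμ0 : 0 ≤ μ := by positivity
  have hμC : C * (1 - v ^ 4) = μ := by
    rw [hC, hμ]
    field_simp
    ring
  set Q : ℝ := v / (2 * √z * d) with hQ
  have hsz : 0 < √z := Real.sqrt_pos.mpr hz
  have hszq : √z ^ 2 = z := Real.sq_sqrt hz.le
  have hQ0 : 0 ≤ Q := by positivity
  have hqq : qf z v C = Q ^ 2 := by
    have key : 2 * d ^ 2 - 4 * b₀ * d + (2 + v ^ 2) * b₀ ^ 2 = v ^ 2 := by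
      rw [hd]
      linear_combination v ^ 2 * hrb
    have hQ2 : Q ^ 2 = v ^ 2 / (4 * z * d ^ 2) := by
      rw [hQ, div_pow, mul_pow, mul_pow, hszq]
      ring
    rw [hC, qf_eq hz hv2, hQ2, hm]
    field_simp
    linear_combination key
  have h1 := res_family hH hz hv hB C x
  rw [hμC, hqq] at h1
  have h2 := tri_l2 (fun l => Φ l x) (fun l => cres (z * v ^ 2) (V l) x) hμ0 hQ0 h1
  set ρ := ∑ l, ‖Φ l x‖ ^ 2 with hρ
  set E := ∑ l, ‖cres (z * v ^ 2) (V l) x‖ ^ 2 with hE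
  have hρ0 : 0 ≤ ρ := Finset.sum_nonneg fun l _ => by positivity
  have hE0 : 0 ≤ E := Finset.sum_nonneg fun l _ => by positivity
  have h3 : r = √z * √ρ := by
    rw [← Real.sqrt_mul hz.le, ← hrρ, Real.sqrt_sq hr]
  have h4 : √(z * E) = √z * √E := Real.sqrt_mul hz.le _
  -- multiply the triangle inequality by `2 √z d`
  set Y := 2 * r * b₀ + (2 * r * r₀ - 1) * v with hYdef
  have h5 : Y ≤ 2 * (1 + v ^ 2) * b₀ * √(z * E) := by
    have h6 : √z * √ρ ≤ √z * (Q + μ * √E) := mul_le_mul_of_nonneg_left h2 hsz.le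
    have h7 : √z * (Q + μ * √E) = v / (2 * d) + (1 + v ^ 2) * b₀ / d * (√z * √E) := by
      rw [hQ, hμ, hm]
      field_simp
    rw [← h3, h7] at h6
    rw [h4]
    have h8 : Y = 2 * d * r - v := by
      rw [hYdef, hd]
      ring
    rw [h8]
    have h9 := mul_le_mul_of_nonneg_left h6 (by positivity : 0 ≤ 2 * d)
    have h10 : 2 * d * (v / (2 * d) + (1 + v ^ 2) * b₀ / d * (√z * √E)) =
        v + 2 * (1 + v ^ 2) * b₀ * (√z * √E) := by
      field_simp
    rw [h10] at h9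
    linarith
  have h6 : Y ^ 2 ≤ (2 * (1 + v ^ 2) * b₀) ^ 2 * (z * E) := by
    have h7 := pow_le_pow_left₀ hY h5 2
    rw [mul_pow, Real.sq_sqrt (by positivity)] at h7
    exact h7
  rw [div_le_iff₀ (by positivity)]
  calc Y ^ 2 ≤ (2 * (1 + v ^ 2) * b₀) ^ 2 * (z * E) := h6
    _ = _ := by ring

/-- The density bound `z ρ ≤ 1/2`. -/
theorem res_density {n : ℕ} {Φ V : Fin n → ℝ → ℂ} (hH : ∀ l, IsH1 (Φ l) (V l)) {z : ℝ}
    (hz : 0 < z)
    (hB : ∀ c : Fin n → ℂ, (∫ y, ‖∑ l, c l * V l y‖ ^ 2) + z ^ 2 * ∫ y, ‖∑ l, c l * Φ l y‖ ^ 2 ≤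
      ∑ l, ‖c l‖ ^ 2) (x : ℝ) :
    z * ∑ l, ‖Φ l x‖ ^ 2 ≤ 1 / 2 := by
  have h1 := res_family hH hz (v := 1) (by norm_num) hB 0 x
  simp only [zero_mul, Complex.ofReal_zero, sub_zero] at h1
  have h2 : qf z 1 0 = 1 / (2 * z) := by
    unfold qf
    field_simp
    ring
  rw [h2] at h1
  rw [le_div_iff₀ (by positivity)] at h1
  have : (∑ l, ‖Φ l x‖ ^ 2) * (2 * z) ≤ 1 := by
    simpa [mul_comm, div_eq_iff, hz.ne'] using h1
  linarith

end Vale.Agent.Lib.P371
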