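import Vale.Agent.Lib.P371.ExpKernel

/-!
The square function estimate for the resolvent frame:
`∫ dx ∫_0^∞ dt 4 a² t³ |skern (a t²) * v (x)|² ≤ ‖v‖²`.
-/

open Real MeasureTheory Set Filter Topology Function

namespace Vale.Agent.Lib.P371

/-- Even exponential kernel. -/
noncomputable def ekern (P t : ℝ) : ℝ := (1 / 2) * exp (-(P * |t|))

/-- Autocorrelation of `skern`. -/
noncomputable def autoS (P u : ℝ) : ℝ := (1 / (4 * P)) * (1 - P * |u|) * exp (-(P * |u|))

/-- Autocorrelation of `ekern`. -/
noncomputable def autoE (P u : ℝ) : ℝ := (1 / (4 * P)) * (1 + P * |u|) * exp (-(P * |u|))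

lemma measurable_ekern (P : ℝ) : Measurable (ekern P) := by
  unfold ekern
  fun_prop

lemma memLp_ekern {P : ℝ} (hP : 0 < P) : MemLp (ekern P) 2 :=
  (memLp_exp_abs hP).const_mul _

lemma integrable_ekern {P : ℝ} (hP : 0 < P) : Integrable (ekern P) :=
  (integrable_exp_abs hP).const_mul _

lemma integrable_skern {P : ℝ} (hP : 0 < P) : Integrable (skern P) := by
  refine Integrable.mono' ((integrable_exp_abs hP).const_mul (1 / 2))
    (measurable_skern P).aestronglyMeasurable (Eventually.of_forall fun t => ?_)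
  rw [Real.norm_eq_abs]
  exact abs_skern_le P t

/-- Three piece evaluation of an autocorrelation. -/
lemma autocorr_generic {P u σ : ℝ} (hP : 0 < P) (hu : 0 < u) {k : ℝ → ℝ}
    (hk : Integrable (fun t => k t * k (t + u)))
    (p1 : ∀ t, t < -u → k t * k (t + u) = (1 / 4) * exp (P * u) * exp (2 * P * t))
    (p2 : ∀ t, -u < t → t < 0 → k t * k (t + u) = σ * (1 / 4) * exp (-(P * u)))
    (p3 : ∀ t, 0 < t → k t * k (t + u) = (1 / 4) * exp (-(P * u)) * exp (-(2 * P) * t)) :
    ∫ t, k t * k (t + u) = (1 / (4 * P)) * (1 + σ * (P * u)) * exp (-(P * u)) := by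
  have hsplit : ∫ t, k t * k (t + u) =
      (∫ t in Iic (-u), k t * k (t + u)) + (∫ t in Ioc (-u) 0, k t * k (t + u)) +
        ∫ t in Ioi (0 : ℝ), k t * k (t + u) := by
    have h1 : (univ : Set ℝ) = (Iic (-u) ∪ Ioc (-u) 0) ∪ Ioi 0 := by
      ext t
      simp only [mem_univ, mem_union, mem_Iic, mem_Ioc, mem_Ioi, true_iff]
      by_cases h2 : t ≤ -u
      · exact Or.inl (Or.inl h2)
      · by_cases h3 : t ≤ 0
        · exact Or.inl (Or.inr ⟨not_le.mp h2, h3⟩)
        · exact Or.inr (not_le.mp h3)
    rw [← setIntegral_univ, h1, setIntegral_union _ measurableSet_Ioi hk.integrableOn hk.integrableOn,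
      setIntegral_union _ measurableSet_Ioc hk.integrableOn hk.integrableOn]
    · rw [Set.disjoint_left]
      intro t ht ht2
      exact absurd ht2.1 (not_lt.mpr ht)
    · rw [Set.disjoint_left]
      intro t ht ht2
      rcases ht with ht | ht
      · have : t ≤ -u := ht
        have h3 : (0 : ℝ) < t := ht2
        linarith
      · have h3 : (0 : ℝ) < t := ht2
        exact absurd ht.2 (not_le.mpr h3)
  have hP2 : 0 < 2 * P := by positivity
  have i1 : ∫ t in Iic (-u), k t * k (t + u) = (1 / 4) * exp (-(P * u)) * (1 / (2 * P)) := by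
    rw [integral_Iic_eq_integral_Iio, setIntegral_congr_fun measurableSet_Iio (fun t ht => p1 t ht),
      ← integral_Iic_eq_integral_Iio, integral_const_mul, integral_exp_mul_Iic hP2]
    have : exp (P * u) * (exp (2 * P * -u) / (2 * P)) = exp (-(P * u)) * (1 / (2 * P)) := by
      have h3 : exp (2 * P * -u) = exp (-(P * u)) * exp (-(P * u)) := by
        rw [← Real.exp_add]
        congr 1
        ring
      rw [h3]
      have h4 : exp (P * u) * exp (-(P * u)) = 1 := by
        rw [← Real.exp_add]
        simp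
      field_simp
      nlinarith [h4]
    calc 1 / 4 * exp (P * u) * (exp (2 * P * -u) / (2 * P))
        = 1 / 4 * (exp (P * u) * (exp (2 * P * -u) / (2 * P))) := by ring
      _ = _ := by rw [this]; ring
  have i2 : ∫ t in Ioc (-u) 0, k t * k (t + u) = u * (σ * (1 / 4) * exp (-(P * u))) := by
    rw [integral_Ioc_eq_integral_Ioo,
      setIntegral_congr_fun measurableSet_Ioo (fun t ht => p2 t ht.1 ht.2)]
    rw [setIntegral_const]
    simp only [Real.volume_Ioo, Measure.real, smul_eq_mul]
    rw [ENNReal.toReal_ofReal (by linarith)]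
    ring
  have i3 : ∫ t in Ioi (0 : ℝ), k t * k (t + u) = (1 / 4) * exp (-(P * u)) * (1 / (2 * P)) := by
    rw [setIntegral_congr_fun measurableSet_Ioi (fun t ht => p3 t ht), integral_const_mul]
    have h0 : -(2 * P) < 0 := by linarith
    rw [integral_exp_mul_Ioi h0 0]
    simp only [mul_zero, exp_zero]
    field_simp
  rw [hsplit, i1, i2, i3]
  field_simp
  ring

lemma skern_mul_shift_integrable {P : ℝ} (hP : 0 < P) (u : ℝ) :
    Integrable (fun t => skern P t * skern P (t + u)) :=
  (memLp_skern hP).integrable_mul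
    ((memLp_skern hP).comp_measurePreserving (measurePreserving_add_right volume u))

lemma ekern_mul_shift_integrable {P : ℝ} (hP : 0 < P) (u : ℝ) :
    Integrable (fun t => ekern P t * ekern P (t + u)) :=
  (memLp_ekern hP).integrable_mul
    ((memLp_ekern hP).comp_measurePreserving (measurePreserving_add_right volume u))

/-- reflection of the autocorrelation -/
lemma autocorr_neg {k : ℝ → ℝ} (u : ℝ) :
    ∫ t, k t * k (t + -u) = ∫ t, k t * k (t + u) := by
  have := integral_add_right_eq_self (μ := volume) (fun t => k t * k (t + -u)) u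
  rw [← this]
  refine integral_congr_ae (Eventually.of_forall fun t => ?_)
  simp only
  have : t + u + -u = t := by ring
  rw [this, mul_comm]

lemma skern_pos' {P s : ℝ} (hs : 0 < s) : skern P s = (1 / 2) * exp (-(P * s)) := skern_pos hs

lemma skern_neg' {P s : ℝ} (hs : s < 0) : skern P s = -((1 / 2) * exp (P * s)) := by
  have := skern_neg (P := P) (s := -s) (by linarith)
  rw [neg_neg] at this
  rw [this]
  congr 3
  ring

lemma ekern_pos {P s : ℝ} (hs : 0 < s) : ekern P s = (1 / 2) * exp (-(P * s)) := by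
  unfold ekern
  rw [abs_of_pos hs]

lemma ekern_neg' {P s : ℝ} (hs : s < 0) : ekern P s = (1 / 2) * exp (P * s) := by
  unfold ekern
  rw [abs_of_neg hs]
  congr 2
  ring

lemma autocorr_skern {P : ℝ} (hP : 0 < P) (u : ℝ) :
    ∫ t, skern P t * skern P (t + u) = autoS P u := by
  have key : ∀ u : ℝ, 0 < u → ∫ t, skern P t * skern P (t + u) = autoS P u := by
    intro u hu
    have h := autocorr_generic (σ := -1) hP hu (skern_mul_shift_integrable hP u)
      (by
        intro t ht
        rw [skern_neg' (by linarith), skern_neg' (by linarith)]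
        have : exp (P * (t + u)) = exp (P * t) * exp (P * u) := by
          rw [← Real.exp_add]
          congr 1
          ring
        rw [this]
        have h2 : exp (2 * P * t) = exp (P * t) * exp (P * t) := by
          rw [← Real.exp_add]
          congr 1
          ring
        rw [h2]
        ring)
      (by
        intro t h1 h2
        rw [skern_neg' h2, skern_pos' (by linarith)]
        have : exp (-(P * (t + u))) = exp (-(P * t)) * exp (-(P * u)) := by
          rw [← Real.exp_add]
          congr 1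
          ring
        rw [this]
        have h3 : exp (P * t) * exp (-(P * t)) = 1 := by
          rw [← Real.exp_add]
          simp
        calc -(1 / 2 * exp (P * t)) * (1 / 2 * (exp (-(P * t)) * exp (-(P * u))))
            = -(1 / 4) * (exp (P * t) * exp (-(P * t))) * exp (-(P * u)) := by ring
          _ = _ := by rw [h3]; ring)
      (by
        intro t ht
        rw [skern_pos' ht, skern_pos' (by linarith)]
        have : exp (-(P * (t + u))) = exp (-(P * t)) * exp (-(P * u)) := by
          rw [← Real.exp_add]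
          congr 1
          ring
        rw [this]
        have h2 : exp (-(2 * P) * t) = exp (-(P * t)) * exp (-(P * t)) := by
          rw [← Real.exp_add]
          congr 1
          ring
        rw [h2]
        ring)
    rw [h]
    unfold autoS
    rw [abs_of_pos hu]
    ring
  rcases lt_trichotomy u 0 with hu | hu | hu
  · have h1 := key (-u) (by linarith)
    rw [← autocorr_neg] at h1
    simp only [neg_neg] at h1
    rw [h1]
    unfold autoS
    rw [abs_neg]
  · subst hu
    have hae : (fun t => skern P t * skern P (t + 0)) =ᵐ[volume]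
        fun t => (1 / 4) * exp (-((2 * P) * |t|)) := by
      have h0 : ∀ᵐ t : ℝ, t ≠ 0 := by
        have := (Set.countable_singleton (0 : ℝ)).ae_notMem (volume : Measure ℝ)
        simpa using this
      filter_upwards [h0] with t ht
      rw [add_zero]
      rcases lt_or_gt_of_ne ht with h | h
      · rw [skern_neg' h, abs_of_neg h]
        have h2 : exp (-(2 * P * -t)) = exp (P * t) * exp (P * t) := by
          rw [← Real.exp_add]
          congr 1
          ring
        rw [h2]
        ring
      · rw [skern_pos' h, abs_of_pos h]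
        have h2 : exp (-(2 * P * t)) = exp (-(P * t)) * exp (-(P * t)) := by
          rw [← Real.exp_add]
          congr 1
          ring
        rw [h2]
        ring
    rw [integral_congr_ae hae, integral_const_mul, integral_exp_abs (by positivity)]
    unfold autoS
    simp
    field_simp
  · exact key u hu

lemma autocorr_ekern {P : ℝ} (hP : 0 < P) (u : ℝ) :
    ∫ t, ekern P t * ekern P (t + u) = autoE P u := by
  have key : ∀ u : ℝ, 0 < u → ∫ t, ekern P t * ekern P (t + u) = autoE P u := by
    intro u hu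
    have h := autocorr_generic (σ := 1) hP hu (ekern_mul_shift_integrable hP u)
      (by
        intro t ht
        rw [ekern_neg' (by linarith), ekern_neg' (by linarith)]
        have : exp (P * (t + u)) = exp (P * t) * exp (P * u) := by
          rw [← Real.exp_add]
          congr 1
          ring
        rw [this]
        have h2 : exp (2 * P * t) = exp (P * t) * exp (P * t) := by
          rw [← Real.exp_add]
          congr 1
          ring
        rw [h2]
        ring)
      (by
        intro t h1 h2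
        rw [ekern_neg' h2, ekern_pos (by linarith)]
        have : exp (-(P * (t + u))) = exp (-(P * t)) * exp (-(P * u)) := by
          rw [← Real.exp_add]
          congr 1
          ring
        rw [this]
        have h3 : exp (P * t) * exp (-(P * t)) = 1 := by
          rw [← Real.exp_add]
          simp
        calc (1 / 2 * exp (P * t)) * (1 / 2 * (exp (-(P * t)) * exp (-(P * u))))
            = (1 / 4) * (exp (P * t) * exp (-(P * t))) * exp (-(P * u)) := by ring
          _ = _ := by rw [h3]; ring)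
      (by
        intro t ht
        rw [ekern_pos ht, ekern_pos (by linarith)]
        have : exp (-(P * (t + u))) = exp (-(P * t)) * exp (-(P * u)) := by
          rw [← Real.exp_add]
          congr 1
          ring
        rw [this]
        have h2 : exp (-(2 * P) * t) = exp (-(P * t)) * exp (-(P * t)) := by
          rw [← Real.exp_add]
          congr 1
          ring
        rw [h2]
        ring)
    rw [h]
    unfold autoE
    rw [abs_of_pos hu]
    ring
  rcases lt_trichotomy u 0 with hu | hu | hu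
  · have h1 := key (-u) (by linarith)
    rw [← autocorr_neg] at h1
    simp only [neg_neg] at h1
    rw [h1]
    unfold autoE
    rw [abs_neg]
  · subst hu
    have hform : ∀ t, ekern P t * ekern P (t + 0) = (1 / 4) * exp (-((2 * P) * |t|)) := by
      intro t
      rw [add_zero]
      unfold ekern
      have h2 : exp (-(2 * P * |t|)) = exp (-(P * |t|)) * exp (-(P * |t|)) := by
        rw [← Real.exp_add]
        congr 1
        ring
      rw [h2]
      ring
    simp only [hform]
    rw [integral_const_mul, integral_exp_abs (by positivity)]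
    unfold autoE
    simp
    field_simp
  · exact key u hu

lemma fk_eq_auto {P : ℝ} (hP : 0 < P) (u : ℝ) : fk P u = P ^ 2 * (autoS P u + autoE P u) := by
  unfold fk autoS autoE
  field_simp
  ring

/-- Domination of the autocorrelations. -/
lemma abs_autoS_le {P : ℝ} (hP : 0 < P) (u : ℝ) :
    |autoS P u| ≤ (1 / (2 * P)) * exp (-((P / 2) * |u|)) := by
  unfold autoS
  have h0 : 0 ≤ P * |u| := by positivity
  set y := P * |u| with hy
  have h1 : 1 + y / 2 ≤ exp (y / 2) := by
    have := Real.add_one_le_exp (y / 2)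
    linarith
  have h2 : exp (-y) = exp (-(y / 2)) * exp (-(y / 2)) := by
    rw [← Real.exp_add]
    congr 1
    ring
  have h3 : exp (y / 2) * exp (-(y / 2)) = 1 := by
    rw [← Real.exp_add]
    simp
  have h4 : (P / 2) * |u| = y / 2 := by
    rw [hy]
    ring
  rw [h4, abs_mul, abs_mul, abs_of_pos (exp_pos _), abs_of_pos (by positivity : 0 < 1 / (4 * P))]
  have h5 : |1 - y| ≤ 1 + y := by
    rw [abs_le]
    constructor <;> linarith
  have h6 : (1 + y) * exp (-(y / 2)) ≤ 2 := by
    have h7 : 0 < exp (-(y / 2)) := exp_pos _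
    nlinarith
  calc 1 / (4 * P) * |1 - y| * exp (-y)
      ≤ 1 / (4 * P) * (1 + y) * exp (-y) := by gcongr
    _ = 1 / (4 * P) * ((1 + y) * exp (-(y / 2))) * exp (-(y / 2)) := by rw [h2]; ring
    _ ≤ 1 / (4 * P) * 2 * exp (-(y / 2)) := by gcongr
    _ = _ := by field_simp; ring

lemma abs_autoE_le {P : ℝ} (hP : 0 < P) (u : ℝ) :
    |autoE P u| ≤ (1 / (2 * P)) * exp (-((P / 2) * |u|)) := by
  unfold autoE
  have h0 : 0 ≤ P * |u| := by positivity
  set y := P * |u| with hy
  have h1 : 1 + y / 2 ≤ exp (y / 2) := by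
    have := Real.add_one_le_exp (y / 2)
    linarith
  have h2 : exp (-y) = exp (-(y / 2)) * exp (-(y / 2)) := by
    rw [← Real.exp_add]
    congr 1
    ring
  have h3 : exp (y / 2) * exp (-(y / 2)) = 1 := by
    rw [← Real.exp_add]
    simp
  have h4 : (P / 2) * |u| = y / 2 := by
    rw [hy]
    ring
  rw [h4, abs_mul, abs_mul, abs_of_pos (exp_pos _), abs_of_pos (by positivity : 0 < 1 / (4 * P))]
  have h5 : |1 + y| ≤ 1 + y := by
    rw [abs_of_nonneg (by linarith)]
  have h6 : (1 + y) * exp (-(y / 2)) ≤ 2 := by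
    have h7 : 0 < exp (-(y / 2)) := exp_pos _
    nlinarith
  calc 1 / (4 * P) * |1 + y| * exp (-y)
      ≤ 1 / (4 * P) * (1 + y) * exp (-y) := by gcongr
    _ = 1 / (4 * P) * ((1 + y) * exp (-(y / 2))) * exp (-(y / 2)) := by rw [h2]; ring
    _ ≤ 1 / (4 * P) * 2 * exp (-(y / 2)) := by gcongr
    _ = _ := by field_simp; ring

lemma measurable_autoS_uncurry : Measurable (fun p : ℝ × ℝ => autoS p.1 p.2) := by
  unfold autoS
  fun_prop

lemma measurable_autoE_uncurry : Measurable (fun p : ℝ × ℝ => autoE p.1 p.2) := by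
  unfold autoE
  fun_prop

section
variable {v : ℝ → ℝ}

lemma integrable_dom_auto {v : ℝ → ℝ} (hv : Measurable v) (hv2 : Integrable (fun x => v x ^ 2))
    {g : ℝ → ℝ} (hgm : Measurable g) {P : ℝ} (hP : 0 < P) {K : ℝ}
    (hg : ∀ u, |g u| ≤ K * exp (-((P / 2) * |u|))) :
    Integrable (fun u => g u * auto v u) := by
  have hC := abs_auto_le hv hv2
  have hAm := measurable_auto hv
  have hi : Integrable (fun u : ℝ => K * exp (-((P / 2) * |u|)) * ∫ x, v x ^ 2) :=
    ((integrable_exp_abs (a := P / 2) (by positivity)).const_mul K).mul_const _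
  refine Integrable.mono' hi (hgm.mul hAm).aestronglyMeasurable (Eventually.of_forall fun u => ?_)
  rw [Real.norm_eq_abs, abs_mul]
  exact mul_le_mul (hg u) (hC u) (abs_nonneg _) ((abs_nonneg _).trans (hg u))

lemma fk_form_nonneg {P : ℝ} (hP : 0 < P) (hv : Measurable v)
    (hv2 : Integrable (fun x => v x ^ 2)) : 0 ≤ ∫ u, fk P u * auto v u := by
  have h1 := conv_sq (measurable_skern P) (integrable_skern hP) hv hv2
  have h2 := conv_sq (measurable_ekern P) (integrable_ekern hP) hv hv2
  simp only [autocorr_skern hP] at h1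
  simp only [autocorr_ekern hP] at h2
  have hmS : Measurable (autoS P) := measurable_autoS_uncurry.comp (measurable_const.prodMk measurable_id)
  have hmE : Measurable (autoE P) := measurable_autoE_uncurry.comp (measurable_const.prodMk measurable_id)
  have hiS := integrable_dom_auto hv hv2 hmS hP (abs_autoS_le hP)
  have hiE := integrable_dom_auto hv hv2 hmE hP (abs_autoE_le hP)
  have hform : ∀ u, fk P u * auto v u = P ^ 2 * (autoS P u * auto v u + autoE P u * auto v u) := by
    intro u
    rw [fk_eq_auto hP]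
    ring
  simp only [hform]
  rw [integral_const_mul, integral_add hiS hiE, ← h1.2, ← h2.2]
  have h3 : 0 ≤ ∫ x, (∫ t, skern P t * v (x - t)) ^ 2 := integral_nonneg fun x => sq_nonneg _
  have h4 : 0 ≤ ∫ x, (∫ t, ekern P t * v (x - t)) ^ 2 := integral_nonneg fun x => sq_nonneg _
  positivity

lemma fk_nonneg {P : ℝ} (hP : 0 < P) (u : ℝ) : 0 ≤ fk P u := by
  unfold fk
  positivity

lemma integrable_fk_auto {P : ℝ} (hP : 0 < P) (hv : Measurable v)
    (hv2 : Integrable (fun x => v x ^ 2)) : Integrable (fun u => fk P u * auto v u) := by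
  have hC := abs_auto_le hv hv2
  have hAm := measurable_auto hv
  refine Integrable.mono' ((integrable_fk hP).mul_const (∫ x, v x ^ 2))
    ((measurable_fk P).mul hAm).aestronglyMeasurable (Eventually.of_forall fun u => ?_)
  rw [Real.norm_eq_abs, abs_mul, abs_of_nonneg (fk_nonneg hP u)]
  exact mul_le_mul_of_nonneg_left (hC u) (fk_nonneg hP u)

lemma fk_form_le {P : ℝ} (hP : 0 < P) (hv : Measurable v)
    (hv2 : Integrable (fun x => v x ^ 2)) : ∫ u, fk P u * auto v u ≤ ∫ x, v x ^ 2 := by
  have hC := abs_auto_le hv hv2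
  calc ∫ u, fk P u * auto v u ≤ ∫ u, fk P u * ∫ x, v x ^ 2 := by
        refine integral_mono (integrable_fk_auto hP hv hv2) ((integrable_fk hP).mul_const _) fun u => ?_
        exact mul_le_mul_of_nonneg_left ((le_abs_self _).trans (hC u)) (fk_nonneg hP u)
    _ = ∫ x, v x ^ 2 := by
        rw [integral_mul_const, integral_fk hP, one_mul]

/-- derivative in the frame parameter -/
lemma hasDerivAt_fk_param {a t : ℝ} (ha : 0 < a) (ht : 0 < t) (u : ℝ) :
    HasDerivAt (fun t => fk (a * t ^ 2) u) (4 * a ^ 2 * t ^ 3 * autoS (a * t ^ 2) u) t := by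
  unfold fk autoS
  have h1 : HasDerivAt (fun t : ℝ => a * t ^ 2) (a * (2 * t)) t := by
    have := (hasDerivAt_pow 2 t).const_mul a
    simpa using this
  have h2 : HasDerivAt (fun t : ℝ => a * t ^ 2 / 2) (a * (2 * t) / 2) t := h1.div_const 2
  have h3 : HasDerivAt (fun t : ℝ => -(a * t ^ 2 * |u|)) (-(a * (2 * t) * |u|)) t :=
    (h1.mul_const _).neg
  have h4 := h2.mul h3.exp
  refine h4.congr_deriv ?_
  have h5 : a ≠ 0 := ha.ne'
  have h6 : t ≠ 0 := ht.ne'
  field_simp
  ring

lemma continuous_param {a : ℝ} (ha : 0 < a) (u : ℝ) {ε Λ : ℝ} (hε : 0 < ε) (h : ε ≤ Λ) :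
    ContinuousOn (fun t => 4 * a ^ 2 * t ^ 3 * autoS (a * t ^ 2) u) (uIcc ε Λ) := by
  rw [uIcc_of_le h]
  intro t ht
  have ht0 : 0 < t := hε.trans_le ht.1
  apply ContinuousAt.continuousWithinAt
  unfold autoS
  have h2 : 4 * (a * t ^ 2) ≠ 0 := by positivity
  fun_prop (disch := assumption)

lemma integral_param {a ε Λ : ℝ} (ha : 0 < a) (hε : 0 < ε) (h : ε ≤ Λ) (u : ℝ) :
    ∫ t in Ioc ε Λ, 4 * a ^ 2 * t ^ 3 * autoS (a * t ^ 2) u =
      fk (a * Λ ^ 2) u - fk (a * ε ^ 2) u := by
  rw [← intervalIntegral.integral_of_le h]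
  have hd : ∀ t ∈ uIcc ε Λ, HasDerivAt (fun t => fk (a * t ^ 2) u)
      (4 * a ^ 2 * t ^ 3 * autoS (a * t ^ 2) u) t := by
    intro t ht
    rw [uIcc_of_le h] at ht
    exact hasDerivAt_fk_param ha (hε.trans_le ht.1) u
  rw [intervalIntegral.integral_eq_sub_of_hasDerivAt hd
    (continuous_param ha u hε h).intervalIntegrable]

/-- `cres` in real version. -/
noncomputable def rres (s : ℝ) (v : ℝ → ℝ) (x : ℝ) : ℝ := ∫ t, skern s t * v (x - t)

lemma rres_energy {s : ℝ} (hs : 0 < s) (hv : Measurable v)
    (hv2 : Integrable (fun x => v x ^ 2)) :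
    Integrable (fun x => rres s v x ^ 2) ∧
      ∫ x, rres s v x ^ 2 = ∫ u, autoS s u * auto v u := by
  have h := conv_sq (measurable_skern s) (integrable_skern hs) hv hv2
  simp only [autocorr_skern hs] at h
  exact h

lemma prod_restrict_eq' (ε Λ : ℝ) :
    (volume.restrict (Ioc ε Λ)).prod (volume : Measure ℝ) =
      ((volume : Measure ℝ).prod (volume : Measure ℝ)).restrict (Ioc ε Λ ×ˢ univ) := by
  rw [← Measure.prod_restrict, Measure.restrict_univ]

lemma integrable_param_auto {a ε Λ : ℝ} (ha : 0 < a) (hε : 0 < ε) (h : ε ≤ Λ) (hv : Measurable v)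
    (hv2 : Integrable (fun x => v x ^ 2)) :
    Integrable (uncurry fun t u => 4 * a ^ 2 * t ^ 3 * autoS (a * t ^ 2) u * auto v u)
      ((volume.restrict (Ioc ε Λ)).prod volume) := by
  have hΛ : 0 < Λ := hε.trans_le h
  have hAm := measurable_auto hv
  have hC := abs_auto_le hv hv2
  have hI0 : 0 ≤ ∫ x, v x ^ 2 := integral_nonneg fun x => sq_nonneg _
  set P0 : ℝ := a * ε ^ 2 with hP0
  have hP0pos : 0 < P0 := by positivity
  set K : ℝ := 4 * a ^ 2 * Λ ^ 3 * (1 / (2 * P0)) with hK
  have hK0 : 0 ≤ K := by positivity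
  set dom : ℝ → ℝ := fun u => K * exp (-((P0 / 2) * |u|)) with hdom
  have hdomi : Integrable dom := (integrable_exp_abs (a := P0 / 2) (by positivity)).const_mul K
  have hfin : IsFiniteMeasure (volume.restrict (Ioc ε Λ)) := ⟨by simp⟩
  have hg : Integrable (fun q : ℝ × ℝ => (∫ x, v x ^ 2) * ((1 : ℝ) * dom q.2))
      ((volume.restrict (Ioc ε Λ)).prod volume) :=
    ((integrable_const (1 : ℝ)).mul_prod hdomi).const_mul _
  have hm : Measurable (uncurry fun t u => 4 * a ^ 2 * t ^ 3 * autoS (a * t ^ 2) u * auto v u) := by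
    simp only [uncurry_def]
    have h1 : Measurable (fun q : ℝ × ℝ => autoS (a * q.1 ^ 2) q.2) :=
      measurable_autoS_uncurry.comp ((measurable_const.mul (measurable_fst.pow_const 2)).prodMk
        measurable_snd)
    fun_prop
  refine Integrable.mono' hg hm.aestronglyMeasurable ?_
  rw [prod_restrict_eq']
  refine ae_restrict_of_forall_mem (measurableSet_Ioc.prod MeasurableSet.univ) ?_
  rintro ⟨t, u⟩ ⟨ht, -⟩
  have ht1 : ε < t := ht.1
  have ht2 : t ≤ Λ := ht.2
  have ht0 : 0 < t := hε.trans ht1
  simp only [uncurry_apply_pair, Real.norm_eq_abs, one_mul]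
  have hs0 : P0 ≤ a * t ^ 2 := by
    rw [hP0]
    have : ε ^ 2 ≤ t ^ 2 := by gcongr
    exact mul_le_mul_of_nonneg_left this ha.le
  have h1 := abs_autoS_le (P := a * t ^ 2) (by positivity) u
  have h2 : (1 / (2 * (a * t ^ 2))) * exp (-((a * t ^ 2 / 2) * |u|)) ≤
      (1 / (2 * P0)) * exp (-((P0 / 2) * |u|)) := by
    have h3 : 1 / (2 * (a * t ^ 2)) ≤ 1 / (2 * P0) := by
      apply one_div_le_one_div_of_le (by positivity)
      linarith
    have h4 : exp (-((a * t ^ 2 / 2) * |u|)) ≤ exp (-((P0 / 2) * |u|)) := by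
      apply Real.exp_le_exp.mpr
      have : (P0 / 2) * |u| ≤ (a * t ^ 2 / 2) * |u| :=
        mul_le_mul_of_nonneg_right (by linarith) (abs_nonneg u)
      linarith
    exact mul_le_mul h3 h4 (exp_pos _).le (by positivity)
  have h5 : 4 * a ^ 2 * t ^ 3 ≤ 4 * a ^ 2 * Λ ^ 3 := by
    have : t ^ 3 ≤ Λ ^ 3 := by gcongr
    exact mul_le_mul_of_nonneg_left this (by positivity)
  rw [abs_mul, abs_mul, abs_of_pos (by positivity : 0 < 4 * a ^ 2 * t ^ 3)]
  have h6 : 4 * a ^ 2 * t ^ 3 * |autoS (a * t ^ 2) u| ≤ dom u := by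
    simp only [hdom, hK]
    calc 4 * a ^ 2 * t ^ 3 * |autoS (a * t ^ 2) u|
        ≤ 4 * a ^ 2 * Λ ^ 3 * ((1 / (2 * P0)) * exp (-((P0 / 2) * |u|))) :=
          mul_le_mul h5 (h1.trans h2) (abs_nonneg _) (by positivity)
      _ = _ := by ring
  have h7 : 0 ≤ dom u := by
    simp only [hdom]
    positivity
  calc 4 * a ^ 2 * t ^ 3 * |autoS (a * t ^ 2) u| * |auto v u|
      ≤ dom u * ∫ x, v x ^ 2 := mul_le_mul h6 (hC u) (abs_nonneg _) h7
    _ = _ := by ring

/-- truncated square function estimate -/
lemma truncated_res {a ε Λ : ℝ} (ha : 0 < a) (hε : 0 < ε) (h : ε ≤ Λ) (hv : Measurable v)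
    (hv2 : Integrable (fun x => v x ^ 2)) :
    IntegrableOn (fun t => 4 * a ^ 2 * t ^ 3 * ∫ x, rres (a * t ^ 2) v x ^ 2) (Ioc ε Λ) ∧
      ∫ t in Ioc ε Λ, 4 * a ^ 2 * t ^ 3 * ∫ x, rres (a * t ^ 2) v x ^ 2 ≤ ∫ x, v x ^ 2 := by
  have hΛ : 0 < Λ := hε.trans_le h
  have hint := integrable_param_auto ha hε h hv hv2
  have hform : ∀ t ∈ Ioc ε Λ, 4 * a ^ 2 * t ^ 3 * ∫ x, rres (a * t ^ 2) v x ^ 2 =
      ∫ u, 4 * a ^ 2 * t ^ 3 * autoS (a * t ^ 2) u * auto v u := by
    intro t ht
    have ht0 : 0 < t := hε.trans ht.1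
    rw [(rres_energy (s := a * t ^ 2) (by positivity) hv hv2).2, ← integral_const_mul]
    congr 1
    funext u
    ring
  constructor
  · have := hint.integral_prod_left
    refine IntegrableOn.congr_fun this ?_ measurableSet_Ioc
    intro t ht
    exact (hform t ht).symm
  · rw [setIntegral_congr_fun measurableSet_Ioc hform]
    rw [integral_integral_swap hint]
    have hin : ∀ u, ∫ t in Ioc ε Λ, 4 * a ^ 2 * t ^ 3 * autoS (a * t ^ 2) u * auto v u =
        fk (a * Λ ^ 2) u * auto v u - fk (a * ε ^ 2) u * auto v u := by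
      intro u
      rw [integral_mul_const, integral_param ha hε h u]
      ring
    simp only [hin]
    rw [integral_sub (integrable_fk_auto (by positivity) hv hv2)
      (integrable_fk_auto (by positivity) hv hv2)]
    have h1 := fk_form_le (P := a * Λ ^ 2) (by positivity) hv hv2
    have h2 := fk_form_nonneg (P := a * ε ^ 2) (by positivity) hv hv2
    linarith

lemma measurable_skern_uncurry : Measurable (fun p : ℝ × ℝ => skern p.1 p.2) := by
  unfold skern
  have h : Measurable (fun p : ℝ × ℝ => Real.sign p.2) := by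
    have : Measurable Real.sign := by
      unfold Real.sign
      refine Measurable.ite measurableSet_Iio measurable_const ?_
      exact Measurable.ite measurableSet_Ioi measurable_const measurable_const
    exact this.comp measurable_snd
  fun_prop

lemma measurable_rres (hv : Measurable v) :
    Measurable (fun p : ℝ × ℝ => rres p.1 v p.2) := by
  unfold rres
  have h : StronglyMeasurable (fun q : (ℝ × ℝ) × ℝ => skern q.1.1 q.2 * v (q.1.2 - q.2)) := by
    apply Measurable.stronglyMeasurable
    have h1 : Measurable (fun q : (ℝ × ℝ) × ℝ => skern q.1.1 q.2) :=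
      measurable_skern_uncurry.comp ((measurable_fst.comp measurable_fst).prodMk measurable_snd)
    fun_prop
  exact (h.integral_prod_right (ν := volume)).measurable

/-- The square function estimate for real functions. -/
theorem energy_res_real {a : ℝ} (ha : 0 < a) (hv : Measurable v)
    (hv2 : Integrable (fun x => v x ^ 2)) :
    ∫⁻ x, ∫⁻ t in Ioi (0 : ℝ), ENNReal.ofReal (4 * a ^ 2 * t ^ 3 * rres (a * t ^ 2) v x ^ 2) ≤
      ENNReal.ofReal (∫ x, v x ^ 2) := by
  have hm1 : Measurable (fun p : ℝ × ℝ => rres (a * p.2 ^ 2) v p.1) :=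
    (measurable_rres hv).comp ((measurable_const.mul (measurable_snd.pow_const 2)).prodMk measurable_fst)
  have hm : Measurable (uncurry fun (x t : ℝ) =>
      ENNReal.ofReal (4 * a ^ 2 * t ^ 3 * rres (a * t ^ 2) v x ^ 2)) := by
    simp only [uncurry_def]
    fun_prop
  rw [lintegral_lintegral_swap hm.aemeasurable]
  -- exhaustion
  set s : ℕ → Set ℝ := fun n => Ioc (1 / ((n : ℝ) + 1)) ((n : ℝ) + 1) with hs
  have hU : Ioi (0 : ℝ) = ⋃ n, s n := by
    ext r
    simp only [mem_Ioi, mem_iUnion, hs, mem_Ioc]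
    constructor
    · intro hr
      obtain ⟨n, hn⟩ := exists_nat_gt (max r (1 / r))
      have h1 : r < n := (le_max_left _ _).trans_lt hn
      have h2 : 1 / r < n := (le_max_right _ _).trans_lt hn
      refine ⟨n, ?_, by linarith⟩
      have hn0 : (0 : ℝ) < n := (hr.trans h1)
      rw [div_lt_iff₀ (by positivity)]
      rw [div_lt_iff₀ hr] at h2
      nlinarith
    · rintro ⟨n, h1, -⟩
      exact lt_trans (by positivity) h1
  have hd : Directed (· ⊆ ·) s := by
    apply Monotone.directed_le
    intro a b hab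
    simp only [hs]
    apply Ioc_subset_Ioc
    · apply one_div_le_one_div_of_le (by positivity)
      have : (a : ℝ) ≤ b := by exact_mod_cast hab
      linarith
    · have : (a : ℝ) ≤ b := by exact_mod_cast hab
      linarith
  rw [hU, setLIntegral_iUnion_of_directed _ hd]
  apply iSup_le
  intro n
  have hε : (0 : ℝ) < 1 / ((n : ℝ) + 1) := by positivity
  have hle : 1 / ((n : ℝ) + 1) ≤ (n : ℝ) + 1 := by
    rw [div_le_iff₀ (by positivity)]
    have : (0 : ℝ) ≤ n := by positivity
    nlinarith
  have ht := truncated_res ha hε hle hv hv2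
  have hin : ∀ t ∈ s n, ∫⁻ x, ENNReal.ofReal (4 * a ^ 2 * t ^ 3 * rres (a * t ^ 2) v x ^ 2) =
      ENNReal.ofReal (4 * a ^ 2 * t ^ 3 * ∫ x, rres (a * t ^ 2) v x ^ 2) := by
    intro t ht
    have ht0 : 0 < t := hε.trans ht.1
    have hie := (rres_energy (s := a * t ^ 2) (by positivity) hv hv2).1
    rw [← integral_const_mul, ofReal_integral_eq_lintegral_ofReal (hie.const_mul _)]
    exact Eventually.of_forall fun x => by positivity
  rw [setLIntegral_congr_fun (measurableSet_Ioc) hin]
  have hnn : 0 ≤ᵐ[volume.restrict (s n)] fun t => 4 * a ^ 2 * t ^ 3 * ∫ x, rres (a * t ^ 2) v x ^ 2 := by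
    refine ae_restrict_of_forall_mem measurableSet_Ioc fun t ht => ?_
    have ht0 : 0 < t := hε.trans ht.1
    have : 0 ≤ ∫ x, rres (a * t ^ 2) v x ^ 2 := integral_nonneg fun x => sq_nonneg _
    simp only [Pi.zero_apply]
    positivity
  rw [← ofReal_integral_eq_lintegral_ofReal ht.1 hnn]
  exact ENNReal.ofReal_le_ofReal ht.2

end

/-- The resolvent transform of a complex function. -/
noncomputable def cres (s : ℝ) (v : ℝ → ℂ) (x : ℝ) : ℂ := ∫ t, (skern s t : ℂ) * v (x - t)

lemma cres_congr {v u : ℝ → ℂ} (h : v =ᵐ[volume] u) (s x : ℝ) : cres s v x = cres s u x := by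
  unfold cres
  apply integral_congr_ae
  have := (Measure.measurePreserving_sub_left volume x).quasiMeasurePreserving.ae_eq h
  filter_upwards [this] with t ht
  simp only [Function.comp] at ht
  rw [ht]

lemma re_cres {s : ℝ} (hs : 0 < s) {v : ℝ → ℂ} (hv : MemLp v 2) (x : ℝ) :
    (cres s v x).re = rres s (fun y => (v y).re) x := by
  unfold cres rres
  have := integral_re (𝕜 := ℂ) (integrable_real_mul_shift (memLp_skern hs) hv x)
  simp only [RCLike.re_to_complex] at this
  rw [← this]
  congr 1
  funext t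
  simp

lemma im_cres {s : ℝ} (hs : 0 < s) {v : ℝ → ℂ} (hv : MemLp v 2) (x : ℝ) :
    (cres s v x).im = rres s (fun y => (v y).im) x := by
  unfold cres rres
  have := integral_im (𝕜 := ℂ) (integrable_real_mul_shift (memLp_skern hs) hv x)
  simp only [RCLike.im_to_complex] at this
  rw [← this]
  congr 1
  funext t
  simp

lemma norm_cres_sq {s : ℝ} (hs : 0 < s) {v : ℝ → ℂ} (hv : MemLp v 2) (x : ℝ) :
    ‖cres s v x‖ ^ 2 = rres s (fun y => (v y).re) x ^ 2 + rres s (fun y => (v y).im) x ^ 2 := by
  rw [← re_cres hs hv, ← im_cres hs hv, Complex.sq_norm, Complex.normSq_apply]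
  ring

/-- The square function estimate for complex-valued functions. -/
theorem energy_res_complex {a : ℝ} (ha : 0 < a) {v : ℝ → ℂ} (hv : MemLp v 2) :
    ∫⁻ x, ∫⁻ t in Ioi (0 : ℝ), ENNReal.ofReal (4 * a ^ 2 * t ^ 3 * ‖cres (a * t ^ 2) v x‖ ^ 2) ≤
      ENNReal.ofReal (∫ x, ‖v x‖ ^ 2) := by
  set u := hv.1.mk v with hu
  have huv : v =ᵐ[volume] u := hv.1.ae_eq_mk
  have hum : Measurable u := hv.1.stronglyMeasurable_mk.measurable
  have hu2 : MemLp u 2 := (memLp_congr_ae huv).mp hv
  have hre : Measurable (fun y => (u y).re) := Complex.measurable_re.comp hum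
  have him : Measurable (fun y => (u y).im) := Complex.measurable_im.comp hum
  have hre2 : Integrable (fun y => (u y).re ^ 2) := by
    have := (hu2.re).integrable_sq
    simpa using this
  have him2 : Integrable (fun y => (u y).im ^ 2) := by
    have := (hu2.im).integrable_sq
    simpa using this
  have hnorm : ∫ x, ‖v x‖ ^ 2 = (∫ x, (u x).re ^ 2) + ∫ x, (u x).im ^ 2 := by
    rw [← integral_add hre2 him2]
    apply integral_congr_ae
    filter_upwards [huv] with x hx
    rw [hx, Complex.sq_norm, Complex.normSq_apply]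
    ring
  have hmm : ∀ w : ℝ → ℝ, Measurable w → ∀ x,
      Measurable (fun t : ℝ => ENNReal.ofReal (4 * a ^ 2 * t ^ 3 * rres (a * t ^ 2) w x ^ 2)) := by
    intro w hw x
    have h1 : Measurable (fun t : ℝ => rres (a * t ^ 2) w x) :=
      (measurable_rres hw).comp ((measurable_const.mul (measurable_id.pow_const 2)).prodMk measurable_const)
    fun_prop
  have hin : ∀ x, ∫⁻ t in Ioi (0 : ℝ), ENNReal.ofReal (4 * a ^ 2 * t ^ 3 * ‖cres (a * t ^ 2) v x‖ ^ 2) =
      (∫⁻ t in Ioi (0 : ℝ), ENNReal.ofReal (4 * a ^ 2 * t ^ 3 * rres (a * t ^ 2) (fun y => (u y).re) x ^ 2)) +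
        ∫⁻ t in Ioi (0 : ℝ), ENNReal.ofReal (4 * a ^ 2 * t ^ 3 * rres (a * t ^ 2) (fun y => (u y).im) x ^ 2) := by
    intro x
    rw [← lintegral_add_left (hmm _ hre x)]
    apply setLIntegral_congr_fun measurableSet_Ioi
    intro t ht
    have ht0 : (0 : ℝ) < t := ht
    simp only
    rw [cres_congr huv, norm_cres_sq (s := a * t ^ 2) (by positivity) hu2,
      ← ENNReal.ofReal_add (by positivity) (by positivity)]
    congr 1
    ring
  simp only [hin]
  have hmeas : ∀ w : ℝ → ℝ, Measurable w →
      Measurable (fun x => ∫⁻ t in Ioi (0 : ℝ),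
        ENNReal.ofReal (4 * a ^ 2 * t ^ 3 * rres (a * t ^ 2) w x ^ 2)) := by
    intro w hw
    have h1 : Measurable (fun p : ℝ × ℝ => rres (a * p.2 ^ 2) w p.1) :=
      (measurable_rres hw).comp ((measurable_const.mul (measurable_snd.pow_const 2)).prodMk measurable_fst)
    have h2 : Measurable (fun p : ℝ × ℝ => ENNReal.ofReal (4 * a ^ 2 * p.2 ^ 3 * rres (a * p.2 ^ 2) w p.1 ^ 2)) := by
      fun_prop
    exact h2.lintegral_prod_right'
  rw [lintegral_add_left (hmeas _ hre), hnorm,
    ENNReal.ofReal_add (integral_nonneg fun x => sq_nonneg _) (integral_nonneg fun x => sq_nonneg _)]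
  exact add_le_add (energy_res_real ha hre hre2) (energy_res_real ha him him2)

end Vale.Agent.Lib.P371
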