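import Vale.Agent.Lib.P371.ResBessel

/-!
The integrated lower bound on the resolvent square function at one point, for one Bessel family.
-/

open Real MeasureTheory Set Filter Topology Function

namespace Vale.Agent.Lib.P371

lemma measurable_cres {v : ℝ → ℂ} (hv : MemLp v 2) :
    Measurable (fun p : ℝ × ℝ => cres p.1 v p.2) := by
  set u := hv.1.mk v with hu
  have huv : v =ᵐ[volume] u := hv.1.ae_eq_mk
  have hum : Measurable u := hv.1.stronglyMeasurable_mk.measurable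
  have h1 : (fun p : ℝ × ℝ => cres p.1 v p.2) = fun p : ℝ × ℝ => cres p.1 u p.2 := by
    funext p
    exact cres_congr huv _ _
  rw [h1]
  unfold cres
  have h : StronglyMeasurable (fun q : (ℝ × ℝ) × ℝ => (skern q.1.1 q.2 : ℂ) * u (q.1.2 - q.2)) := by
    apply Measurable.stronglyMeasurable
    have h1 : Measurable (fun q : (ℝ × ℝ) × ℝ => skern q.1.1 q.2) :=
      measurable_skern_uncurry.comp ((measurable_fst.comp measurable_fst).prodMk measurable_snd)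
    have h2 : Measurable (fun q : (ℝ × ℝ) × ℝ => (skern q.1.1 q.2 : ℂ)) :=
      Complex.measurable_ofReal.comp h1
    fun_prop
  exact (h.integral_prod_right (ν := volume)).measurable

lemma measurable_cres_section {v : ℝ → ℂ} (hv : MemLp v 2) (z x : ℝ) :
    Measurable (fun t : ℝ => cres (z * t ^ 2) v x) :=
  (measurable_cres hv).comp ((measurable_const.mul (measurable_id.pow_const 2)).prodMk measurable_const)

/-- The Bessel condition for a scalar family. -/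
def BesselF {n : ℕ} (z : ℝ) (Φ V : Fin n → ℝ → ℂ) : Prop :=
  ∀ c : Fin n → ℂ, (∫ y, ‖∑ l, c l * V l y‖ ^ 2) + z ^ 2 * ∫ y, ‖∑ l, c l * Φ l y‖ ^ 2 ≤
    ∑ l, ‖c l‖ ^ 2

/-- The resolvent square function of a scalar family at one point. -/
noncomputable def tauR {n : ℕ} (z : ℝ) (V : Fin n → ℝ → ℂ) (x : ℝ) : ENNReal :=
  ∑ l, ∫⁻ t in Ioi (0 : ℝ), ENNReal.ofReal (4 * z ^ 2 * t ^ 3 * ‖cres (z * t ^ 2) (V l) x‖ ^ 2)

/-- Antiderivative of `t³/(1+t²)²`. -/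
noncomputable def J3 (V : ℝ) : ℝ := (1 / 2) * (log (1 + V ^ 2) + 1 / (1 + V ^ 2) - 1)
/-- Antiderivative of `t⁴/(1+t²)²`. -/
noncomputable def J4 (V : ℝ) : ℝ := V - (3 / 2) * arctan V + V / (2 * (1 + V ^ 2))
/-- Antiderivative of `t⁵/(1+t²)²`. -/
noncomputable def J5 (V : ℝ) : ℝ := (1 / 2) * (V ^ 2 - 2 * log (1 + V ^ 2) - 1 / (1 + V ^ 2) + 1)

lemma hasDerivAt_J3 (t : ℝ) : HasDerivAt J3 (t ^ 3 / (1 + t ^ 2) ^ 2) t := by
  have h0 : (1 + t ^ 2) ≠ 0 := by positivity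
  have h1 : HasDerivAt (fun t : ℝ => 1 + t ^ 2) (2 * t) t := by
    have := (hasDerivAt_pow 2 t).const_add 1
    simpa using this
  have h2 := h1.log h0
  have h3 : HasDerivAt (fun t : ℝ => 1 / (1 + t ^ 2)) (-(2 * t) / (1 + t ^ 2) ^ 2) t := by
    have := (hasDerivAt_const t (1 : ℝ)).div h1 h0
    refine this.congr_deriv ?_
    ring
  unfold J3
  have h4 := ((h2.add h3).sub_const 1).const_mul (1 / 2 : ℝ)
  refine h4.congr_deriv ?_
  field_simp
  ring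

lemma hasDerivAt_J4 (t : ℝ) : HasDerivAt J4 (t ^ 4 / (1 + t ^ 2) ^ 2) t := by
  have h0 : (1 + t ^ 2) ≠ 0 := by positivity
  have h1 : HasDerivAt (fun t : ℝ => 2 * (1 + t ^ 2)) (2 * (2 * t)) t := by
    have := ((hasDerivAt_pow 2 t).const_add 1).const_mul 2
    simpa using this
  have h3 : HasDerivAt (fun t : ℝ => t / (2 * (1 + t ^ 2)))
      ((1 * (2 * (1 + t ^ 2)) - t * (2 * (2 * t))) / (2 * (1 + t ^ 2)) ^ 2) t :=
    (hasDerivAt_id t).div h1 (by positivity)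
  have h4 := ((hasDerivAt_id t).sub ((hasDerivAt_arctan t).const_mul (3 / 2 : ℝ))).add h3
  unfold J4
  refine h4.congr_deriv ?_
  field_simp
  ring

lemma hasDerivAt_J5 (t : ℝ) : HasDerivAt J5 (t ^ 5 / (1 + t ^ 2) ^ 2) t := by
  have h0 : (1 + t ^ 2) ≠ 0 := by positivity
  have h1 : HasDerivAt (fun t : ℝ => 1 + t ^ 2) (2 * t) t := by
    have := (hasDerivAt_pow 2 t).const_add 1
    simpa using this
  have h2 := (h1.log h0).const_mul 2
  have h3 : HasDerivAt (fun t : ℝ => 1 / (1 + t ^ 2)) (-(2 * t) / (1 + t ^ 2) ^ 2) t := by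
    have := (hasDerivAt_const t (1 : ℝ)).div h1 h0
    refine this.congr_deriv ?_
    ring
  have h5 : HasDerivAt (fun t : ℝ => t ^ 2) (2 * t) t := by
    simpa using hasDerivAt_pow 2 t
  unfold J5
  have h4 := (((h5.sub h2).sub h3).add_const 1).const_mul (1 / 2 : ℝ)
  refine h4.congr_deriv ?_
  field_simp
  ring

lemma J3_zero : J3 0 = 0 := by simp [J3]
lemma J4_zero : J4 0 = 0 := by simp [J4]
lemma J5_zero : J5 0 = 0 := by simp [J5]

lemma integral_J (c₀ c₁ : ℝ) {V : ℝ} (hV : 0 ≤ V) :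
    ∫ t in Ioc 0 V, t ^ 3 * (c₀ + c₁ * t) ^ 2 / (1 + t ^ 2) ^ 2 =
      c₀ ^ 2 * J3 V + 2 * c₀ * c₁ * J4 V + c₁ ^ 2 * J5 V := by
  rw [← intervalIntegral.integral_of_le hV]
  have hd : ∀ t ∈ uIcc 0 V, HasDerivAt (fun t => c₀ ^ 2 * J3 t + 2 * c₀ * c₁ * J4 t + c₁ ^ 2 * J5 t)
      (t ^ 3 * (c₀ + c₁ * t) ^ 2 / (1 + t ^ 2) ^ 2) t := by
    intro t _
    have h := (((hasDerivAt_J3 t).const_mul (c₀ ^ 2)).add
      ((hasDerivAt_J4 t).const_mul (2 * c₀ * c₁))).add ((hasDerivAt_J5 t).const_mul (c₁ ^ 2))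
    refine h.congr_deriv ?_
    have h0 : (1 + t ^ 2) ≠ 0 := by positivity
    field_simp
    ring
  have hc : Continuous (fun t : ℝ => t ^ 3 * (c₀ + c₁ * t) ^ 2 / (1 + t ^ 2) ^ 2) := by
    refine Continuous.div (by fun_prop) (by fun_prop) fun t => ?_
    positivity
  rw [intervalIntegral.integral_eq_sub_of_hasDerivAt hd (hc.intervalIntegrable _ _)]
  simp only [J3_zero, J4_zero, J5_zero]
  ring

/-- The integrated lower bound (as a function of `r = √(z ρ)`). -/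
noncomputable def Jint (r₀ b₀ V₀ r : ℝ) : ℝ :=
  (1 / b₀ ^ 2) * ((2 * r * b₀) ^ 2 * J3 V₀ + 2 * (2 * r * b₀) * (2 * r * r₀ - 1) * J4 V₀ +
    (2 * r * r₀ - 1) ^ 2 * J5 V₀)

lemma measurable_term {v : ℝ → ℂ} (hv : MemLp v 2) (z x : ℝ) :
    Measurable (fun t : ℝ => ENNReal.ofReal (4 * z ^ 2 * t ^ 3 * ‖cres (z * t ^ 2) v x‖ ^ 2)) := by
  have h1 := measurable_cres_section hv z x
  fun_prop

/-- The integrated lower bound. -/
theorem tauR_lower {n : ℕ} {Φ V : Fin n → ℝ → ℂ} (hH : ∀ l, IsH1 (Φ l) (V l)) {z r₀ b₀ V₀ r : ℝ}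
    (hz : 0 < z) (hB : BesselF z Φ V) (hr₀ : 0 ≤ r₀) (hb₀ : 0 < b₀)
    (hrb : 2 * r₀ ^ 2 + b₀ ^ 2 = 1) (hV₀ : 0 < V₀) (x : ℝ) (hr : 0 ≤ r)
    (hrρ : r ^ 2 = z * ∑ l, ‖Φ l x‖ ^ 2) (hrl : V₀ / (2 * (b₀ + r₀ * V₀)) ≤ r) :
    ENNReal.ofReal (z * Jint r₀ b₀ V₀ r) ≤ tauR z V x := by
  set c₀ := 2 * r * b₀ with hc₀
  set c₁ := 2 * r * r₀ - 1 with hc₁
  set g : ℝ → ℝ := fun t => z * ((1 / b₀ ^ 2) * (t ^ 3 * (c₀ + c₁ * t) ^ 2 / (1 + t ^ 2) ^ 2)) with hg
  have hgc : Continuous g := by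
    have hc : Continuous (fun t : ℝ => t ^ 3 * (c₀ + c₁ * t) ^ 2 / (1 + t ^ 2) ^ 2) := by
      refine Continuous.div (by fun_prop) (by fun_prop) fun t => ?_
      positivity
    exact continuous_const.mul (continuous_const.mul hc)
  have hgi : IntegrableOn g (Ioc 0 V₀) := hgc.integrableOn_Ioc
  have hval : ∫ t in Ioc 0 V₀, g t = z * Jint r₀ b₀ V₀ r := by
    simp only [hg]
    rw [integral_const_mul, integral_const_mul, integral_J c₀ c₁ hV₀.le]
    rfl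
  rw [← hval]
  have h0 : ∀ᵐ t : ℝ, t ≠ 1 := by
    have := (Set.countable_singleton (1 : ℝ)).ae_notMem (volume : Measure ℝ)
    simpa using this
  have hsum : ∀ t, ENNReal.ofReal (∑ l, 4 * z ^ 2 * t ^ 3 * ‖cres (z * t ^ 2) (V l) x‖ ^ 2) =
      ∑ l, ENNReal.ofReal (4 * z ^ 2 * t ^ 3 * ‖cres (z * t ^ 2) (V l) x‖ ^ 2) ∨ t ≤ 0 := by
    intro t
    rcases le_or_gt t 0 with h | h
    · exact Or.inr h
    · left
      exact ENNReal.ofReal_sum_of_nonneg fun l _ => by positivity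
  calc ENNReal.ofReal (∫ t in Ioc 0 V₀, g t)
      ≤ ∫⁻ t in Ioc 0 V₀, ENNReal.ofReal (g t) := ofReal_integral_le hgi
    _ ≤ ∫⁻ t in Ioc 0 V₀, ∑ l, ENNReal.ofReal (4 * z ^ 2 * t ^ 3 * ‖cres (z * t ^ 2) (V l) x‖ ^ 2) := by
        refine lintegral_mono_ae ?_
        rw [ae_restrict_iff' measurableSet_Ioc]
        filter_upwards [h0] with t ht1 ht
        have ht0 : 0 < t := ht.1
        have htV : t ≤ V₀ := ht.2
        rcases hsum t with hs | hs
        · rw [← hs]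
          apply ENNReal.ofReal_le_ofReal
          have hd : 0 < b₀ + r₀ * V₀ := by positivity
          have hrl' : V₀ ≤ r * (2 * (b₀ + r₀ * V₀)) := by
            rwa [div_le_iff₀ (by positivity)] at hrl
          have hY : 0 ≤ c₀ + c₁ * t := by
            have h1 : t * V₀ ≤ t * (r * (2 * (b₀ + r₀ * V₀))) :=
              mul_le_mul_of_nonneg_left hrl' ht0.le
            have h2 : 2 * r * b₀ * t ≤ 2 * r * b₀ * V₀ :=
              mul_le_mul_of_nonneg_left htV (by positivity)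
            have h3 : V₀ * t ≤ V₀ * (2 * r * b₀ + 2 * r * r₀ * t) := by
              nlinarith [h1, h2]
            have h4 : t ≤ 2 * r * b₀ + 2 * r * r₀ * t := le_of_mul_le_mul_left h3 hV₀
            rw [hc₀, hc₁]
            nlinarith [h4]
          have h5 := res_lower hH hz ht0 ht1 hB hr₀ hb₀ hrb x hr hrρ (by
            rw [← hc₀, ← hc₁]
            exact hY)
          rw [← hc₀, ← hc₁] at h5
          simp only [hg]
          rw [← Finset.mul_sum]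
          have h6 : 0 ≤ 4 * z * t ^ 3 := by positivity
          have h7 := mul_le_mul_of_nonneg_left h5 h6
          calc z * (1 / b₀ ^ 2 * (t ^ 3 * (c₀ + c₁ * t) ^ 2 / (1 + t ^ 2) ^ 2))
              = 4 * z * t ^ 3 * ((c₀ + c₁ * t) ^ 2 / (4 * (1 + t ^ 2) ^ 2 * b₀ ^ 2)) := by
                field_simp
            _ ≤ 4 * z * t ^ 3 * (z * ∑ l, ‖cres (z * t ^ 2) (V l) x‖ ^ 2) := h7
            _ = _ := by
                rw [Finset.mul_sum, Finset.mul_sum, Finset.mul_sum]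
                refine Finset.sum_congr rfl fun l _ => ?_
                ring
        · exact absurd ht0 (not_lt.mpr hs)
    _ ≤ ∫⁻ t in Ioi (0 : ℝ), ∑ l, ENNReal.ofReal (4 * z ^ 2 * t ^ 3 * ‖cres (z * t ^ 2) (V l) x‖ ^ 2) := by
        apply lintegral_mono_set
        exact Ioc_subset_Ioi_self
    _ = tauR z V x := by
        unfold tauR
        rw [lintegral_finsetSum _ fun l _ => measurable_term (hH l).memLp_deriv z x]

/-- The lower envelope property. -/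
def IsEnv (e : ℝ → ℝ) : Prop :=
  ∀ (n : ℕ) (Φ V : Fin n → ℝ → ℂ), (∀ l, IsH1 (Φ l) (V l)) → ∀ z : ℝ, 0 < z → BesselF z Φ V →
    ∀ x : ℝ, ENNReal.ofReal (z * (e (z * ∑ l, ‖Φ l x‖ ^ 2) - z * ∑ l, ‖Φ l x‖ ^ 2)) ≤ tauR z V x

lemma isEnv_of_cases {e : ℝ → ℝ}
    (h : ∀ ζ : ℝ, 0 ≤ ζ → ζ ≤ 1 / 2 → e ζ ≤ ζ ∨ ∃ r₀ b₀ V₀ : ℝ, 0 ≤ r₀ ∧ 0 < b₀ ∧
      2 * r₀ ^ 2 + b₀ ^ 2 = 1 ∧ 0 < V₀ ∧ V₀ / (2 * (b₀ + r₀ * V₀)) ≤ √ζ ∧
      e ζ - ζ ≤ Jint r₀ b₀ V₀ √ζ) : IsEnv e := by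
  intro n Φ V hH z hz hB x
  set ζ := z * ∑ l, ‖Φ l x‖ ^ 2 with hζ
  have hρ0 : 0 ≤ ∑ l, ‖Φ l x‖ ^ 2 := Finset.sum_nonneg fun l _ => by positivity
  have hζ0 : 0 ≤ ζ := mul_nonneg hz.le hρ0
  have hζ1 : ζ ≤ 1 / 2 := res_density hH hz hB x
  rcases h ζ hζ0 hζ1 with h1 | ⟨r₀, b₀, V₀, hr₀, hb₀, hrb, hV₀, hrl, hle⟩
  · have : z * (e ζ - ζ) ≤ 0 := mul_nonpos_of_nonneg_of_nonpos hz.le (by linarith)
    rw [ENNReal.ofReal_of_nonpos this]
    exact zero_le
  · refine le_trans (ENNReal.ofReal_le_ofReal ?_)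
      (tauR_lower hH hz hB hr₀ hb₀ hrb hV₀ x (Real.sqrt_nonneg ζ) (Real.sq_sqrt hζ0) hrl)
    exact mul_le_mul_of_nonneg_left hle hz.le

/-! ### The piecewise linear envelope and its Legendre transform -/

/-- Convex piecewise linear function with slopes `τ k` on `[p k, p (k+1)]`, `k < K`. -/
noncomputable def envF (τ p : ℕ → ℝ) (K : ℕ) (ζ : ℝ) : ℝ :=
  ∑ k ∈ Finset.range K, τ k * (min ζ (p (k + 1)) - min ζ (p k))

/-- The Legendre transform. -/
noncomputable def plF (τ p : ℕ → ℝ) (K : ℕ) (s : ℝ) : ℝ :=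
  ∑ k ∈ Finset.range K, (p (k + 1) - p k) * max (s - τ k) 0

lemma telescope_min (p : ℕ → ℝ) (K : ℕ) (ζ : ℝ) :
    ∑ k ∈ Finset.range K, (min ζ (p (k + 1)) - min ζ (p k)) = min ζ (p K) - min ζ (p 0) :=
  Finset.sum_range_sub (fun k => min ζ (p k)) K

/-- Legendre inequality. -/
lemma legendre_env {τ p : ℕ → ℝ} {K : ℕ} (hp : ∀ k < K, p k ≤ p (k + 1)) {ζ s : ℝ}
    (hζ0 : p 0 ≤ ζ) (hζ1 : ζ ≤ p K) (hp0 : p 0 = 0) :
    s * ζ - envF τ p K ζ ≤ plF τ p K s := by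
  have h1 := telescope_min p K ζ
  rw [min_eq_left hζ1, min_eq_right hζ0, hp0, sub_zero] at h1
  have h2 : s * ζ - envF τ p K ζ =
      ∑ k ∈ Finset.range K, (s - τ k) * (min ζ (p (k + 1)) - min ζ (p k)) := by
    unfold envF
    have h5 : s * ζ = ∑ k ∈ Finset.range K, s * (min ζ (p (k + 1)) - min ζ (p k)) := by
      rw [← Finset.mul_sum, h1]
    rw [h5, ← Finset.sum_sub_distrib]
    refine Finset.sum_congr rfl fun k _ => ?_
    ring
  rw [h2]
  unfold plF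
  refine Finset.sum_le_sum fun k hk => ?_
  have hk' := Finset.mem_range.mp hk
  have hpk := hp k hk'
  have h3 : 0 ≤ min ζ (p (k + 1)) - min ζ (p k) := by
    have : min ζ (p k) ≤ min ζ (p (k + 1)) := min_le_min le_rfl hpk
    linarith
  have h4 : min ζ (p (k + 1)) - min ζ (p k) ≤ p (k + 1) - p k := by
    rcases le_total ζ (p k) with h | h
    · rw [min_eq_left h, min_eq_left (h.trans hpk)]
      linarith
    · rw [min_eq_right h]
      have := min_le_right ζ (p (k + 1))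
      linarith
  calc (s - τ k) * (min ζ (p (k + 1)) - min ζ (p k))
      ≤ max (s - τ k) 0 * (min ζ (p (k + 1)) - min ζ (p k)) :=
        mul_le_mul_of_nonneg_right (le_max_left _ _) h3
    _ ≤ max (s - τ k) 0 * (p (k + 1) - p k) :=
        mul_le_mul_of_nonneg_left h4 (le_max_right _ _)
    _ = _ := by ring

/-- Value of the envelope on one piece. -/
lemma envF_on_piece {τ p : ℕ → ℝ} {K : ℕ} (hp : ∀ k < K, p k ≤ p (k + 1)) {k : ℕ} (hk : k < K)
    {ζ : ℝ} (h1 : p k ≤ ζ) (h2 : ζ ≤ p (k + 1)) :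
    envF τ p K ζ = (∑ j ∈ Finset.range k, τ j * (p (j + 1) - p j)) + τ k * (ζ - p k) := by
  have hmono : ∀ i j, i ≤ j → j ≤ K → p i ≤ p j := by
    intro i j hij hj
    induction j, hij using Nat.le_induction with
    | base => exact le_rfl
    | succ j hj' ih => exact (ih (by omega)).trans (hp j (by omega))
  unfold envF
  have hsplit : Finset.range K = Finset.range (k + 1) ∪ Finset.Ico (k + 1) K := by
    ext j
    simp only [Finset.mem_range, Finset.mem_union, Finset.mem_Ico]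
    omega
  have hdisj : Disjoint (Finset.range (k + 1)) (Finset.Ico (k + 1) K) := by
    rw [Finset.disjoint_left]
    intro j hj hj2
    simp only [Finset.mem_range, Finset.mem_Ico] at hj hj2
    omega
  rw [hsplit, Finset.sum_union hdisj, Finset.sum_range_succ]
  have h3 : ∑ j ∈ Finset.Ico (k + 1) K, τ j * (min ζ (p (j + 1)) - min ζ (p j)) = 0 := by
    refine Finset.sum_eq_zero fun j hj => ?_
    simp only [Finset.mem_Ico] at hj
    have h4 : ζ ≤ p j := h2.trans (hmono _ _ hj.1 (by omega))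
    have h5 : ζ ≤ p (j + 1) := h4.trans (hp j hj.2)
    rw [min_eq_left h4, min_eq_left h5]
    ring
  rw [h3, add_zero, min_eq_left h2, min_eq_right h1]
  congr 1
  refine Finset.sum_congr rfl fun j hj => ?_
  have hj' := Finset.mem_range.mp hj
  have h4 : p j ≤ ζ := (hmono _ _ (by omega) (by omega)).trans h1
  have h5 : p (j + 1) ≤ ζ := (hmono _ _ (by omega) (by omega)).trans h1
  rw [min_eq_right h4, min_eq_right h5]

/-- The pointwise inequality for one Bessel family and one weight `w`. -/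
theorem pointwise_env {e : ℝ → ℝ} (he : IsEnv e) {τ p : ℕ → ℝ} {K : ℕ}
    (hleg : ∀ s ζ : ℝ, 0 ≤ ζ → ζ ≤ 1 / 2 → s * ζ - e ζ ≤ plF τ p K s)
    {n : ℕ} {Φ V : Fin n → ℝ → ℂ} (hH : ∀ l, IsH1 (Φ l) (V l)) {z : ℝ} (hz : 0 < z)
    (hB : BesselF z Φ V) (x w : ℝ) :
    ENNReal.ofReal ((w - z ^ 2 / 4) * (∑ l, ‖Φ l x‖ ^ 2) -
        ∑ k ∈ Finset.range K, (p (k + 1) - p k) * ((1 / z) * max (w - τ k / 4 * z ^ 2) 0)) ≤
      ENNReal.ofReal (1 / 4) * tauR z V x := by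
  set ρ := ∑ l, ‖Φ l x‖ ^ 2 with hρ
  have hρ0 : 0 ≤ ρ := Finset.sum_nonneg fun l _ => by positivity
  set ζ := z * ρ with hζ
  have hζ0 : 0 ≤ ζ := mul_nonneg hz.le hρ0
  have hζ1 : ζ ≤ 1 / 2 := res_density hH hz hB x
  have h1 := he n Φ V hH z hz hB x
  rw [← hρ, ← hζ] at h1
  set s := 4 * w / z ^ 2 with hs
  have h2 := hleg s ζ hζ0 hζ1
  have h3 : ∑ k ∈ Finset.range K, (p (k + 1) - p k) * ((1 / z) * max (w - τ k / 4 * z ^ 2) 0) =
      (z / 4) * plF τ p K s := by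
    unfold plF
    rw [Finset.mul_sum]
    refine Finset.sum_congr rfl fun k _ => ?_
    have h4 : w - τ k / 4 * z ^ 2 = (z ^ 2 / 4) * (s - τ k) := by
      rw [hs]
      field_simp
    rw [h4]
    have h5 : max ((z ^ 2 / 4) * (s - τ k)) 0 = (z ^ 2 / 4) * max (s - τ k) 0 := by
      have h8 := mul_max_of_nonneg (s - τ k) 0 (by positivity : 0 ≤ z ^ 2 / 4)
      rw [mul_zero] at h8
      exact h8.symm
    rw [h5]
    field_simp
  rw [h3]
  have h6 : (w - z ^ 2 / 4) * ρ = (z / 4) * (s * ζ - ζ) := by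
    rw [hs, hζ]
    field_simp
  have h7 := mul_le_mul_of_nonneg_left h2 (by positivity : 0 ≤ z / 4)
  calc ENNReal.ofReal ((w - z ^ 2 / 4) * ρ - z / 4 * plF τ p K s)
      ≤ ENNReal.ofReal ((1 / 4) * (z * (e ζ - ζ))) := by
        apply ENNReal.ofReal_le_ofReal
        rw [h6]
        nlinarith [h7]
    _ = ENNReal.ofReal (1 / 4) * ENNReal.ofReal (z * (e ζ - ζ)) :=
        ENNReal.ofReal_mul (by norm_num)
    _ ≤ _ := by gcongr

end Vale.Agent.Lib.P371
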