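import Vale.Agent.Lib.P371.ResLine

/-!
Vector valued functions, potentials with `∫ tr W^p < ∞`, the class of tame functions and
the sesquilinear forms on them.
-/

open Real MeasureTheory Set Filter Topology Function Matrix
open scoped ComplexOrder

namespace Vale.Agent.Lib.P371

variable {m : ℕ}

/-- Spectral coefficient of a vector. -/
noncomputable def ecoef {A : Matrix (Fin m) (Fin m) ℂ} (hA : A.IsHermitian) (α : Fin m)
    (y : Fin m → ℂ) : ℂ := ∑ c, rowsU hA α c * y c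

lemma polar_form {A : Matrix (Fin m) (Fin m) ℂ} (hA : A.IsHermitian) (y z : Fin m → ℂ) :
    star y ⬝ᵥ A *ᵥ z =
      ∑ α, (hA.eigenvalues α : ℂ) * ((starRingEnd ℂ) (ecoef hA α y) * ecoef hA α z) := by
  set U : Matrix (Fin m) (Fin m) ℂ := hA.eigenvectorUnitary.1 with hU
  have hy : ∀ (w : Fin m → ℂ) α, ecoef hA α w = (star U *ᵥ w) α := by
    intro w α
    simp [ecoef, rowsU, mulVec, dotProduct, hU]
  have hA' : A = U * Matrix.diagonal (RCLike.ofReal ∘ hA.eigenvalues) * star U := by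
    have := hA.spectral_theorem
    rwa [Unitary.conjStarAlgAut_apply] at this
  have h1 : star y ⬝ᵥ A *ᵥ z =
      star (star U *ᵥ y) ⬝ᵥ (Matrix.diagonal (RCLike.ofReal ∘ hA.eigenvalues) *ᵥ (star U *ᵥ z)) := by
    conv_lhs => rw [hA']
    rw [star_mulVec, star_eq_conjTranspose U, conjTranspose_conjTranspose, ← mulVec_mulVec,
      ← mulVec_mulVec, dotProduct_mulVec, ← star_eq_conjTranspose]
  rw [h1]
  simp only [dotProduct, mulVec_diagonal, Pi.star_apply, Function.comp]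
  refine Finset.sum_congr rfl fun α _ => ?_
  rw [hy y α, hy z α]
  simp only [RCLike.ofReal_eq_complex_ofReal, Complex.star_def]
  ring

lemma ecoef_sq_le {A : Matrix (Fin m) (Fin m) ℂ} (hA : A.IsHermitian) (α : Fin m)
    (y : Fin m → ℂ) : ‖ecoef hA α y‖ ^ 2 ≤ ∑ c, ‖y c‖ ^ 2 := by
  have h := parseval hA y
  rw [← h]
  exact Finset.single_le_sum (f := fun α => ‖∑ c, rowsU hA α c * y c‖ ^ 2)
    (fun α _ => by positivity) (Finset.mem_univ α)

lemma quad_form' {A : Matrix (Fin m) (Fin m) ℂ} (hA : A.IsHermitian) (z : Fin m → ℂ) :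
    (star z ⬝ᵥ A *ᵥ z).re = ∑ α, hA.eigenvalues α * ‖ecoef hA α z‖ ^ 2 :=
  quad_form hA z

lemma parseval' {A : Matrix (Fin m) (Fin m) ℂ} (hA : A.IsHermitian) (z : Fin m → ℂ) :
    ∑ α, ‖ecoef hA α z‖ ^ 2 = ∑ c, ‖z c‖ ^ 2 :=
  parseval hA z

lemma quad_nonneg {A : Matrix (Fin m) (Fin m) ℂ} (hA : A.PosSemidef) (z : Fin m → ℂ) :
    0 ≤ (star z ⬝ᵥ A *ᵥ z).re := by
  rw [quad_form hA.isHermitian]
  exact Finset.sum_nonneg fun α _ => mul_nonneg (hA.eigenvalues_nonneg α) (by positivity)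

lemma norm_form_le {A : Matrix (Fin m) (Fin m) ℂ} (hA : A.PosSemidef) (y z : Fin m → ℂ) :
    ‖star y ⬝ᵥ A *ᵥ z‖ ≤ (1 / 2) * ((star y ⬝ᵥ A *ᵥ y).re + (star z ⬝ᵥ A *ᵥ z).re) := by
  rw [polar_form hA.isHermitian, quad_form' hA.isHermitian, quad_form' hA.isHermitian,
    ← Finset.sum_add_distrib, Finset.mul_sum]
  refine (norm_sum_le _ _).trans (Finset.sum_le_sum fun α _ => ?_)
  have hl := hA.eigenvalues_nonneg α
  rw [norm_mul, norm_mul, Complex.norm_real, Real.norm_of_nonneg hl, RCLike.norm_conj]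
  have := sq_nonneg (‖ecoef hA.isHermitian α y‖ - ‖ecoef hA.isHermitian α z‖)
  nlinarith [mul_nonneg hl this]

lemma real_young1 {l a M p : ℝ} (hl : 0 ≤ l) (ha : 0 ≤ a) (haM : a ≤ M) (hp : 1 ≤ p) :
    l * a ≤ M * l ^ p + a := by
  have hM : 0 ≤ M := ha.trans haM
  rcases le_total l 1 with h | h
  · have : l * a ≤ 1 * a := mul_le_mul_of_nonneg_right h ha
    have h2 : 0 ≤ M * l ^ p := by positivity
    linarith
  · have h2 : l ≤ l ^ p := Real.self_le_rpow_of_one_le h hp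
    have h3 : l * a ≤ l * M := mul_le_mul_of_nonneg_left haM hl
    have h4 : l * M ≤ M * l ^ p := by
      rw [mul_comm]
      exact mul_le_mul_of_nonneg_left h2 hM
    linarith

lemma real_young2 {l b K p : ℝ} (hl : 0 ≤ l) (hb : 0 ≤ b) (hbK : b ≤ K) (hK : 1 ≤ K) (hp : 1 ≤ p)
    (hp2 : p ≤ 2) : l * b ≤ K * l ^ p + b ^ 2 := by
  rcases le_total l 1 with h | h
  · have h1 : l ^ (2 : ℝ) ≤ l ^ p := by
      rcases hl.eq_or_lt with h0 | h0
      · rw [← h0, Real.zero_rpow (by norm_num), Real.zero_rpow (by linarith)]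
      · exact Real.rpow_le_rpow_of_exponent_ge h0 h hp2
    have h2 : l ^ (2 : ℝ) = l ^ 2 := by
      rw [← Real.rpow_natCast]
      norm_num
    rw [h2] at h1
    have h3 : 0 ≤ l ^ p := by positivity
    have h4 : l ^ p ≤ K * l ^ p := by nlinarith
    nlinarith [sq_nonneg (l - b), sq_nonneg b]
  · have h2 : l ≤ l ^ p := Real.self_le_rpow_of_one_le h hp
    have h3 : l * b ≤ l * K := mul_le_mul_of_nonneg_left hbK hl
    have h4 : l * K ≤ K * l ^ p := by
      rw [mul_comm]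
      exact mul_le_mul_of_nonneg_left h2 (by linarith)
    nlinarith [sq_nonneg b]

lemma quad_le {A : Matrix (Fin m) (Fin m) ℂ} (hA : A.PosSemidef) {p M : ℝ} (hp : 1 ≤ p)
    {y : Fin m → ℂ} (hM : ∑ c, ‖y c‖ ^ 2 ≤ M) :
    (star y ⬝ᵥ A *ᵥ y).re ≤
      M * (∑ α, hA.isHermitian.eigenvalues α ^ p) + ∑ c, ‖y c‖ ^ 2 := by
  rw [quad_form' hA.isHermitian, ← parseval' hA.isHermitian y, Finset.mul_sum,
    ← Finset.sum_add_distrib]
  refine Finset.sum_le_sum fun α _ => ?_
  exact real_young1 (hA.eigenvalues_nonneg α) (by positivity)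
    ((ecoef_sq_le hA.isHermitian α y).trans hM) hp

lemma rows_norm_le {A : Matrix (Fin m) (Fin m) ℂ} (hA : A.IsHermitian) (α c : Fin m) :
    ‖rowsU hA α c‖ ≤ 1 := by
  have h := rows_unit hA α
  have h2 : ‖rowsU hA α c‖ ^ 2 ≤ 1 := by
    rw [← h]
    exact Finset.single_le_sum (f := fun c => ‖rowsU hA α c‖ ^ 2) (fun c _ => by positivity)
      (Finset.mem_univ c)
  nlinarith [norm_nonneg (rowsU hA α c)]

lemma ecoef_single {A : Matrix (Fin m) (Fin m) ℂ} (hA : A.IsHermitian) (α c : Fin m) :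
    ecoef hA α (Pi.single c 1) = rowsU hA α c := by
  unfold ecoef
  rw [Finset.sum_eq_single c]
  · simp
  · intro b _ hb
    simp [hb]
  · simp

lemma norm_mulVec_le {A : Matrix (Fin m) (Fin m) ℂ} (hA : A.PosSemidef) {p K : ℝ} (hp : 1 ≤ p)
    (hp2 : p ≤ 2) (hK : 1 ≤ K) {y : Fin m → ℂ} (hM : ∑ c, ‖y c‖ ^ 2 ≤ K ^ 2) (c : Fin m) :
    ‖(A *ᵥ y) c‖ ≤ K * (∑ α, hA.isHermitian.eigenvalues α ^ p) + ∑ c, ‖y c‖ ^ 2 := by
  have h1 : (A *ᵥ y) c = star (Pi.single c 1 : Fin m → ℂ) ⬝ᵥ A *ᵥ y := by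
    simp [dotProduct, Pi.single_apply]
  rw [h1, polar_form hA.isHermitian]
  rw [← parseval' hA.isHermitian y, Finset.mul_sum, ← Finset.sum_add_distrib]
  refine (norm_sum_le _ _).trans (Finset.sum_le_sum fun α _ => ?_)
  have hl := hA.eigenvalues_nonneg α
  rw [norm_mul, norm_mul, Complex.norm_real, Real.norm_of_nonneg hl, RCLike.norm_conj,
    ecoef_single]
  have hr := rows_norm_le hA.isHermitian α c
  set b := ‖ecoef hA.isHermitian α y‖ with hb
  have hb0 : 0 ≤ b := norm_nonneg _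
  have hbK : b ≤ K := by
    have h2 := (ecoef_sq_le hA.isHermitian α y).trans hM
    exact abs_le_of_sq_le_sq' h2 (by linarith) |>.2
  have h3 := real_young2 hl hb0 hbK hK hp hp2
  calc hA.isHermitian.eigenvalues α * (‖rowsU hA.isHermitian α c‖ * b)
      ≤ hA.isHermitian.eigenvalues α * (1 * b) := by gcongr
    _ = hA.isHermitian.eigenvalues α * b := by ring
    _ ≤ _ := h3

/-- The class of potentials. -/
structure GoodW (W : ℝ → Matrix (Fin m) (Fin m) ℂ) (p : ℝ) : Prop where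
  psd : ∀ x, (W x).PosSemidef
  meas : ∀ i j, Measurable fun x => W x i j
  one_le : 1 ≤ p
  le_two : p ≤ 2
  int : Integrable fun x => ∑ i, (psd x).isHermitian.eigenvalues i ^ p

/-- The class of tame test functions. -/
structure Tame (g : ℝ → Fin m → ℂ) : Prop where
  meas : ∀ c, Measurable fun x => g x c
  memLp : ∀ c, MemLp (fun x => g x c) 2
  bdd : ∃ C, ∀ x c, ‖g x c‖ ≤ C

lemma Tame.sum_le {g : ℝ → Fin m → ℂ} (h : Tame g) :
    ∃ K, 1 ≤ K ∧ ∀ x, ∑ c, ‖g x c‖ ^ 2 ≤ K ^ 2 := by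
  obtain ⟨C, hC⟩ := h.bdd
  refine ⟨1 + (m : ℝ) * |C|, ?_, fun x => ?_⟩
  · have : 0 ≤ (m : ℝ) * |C| := by positivity
    linarith
  · have h1 : ∀ c ∈ Finset.univ, ‖g x c‖ ^ 2 ≤ |C| ^ 2 := by
      intro c _
      have := (hC x c).trans (le_abs_self C)
      gcongr
    have h2 := Finset.sum_le_card_nsmul _ _ _ h1
    simp only [Finset.card_univ, Fintype.card_fin, nsmul_eq_mul] at h2
    refine h2.trans ?_
    have hm : (0 : ℝ) ≤ m := by positivity
    have hC0 := abs_nonneg C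
    rcases Nat.eq_zero_or_pos m with h0 | h0
    · subst h0
      simp
    · have hm1 : (1 : ℝ) ≤ m := by exact_mod_cast h0
      have h3 : (m : ℝ) * |C| ^ 2 ≤ ((m : ℝ) * |C|) ^ 2 := by
        rw [mul_pow]
        have : (m : ℝ) ≤ (m : ℝ) ^ 2 := by nlinarith
        exact mul_le_mul_of_nonneg_right this (by positivity)
      have h4 : 0 ≤ (m : ℝ) * |C| := by positivity
      nlinarith

lemma Tame.integrable_sum_sq {g : ℝ → Fin m → ℂ} (h : Tame g) :
    Integrable fun x => ∑ c, ‖g x c‖ ^ 2 :=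
  integrable_finsetSum _ fun c _ => (h.memLp c).integrable_norm_pow (by norm_num)

lemma measurable_form {M : ℝ → Matrix (Fin m) (Fin m) ℂ} (hM : ∀ i j, Measurable fun x => M x i j)
    {g h : ℝ → Fin m → ℂ} (hg : ∀ c, Measurable fun x => g x c) (hh : ∀ c, Measurable fun x => h x c) :
    Measurable fun x => star (g x) ⬝ᵥ M x *ᵥ h x := by
  simp only [dotProduct, mulVec, Pi.star_apply]
  refine Finset.measurable_fun_sum _ fun a _ => ?_
  refine Measurable.mul ?_ ?_
  · exact continuous_star.measurable.comp (hg a)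
  · refine Finset.measurable_fun_sum _ fun b _ => ?_
    exact (hM a b).mul (hh b)

section
variable {W : ℝ → Matrix (Fin m) (Fin m) ℂ} {p : ℝ}

lemma GoodW.integrable_quad (hW : GoodW W p) {g : ℝ → Fin m → ℂ} (hg : Tame g) :
    Integrable fun x => (star (g x) ⬝ᵥ W x *ᵥ g x).re := by
  obtain ⟨K, hK1, hK⟩ := hg.sum_le
  have hm : Measurable fun x => (star (g x) ⬝ᵥ W x *ᵥ g x).re :=
    Complex.measurable_re.comp (measurable_form hW.meas hg.meas hg.meas)
  refine Integrable.mono' ((hW.int.const_mul (K ^ 2)).add hg.integrable_sum_sq)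
    hm.aestronglyMeasurable (Eventually.of_forall fun x => ?_)
  rw [Real.norm_of_nonneg (quad_nonneg (hW.psd x) _)]
  exact quad_le (hW.psd x) hW.one_le (hK x)

lemma GoodW.integrable_form (hW : GoodW W p) {g h : ℝ → Fin m → ℂ} (hg : Tame g) (hh : Tame h) :
    Integrable fun x => star (g x) ⬝ᵥ W x *ᵥ h x := by
  have hm := measurable_form hW.meas hg.meas hh.meas
  refine Integrable.mono' (((hW.integrable_quad hg).add (hW.integrable_quad hh)).const_mul (1 / 2))
    hm.aestronglyMeasurable (Eventually.of_forall fun x => ?_)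
  exact norm_form_le (hW.psd x) _ _

/-- `W f` is integrable. -/
lemma GoodW.integrable_u (hW : GoodW W p) {f : ℝ → Fin m → ℂ} (hf : Tame f) (c : Fin m) :
    Integrable fun x => (W x *ᵥ f x) c := by
  obtain ⟨K, hK1, hK⟩ := hf.sum_le
  have hm : Measurable fun x => (W x *ᵥ f x) c := by
    simp only [mulVec, dotProduct]
    exact Finset.measurable_fun_sum _ fun b _ => (hW.meas c b).mul (hf.meas b)
  refine Integrable.mono' ((hW.int.const_mul K).add hf.integrable_sum_sq)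
    hm.aestronglyMeasurable (Eventually.of_forall fun x => ?_)
  exact norm_mulVec_le (hW.psd x) hW.one_le hW.le_two hK1 (hK x) c

end

/-- The sesquilinear form of a matrix field. -/
noncomputable def wf (M : ℝ → Matrix (Fin m) (Fin m) ℂ) (g h : ℝ → Fin m → ℂ) : ℂ :=
  ∫ x, star (g x) ⬝ᵥ M x *ᵥ h x

/-- Finite linear combination. -/
def combo {ι : Type*} [Fintype ι] (a : ι → ℂ) (F : ι → ℝ → Fin m → ℂ) : ℝ → Fin m → ℂ :=
  fun x c => ∑ i, a i * F i x c

lemma combo_eq {ι : Type*} [Fintype ι] (a : ι → ℂ) (F : ι → ℝ → Fin m → ℂ) (x : ℝ) :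
    combo a F x = ∑ i, a i • F i x := by
  funext c
  simp [combo, Finset.sum_apply]

lemma form_combo {ι κ : Type*} [Fintype ι] [Fintype κ] (a : ι → ℂ) (F : ι → ℝ → Fin m → ℂ)
    (b : κ → ℂ) (G : κ → ℝ → Fin m → ℂ) (A : Matrix (Fin m) (Fin m) ℂ) (x : ℝ) :
    star (combo a F x) ⬝ᵥ A *ᵥ combo b G x =
      ∑ i, ∑ k, (starRingEnd ℂ) (a i) * b k * (star (F i x) ⬝ᵥ A *ᵥ G k x) := by
  rw [combo_eq, combo_eq, star_sum, mulVec_sum, sum_dotProduct]
  refine Finset.sum_congr rfl fun i _ => ?_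
  rw [dotProduct_sum]
  refine Finset.sum_congr rfl fun k _ => ?_
  rw [mulVec_smul, star_smul, smul_dotProduct, dotProduct_smul]
  simp only [smul_eq_mul, Complex.star_def]
  ring

lemma wf_combo {ι κ : Type*} [Fintype ι] [Fintype κ] {M : ℝ → Matrix (Fin m) (Fin m) ℂ}
    (a : ι → ℂ) {F : ι → ℝ → Fin m → ℂ} (b : κ → ℂ) {G : κ → ℝ → Fin m → ℂ}
    (h : ∀ i k, Integrable fun x => star (F i x) ⬝ᵥ M x *ᵥ G k x) :
    wf M (combo a F) (combo b G) =
      ∑ i, ∑ k, (starRingEnd ℂ) (a i) * b k * wf M (F i) (G k) := by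
  unfold wf
  simp only [form_combo]
  rw [integral_finsetSum _ fun i _ => integrable_finsetSum _ fun k _ => (h i k).const_mul _]
  refine Finset.sum_congr rfl fun i _ => ?_
  rw [integral_finsetSum _ fun k _ => (h i k).const_mul _]
  refine Finset.sum_congr rfl fun k _ => ?_
  rw [integral_const_mul]

/-- the unit matrix field -/
noncomputable abbrev oneF (m : ℕ) : ℝ → Matrix (Fin m) (Fin m) ℂ := fun _ => 1

/-- `L²` components -/
def L2c (g : ℝ → Fin m → ℂ) : Prop := ∀ c, MemLp (fun x => g x c) 2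

lemma form_one (y z : Fin m → ℂ) : star y ⬝ᵥ (1 : Matrix (Fin m) (Fin m) ℂ) *ᵥ z =
    ∑ c, star (y c) * z c := by
  simp [dotProduct]

lemma integrable_one {g h : ℝ → Fin m → ℂ} (hg : L2c g) (hh : L2c h) :
    Integrable fun x => star (g x) ⬝ᵥ (oneF m) x *ᵥ h x := by
  simp only [form_one]
  refine integrable_finsetSum _ fun c _ => ?_
  have h1 : MemLp (fun y => star (g y c)) 2 := (hg c).star
  exact h1.integrable_mul (hh c)

lemma wf_one {g h : ℝ → Fin m → ℂ} (hg : L2c g) (hh : L2c h) :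
    wf (oneF m) g h = ∑ c, ∫ x, star (g x c) * h x c := by
  unfold wf
  simp only [form_one]
  rw [integral_finsetSum]
  intro c _
  have h1 : MemLp (fun y => star (g y c)) 2 := (hg c).star
  exact h1.integrable_mul (hh c)

lemma wf_one_self {g : ℝ → Fin m → ℂ} (hg : L2c g) :
    wf (oneF m) g g = ((∑ c, ∫ x, ‖g x c‖ ^ 2 : ℝ) : ℂ) := by
  rw [wf_one hg hg]
  push_cast
  refine Finset.sum_congr rfl fun c _ => ?_
  rw [← integral_complex_ofReal]
  refine integral_congr_ae (Eventually.of_forall fun x => ?_)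
  simp only [Complex.star_def]
  push_cast
  rw [Complex.conj_mul']

lemma L2c.combo {ι : Type*} [Fintype ι] {F : ι → ℝ → Fin m → ℂ} (h : ∀ i, L2c (F i)) (a : ι → ℂ) :
    L2c (combo a F) := fun c =>
  memLp_finsetSum _ fun i _ => (h i c).const_mul _

/-- `H¹` components -/
def H1c (g g' : ℝ → Fin m → ℂ) : Prop := ∀ c, IsH1 (fun x => g x c) (fun x => g' x c)

lemma H1c.l2 {g g' : ℝ → Fin m → ℂ} (h : H1c g g') : L2c g := fun c => (h c).memLp
lemma H1c.l2' {g g' : ℝ → Fin m → ℂ} (h : H1c g g') : L2c g' := fun c => (h c).memLp_deriv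

lemma H1c.combo {ι : Type*} [Fintype ι] {F F' : ι → ℝ → Fin m → ℂ} (h : ∀ i, H1c (F i) (F' i))
    (a : ι → ℂ) : H1c (combo a F) (combo a F') := fun c =>
  { memLp := memLp_finsetSum _ fun i _ => (h i c).memLp.const_mul _
    memLp_deriv := memLp_finsetSum _ fun i _ => (h i c).memLp_deriv.const_mul _
    primitive := by
      intro s t
      simp only [Vale.Agent.Lib.P371.combo]
      rw [intervalIntegral.integral_finsetSum
        (fun i _ => ((h i c).intervalIntegrable s t).const_mul _), ← Finset.sum_sub_distrib]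
      refine Finset.sum_congr rfl fun i _ => ?_
      rw [intervalIntegral.integral_const_mul, (h i c).primitive]
      ring }

/-- Boundedness of `H¹` functions. -/
lemma IsH1.bound {φ v : ℝ → ℂ} (h : IsH1 φ v) (x : ℝ) :
    ‖φ x‖ ≤ 1 + ((∫ y, ‖v y‖ ^ 2) + ∫ y, ‖φ y‖ ^ 2) := by
  have h1 := res_functional h (z := 1) (v := 1) (by norm_num) (by norm_num) 0 x
  simp only [zero_mul, Complex.ofReal_zero, sub_zero, one_pow, mul_one, one_mul] at h1
  have h2 : qf 1 1 0 = 1 / 2 := by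
    unfold qf
    norm_num
  rw [h2] at h1
  have h3 : 0 ≤ ∫ y, ‖v y‖ ^ 2 := integral_nonneg fun y => by positivity
  have h4 : 0 ≤ ∫ y, ‖φ y‖ ^ 2 := integral_nonneg fun y => by positivity
  linarith

lemma H1c.tame {g g' : ℝ → Fin m → ℂ} (h : H1c g g') : Tame g where
  meas := fun c => (h c).continuous.measurable
  memLp := h.l2
  bdd := by
    refine ⟨∑ c, (1 + ((∫ y, ‖g' y c‖ ^ 2) + ∫ y, ‖g y c‖ ^ 2)), fun x c => ?_⟩
    refine ((h c).bound x).trans ?_
    refine Finset.single_le_sum (f := fun c => 1 + ((∫ y, ‖g' y c‖ ^ 2) + ∫ y, ‖g y c‖ ^ 2))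
      (fun c _ => ?_) (Finset.mem_univ c)
    have h3 : 0 ≤ ∫ y, ‖g' y c‖ ^ 2 := integral_nonneg fun y => by positivity
    have h4 : 0 ≤ ∫ y, ‖g y c‖ ^ 2 := integral_nonneg fun y => by positivity
    linarith

lemma Tame.combo {ι : Type*} [Fintype ι] {F : ι → ℝ → Fin m → ℂ} (h : ∀ i, Tame (F i)) (a : ι → ℂ) :
    Tame (combo a F) where
  meas := fun c => Finset.measurable_fun_sum _ fun i _ => ((h i).meas c).const_mul _
  memLp := L2c.combo (fun i => (h i).memLp) a
  bdd := by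
    choose C hC using fun i => (h i).bdd
    refine ⟨∑ i, ‖a i‖ * C i, fun x c => ?_⟩
    refine (norm_sum_le _ _).trans (Finset.sum_le_sum fun i _ => ?_)
    rw [norm_mul]
    exact mul_le_mul_of_nonneg_left (hC i x c) (norm_nonneg _)

end Vale.Agent.Lib.P371
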