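import Vale.Agent.Lib.P371.PartC

/-!
Measurability of the traces `x ↦ ∑ φ (eigenvalue of W x)`, for continuous `φ`.
-/

open Real MeasureTheory Set Filter Topology Function Matrix
open scoped ComplexOrder

namespace Vale.Agent.Lib.P371

variable {m : ℕ} {W : ℝ → Matrix (Fin m) (Fin m) ℂ} {p : ℝ}

lemma trace_pow_eq {A : Matrix (Fin m) (Fin m) ℂ} (hA : A.IsHermitian) (k : ℕ) :
    (A ^ k).trace = ∑ α, ((hA.eigenvalues α : ℂ)) ^ k := by
  set U : Matrix (Fin m) (Fin m) ℂ := hA.eigenvectorUnitary.1 with hU
  have hUU : star U * U = 1 := Unitary.coe_star_mul_self hA.eigenvectorUnitary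
  set D : Matrix (Fin m) (Fin m) ℂ := Matrix.diagonal (RCLike.ofReal ∘ hA.eigenvalues) with hD
  have hA' : A = U * D * star U := by
    have := hA.spectral_theorem
    rwa [Unitary.conjStarAlgAut_apply] at this
  have hpow : ∀ k : ℕ, A ^ k = U * D ^ k * star U := by
    intro k
    induction k with
    | zero =>
      simp only [pow_zero, Matrix.mul_one]
      exact (Unitary.coe_mul_star_self hA.eigenvectorUnitary).symm
    | succ k ih =>
      rw [pow_succ, ih, pow_succ]
      conv_lhs => rw [hA']
      calc U * D ^ k * star U * (U * D * star U)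
          = U * D ^ k * (star U * U) * D * star U := by simp only [Matrix.mul_assoc]
        _ = _ := by rw [hUU, Matrix.mul_one]; simp only [Matrix.mul_assoc]
  rw [hpow k, Matrix.trace_mul_comm, ← Matrix.mul_assoc, hUU, Matrix.one_mul, hD,
    Matrix.diagonal_pow, Matrix.trace_diagonal]
  simp

lemma measurable_pow_entry (hWm : ∀ i j, Measurable fun x => W x i j) (k : ℕ) (i j : Fin m) :
    Measurable fun x => (W x ^ k) i j := by
  induction k generalizing i j with
  | zero =>
    simp only [pow_zero]
    exact measurable_const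
  | succ k ih =>
    simp only [pow_succ, Matrix.mul_apply]
    exact Finset.measurable_fun_sum _ fun l _ => (ih i l).mul (hWm l j)

lemma measurable_sum_pow (hW : GoodW W p) (k : ℕ) :
    Measurable fun x => ∑ α, ((hW.psd x).isHermitian.eigenvalues α) ^ k := by
  have h1 : Measurable fun x => ((W x ^ k).trace).re := by
    apply Complex.measurable_re.comp
    simp only [Matrix.trace, Matrix.diag]
    exact Finset.measurable_fun_sum _ fun i _ => measurable_pow_entry hW.meas k i i
  have h2 : (fun x => ((W x ^ k).trace).re) =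
      fun x => ∑ α, ((hW.psd x).isHermitian.eigenvalues α) ^ k := by
    funext x
    rw [trace_pow_eq (hW.psd x).isHermitian, Complex.re_sum]
    refine Finset.sum_congr rfl fun α _ => ?_
    rw [← Complex.ofReal_pow, Complex.ofReal_re]
  rw [← h2]
  exact h1

lemma measurable_sum_poly (hW : GoodW W p) (q : Polynomial ℝ) :
    Measurable fun x => ∑ α, q.eval ((hW.psd x).isHermitian.eigenvalues α) := by
  have h1 : (fun x => ∑ α, q.eval ((hW.psd x).isHermitian.eigenvalues α)) = fun x =>
      ∑ k ∈ Finset.range (q.natDegree + 1), q.coeff k *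
        ∑ α, ((hW.psd x).isHermitian.eigenvalues α) ^ k := by
    funext x
    simp only [Polynomial.eval_eq_sum_range, Finset.mul_sum]
    rw [Finset.sum_comm]
  rw [h1]
  exact Finset.measurable_fun_sum _ fun k _ => (measurable_sum_pow hW k).const_mul _

/-- Measurability of traces of continuous functions. -/
theorem measurable_trace (hW : GoodW W p) {φ : ℝ → ℝ} (hφ : Continuous φ) :
    Measurable fun x => ∑ α, φ ((hW.psd x).isHermitian.eigenvalues α) := by
  choose q hq using fun n : ℕ => exists_polynomial_near_of_continuousOn 0 n φ hφ.continuousOn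
    (1 / ((n : ℝ) + 1)) (by positivity)
  refine measurable_of_tendsto_metrizable (f := fun n x =>
    ∑ α, (q n).eval ((hW.psd x).isHermitian.eigenvalues α)) (fun n => measurable_sum_poly hW _) ?_
  rw [tendsto_pi_nhds]
  intro x
  set lam := (hW.psd x).isHermitian.eigenvalues with hlam
  have hlam0 : ∀ α, 0 ≤ lam α := (hW.psd x).eigenvalues_nonneg
  obtain ⟨N₀, hN₀⟩ := exists_nat_ge (∑ α, lam α)
  have hle : ∀ α, lam α ≤ N₀ := fun α => (Finset.single_le_sum (f := lam) (fun α _ => hlam0 α)
    (Finset.mem_univ α)).trans hN₀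
  rw [Metric.tendsto_atTop]
  intro ε hε
  obtain ⟨N₁, hN₁⟩ := exists_nat_gt ((m : ℝ) / ε)
  refine ⟨max N₀ N₁, fun n hn => ?_⟩
  have hn0 : N₀ ≤ n := (le_max_left _ _).trans hn
  have hn1 : N₁ ≤ n := (le_max_right _ _).trans hn
  rw [Real.dist_eq, ← Finset.sum_sub_distrib]
  have h1 : ∀ α, |(q n).eval (lam α) - φ (lam α)| ≤ 1 / ((n : ℝ) + 1) := by
    intro α
    refine (hq n (lam α) ⟨hlam0 α, ?_⟩).le
    have : (N₀ : ℝ) ≤ n := by exact_mod_cast hn0
    exact (hle α).trans this
  have h2 : |∑ α, ((q n).eval (lam α) - φ (lam α))| ≤ (m : ℝ) * (1 / ((n : ℝ) + 1)) := by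
    refine (Finset.abs_sum_le_sum_abs _ _).trans ?_
    have := Finset.sum_le_card_nsmul Finset.univ _ _ fun α _ => h1 α
    simpa using this
  refine h2.trans_lt ?_
  have h3 : (m : ℝ) / ε < (n : ℝ) + 1 := by
    have : (N₁ : ℝ) ≤ n := by exact_mod_cast hn1
    linarith
  rw [div_lt_iff₀ hε] at h3
  rw [mul_one_div, div_lt_iff₀ (by positivity)]
  linarith

/-- Domination of the truncated function. -/
lemma max_sub_le {s a : ℝ} (hs : 0 ≤ s) (ha : 0 < a) (hp : 1 ≤ p) :
    max (s - a) 0 ≤ a ^ (1 - p) * s ^ p := by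
  have h0 : 0 ≤ a ^ (1 - p) * s ^ p := by positivity
  rcases le_or_gt s a with h | h
  · rw [max_eq_right (by linarith)]
    exact h0
  · rw [max_eq_left (by linarith)]
    have hs0 : 0 < s := ha.trans h
    have h1 : s ^ (1 - p) ≤ a ^ (1 - p) :=
      Real.rpow_le_rpow_of_nonpos ha h.le (by linarith)
    have h2 : s = s ^ (1 - p) * s ^ p := by
      rw [← Real.rpow_add hs0]
      simp
    calc s - a ≤ s := by linarith
      _ = s ^ (1 - p) * s ^ p := h2
      _ ≤ a ^ (1 - p) * s ^ p := by gcongr

/-- Integrability of the truncated trace. -/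
theorem integrable_trace_trunc (hW : GoodW W p) {a : ℝ} (ha : 0 < a) :
    Integrable fun x => ∑ α, max ((hW.psd x).isHermitian.eigenvalues α - a) 0 := by
  have hc : Continuous fun s : ℝ => max (s - a) 0 := by fun_prop
  refine Integrable.mono' (hW.int.const_mul (a ^ (1 - p)))
    (measurable_trace hW hc).aestronglyMeasurable (Eventually.of_forall fun x => ?_)
  rw [Real.norm_of_nonneg (Finset.sum_nonneg fun α _ => le_max_right _ _), Finset.mul_sum]
  refine Finset.sum_le_sum fun α _ => ?_
  exact max_sub_le ((hW.psd x).eigenvalues_nonneg α) ha hW.one_le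

end Vale.Agent.Lib.P371
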