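import Vale.Agent.Lib.P371.ZPoly

/-!
The bound for `1/2 < γ ≤ 1`, assembled.
-/

open Real MeasureTheory Matrix
open scoped ComplexOrder

namespace Vale.Agent.Lib.P371

variable {m : ℕ} {W : ℝ → Matrix (Fin m) (Fin m) ℂ}

/-- The bound for a family indexed by natural numbers. -/
theorem bound_flag {x : ℝ} (h0 : 0 < x) (h1 : x ≤ 1 / 2) (hW : GoodW W (1 + x))
    {N : ℕ} {ψ ψ' : ℕ → ℝ → Fin m → ℂ} {κ : ℕ → ℝ} (hF : Flag W N ψ ψ' κ) :
    ∑ i ∈ Finset.range N, κ i ^ (1 + 2 * x) ≤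
      (2 - (1 / 60) * x) * Lcl (1 / 2 + x) *
        ∫ y, ∑ α, (hW.psd y).isHermitian.eigenvalues α ^ (1 + x) := by
  have hleg : ∀ s ζ : ℝ, 0 ≤ ζ → ζ ≤ 1 / 2 → s * ζ - envF τT pT 16 ζ ≤ plF τT pT 16 s := by
    intro s ζ hζ0 hζ1
    apply legendre_env pT_mono
    · simpa [pT] using hζ0
    · simpa [pT] using hζ1
    · simp [pT]
  have hi := integrated h0 hW isEnv_T hleg τT_pos pT_mono hF
  have hn := final_numeric h0 h1
  have hint : 0 ≤ ∫ y, ∑ α, (hW.psd y).isHermitian.eigenvalues α ^ (1 + x) :=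
    integral_nonneg fun y => Finset.sum_nonneg fun α _ =>
      Real.rpow_nonneg ((hW.psd y).eigenvalues_nonneg α) _
  have hD := Dx_pos h0
  have h2 := hi.trans (mul_le_mul_of_nonneg_right hn hint)
  have e : (2 - (1 / 60) * x) * Dx x * Lcl (1 / 2 + x) *
      ∫ y, ∑ α, (hW.psd y).isHermitian.eigenvalues α ^ (1 + x) =
      Dx x * ((2 - (1 / 60) * x) * Lcl (1 / 2 + x) *
        ∫ y, ∑ α, (hW.psd y).isHermitian.eigenvalues α ^ (1 + x)) := by ring
  rw [e] at h2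
  exact le_of_mul_le_mul_left h2 hD

/-- The bound for a family indexed by `Fin N`, in the variables `γ`. -/
theorem bound_gamma {N : ℕ} {γ : ℝ} (h1 : 1 / 2 < γ) (h2 : γ ≤ 1)
    (hW : ∀ x, (W x).PosSemidef) (hWm : ∀ i j, Measurable fun x => W x i j)
    (hWint : Integrable fun x => ∑ i, (hW x).isHermitian.eigenvalues i ^ (γ + 1 / 2))
    (ψ ψ' : Fin N → ℝ → Fin m → ℂ) (κ : Fin N → ℝ)
    (hH : ∀ j c, IsH1 (fun x => ψ j x c) (fun x => ψ' j x c))
    (horth : ∀ j k, ∑ c, ∫ x, star (ψ j x c) * ψ k x c = if j = k then 1 else 0)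
    (hdiag : ∀ j k, (∑ c, ∫ x, star (ψ' j x c) * ψ' k x c) -
        ∫ x, star (ψ j x) ⬝ᵥ W x *ᵥ ψ k x = if j = k then -((κ j : ℂ) ^ 2) else 0)
    (hκ : ∀ j, 0 < κ j) (hanti : Antitone κ) :
    ∑ j, κ j ^ (2 * γ) ≤ (2 - (γ - 1 / 2) / 60) * Lcl γ *
      ∫ x, ∑ i, (hW x).isHermitian.eigenvalues i ^ (γ + 1 / 2) := by
  set x := γ - 1 / 2 with hx
  have hx0 : 0 < x := by rw [hx]; linarith
  have hx1 : x ≤ 1 / 2 := by rw [hx]; linarith
  have e1 : 1 + x = γ + 1 / 2 := by rw [hx]; ring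
  have e2 : 1 + 2 * x = 2 * γ := by rw [hx]; ring
  have e3 : 1 / 2 + x = γ := by rw [hx]; ring
  have hG : GoodW W (1 + x) :=
    { psd := hW
      meas := hWm
      one_le := by linarith
      le_two := by linarith
      int := by rw [e1]; exact hWint }
  classical
  set Ψ : ℕ → ℝ → Fin m → ℂ := fun j => if h : j < N then ψ ⟨j, h⟩ else fun _ _ => 0 with hΨ
  set Ψ' : ℕ → ℝ → Fin m → ℂ := fun j => if h : j < N then ψ' ⟨j, h⟩ else fun _ _ => 0 with hΨ'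
  set K : ℕ → ℝ := fun j => if h : j < N then κ ⟨j, h⟩ else 0 with hK
  have hΨv : ∀ j (h : j < N), Ψ j = ψ ⟨j, h⟩ := fun j h => by simp [hΨ, h]
  have hΨ'v : ∀ j (h : j < N), Ψ' j = ψ' ⟨j, h⟩ := fun j h => by simp [hΨ', h]
  have hKv : ∀ j (h : j < N), K j = κ ⟨j, h⟩ := fun j h => by simp [hK, h]
  have hF : Flag W N Ψ Ψ' K := by
    refine ⟨?_, ?_, ?_, ?_, ?_⟩
    · intro j hj c
      rw [hΨv j hj, hΨ'v j hj]
      exact hH _ c
    · intro j k hj hk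
      rw [hΨv j hj, hΨv k hk, wf_one (fun c => (hH _ c).memLp) (fun c => (hH _ c).memLp), horth]
      simp [Fin.ext_iff]
    · intro j k hj hk
      rw [hΨv j hj, hΨv k hk, hΨ'v j hj, hΨ'v k hk,
        wf_one (fun c => (hH _ c).memLp_deriv) (fun c => (hH _ c).memLp_deriv), hKv k hk]
      have h3 := hdiag ⟨j, hj⟩ ⟨k, hk⟩
      unfold wf
      rw [h3]
      by_cases hjk : j = k
      · subst hjk
        simp
      · simp [hjk]
    · intro j hj
      rw [hKv j hj]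
      exact hκ _
    · intro j k hjk hk
      have hj : j < N := by omega
      rw [hKv j hj, hKv k hk]
      exact hanti (by simpa [Fin.le_def] using hjk)
  have hb : ∑ i ∈ Finset.range N, K i ^ (1 + 2 * x) ≤ (2 - (1 / 60) * x) * Lcl (1 / 2 + x) *
      ∫ y, ∑ α, (hW y).isHermitian.eigenvalues α ^ (1 + x) := bound_flag hx0 hx1 hG hF
  rw [e1, e2, e3] at hb
  have hsum : ∑ i ∈ Finset.range N, K i ^ (2 * γ) = ∑ j, κ j ^ (2 * γ) := by
    rw [Finset.sum_range]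
    refine Finset.sum_congr rfl fun j _ => ?_
    rw [hKv j j.2]
  rw [hsum] at hb
  have e4 : (2 - (1 / 60) * x) = (2 - (γ - 1 / 2) / 60) := by
    rw [hx]
    ring
  rw [e4] at hb
  exact hb

end Vale.Agent.Lib.P371
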