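import Vale.Agent.Lib.P371.ZTools
import Vale.Agent.Lib.P371.LclDef

/-!
Lower bounds for the semiclassical constant.
-/

open Real MeasureTheory Set Filter Topology intervalIntegral

namespace Vale.Agent.Lib.P371

lemma sqrt_mul_log_eq (y : ℝ) : √y * log y = 2 * (√y * log √y) := by
  rcases lt_or_ge y 0 with h | h
  · rw [Real.sqrt_eq_zero_of_nonpos h.le]
    simp
  · rw [Real.log_sqrt h]
    ring

lemma continuous_g1 : Continuous fun ξ : ℝ => √(1 - ξ ^ 2) * log (1 - ξ ^ 2) := by
  have h1 : (fun ξ : ℝ => √(1 - ξ ^ 2) * log (1 - ξ ^ 2)) =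
      fun ξ : ℝ => 2 * (√(1 - ξ ^ 2) * log √(1 - ξ ^ 2)) := by
    funext ξ
    exact sqrt_mul_log_eq _
  rw [h1]
  have h2 : Continuous fun ξ : ℝ => √(1 - ξ ^ 2) := by fun_prop
  exact continuous_const.mul (Real.continuous_mul_log.comp h2)

lemma continuous_g2 : Continuous fun ξ : ℝ => (1 - ξ ^ 2) * log (1 - ξ ^ 2) := by
  have h2 : Continuous fun ξ : ℝ => (1 - ξ ^ 2) := by fun_prop
  exact Real.continuous_mul_log.comp h2

lemma integral_log_cos_sym : ∫ t in (-(π / 2))..(π / 2), log (cos t) = -log 2 * π := by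
  have h1 : ∫ t in (-(π / 2))..(π / 2), log (cos t) =
      ∫ t in (-(π / 2))..(π / 2), log (sin (π / 2 - t)) := by
    simp only [Real.sin_pi_div_two_sub]
  rw [h1, intervalIntegral.integral_comp_sub_left (fun x => log (sin x)) (π / 2)]
  have e1 : π / 2 - π / 2 = 0 := by ring
  have e2 : π / 2 - -(π / 2) = π := by ring
  rw [e1, e2]
  exact integral_log_sin_zero_pi

/-- The integral of `2 cos² t log cos t` on `[-π/2, π/2]`. -/
lemma integral_cos_sq_log : ∫ t in (-(π / 2))..(π / 2), 2 * cos t ^ 2 * log (cos t) =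
    π * (1 / 2 - log 2) := by
  set F : ℝ → ℝ := fun t => sin t * (cos t * log (cos t)) with hF
  set F' : ℝ → ℝ := fun t => (2 * cos t ^ 2 - 1) * log (cos t) - sin t ^ 2 with hF'
  have hle : -(π / 2) ≤ π / 2 := by
    have := Real.pi_pos
    linarith
  have hcos : Continuous cos := Real.continuous_cos
  have hFc : ContinuousOn F (Icc (-(π / 2)) (π / 2)) := by
    apply Continuous.continuousOn
    exact Real.continuous_sin.mul (Real.continuous_mul_log.comp hcos)
  have hFd : ∀ t ∈ Ioo (-(π / 2)) (π / 2), HasDerivAt F (F' t) t := by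
    intro t ht
    have hc : 0 < cos t := Real.cos_pos_of_mem_Ioo ht
    have h1 := (Real.hasDerivAt_cos t).log hc.ne'
    have h2 := (Real.hasDerivAt_cos t).mul h1
    have h3 := (Real.hasDerivAt_sin t).mul h2
    refine h3.congr_deriv ?_
    simp only [hF', Pi.mul_apply]
    have : sin t ^ 2 + cos t ^ 2 = 1 := Real.sin_sq_add_cos_sq t
    field_simp
    have e : sin t ^ 2 = 1 - cos t ^ 2 := by linarith
    rw [e]
    ring
  have hlogc : IntervalIntegrable (fun t => log (cos t)) volume (-(π / 2)) (π / 2) :=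
    intervalIntegrable_log_cos
  have hI1 : IntervalIntegrable (fun t => (2 * cos t ^ 2 - 1) * log (cos t)) volume
      (-(π / 2)) (π / 2) := by
    apply hlogc.continuousOn_mul
    fun_prop
  have hI2 : IntervalIntegrable (fun t => sin t ^ 2) volume (-(π / 2)) (π / 2) :=
    (by fun_prop : Continuous fun t => sin t ^ 2).intervalIntegrable _ _
  have hF'I : IntervalIntegrable F' volume (-(π / 2)) (π / 2) := hI1.sub hI2
  have hmain := intervalIntegral.integral_eq_sub_of_hasDerivAt_of_le hle hFc hFd hF'I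
  have hend : F (π / 2) - F (-(π / 2)) = 0 := by
    simp [hF]
  have e : (fun t => 2 * cos t ^ 2 * log (cos t)) = fun t => (F' t + log (cos t)) + sin t ^ 2 := by
    funext t
    simp only [hF']
    ring
  rw [e, intervalIntegral.integral_add (hF'I.add hlogc) hI2,
    intervalIntegral.integral_add hF'I hlogc, hmain, hend, integral_log_cos_sym, integral_sin_sq]
  simp
  ring

/-- The first logarithmic integral. -/
theorem integral_g1 : ∫ ξ in (-1 : ℝ)..1, √(1 - ξ ^ 2) * log (1 - ξ ^ 2) = π * (1 / 2 - log 2) := by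
  have hsub := intervalIntegral.integral_comp_mul_deriv (a := -(π / 2)) (b := π / 2)
    (f := sin) (f' := cos) (g := fun ξ : ℝ => √(1 - ξ ^ 2) * log (1 - ξ ^ 2))
    (fun x _ => Real.hasDerivAt_sin x) Real.continuous_cos.continuousOn continuous_g1
  rw [Real.sin_neg, Real.sin_pi_div_two] at hsub
  rw [← hsub, ← integral_cos_sq_log]
  refine intervalIntegral.integral_congr_ae (Eventually.of_forall fun t ht => ?_)
  have hle : -(π / 2) ≤ π / 2 := by
    have := Real.pi_pos
    linarith
  rw [uIoc_of_le hle] at ht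
  have hc : 0 ≤ cos t := Real.cos_nonneg_of_mem_Icc ⟨ht.1.le, ht.2⟩
  have e1 : 1 - sin t ^ 2 = cos t ^ 2 := by
    have := Real.sin_sq_add_cos_sq t
    linarith
  simp only [Function.comp, e1]
  rw [Real.sqrt_sq hc, Real.log_pow]
  push_cast
  ring

/-- The antiderivative for the second logarithmic integral. -/
noncomputable def H2 (ξ : ℝ) : ℝ :=
  -((1 - ξ) * ((ξ + 2) / 3) * ((1 - ξ) * log (1 - ξ))) +
    (1 + ξ) * ((2 - ξ) / 3) * ((1 + ξ) * log (1 + ξ)) - 4 / 3 * ξ + 2 / 9 * ξ ^ 3

/-- The second logarithmic integral. -/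
theorem integral_g2 : ∫ ξ in (-1 : ℝ)..1, (1 - ξ ^ 2) * log (1 - ξ ^ 2) = 8 / 3 * log 2 - 20 / 9 := by
  have hc : ContinuousOn H2 (Icc (-1) 1) := by
    apply Continuous.continuousOn
    unfold H2
    have h1 : Continuous fun ξ : ℝ => (1 - ξ) * log (1 - ξ) :=
      Real.continuous_mul_log.comp (by fun_prop)
    have h2 : Continuous fun ξ : ℝ => (1 + ξ) * log (1 + ξ) :=
      Real.continuous_mul_log.comp (by fun_prop)
    fun_prop
  have hd : ∀ ξ ∈ Ioo (-1 : ℝ) 1, HasDerivAt H2 ((1 - ξ ^ 2) * log (1 - ξ ^ 2)) ξ := by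
    intro ξ hξ
    have h1 : 0 < 1 - ξ := by linarith [hξ.2]
    have h2 : 0 < 1 + ξ := by linarith [hξ.1]
    have hA : HasDerivAt (fun t : ℝ => 1 - t) (-1) ξ := by
      simpa using (hasDerivAt_id ξ).const_sub 1
    have hB : HasDerivAt (fun t : ℝ => 1 + t) 1 ξ := by
      simpa using (hasDerivAt_id ξ).const_add 1
    have hL1 := hA.log h1.ne'
    have hL2 := hB.log h2.ne'
    have hC : HasDerivAt (fun t : ℝ => (t + 2) / 3) (1 / 3) ξ :=
      ((hasDerivAt_id ξ).add_const 2).div_const 3
    have hD : HasDerivAt (fun t : ℝ => (2 - t) / 3) (-1 / 3) ξ :=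
      ((hasDerivAt_id ξ).const_sub 2).div_const 3
    have hF := ((((hA.mul hC).mul (hA.mul hL1)).neg).add ((hB.mul hD).mul (hB.mul hL2))).sub
      ((hasDerivAt_id ξ).const_mul (4 / 3)) |>.add (((hasDerivAt_id ξ).pow 3).const_mul (2 / 9))
    have e : (1 - ξ ^ 2) = (1 - ξ) * (1 + ξ) := by ring
    refine (hF.congr_deriv ?_).congr_of_eventuallyEq (Eventually.of_forall fun t => ?_)
    · simp only [id, Pi.mul_apply]
      rw [e, Real.log_mul h1.ne' h2.ne']
      field_simp
      ring
    · simp only [H2, id, Pi.add_apply, Pi.sub_apply, Pi.neg_apply, Pi.mul_apply, Pi.pow_apply]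
  have hint : IntervalIntegrable (fun ξ : ℝ => (1 - ξ ^ 2) * log (1 - ξ ^ 2)) volume (-1) 1 :=
    continuous_g2.intervalIntegrable _ _
  rw [intervalIntegral.integral_eq_sub_of_hasDerivAt_of_le (by norm_num) hc hd hint]
  unfold H2
  norm_num
  ring

/-- Tangent at `γ = 1/2` of the logarithm of the semiclassical constant. -/
theorem ell_ge0 {x : ℝ} (hx : 0 ≤ x) :
    π / 2 * exp (-(2 * log 2 - 1) * x) ≤ ∫ ξ in (-1 : ℝ)..1, (1 - ξ ^ 2) ^ (1 / 2 + x) := by
  set A := -(2 * log 2 - 1) * x with hA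
  have hpt : ∀ ξ ∈ Icc (-1 : ℝ) 1, exp A * ((1 - A) * √(1 - ξ ^ 2) +
      x * (√(1 - ξ ^ 2) * log (1 - ξ ^ 2))) ≤ (1 - ξ ^ 2) ^ (1 / 2 + x) := by
    intro ξ hξ
    have hy : 0 ≤ 1 - ξ ^ 2 := by nlinarith [hξ.1, hξ.2]
    rcases hy.eq_or_lt with h0 | h0
    · rw [← h0, Real.sqrt_zero, Real.zero_rpow (by positivity)]
      simp
    · set y := 1 - ξ ^ 2 with hydef
      have e1 : y ^ (1 / 2 + x) = √y * exp (x * log y) := by
        rw [Real.rpow_add h0, ← Real.sqrt_eq_rpow, Real.rpow_def_of_pos h0, mul_comm x]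
      rw [e1]
      have h2 : exp A * (1 + x * log y - A) ≤ exp (x * log y) := by
        have h3 := Real.add_one_le_exp (x * log y - A)
        have h4 : exp (x * log y) = exp A * exp (x * log y - A) := by
          rw [← Real.exp_add]
          congr 1
          ring
        rw [h4]
        apply mul_le_mul_of_nonneg_left _ (Real.exp_pos _).le
        linarith
      have h5 := mul_le_mul_of_nonneg_left h2 (Real.sqrt_nonneg y)
      calc exp A * ((1 - A) * √y + x * (√y * log y))
          = √y * (exp A * (1 + x * log y - A)) := by ring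
        _ ≤ _ := h5
  have hc0 : Continuous fun ξ : ℝ => √(1 - ξ ^ 2) := by fun_prop
  have hL : IntervalIntegrable (fun ξ : ℝ => exp A * ((1 - A) * √(1 - ξ ^ 2) +
      x * (√(1 - ξ ^ 2) * log (1 - ξ ^ 2)))) volume (-1) 1 := by
    apply Continuous.intervalIntegrable
    exact continuous_const.mul ((continuous_const.mul hc0).add (continuous_const.mul continuous_g1))
  have hR : IntervalIntegrable (fun ξ : ℝ => (1 - ξ ^ 2) ^ (1 / 2 + x)) volume (-1) 1 := by
    apply Continuous.intervalIntegrable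
    exact Continuous.rpow_const (by fun_prop) fun ξ => Or.inr (by positivity)
  have h := intervalIntegral.integral_mono_on (by norm_num) hL hR hpt
  refine le_trans (le_of_eq ?_) h
  rw [intervalIntegral.integral_const_mul, intervalIntegral.integral_add
    ((hc0.intervalIntegrable _ _).const_mul _) ((continuous_g1.intervalIntegrable _ _).const_mul _),
    intervalIntegral.integral_const_mul, intervalIntegral.integral_const_mul, integral_g1,
    integral_sqrt_one_sub_sq, hA]
  ring

/-- Tangent at `γ = 1` of the logarithm of the semiclassical constant. -/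
theorem ell_ge1 {x : ℝ} (hx : 0 ≤ x) :
    4 / 3 * exp ((1 / 2 - x) * (5 / 3 - 2 * log 2)) ≤ ∫ ξ in (-1 : ℝ)..1, (1 - ξ ^ 2) ^ (1 / 2 + x) := by
  set A := (1 / 2 - x) * (5 / 3 - 2 * log 2) with hA
  have hpt : ∀ ξ ∈ Icc (-1 : ℝ) 1, exp A * ((1 - A) * (1 - ξ ^ 2) +
      (x - 1 / 2) * ((1 - ξ ^ 2) * log (1 - ξ ^ 2))) ≤ (1 - ξ ^ 2) ^ (1 / 2 + x) := by
    intro ξ hξ
    have hy : 0 ≤ 1 - ξ ^ 2 := by nlinarith [hξ.1, hξ.2]
    rcases hy.eq_or_lt with h0 | h0
    · rw [← h0, Real.zero_rpow (by positivity)]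
      simp
    · set y := 1 - ξ ^ 2 with hydef
      have e1 : y ^ (1 / 2 + x) = y * exp ((x - 1 / 2) * log y) := by
        rw [show (1 / 2 + x) = 1 + (x - 1 / 2) by ring, Real.rpow_add h0, Real.rpow_one,
          Real.rpow_def_of_pos h0, mul_comm (log y)]
      rw [e1]
      have h2 : exp A * (1 + (x - 1 / 2) * log y - A) ≤ exp ((x - 1 / 2) * log y) := by
        have h3 := Real.add_one_le_exp ((x - 1 / 2) * log y - A)
        have h4 : exp ((x - 1 / 2) * log y) = exp A * exp ((x - 1 / 2) * log y - A) := by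
          rw [← Real.exp_add]
          congr 1
          ring
        rw [h4]
        apply mul_le_mul_of_nonneg_left _ (Real.exp_pos _).le
        linarith
      have h5 := mul_le_mul_of_nonneg_left h2 h0.le
      calc exp A * ((1 - A) * y + (x - 1 / 2) * (y * log y))
          = y * (exp A * (1 + (x - 1 / 2) * log y - A)) := by ring
        _ ≤ _ := h5
  have hc0 : Continuous fun ξ : ℝ => (1 - ξ ^ 2) := by fun_prop
  have hL : IntervalIntegrable (fun ξ : ℝ => exp A * ((1 - A) * (1 - ξ ^ 2) +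
      (x - 1 / 2) * ((1 - ξ ^ 2) * log (1 - ξ ^ 2)))) volume (-1) 1 := by
    apply Continuous.intervalIntegrable
    exact continuous_const.mul ((continuous_const.mul hc0).add (continuous_const.mul continuous_g2))
  have hR : IntervalIntegrable (fun ξ : ℝ => (1 - ξ ^ 2) ^ (1 / 2 + x)) volume (-1) 1 := by
    apply Continuous.intervalIntegrable
    exact Continuous.rpow_const (by fun_prop) fun ξ => Or.inr (by positivity)
  have h := intervalIntegral.integral_mono_on (by norm_num) hL hR hpt
  refine le_trans (le_of_eq ?_) h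
  have h43 : ∫ ξ in (-1 : ℝ)..1, (1 - ξ ^ 2) = 4 / 3 := by
    norm_num
  rw [intervalIntegral.integral_const_mul, intervalIntegral.integral_add
    ((hc0.intervalIntegrable _ _).const_mul _) ((continuous_g2.intervalIntegrable _ _).const_mul _),
    intervalIntegral.integral_const_mul, intervalIntegral.integral_const_mul, integral_g2, h43, hA]
  ring

end Vale.Agent.Lib.P371
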