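import Vale.Agent.Lib.P371.ZEll

/-!
The numerical envelope: the tables, and the verification on each of the 16 pieces.
-/

open Real

namespace Vale.Agent.Lib.P371

/-- The break points of the envelope. -/
noncomputable def pT : ℕ → ℝ
  | 0 => 0
  | 1 => (181/2000)
  | 2 => (1543/10000)
  | 3 => (1033/5000)
  | 4 => (503/2000)
  | 5 => (2919/10000)
  | 6 => (411/1250)
  | 7 => (1811/5000)
  | 8 => (3923/10000)
  | 9 => (4187/10000)
  | 10 => (1103/2500)
  | 11 => (1149/2500)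
  | 12 => (2371/5000)
  | 13 => (4851/10000)
  | 14 => (308/625)
  | 15 => (311/625)
  | 16 => (1/2)
  | _ => 1/2

/-- The slopes of the envelope. -/
noncomputable def τT : ℕ → ℝ
  | 0 => 1
  | 1 => (10637/10000)
  | 2 => (2899/2500)
  | 3 => (813/625)
  | 4 => (3023/2000)
  | 5 => (18237/10000)
  | 6 => (11503/5000)
  | 7 => (15159/5000)
  | 8 => (21121/5000)
  | 9 => (30957/5000)
  | 10 => (48299/5000)
  | 11 => (2001/125)
  | 12 => (29223/1000)
  | 13 => (29779/500)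
  | 14 => (15273/100)
  | 15 => (30863/50)
  | _ => 1

lemma logV1 : ((181297217/500000000) : ℝ) ≤ log (1 + (6611/10000) ^ 2) ∧ log (1 + (6611/10000) ^ 2) ≤ ((72518967/200000000) : ℝ) :=
  log_bounds (y := (56294679/200000000)) (b := 1 / 3) 1 (by norm_num) (by rw [abs_le]; constructor <;> norm_num) (by norm_num)
    (by norm_num [S16]) (by norm_num [S16])

lemma atanV1 : ((584138649/1000000000) : ℝ) ≤ arctan (6611/10000) :=
  arctan_ge_case1 (y := (3389/16611)) (by norm_num) (by norm_num) (by norm_num) (by norm_num [A9, A8])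

lemma pieceT1 {ζ : ℝ} (h1 : pT 1 ≤ ζ) (h2 : ζ ≤ pT 2) (h3 : ζ ≤ 1 / 2) :
    ∃ r₀ b₀ V₀ : ℝ, 0 ≤ r₀ ∧ 0 < b₀ ∧ 2 * r₀ ^ 2 + b₀ ^ 2 = 1 ∧ 0 < V₀ ∧
      V₀ / (2 * (b₀ + r₀ * V₀)) ≤ √ζ ∧
      ((∑ j ∈ Finset.range 1, τT j * (pT (j + 1) - pT j)) + τT 1 * (ζ - pT 1)) - ζ ≤
        Jint r₀ b₀ V₀ √ζ := by
  have hs : (∑ j ∈ Finset.range 1, τT j * (pT (j + 1) - pT j)) = (181/2000) := by
    norm_num [Finset.sum_range_succ, τT, pT]
  have h1' : ((181/2000) : ℝ) ≤ ζ := by simpa [pT] using h1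
  have h2' : ζ ≤ ((1543/10000) : ℝ) := by simpa [pT] using h2
  have e1 : τT 1 = (10637/10000) := rfl
  have e2 : pT 1 = (181/2000) := rfl
  rw [hs, e1, e2]
  have hm := piece_line (p := (181/2000)) (p' := (1543/10000)) (Wk := (181/2000)) (τ := (10637/10000))
    (r₀ := (301250/839331)) (b₀ := (723169/839331)) (V := (6611/10000)) (r₁ := (19537/50000))
    (a3 := (58462891/2000000000)) (a4 := (2982269/200000000)) (a5 := (39987707/5000000000))
    (by norm_num) (by norm_num) (by norm_num) (by norm_num) (by norm_num)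
    (J3_ge logV1.1 (by norm_num)) (J4_le atanV1 (by norm_num)) (J5_ge logV1.2 (by norm_num))
    (by norm_num) (by norm_num) (by norm_num [lineS]) (by norm_num [lineS]) h1' h2' h3
  exact ⟨(301250/839331), (723169/839331), (6611/10000), by norm_num, by norm_num, by norm_num, by norm_num, hm.1, hm.2⟩

lemma logV2 : ((79372663/125000000) : ℝ) ≤ log (1 + (4709/5000) ^ 2) ∧ log (1 + (4709/5000) ^ 2) ≤ ((126996341/200000000) : ℝ) :=
  log_bounds (y := (2825319/50000000)) (b := 1 / 3) 1 (by norm_num) (by rw [abs_le]; constructor <;> norm_num) (by norm_num)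
    (by norm_num [S16]) (by norm_num [S16])

lemma atanV2 : ((377717371/500000000) : ℝ) ≤ arctan (4709/5000) :=
  arctan_ge_case1 (y := (291/9709)) (by norm_num) (by norm_num) (by norm_num) (by norm_num [A9, A8])

lemma pieceT2 {ζ : ℝ} (h1 : pT 2 ≤ ζ) (h2 : ζ ≤ pT 3) (h3 : ζ ≤ 1 / 2) :
    ∃ r₀ b₀ V₀ : ℝ, 0 ≤ r₀ ∧ 0 < b₀ ∧ 2 * r₀ ^ 2 + b₀ ^ 2 = 1 ∧ 0 < V₀ ∧
      V₀ / (2 * (b₀ + r₀ * V₀)) ≤ √ζ ∧
      ((∑ j ∈ Finset.range 2, τT j * (pT (j + 1) - pT j)) + τT 2 * (ζ - pT 2)) - ζ ≤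
        Jint r₀ b₀ V₀ √ζ := by
  have hs : (∑ j ∈ Finset.range 2, τT j * (pT (j + 1) - pT j)) = (7918203/50000000) := by
    norm_num [Finset.sum_range_succ, τT, pT]
  have h1' : ((1543/10000) : ℝ) ≤ ζ := by simpa [pT] using h1
  have h2' : ζ ≤ ((1033/5000) : ℝ) := by simpa [pT] using h2
  have e1 : τT 2 = (2899/2500) := rfl
  have e2 : pT 2 = (1543/10000) := rfl
  rw [hs, e1, e2]
  have hm := piece_line (p := (1543/10000)) (p' := (1033/5000)) (Wk := (7918203/50000000)) (τ := (2899/2500))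
    (r₀ := (5995000/13937601)) (b₀ := (11062399/13937601)) (V := (4709/5000)) (r₁ := (43509/100000))
    (a3 := (824632969/10000000000)) (a4 := (581991241/10000000000)) (a5 := (4353927/100000000))
    (by norm_num) (by norm_num) (by norm_num) (by norm_num) (by norm_num)
    (J3_ge logV2.1 (by norm_num)) (J4_le atanV2 (by norm_num)) (J5_ge logV2.2 (by norm_num))
    (by norm_num) (by norm_num) (by norm_num [lineS]) (by norm_num [lineS]) h1' h2' h3
  exact ⟨(5995000/13937601), (11062399/13937601), (4709/5000), by norm_num, by norm_num, by norm_num, by norm_num, hm.1, hm.2⟩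

lemma logV3 : ((876241571/1000000000) : ℝ) ≤ log (1 + (148/125) ^ 2) ∧ log (1 + (148/125) ^ 2) ≤ ((219060493/250000000) : ℝ) :=
  log_bounds (y := (-6279/31250)) (b := 1 / 3) 1 (by norm_num) (by rw [abs_le]; constructor <;> norm_num) (by norm_num)
    (by norm_num [S16]) (by norm_num [S16])

lemma atanV3 : ((869448561/1000000000) : ℝ) ≤ arctan (148/125) :=
  arctan_ge_case2 (y := (23/273)) (by norm_num) (by norm_num) (by norm_num [A8])

lemma pieceT3 {ζ : ℝ} (h1 : pT 3 ≤ ζ) (h2 : ζ ≤ pT 4) (h3 : ζ ≤ 1 / 2) :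
    ∃ r₀ b₀ V₀ : ℝ, 0 ≤ r₀ ∧ 0 < b₀ ∧ 2 * r₀ ^ 2 + b₀ ^ 2 = 1 ∧ 0 < V₀ ∧
      V₀ / (2 * (b₀ + r₀ * V₀)) ≤ √ζ ∧
      ((∑ j ∈ Finset.range 3, τT j * (pT (j + 1) - pT j)) + τT 3 * (ζ - pT 3)) - ζ ≤
        Jint r₀ b₀ V₀ √ζ := by
  have hs : (∑ j ∈ Finset.range 3, τT j * (pT (j + 1) - pT j)) = (10950557/50000000) := by
    norm_num [Finset.sum_range_succ, τT, pT]
  have h1' : ((1033/5000) : ℝ) ≤ ζ := by simpa [pT] using h1
  have h2' : ζ ≤ ((503/2000) : ℝ) := by simpa [pT] using h2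
  have e1 : τT 3 = (813/625) := rfl
  have e2 : pT 3 = (1033/5000) := rfl
  rw [hs, e1, e2]
  have hm := piece_line (p := (1033/5000)) (p' := (503/2000)) (Wk := (10950557/50000000)) (τ := (813/625))
    (r₀ := (1732500/3605249)) (b₀ := (2644751/3605249)) (V := (148/125)) (r₁ := (12047/25000))
    (a3 := (731465661/5000000000)) (a4 := (1263032171/10000000000)) (a5 := (291284203/2500000000))
    (by norm_num) (by norm_num) (by norm_num) (by norm_num) (by norm_num)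
    (J3_ge logV3.1 (by norm_num)) (J4_le atanV3 (by norm_num)) (J5_ge logV3.2 (by norm_num))
    (by norm_num) (by norm_num) (by norm_num [lineS]) (by norm_num [lineS]) h1' h2' h3
  exact ⟨(1732500/3605249), (2644751/3605249), (148/125), by norm_num, by norm_num, by norm_num, by norm_num, hm.1, hm.2⟩

lemma logV4 : ((220624447/200000000) : ℝ) ≤ log (1 + (1419/1000) ^ 2) ∧ log (1 + (1419/1000) ^ 2) ≤ ((275780659/250000000) : ℝ) :=
  log_bounds (y := (986439/4000000)) (b := 1 / 3) 2 (by norm_num) (by rw [abs_le]; constructor <;> norm_num) (by norm_num)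
    (by norm_num [S16]) (by norm_num [S16])

lemma atanV4 : ((59806769/62500000) : ℝ) ≤ arctan (1419/1000) :=
  arctan_ge_case2 (y := (419/2419)) (by norm_num) (by norm_num) (by norm_num [A8])

lemma pieceT4 {ζ : ℝ} (h1 : pT 4 ≤ ζ) (h2 : ζ ≤ pT 5) (h3 : ζ ≤ 1 / 2) :
    ∃ r₀ b₀ V₀ : ℝ, 0 ≤ r₀ ∧ 0 < b₀ ∧ 2 * r₀ ^ 2 + b₀ ^ 2 = 1 ∧ 0 < V₀ ∧
      V₀ / (2 * (b₀ + r₀ * V₀)) ≤ √ζ ∧
      ((∑ j ∈ Finset.range 4, τT j * (pT (j + 1) - pT j)) + τT 4 * (ζ - pT 4)) - ζ ≤
        Jint r₀ b₀ V₀ √ζ := by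
  have hs : (∑ j ∈ Finset.range 4, τT j * (pT (j + 1) - pT j)) = (13870853/50000000) := by
    norm_num [Finset.sum_range_succ, τT, pT]
  have h1' : ((503/2000) : ℝ) ≤ ζ := by simpa [pT] using h1
  have h2' : ζ ≤ ((2919/10000) : ℝ) := by simpa [pT] using h2
  have e1 : τT 4 = (3023/2000) := rfl
  have e2 : pT 4 = (503/2000) := rfl
  rw [hs, e1, e2]
  have hm := piece_line (p := (503/2000)) (p' := (2919/10000)) (Wk := (13870853/50000000)) (τ := (3023/2000))
    (r₀ := (31210000/59740641)) (b₀ := (40259359/59740641)) (V := (1419/1000)) (r₁ := (52311/100000))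
    (a3 := (434955571/2000000000)) (a4 := (13692081/62500000)) (a5 := (2377411959/10000000000))
    (by norm_num) (by norm_num) (by norm_num) (by norm_num) (by norm_num)
    (J3_ge logV4.1 (by norm_num)) (J4_le atanV4 (by norm_num)) (J5_ge logV4.2 (by norm_num))
    (by norm_num) (by norm_num) (by norm_num [lineS]) (by norm_num [lineS]) h1' h2' h3
  exact ⟨(31210000/59740641), (40259359/59740641), (1419/1000), by norm_num, by norm_num, by norm_num, by norm_num, hm.1, hm.2⟩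

lemma logV5 : ((1332956937/1000000000) : ℝ) ≤ log (1 + (1671/1000) ^ 2) ∧ log (1 + (1671/1000) ^ 2) ≤ ((666478669/500000000) : ℝ) :=
  log_bounds (y := (207759/4000000)) (b := 1 / 3) 2 (by norm_num) (by rw [abs_le]; constructor <;> norm_num) (by norm_num)
    (by norm_num [S16]) (by norm_num [S16])

lemma atanV5 : ((128940187/125000000) : ℝ) ≤ arctan (1671/1000) :=
  arctan_ge_case2 (y := (671/2671)) (by norm_num) (by norm_num) (by norm_num [A8])

lemma pieceT5 {ζ : ℝ} (h1 : pT 5 ≤ ζ) (h2 : ζ ≤ pT 6) (h3 : ζ ≤ 1 / 2) :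
    ∃ r₀ b₀ V₀ : ℝ, 0 ≤ r₀ ∧ 0 < b₀ ∧ 2 * r₀ ^ 2 + b₀ ^ 2 = 1 ∧ 0 < V₀ ∧
      V₀ / (2 * (b₀ + r₀ * V₀)) ≤ √ζ ∧
      ((∑ j ∈ Finset.range 5, τT j * (pT (j + 1) - pT j)) + τT 5 * (ζ - pT 5)) - ζ ≤
        Jint r₀ b₀ V₀ √ζ := by
  have hs : (∑ j ∈ Finset.range 5, τT j * (pT (j + 1) - pT j)) = (16924083/50000000) := by
    norm_num [Finset.sum_range_succ, τT, pT]
  have h1' : ((2919/10000) : ℝ) ≤ ζ := by simpa [pT] using h1
  have h2' : ζ ≤ ((411/1250) : ℝ) := by simpa [pT] using h2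
  have e1 : τT 5 = (18237/10000) := rfl
  have e2 : pT 5 = (2919/10000) := rfl
  rw [hs, e1, e2]
  have hm := piece_line (p := (2919/10000)) (p' := (411/1250)) (Wk := (16924083/50000000)) (τ := (18237/10000))
    (r₀ := (8635000/15482529)) (b₀ := (9517471/15482529)) (V := (1671/1000)) (r₁ := (1744/3125))
    (a3 := (2983266289/10000000000)) (a4 := (1720180161/5000000000)) (a5 := (862630003/2000000000))
    (by norm_num) (by norm_num) (by norm_num) (by norm_num) (by norm_num)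
    (J3_ge logV5.1 (by norm_num)) (J4_le atanV5 (by norm_num)) (J5_ge logV5.2 (by norm_num))
    (by norm_num) (by norm_num) (by norm_num [lineS]) (by norm_num [lineS]) h1' h2' h3
  exact ⟨(8635000/15482529), (9517471/15482529), (1671/1000), by norm_num, by norm_num, by norm_num, by norm_num, hm.1, hm.2⟩

lemma logV6 : ((393298441/250000000) : ℝ) ≤ log (1 + (391/200) ^ 2) ∧ log (1 + (391/200) ^ 2) ≤ ((314638833/200000000) : ℝ) :=
  log_bounds (y := (-32881/160000)) (b := 1 / 3) 2 (by norm_num) (by rw [abs_le]; constructor <;> norm_num) (by norm_num)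
    (by norm_num [S16]) (by norm_num [S16])

lemma atanV6 : ((274495951/250000000) : ℝ) ≤ arctan (391/200) :=
  arctan_ge_case2 (y := (191/591)) (by norm_num) (by norm_num) (by norm_num [A8])

lemma pieceT6 {ζ : ℝ} (h1 : pT 6 ≤ ζ) (h2 : ζ ≤ pT 7) (h3 : ζ ≤ 1 / 2) :
    ∃ r₀ b₀ V₀ : ℝ, 0 ≤ r₀ ∧ 0 < b₀ ∧ 2 * r₀ ^ 2 + b₀ ^ 2 = 1 ∧ 0 < V₀ ∧
      V₀ / (2 * (b₀ + r₀ * V₀)) ≤ √ζ ∧
      ((∑ j ∈ Finset.range 6, τT j * (pT (j + 1) - pT j)) + τT 6 * (ζ - pT 6)) - ζ ≤
        Jint r₀ b₀ V₀ √ζ := by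
  have hs : (∑ j ∈ Finset.range 6, τT j * (pT (j + 1) - pT j)) = (40577619/100000000) := by
    norm_num [Finset.sum_range_succ, τT, pT]
  have h1' : ((411/1250) : ℝ) ≤ ζ := by simpa [pT] using h1
  have h2' : ζ ≤ ((1811/5000) : ℝ) := by simpa [pT] using h2
  have e1 : τT 6 = (11503/5000) := rfl
  have e2 : pT 6 = (411/1250) := rfl
  rw [hs, e1, e2]
  have hm := piece_line (p := (411/1250)) (p' := (1811/5000)) (Wk := (40577619/100000000)) (τ := (11503/5000))
    (r₀ := (1514000/2573049)) (b₀ := (1426951/2573049)) (V := (391/200)) (r₁ := (58861/100000))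
    (a3 := (3902877587/10000000000)) (a4 := (5107399581/10000000000)) (a5 := (3670637291/5000000000))
    (by norm_num) (by norm_num) (by norm_num) (by norm_num) (by norm_num)
    (J3_ge logV6.1 (by norm_num)) (J4_le atanV6 (by norm_num)) (J5_ge logV6.2 (by norm_num))
    (by norm_num) (by norm_num) (by norm_num [lineS]) (by norm_num [lineS]) h1' h2' h3
  exact ⟨(1514000/2573049), (1426951/2573049), (391/200), by norm_num, by norm_num, by norm_num, by norm_num, hm.1, hm.2⟩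

lemma logV7 : ((11433971/6250000) : ℝ) ≤ log (1 + (2287/1000) ^ 2) ∧ log (1 + (2287/1000) ^ 2) ≤ ((1829435761/1000000000) : ℝ) :=
  log_bounds (y := (1769631/8000000)) (b := 1 / 3) 3 (by norm_num) (by rw [abs_le]; constructor <;> norm_num) (by norm_num)
    (by norm_num [S16]) (by norm_num [S16])

lemma atanV7 : ((231718429/200000000) : ℝ) ≤ arctan (2287/1000) :=
  arctan_ge_case2 (y := (1287/3287)) (by norm_num) (by norm_num) (by norm_num [A8])

lemma pieceT7 {ζ : ℝ} (h1 : pT 7 ≤ ζ) (h2 : ζ ≤ pT 8) (h3 : ζ ≤ 1 / 2) :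
    ∃ r₀ b₀ V₀ : ℝ, 0 ≤ r₀ ∧ 0 < b₀ ∧ 2 * r₀ ^ 2 + b₀ ^ 2 = 1 ∧ 0 < V₀ ∧
      V₀ / (2 * (b₀ + r₀ * V₀)) ≤ √ζ ∧
      ((∑ j ∈ Finset.range 7, τT j * (pT (j + 1) - pT j)) + τT 7 * (ζ - pT 7)) - ζ ≤
        Jint r₀ b₀ V₀ √ζ := by
  have hs : (∑ j ∈ Finset.range 7, τT j * (pT (j + 1) - pT j)) = (48261623/100000000) := by
    norm_num [Finset.sum_range_succ, τT, pT]
  have h1' : ((1811/5000) : ℝ) ≤ ζ := by simpa [pT] using h1
  have h2' : ζ ≤ ((3923/10000) : ℝ) := by simpa [pT] using h2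
  have e1 : τT 7 = (15159/5000) := rfl
  have e2 : pT 7 = (1811/5000) := rfl
  rw [hs, e1, e2]
  have hm := piece_line (p := (1811/5000)) (p' := (3923/10000)) (Wk := (48261623/100000000)) (τ := (15159/5000))
    (r₀ := (2567500/4179729)) (b₀ := (2070271/4179729)) (V := (2287/1000)) (r₁ := (61469/100000))
    (a3 := (989939497/2000000000)) (a4 := (7326482633/10000000000)) (a5 := (753435419/625000000))
    (by norm_num) (by norm_num) (by norm_num) (by norm_num) (by norm_num)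
    (J3_ge logV7.1 (by norm_num)) (J4_le atanV7 (by norm_num)) (J5_ge logV7.2 (by norm_num))
    (by norm_num) (by norm_num) (by norm_num [lineS]) (by norm_num [lineS]) h1' h2' h3
  exact ⟨(2567500/4179729), (2070271/4179729), (2287/1000), by norm_num, by norm_num, by norm_num, by norm_num, hm.1, hm.2⟩

lemma logV8 : ((105458993/50000000) : ℝ) ≤ log (1 + (2691/1000) ^ 2) ∧ log (1 + (2691/1000) ^ 2) ≤ ((2109180261/1000000000) : ℝ) :=
  log_bounds (y := (-241481/8000000)) (b := 1 / 3) 3 (by norm_num) (by rw [abs_le]; constructor <;> norm_num) (by norm_num)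
    (by norm_num [S16]) (by norm_num [S16])

lemma atanV8 : ((607500819/500000000) : ℝ) ≤ arctan (2691/1000) :=
  arctan_ge_case3 (u := (1000/2691)) (by norm_num) (by norm_num) (by norm_num [A9, A8])

lemma pieceT8 {ζ : ℝ} (h1 : pT 8 ≤ ζ) (h2 : ζ ≤ pT 9) (h3 : ζ ≤ 1 / 2) :
    ∃ r₀ b₀ V₀ : ℝ, 0 ≤ r₀ ∧ 0 < b₀ ∧ 2 * r₀ ^ 2 + b₀ ^ 2 = 1 ∧ 0 < V₀ ∧
      V₀ / (2 * (b₀ + r₀ * V₀)) ≤ √ζ ∧
      ((∑ j ∈ Finset.range 8, τT j * (pT (j + 1) - pT j)) + τT 8 * (ζ - pT 8)) - ζ ≤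
        Jint r₀ b₀ V₀ √ζ := by
  have hs : (∑ j ∈ Finset.range 8, τT j * (pT (j + 1) - pT j)) = (57387341/100000000) := by
    norm_num [Finset.sum_range_succ, τT, pT]
  have h1' : ((3923/10000) : ℝ) ≤ ζ := by simpa [pT] using h1
  have h2' : ζ ≤ ((4187/10000) : ℝ) := by simpa [pT] using h2
  have e1 : τT 8 = (21121/5000) := rfl
  have e2 : pT 8 = (3923/10000) := rfl
  rw [hs, e1, e2]
  have hm := piece_line (p := (3923/10000)) (p' := (4187/10000)) (Wk := (57387341/100000000)) (τ := (21121/5000))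
    (r₀ := (177780000/279014321)) (b₀ := (120985679/279014321)) (V := (2691/1000)) (r₁ := (63727/100000))
    (a3 := (3076293187/5000000000)) (a4 := (10317570349/10000000000)) (a5 := (3901783063/2000000000))
    (by norm_num) (by norm_num) (by norm_num) (by norm_num) (by norm_num)
    (J3_ge logV8.1 (by norm_num)) (J4_le atanV8 (by norm_num)) (J5_ge logV8.2 (by norm_num))
    (by norm_num) (by norm_num) (by norm_num [lineS]) (by norm_num [lineS]) h1' h2' h3
  exact ⟨(177780000/279014321), (120985679/279014321), (2691/1000), by norm_num, by norm_num, by norm_num, by norm_num, hm.1, hm.2⟩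

lemma logV9 : ((2418339561/1000000000) : ℝ) ≤ log (1 + (1599/500) ^ 2) ∧ log (1 + (1599/500) ^ 2) ≤ ((1209169981/500000000) : ℝ) :=
  log_bounds (y := (1193199/4000000)) (b := 1 / 3) 4 (by norm_num) (by rw [abs_le]; constructor <;> norm_num) (by norm_num)
    (by norm_num [S16]) (by norm_num [S16])

lemma atanV9 : ((1267733221/1000000000) : ℝ) ≤ arctan (1599/500) :=
  arctan_ge_case3 (u := (500/1599)) (by norm_num) (by norm_num) (by norm_num [A9, A8])

lemma pieceT9 {ζ : ℝ} (h1 : pT 9 ≤ ζ) (h2 : ζ ≤ pT 10) (h3 : ζ ≤ 1 / 2) :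
    ∃ r₀ b₀ V₀ : ℝ, 0 ≤ r₀ ∧ 0 < b₀ ∧ 2 * r₀ ^ 2 + b₀ ^ 2 = 1 ∧ 0 < V₀ ∧
      V₀ / (2 * (b₀ + r₀ * V₀)) ≤ √ζ ∧
      ((∑ j ∈ Finset.range 9, τT j * (pT (j + 1) - pT j)) + τT 9 * (ζ - pT 9)) - ζ ≤
        Jint r₀ b₀ V₀ √ζ := by
  have hs : (∑ j ∈ Finset.range 9, τT j * (pT (j + 1) - pT j)) = (68539229/100000000) := by
    norm_num [Finset.sum_range_succ, τT, pT]
  have h1' : ((4187/10000) : ℝ) ≤ ζ := by simpa [pT] using h1
  have h2' : ζ ≤ ((1103/2500) : ℝ) := by simpa [pT] using h2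
  have e1 : τT 9 = (30957/5000) := rfl
  have e2 : pT 9 = (4187/10000) := rfl
  rw [hs, e1, e2]
  have hm := piece_line (p := (4187/10000)) (p' := (1103/2500)) (Wk := (68539229/100000000)) (τ := (30957/5000))
    (r₀ := (11935000/18197769)) (b₀ := (6802231/18197769)) (V := (1599/500)) (r₁ := (65607/100000))
    (a3 := (376852233/500000000)) (a4 := (1438822093/1000000000)) (a5 := (7876818381/2500000000))
    (by norm_num) (by norm_num) (by norm_num) (by norm_num) (by norm_num)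
    (J3_ge logV9.1 (by norm_num)) (J4_le atanV9 (by norm_num)) (J5_ge logV9.2 (by norm_num))
    (by norm_num) (by norm_num) (by norm_num [lineS]) (by norm_num [lineS]) h1' h2' h3
  exact ⟨(11935000/18197769), (6802231/18197769), (1599/500), by norm_num, by norm_num, by norm_num, by norm_num, hm.1, hm.2⟩

lemma logV10 : ((345604577/125000000) : ℝ) ≤ log (1 + (3857/1000) ^ 2) ∧ log (1 + (3857/1000) ^ 2) ≤ ((2764837017/1000000000) : ℝ) :=
  log_bounds (y := (123551/16000000)) (b := 1 / 3) 4 (by norm_num) (by rw [abs_le]; constructor <;> norm_num) (by norm_num)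
    (by norm_num [S16]) (by norm_num [S16])

lemma atanV10 : ((164639129/125000000) : ℝ) ≤ arctan (3857/1000) :=
  arctan_ge_case3 (u := (1000/3857)) (by norm_num) (by norm_num) (by norm_num [A9, A8])

lemma pieceT10 {ζ : ℝ} (h1 : pT 10 ≤ ζ) (h2 : ζ ≤ pT 11) (h3 : ζ ≤ 1 / 2) :
    ∃ r₀ b₀ V₀ : ℝ, 0 ≤ r₀ ∧ 0 < b₀ ∧ 2 * r₀ ^ 2 + b₀ ^ 2 = 1 ∧ 0 < V₀ ∧
      V₀ / (2 * (b₀ + r₀ * V₀)) ≤ √ζ ∧
      ((∑ j ∈ Finset.range 10, τT j * (pT (j + 1) - pT j)) + τT 10 * (ζ - pT 10)) - ζ ≤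
        Jint r₀ b₀ V₀ √ζ := by
  have hs : (∑ j ∈ Finset.range 10, τT j * (pT (j + 1) - pT j)) = (82469879/100000000) := by
    norm_num [Finset.sum_range_succ, τT, pT]
  have h1' : ((1103/2500) : ℝ) ≤ ζ := by simpa [pT] using h1
  have h2' : ζ ≤ ((1149/2500) : ℝ) := by simpa [pT] using h2
  have e1 : τT 10 = (48299/5000) := rfl
  have e2 : pT 10 = (1103/2500) := rfl
  rw [hs, e1, e2]
  have hm := piece_line (p := (1103/2500)) (p' := (1149/2500)) (Wk := (82469879/100000000)) (τ := (48299/5000))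
    (r₀ := (51090000/76101881)) (b₀ := (23898119/76101881)) (V := (3857/1000)) (r₁ := (4197/6250))
    (a3 := (2284778741/2500000000)) (a4 := (10013998399/5000000000)) (a5 := (10283788589/2000000000))
    (by norm_num) (by norm_num) (by norm_num) (by norm_num) (by norm_num)
    (J3_ge logV10.1 (by norm_num)) (J4_le atanV10 (by norm_num)) (J5_ge logV10.2 (by norm_num))
    (by norm_num) (by norm_num) (by norm_num [lineS]) (by norm_num [lineS]) h1' h2' h3
  exact ⟨(51090000/76101881), (23898119/76101881), (3857/1000), by norm_num, by norm_num, by norm_num, by norm_num, hm.1, hm.2⟩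

lemma logV11 : ((789006117/250000000) : ℝ) ≤ log (1 + (4741/1000) ^ 2) ∧ log (1 + (4741/1000) ^ 2) ≤ ((3156024869/1000000000) : ℝ) :=
  log_bounds (y := (8522919/32000000)) (b := 1 / 3) 5 (by norm_num) (by rw [abs_le]; constructor <;> norm_num) (by norm_num)
    (by norm_num [S16]) (by norm_num [S16])

lemma atanV11 : ((1362917243/1000000000) : ℝ) ≤ arctan (4741/1000) :=
  arctan_ge_case3 (u := (1000/4741)) (by norm_num) (by norm_num) (by norm_num [A9, A8])

lemma pieceT11 {ζ : ℝ} (h1 : pT 11 ≤ ζ) (h2 : ζ ≤ pT 12) (h3 : ζ ≤ 1 / 2) :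
    ∃ r₀ b₀ V₀ : ℝ, 0 ≤ r₀ ∧ 0 < b₀ ∧ 2 * r₀ ^ 2 + b₀ ^ 2 = 1 ∧ 0 < V₀ ∧
      V₀ / (2 * (b₀ + r₀ * V₀)) ≤ √ζ ∧
      ((∑ j ∈ Finset.range 11, τT j * (pT (j + 1) - pT j)) + τT 11 * (ζ - pT 11)) - ζ ≤
        Jint r₀ b₀ V₀ √ζ := by
  have hs : (∑ j ∈ Finset.range 11, τT j * (pT (j + 1) - pT j)) = (100243911/100000000) := by
    norm_num [Finset.sum_range_succ, τT, pT]
  have h1' : ((1149/2500) : ℝ) ≤ ζ := by simpa [pT] using h1
  have h2' : ζ ≤ ((2371/5000) : ℝ) := by simpa [pT] using h2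
  have e1 : τT 11 = (2001/125) := rfl
  have e2 : pT 11 = (1149/2500) := rfl
  rw [hs, e1, e2]
  have hm := piece_line (p := (1149/2500)) (p' := (2371/5000)) (Wk := (100243911/100000000)) (τ := (2001/125))
    (r₀ := (8708000/12739329)) (b₀ := (3260671/12739329)) (V := (4741/1000)) (r₁ := (68341/100000))
    (a3 := (2198619201/2000000000)) (a4 := (437124211/156250000)) (a5 := (21403045661/2500000000))
    (by norm_num) (by norm_num) (by norm_num) (by norm_num) (by norm_num)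
    (J3_ge logV11.1 (by norm_num)) (J4_le atanV11 (by norm_num)) (J5_ge logV11.2 (by norm_num))
    (by norm_num) (by norm_num) (by norm_num [lineS]) (by norm_num [lineS]) h1' h2' h3
  exact ⟨(8708000/12739329), (3260671/12739329), (4741/1000), by norm_num, by norm_num, by norm_num, by norm_num, hm.1, hm.2⟩

lemma logV12 : ((3615776833/1000000000) : ℝ) ≤ log (1 + (1203/200) ^ 2) ∧ log (1 + (1203/200) ^ 2) ≤ ((1807888617/500000000) : ℝ) :=
  log_bounds (y := (-207209/1280000)) (b := 1 / 3) 5 (by norm_num) (by rw [abs_le]; constructor <;> norm_num) (by norm_num)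
    (by norm_num [S16]) (by norm_num [S16])

lemma atanV12 : ((1406051871/1000000000) : ℝ) ≤ arctan (1203/200) :=
  arctan_ge_case3 (u := (200/1203)) (by norm_num) (by norm_num) (by norm_num [A9, A8])

lemma pieceT12 {ζ : ℝ} (h1 : pT 12 ≤ ζ) (h2 : ζ ≤ pT 13) (h3 : ζ ≤ 1 / 2) :
    ∃ r₀ b₀ V₀ : ℝ, 0 ≤ r₀ ∧ 0 < b₀ ∧ 2 * r₀ ^ 2 + b₀ ^ 2 = 1 ∧ 0 < V₀ ∧
      V₀ / (2 * (b₀ + r₀ * V₀)) ≤ √ζ ∧
      ((∑ j ∈ Finset.range 12, τT j * (pT (j + 1) - pT j)) + τT 12 * (ζ - pT 12)) - ζ ≤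
        Jint r₀ b₀ V₀ √ζ := by
  have hs : (∑ j ∈ Finset.range 12, τT j * (pT (j + 1) - pT j)) = (123615591/100000000) := by
    norm_num [Finset.sum_range_succ, τT, pT]
  have h1' : ((2371/5000) : ℝ) ≤ ζ := by simpa [pT] using h1
  have h2' : ζ ≤ ((4851/10000) : ℝ) := by simpa [pT] using h2
  have e1 : τT 12 = (29223/1000) := rfl
  have e2 : pT 12 = (2371/5000) := rfl
  rw [hs, e1, e2]
  have hm := piece_line (p := (2371/5000)) (p' := (4851/10000)) (Wk := (123615591/100000000)) (τ := (29223/1000))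
    (r₀ := (901250/1301091)) (b₀ := (261409/1301091)) (V := (1203/200)) (r₁ := (13857/20000))
    (a3 := (6606682127/5000000000)) (a4 := (9967029919/2500000000)) (a5 := (14960887257/1000000000))
    (by norm_num) (by norm_num) (by norm_num) (by norm_num) (by norm_num)
    (J3_ge logV12.1 (by norm_num)) (J4_le atanV12 (by norm_num)) (J5_ge logV12.2 (by norm_num))
    (by norm_num) (by norm_num) (by norm_num [lineS]) (by norm_num [lineS]) h1' h2' h3
  exact ⟨(901250/1301091), (261409/1301091), (1203/200), by norm_num, by norm_num, by norm_num, by norm_num, hm.1, hm.2⟩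

lemma logV13 : ((4167976969/1000000000) : ℝ) ≤ log (1 + (3987/500) ^ 2) ∧ log (1 + (3987/500) ^ 2) ≤ ((416797737/100000000) : ℝ) :=
  log_bounds (y := (-146169/16000000)) (b := 1 / 3) 6 (by norm_num) (by rw [abs_le]; constructor <;> norm_num) (by norm_num)
    (by norm_num [S16]) (by norm_num [S16])

lemma atanV13 : ((180754981/125000000) : ℝ) ≤ arctan (3987/500) :=
  arctan_ge_case3 (u := (500/3987)) (by norm_num) (by norm_num) (by norm_num [A9, A8])

lemma pieceT13 {ζ : ℝ} (h1 : pT 13 ≤ ζ) (h2 : ζ ≤ pT 14) (h3 : ζ ≤ 1 / 2) :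
    ∃ r₀ b₀ V₀ : ℝ, 0 ≤ r₀ ∧ 0 < b₀ ∧ 2 * r₀ ^ 2 + b₀ ^ 2 = 1 ∧ 0 < V₀ ∧
      V₀ / (2 * (b₀ + r₀ * V₀)) ≤ √ζ ∧
      ((∑ j ∈ Finset.range 13, τT j * (pT (j + 1) - pT j)) + τT 13 * (ζ - pT 13)) - ζ ≤
        Jint r₀ b₀ V₀ √ζ := by
  have hs : (∑ j ∈ Finset.range 13, τT j * (pT (j + 1) - pT j)) = (155468661/100000000) := by
    norm_num [Finset.sum_range_succ, τT, pT]
  have h1' : ((4851/10000) : ℝ) ≤ ζ := by simpa [pT] using h1
  have h2' : ζ ≤ ((308/625) : ℝ) := by simpa [pT] using h2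
  have e1 : τT 13 = (29779/500) := rfl
  have e2 : pT 13 = (4851/10000) := rfl
  rw [hs, e1, e2]
  have hm := piece_line (p := (4851/10000)) (p' := (308/625)) (Wk := (155468661/100000000)) (τ := (29779/500))
    (r₀ := (609000/870881)) (b₀ := (129119/870881)) (V := (3987/500)) (r₁ := (13987/20000))
    (a3 := (1591730259/1000000000)) (a4 := (29333365691/5000000000)) (a5 := (140583094277/5000000000))
    (by norm_num) (by norm_num) (by norm_num) (by norm_num) (by norm_num)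
    (J3_ge logV13.1 (by norm_num)) (J4_le atanV13 (by norm_num)) (J5_ge logV13.2 (by norm_num))
    (by norm_num) (by norm_num) (by norm_num [lineS]) (by norm_num [lineS]) h1' h2' h3
  exact ⟨(609000/870881), (129119/870881), (3987/500), by norm_num, by norm_num, by norm_num, by norm_num, hm.1, hm.2⟩

lemma logV14 : ((610230461/125000000) : ℝ) ≤ log (1 + (286/25) ^ 2) ∧ log (1 + (286/25) ^ 2) ≤ ((4881844089/1000000000) : ℝ) :=
  log_bounds (y := (-2421/80000)) (b := 1 / 3) 7 (by norm_num) (by rw [abs_le]; constructor <;> norm_num) (by norm_num)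
    (by norm_num [S16]) (by norm_num [S16])

lemma atanV14 : ((741802581/500000000) : ℝ) ≤ arctan (286/25) :=
  arctan_ge_case3 (u := (25/286)) (by norm_num) (by norm_num) (by norm_num [A9, A8])

lemma pieceT14 {ζ : ℝ} (h1 : pT 14 ≤ ζ) (h2 : ζ ≤ pT 15) (h3 : ζ ≤ 1 / 2) :
    ∃ r₀ b₀ V₀ : ℝ, 0 ≤ r₀ ∧ 0 < b₀ ∧ 2 * r₀ ^ 2 + b₀ ^ 2 = 1 ∧ 0 < V₀ ∧
      V₀ / (2 * (b₀ + r₀ * V₀)) ≤ √ζ ∧
      ((∑ j ∈ Finset.range 14, τT j * (pT (j + 1) - pT j)) + τT 14 * (ζ - pT 14)) - ζ ≤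
        Jint r₀ b₀ V₀ √ζ := by
  have hs : (∑ j ∈ Finset.range 14, τT j * (pT (j + 1) - pT j)) = (201328321/100000000) := by
    norm_num [Finset.sum_range_succ, τT, pT]
  have h1' : ((308/625) : ℝ) ≤ ζ := by simpa [pT] using h1
  have h2' : ζ ≤ ((311/625) : ℝ) := by simpa [pT] using h2
  have e1 : τT 14 = (15273/100) := rfl
  have e2 : pT 14 = (308/625) := rfl
  rw [hs, e1, e2]
  have hm := piece_line (p := (308/625)) (p' := (311/625)) (Wk := (201328321/100000000)) (τ := (15273/100))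
    (r₀ := (4007500/5694609)) (b₀ := (555391/5694609)) (V := (286/25)) (r₁ := (70381/100000))
    (a3 := (9723566767/5000000000)) (a4 := (92579671251/10000000000)) (a5 := (122102328803/2000000000))
    (by norm_num) (by norm_num) (by norm_num) (by norm_num) (by norm_num)
    (J3_ge logV14.1 (by norm_num)) (J4_le atanV14 (by norm_num)) (J5_ge logV14.2 (by norm_num))
    (by norm_num) (by norm_num) (by norm_num [lineS]) (by norm_num [lineS]) h1' h2' h3
  exact ⟨(4007500/5694609), (555391/5694609), (286/25), by norm_num, by norm_num, by norm_num, by norm_num, hm.1, hm.2⟩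

lemma logV15 : ((2964025929/500000000) : ℝ) ≤ log (1 + (387/20) ^ 2) ∧ log (1 + (387/20) ^ 2) ≤ ((5928052259/1000000000) : ℝ) :=
  log_bounds (y := (54631/204800)) (b := 1 / 3) 9 (by norm_num) (by rw [abs_le]; constructor <;> norm_num) (by norm_num)
    (by norm_num [S16]) (by norm_num [S16])

lemma atanV15 : ((759581237/500000000) : ℝ) ≤ arctan (387/20) :=
  arctan_ge_case3 (u := (20/387)) (by norm_num) (by norm_num) (by norm_num [A9, A8])

lemma pieceT15 {ζ : ℝ} (h1 : pT 15 ≤ ζ) (h2 : ζ ≤ pT 16) (h3 : ζ ≤ 1 / 2) :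
    ∃ r₀ b₀ V₀ : ℝ, 0 ≤ r₀ ∧ 0 < b₀ ∧ 2 * r₀ ^ 2 + b₀ ^ 2 = 1 ∧ 0 < V₀ ∧
      V₀ / (2 * (b₀ + r₀ * V₀)) ≤ √ζ ∧
      ((∑ j ∈ Finset.range 15, τT j * (pT (j + 1) - pT j)) + τT 15 * (ζ - pT 15)) - ζ ≤
        Jint r₀ b₀ V₀ √ζ := by
  have hs : (∑ j ∈ Finset.range 15, τT j * (pT (j + 1) - pT j)) = (274638721/100000000) := by
    norm_num [Finset.sum_range_succ, τT, pT]
  have h1' : ((311/625) : ℝ) ≤ ζ := by simpa [pT] using h1
  have h2' : ζ ≤ ((1/2) : ℝ) := by simpa [pT] using h2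
  have e1 : τT 15 = (30863/50) := rfl
  have e2 : pT 15 = (311/625) := rfl
  rw [hs, e1, e2]
  have hm := piece_line (p := (311/625)) (p' := (1/2)) (Wk := (274638721/100000000)) (τ := (30863/50))
    (r₀ := (4202500/5950761)) (b₀ := (299239/5950761)) (V := (387/20)) (r₁ := (70627/100000))
    (a3 := (12326788809/5000000000)) (a4 := (85485136269/5000000000)) (a5 := (1817818659081/10000000000))
    (by norm_num) (by norm_num) (by norm_num) (by norm_num) (by norm_num)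
    (J3_ge logV15.1 (by norm_num)) (J4_le atanV15 (by norm_num)) (J5_ge logV15.2 (by norm_num))
    (by norm_num) (by norm_num) (by norm_num [lineS]) (by norm_num [lineS]) h1' h2' h3
  exact ⟨(4202500/5950761), (299239/5950761), (387/20), by norm_num, by norm_num, by norm_num, by norm_num, hm.1, hm.2⟩

lemma pT_mono : ∀ k < 16, pT k ≤ pT (k + 1) := by
  intro k hk
  interval_cases k <;> norm_num [pT]

/-- The envelope property of the numerical envelope. -/
theorem isEnv_T : IsEnv (envF τT pT 16) := by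
  refine isEnv_envF (by norm_num) pT_mono (by norm_num [pT]) (by norm_num [pT]) ?_
  intro k hk ζ h1 h2 h3
  interval_cases k
  · left
    simp [τT, pT]
  · exact Or.inr (pieceT1 h1 h2 h3)
  · exact Or.inr (pieceT2 h1 h2 h3)
  · exact Or.inr (pieceT3 h1 h2 h3)
  · exact Or.inr (pieceT4 h1 h2 h3)
  · exact Or.inr (pieceT5 h1 h2 h3)
  · exact Or.inr (pieceT6 h1 h2 h3)
  · exact Or.inr (pieceT7 h1 h2 h3)
  · exact Or.inr (pieceT8 h1 h2 h3)
  · exact Or.inr (pieceT9 h1 h2 h3)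
  · exact Or.inr (pieceT10 h1 h2 h3)
  · exact Or.inr (pieceT11 h1 h2 h3)
  · exact Or.inr (pieceT12 h1 h2 h3)
  · exact Or.inr (pieceT13 h1 h2 h3)
  · exact Or.inr (pieceT14 h1 h2 h3)
  · exact Or.inr (pieceT15 h1 h2 h3)

end Vale.Agent.Lib.P371
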