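import Vale.Agent.Lib.P371.ZInt

/-!
The integrated inequality.
-/

open Real MeasureTheory Set Filter Topology Function Matrix
open scoped ComplexOrder

namespace Vale.Agent.Lib.P371

variable {m n : ℕ} {W : ℝ → Matrix (Fin m) (Fin m) ℂ} {pw : ℝ}

lemma Dx_pos {x : ℝ} (hx : 0 < x) : 0 < Dx x := by
  unfold Dx
  have h1 : log 2 < 3 / 4 := by
    have := Real.log_two_lt_d9
    linarith
  have h2 : 0 ≤ 4 * (3 / 4 - log 2) * x ^ 2 := by
    have : 0 ≤ 3 / 4 - log 2 := by linarith
    positivity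
  have h3 : 0 ≤ x ^ 2 / (1 + 2 * x) := by positivity
  have h4 : log 2 ^ 2 < 1 / 2 := by
    have h5 := Real.log_two_lt_d9
    have h6 := Real.log_two_gt_d9
    nlinarith
  have h7 : 0 ≤ 4 * (1 / 2 - log 2 ^ 2) * x ^ 3 := by
    have : 0 ≤ 1 / 2 - log 2 ^ 2 := by linarith
    positivity
  linarith

/-- The truncated trace, as a function of the level and of the point. -/
noncomputable def trG (hW : GoodW W pw) (a y : ℝ) : ℝ :=
  ∑ α, max ((hW.psd y).isHermitian.eigenvalues α - a) 0

lemma measurable_trG (hW : GoodW W pw) : Measurable (uncurry (trG hW)) := by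
  apply measurable_uncurry_of_continuous_of_measurable
  · intro y
    unfold trG
    fun_prop
  · intro a
    exact measurable_trace hW (φ := fun s => max (s - a) 0) (by fun_prop)

lemma measurable_Lam_joint (hW : GoodW W pw) (τ pb : ℕ → ℝ) (K : ℕ) :
    Measurable (fun q : ℝ × ℝ => Lam hW τ pb K q.1 q.2) := by
  simp only [Lam_eq]
  refine Finset.measurable_fun_sum _ fun k _ => ?_
  have h1 : Measurable (fun q : ℝ × ℝ => trG hW (τ k / 4 * q.1 ^ 2) q.2) :=
    (measurable_trG hW).comp ((measurable_const.mul (measurable_fst.pow_const 2)).prodMk measurable_snd)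
  have h2 : (fun q : ℝ × ℝ => (pb (k + 1) - pb k) * ((1 / q.1) * ∑ α,
      max ((hW.psd q.2).isHermitian.eigenvalues α - τ k / 4 * q.1 ^ 2) 0)) =
      fun q : ℝ × ℝ => (pb (k + 1) - pb k) * ((1 / q.1) * trG hW (τ k / 4 * q.1 ^ 2) q.2) := rfl
  rw [h2]
  fun_prop

/-- The integral over the level, at a fixed point. -/
lemma level_integral (hW : GoodW W pw) {τ pb : ℕ → ℝ} {K : ℕ} (hτ : ∀ k < K, 0 < τ k)
    (hpb : ∀ k < K, pb k ≤ pb (k + 1)) {x : ℝ} (hx : 0 < x) (y : ℝ) :
    ∫⁻ z in Ioi (0 : ℝ), ENNReal.ofReal (2 * x * z ^ (2 * x) * Lam hW τ pb K z y) ≤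
      ENNReal.ofReal ((∑ k ∈ Finset.range K, (pb (k + 1) - pb k) * ((τ k / 4) ^ (-x) / (1 + x))) *
        ∑ α, (hW.psd y).isHermitian.eigenvalues α ^ (1 + x)) := by
  set lam := (hW.psd y).isHermitian.eigenvalues with hlam
  have hlam0 : ∀ α, 0 ≤ lam α := (hW.psd y).eigenvalues_nonneg
  have hβ : ∀ k ∈ Finset.range K, 0 ≤ pb (k + 1) - pb k := fun k hk => by
    have := hpb k (Finset.mem_range.mp hk)
    linarith
  have hform : ∀ z ∈ Ioi (0 : ℝ), ENNReal.ofReal (2 * x * z ^ (2 * x) * Lam hW τ pb K z y) =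
      ∑ α, ∑ k ∈ Finset.range K, ENNReal.ofReal (pb (k + 1) - pb k) *
        ENNReal.ofReal (2 * x * z ^ (2 * x - 1) * max (lam α - τ k / 4 * z ^ 2) 0) := by
    intro z hz
    have hz0 : (0 : ℝ) < z := hz
    have h1 : 2 * x * z ^ (2 * x) * Lam hW τ pb K z y = ∑ α, ∑ k ∈ Finset.range K,
        (pb (k + 1) - pb k) * (2 * x * z ^ (2 * x - 1) * max (lam α - τ k / 4 * z ^ 2) 0) := by
      unfold Lam
      rw [Finset.mul_sum]
      refine Finset.sum_congr rfl fun α _ => ?_
      rw [Finset.mul_sum]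
      refine Finset.sum_congr rfl fun k _ => ?_
      rw [Real.rpow_sub hz0, Real.rpow_one]
      have h2 : ∀ M : ℝ, 2 * x * z ^ (2 * x) * ((pb (k + 1) - pb k) * ((1 / z) * M)) =
          (pb (k + 1) - pb k) * (2 * x * (z ^ (2 * x) / z) * M) := by
        intro M
        field_simp
      exact h2 _
    rw [h1, ENNReal.ofReal_sum_of_nonneg]
    · refine Finset.sum_congr rfl fun α _ => ?_
      rw [ENNReal.ofReal_sum_of_nonneg]
      · refine Finset.sum_congr rfl fun k hk => ?_
        rw [ENNReal.ofReal_mul (hβ k hk)]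
      · intro k hk
        have h2 : 0 ≤ max (lam α - τ k / 4 * z ^ 2) 0 := le_max_right _ _
        have h3 := hβ k hk
        positivity
    · intro α _
      refine Finset.sum_nonneg fun k hk => ?_
      have h2 : 0 ≤ max (lam α - τ k / 4 * z ^ 2) 0 := le_max_right _ _
      have h3 := hβ k hk
      positivity
  rw [setLIntegral_congr_fun measurableSet_Ioi hform]
  have hm : ∀ α k, Measurable (fun z : ℝ =>
      ENNReal.ofReal (2 * x * z ^ (2 * x - 1) * max (lam α - τ k / 4 * z ^ 2) 0)) := by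
    intro α k
    fun_prop
  rw [lintegral_finsetSum _ fun α _ => Finset.measurable_fun_sum _ fun k _ => (hm α k).const_mul _]
  have hfinal : (∑ k ∈ Finset.range K, (pb (k + 1) - pb k) * ((τ k / 4) ^ (-x) / (1 + x))) *
      ∑ α, lam α ^ (1 + x) = ∑ α, ∑ k ∈ Finset.range K, (pb (k + 1) - pb k) *
        ((τ k / 4) ^ (-x) * lam α ^ (1 + x) / (1 + x)) := by
    rw [Finset.mul_sum]
    refine Finset.sum_congr rfl fun α _ => ?_
    rw [Finset.sum_mul]
    refine Finset.sum_congr rfl fun k _ => ?_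
    ring
  rw [hfinal, ENNReal.ofReal_sum_of_nonneg]
  · refine Finset.sum_le_sum fun α _ => ?_
    rw [lintegral_finsetSum _ fun k _ => (hm α k).const_mul _, ENNReal.ofReal_sum_of_nonneg]
    · refine Finset.sum_le_sum fun k hk => ?_
      have hk' := Finset.mem_range.mp hk
      rw [lintegral_const_mul _ (hm α k), ENNReal.ofReal_mul (hβ k hk)]
      gcongr
      have h1 : 0 < τ k / 4 := by
        have := hτ k hk'
        positivity
      exact lintegral_trunc (hlam0 α) h1 hx
    · intro k hk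
      have hk' := Finset.mem_range.mp hk
      have h1 : 0 < τ k / 4 := by
        have := hτ k hk'
        positivity
      have h2 := hβ k hk
      have h3 := hlam0 α
      positivity
  · intro α _
    refine Finset.sum_nonneg fun k hk => ?_
    have hk' := Finset.mem_range.mp hk
    have h1 : 0 < τ k / 4 := by
      have := hτ k hk'
      positivity
    have h2 := hβ k hk
    have h3 := hlam0 α
    positivity

/-- The integrated inequality. -/
theorem integrated {x : ℝ} (hx : 0 < x) (hW : GoodW W (1 + x)) {e : ℝ → ℝ} (he : IsEnv e)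
    {τ pb : ℕ → ℝ} {K : ℕ}
    (hleg : ∀ s ζ : ℝ, 0 ≤ ζ → ζ ≤ 1 / 2 → s * ζ - e ζ ≤ plF τ pb K s) (hτ : ∀ k < K, 0 < τ k)
    (hpb : ∀ k < K, pb k ≤ pb (k + 1))
    {N : ℕ} {ψ ψ' : ℕ → ℝ → Fin m → ℂ} {κ : ℕ → ℝ} (hF : Flag W N ψ ψ' κ) :
    Dx x * ∑ i ∈ Finset.range N, κ i ^ (1 + 2 * x) ≤
      (∑ k ∈ Finset.range K, (pb (k + 1) - pb k) * ((τ k / 4) ^ (-x) / (1 + x))) *
        ∫ y, ∑ α, (hW.psd y).isHermitian.eigenvalues α ^ (1 + x) := by
  set C := ∑ k ∈ Finset.range K, (pb (k + 1) - pb k) * ((τ k / 4) ^ (-x) / (1 + x)) with hC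
  have hC0 : 0 ≤ C := by
    refine Finset.sum_nonneg fun k hk => ?_
    have hk' := Finset.mem_range.mp hk
    have h1 : 0 < τ k / 4 := by
      have := hτ k hk'
      positivity
    have h2 := hpb k hk'
    have h3 : 0 ≤ pb (k + 1) - pb k := by linarith
    positivity
  set tr : ℝ → ℝ := fun y => ∑ α, (hW.psd y).isHermitian.eigenvalues α ^ (1 + x) with htr
  have htr0 : ∀ y, 0 ≤ tr y := fun y => Finset.sum_nonneg fun α _ =>
    Real.rpow_nonneg ((hW.psd y).eigenvalues_nonneg α) _
  have hD := Dx_pos hx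
  have hκpos : ∀ i ∈ Finset.range N, 0 < κ i := fun i hi => hF.pos i (Finset.mem_range.mp hi)
  set w : ℝ → ℝ := fun z => 2 * x * z ^ (2 * x) with hw
  have hw0 : ∀ z ∈ Ioi (0 : ℝ), 0 ≤ w z := by
    intro z hz
    have hz0 : (0 : ℝ) < z := hz
    simp only [hw]
    positivity
  have hmhh : ∀ κ₀ : ℝ, Measurable (fun z : ℝ => ENNReal.ofReal (w z * hh z κ₀)) := by
    intro κ₀
    have := measurable_hh κ₀
    simp only [hw]
    fun_prop
  have hstep : ENNReal.ofReal (Dx x * ∑ i ∈ Finset.range N, κ i ^ (1 + 2 * x)) ≤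
      ENNReal.ofReal (C * ∫ y, tr y) := by
    calc ENNReal.ofReal (Dx x * ∑ i ∈ Finset.range N, κ i ^ (1 + 2 * x))
        = ∑ i ∈ Finset.range N, ENNReal.ofReal (Dx x * κ i ^ (1 + 2 * x)) := by
          rw [Finset.mul_sum, ENNReal.ofReal_sum_of_nonneg]
          intro i hi
          have := hκpos i hi
          positivity
      _ ≤ ∑ i ∈ Finset.range N, ∫⁻ z in Ioi (0 : ℝ), ENNReal.ofReal (w z * hh z (κ i)) :=
          Finset.sum_le_sum fun i hi => lintegral_hh (hκpos i hi) hx
      _ = ∫⁻ z in Ioi (0 : ℝ), ∑ i ∈ Finset.range N, ENNReal.ofReal (w z * hh z (κ i)) :=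
          (lintegral_finsetSum _ fun i _ => hmhh (κ i)).symm
      _ ≤ ∫⁻ z in Ioi (0 : ℝ), ∫⁻ y, ENNReal.ofReal (w z * Lam hW τ pb K z y) := by
          apply setLIntegral_mono' measurableSet_Ioi
          intro z hz
          have hz0 : (0 : ℝ) < z := hz
          have h1 := key_z hW he hleg hτ hF hz0
          have hLi := integrable_Lam hW pb hτ hz0
          rw [← ofReal_integral_eq_lintegral_ofReal (hLi.const_mul _)
            (Eventually.of_forall fun y => mul_nonneg (hw0 z hz) (Lam_nonneg hW hpb hz0 y)),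
            ← ENNReal.ofReal_sum_of_nonneg fun i _ => mul_nonneg (hw0 z hz) (hh_nonneg _ _),
            integral_const_mul, ← Finset.mul_sum]
          exact ENNReal.ofReal_le_ofReal (mul_le_mul_of_nonneg_left h1 (hw0 z hz))
      _ = ∫⁻ y, ∫⁻ z in Ioi (0 : ℝ), ENNReal.ofReal (w z * Lam hW τ pb K z y) := by
          have hm : Measurable (uncurry fun (z y : ℝ) => ENNReal.ofReal (w z * Lam hW τ pb K z y)) := by
            simp only [uncurry_def, hw]
            have := measurable_Lam_joint hW τ pb K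
            fun_prop
          exact lintegral_lintegral_swap hm.aemeasurable
      _ ≤ ∫⁻ y, ENNReal.ofReal (C * tr y) :=
          lintegral_mono fun y => level_integral hW hτ hpb hx y
      _ = ENNReal.ofReal (C * ∫ y, tr y) := by
          rw [← integral_const_mul, ofReal_integral_eq_lintegral_ofReal (hW.int.const_mul C)
            (Eventually.of_forall fun y => mul_nonneg hC0 (htr0 y))]
  have h0 : 0 ≤ C * ∫ y, tr y := mul_nonneg hC0 (integral_nonneg htr0)
  exact (ENNReal.ofReal_le_ofReal_iff h0).mp hstep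

end Vale.Agent.Lib.P371
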