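import Vale.Agent.Lib.P371.BesselMain

/-!
Integration over the spectral level `z`.
-/

open Real MeasureTheory Set Filter Topology Function Matrix
open scoped ComplexOrder

namespace Vale.Agent.Lib.P371

variable {m n : ℕ} {W : ℝ → Matrix (Fin m) (Fin m) ℂ} {pw : ℝ}

/-- The positive part of the chain value. -/
noncomputable def hh (z κ : ℝ) : ℝ := max (dd z κ / z - 1 / 4) 0

lemma dd_mono {z a b : ℝ} (hz : 0 < z) (ha : 0 < a) (hab : a ≤ b) : dd z a ≤ dd z b := by
  unfold dd
  by_cases h1 : z ≤ a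
  · rw [if_pos h1, if_pos (h1.trans hab)]
    exact hab
  · rw [if_neg h1]
    have h1' : a < z := not_le.mp h1
    by_cases h2 : z ≤ b
    · rw [if_pos h2]
      rw [div_le_iff₀ hz]
      nlinarith
    · rw [if_neg h2]
      apply div_le_div_of_nonneg_right _ hz.le
      gcongr

lemma prefix_sum {g : ℕ → ℝ} (N : ℕ) (hg : ∀ j k, j ≤ k → k < N → g k ≤ g j) :
    ∃ n, n ≤ N ∧ ∑ i ∈ Finset.range N, max (g i) 0 = ∑ i ∈ Finset.range n, g i := by
  induction N with
  | zero => exact ⟨0, le_rfl, by simp⟩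
  | succ N ih =>
    by_cases h : 0 < g N
    · refine ⟨N + 1, le_rfl, Finset.sum_congr rfl fun i hi => ?_⟩
      have hi' := Finset.mem_range.mp hi
      have := hg i N (by omega) (by omega)
      exact max_eq_left (by linarith)
    · obtain ⟨n, hn, hs⟩ := ih fun j k hjk hk => hg j k hjk (by omega)
      refine ⟨n, by omega, ?_⟩
      rw [Finset.sum_range_succ, max_eq_right (not_lt.mp h), add_zero, hs]

/-- The key inequality at the level `z`. -/
theorem key_z (hW : GoodW W pw) {e : ℝ → ℝ} (he : IsEnv e) {τ pb : ℕ → ℝ} {K : ℕ}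
    (hleg : ∀ s ζ : ℝ, 0 ≤ ζ → ζ ≤ 1 / 2 → s * ζ - e ζ ≤ plF τ pb K s) (hτ : ∀ k < K, 0 < τ k)
    {N : ℕ} {ψ ψ' : ℕ → ℝ → Fin m → ℂ} {κ : ℕ → ℝ} (hF : Flag W N ψ ψ' κ) {z : ℝ} (hz : 0 < z) :
    ∑ i ∈ Finset.range N, hh z (κ i) ≤ ∫ x, Lam hW τ pb K z x := by
  obtain ⟨n, hn, hs⟩ := prefix_sum (g := fun i => dd z (κ i) / z - 1 / 4) N (by
    intro j k hjk hk
    have h1 := dd_mono hz (hF.pos k hk) (hF.anti j k hjk hk)
    have h2 : dd z (κ k) / z ≤ dd z (κ j) / z := div_le_div_of_nonneg_right h1 hz.le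
    linarith)
  unfold hh
  rw [hs]
  obtain ⟨f, hf, hON, hS⟩ := chain hW hF hn z hz
  have h1 := won_main hW he hleg hτ (f := fun i : Fin n => f i) (fun i => hf i i.2)
    (fun i k => by
      rw [hON i k i.2 k.2]
      simp [Fin.ext_iff]) hz
  have h3 : ∑ i ∈ Finset.range n, (dd z (κ i) / z - 1 / 4) ≤
      ∑ i ∈ Finset.range n, (Eh z W (f i) / z - 1 / 4) := by
    have e : ∀ g : ℕ → ℝ, ∑ i ∈ Finset.range n, (g i / z - 1 / 4) =
        (∑ i ∈ Finset.range n, g i) / z - ∑ i ∈ Finset.range n, (1 / 4 : ℝ) := by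
      intro g
      rw [Finset.sum_sub_distrib, Finset.sum_div]
    rw [e, e]
    have h2 := div_le_div_of_nonneg_right hS hz.le
    linarith
  rw [Finset.sum_range (fun i => Eh z W (f i) / z - 1 / 4)] at h3
  exact h3.trans h1

/-- The value of the truncated integral. -/
theorem lintegral_trunc {w a x : ℝ} (hw : 0 ≤ w) (ha : 0 < a) (hx : 0 < x) :
    ∫⁻ z in Ioi (0 : ℝ), ENNReal.ofReal (2 * x * z ^ (2 * x - 1) * max (w - a * z ^ 2) 0) ≤
      ENNReal.ofReal (a ^ (-x) * w ^ (1 + x) / (1 + x)) := by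
  set Z := √(w / a) with hZ
  have hZ0 : 0 ≤ Z := Real.sqrt_nonneg _
  have hZ2 : Z ^ 2 = w / a := Real.sq_sqrt (by positivity)
  have hsub : ∫⁻ z in Ioi (0 : ℝ), ENNReal.ofReal (2 * x * z ^ (2 * x - 1) * max (w - a * z ^ 2) 0) =
      ∫⁻ z in Ioc 0 Z, ENNReal.ofReal (2 * x * z ^ (2 * x - 1) * (w - a * z ^ 2)) := by
    have h1 : (Ioc 0 Z : Set ℝ) = Iic Z ∩ Ioi 0 := by
      ext t
      simp [and_comm]
    rw [h1, ← setLIntegral_indicator measurableSet_Iic]
    · apply setLIntegral_congr_fun measurableSet_Ioi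
      intro z hz
      have hz0 : (0 : ℝ) < z := hz
      simp only [indicator_apply, mem_Iic]
      split_ifs with h
      · have h3 : a * z ^ 2 ≤ w := by
          have h4 : z ^ 2 ≤ Z ^ 2 := by gcongr
          rw [hZ2] at h4
          rwa [le_div_iff₀ ha, mul_comm] at h4
        rw [max_eq_left (by linarith)]
      · have h3 : w < a * z ^ 2 := by
          have h4 : Z ^ 2 < z ^ 2 := by
            have : Z < z := not_le.mp h
            gcongr
          rw [hZ2] at h4
          rwa [div_lt_iff₀ ha, mul_comm] at h4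
        rw [max_eq_right (by linarith)]
        simp
  rw [hsub]
  have hr1 : -1 < 2 * x - 1 := by linarith
  have hr2 : -1 < 2 * x + 1 := by linarith
  have hi1 : IntervalIntegrable (fun z : ℝ => z ^ (2 * x - 1)) volume 0 Z :=
    intervalIntegral.intervalIntegrable_rpow' hr1
  have hi2 : IntervalIntegrable (fun z : ℝ => z ^ (2 * x + 1)) volume 0 Z :=
    intervalIntegral.intervalIntegrable_rpow' hr2
  have hform : ∀ z ∈ Ioc 0 Z, 2 * x * z ^ (2 * x - 1) * (w - a * z ^ 2) =
      2 * x * w * z ^ (2 * x - 1) - 2 * x * a * z ^ (2 * x + 1) := by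
    intro z hz
    have hz0 : 0 < z := hz.1
    have h1 : z ^ (2 * x + 1) = z ^ (2 * x - 1) * z ^ 2 := by
      rw [← Real.rpow_natCast z 2, ← Real.rpow_add hz0]
      congr 1
      push_cast
      ring
    rw [h1]
    ring
  have hint : IntegrableOn (fun z => 2 * x * w * z ^ (2 * x - 1) - 2 * x * a * z ^ (2 * x + 1))
      (Ioc 0 Z) := by
    have h1 := (hi1.const_mul (2 * x * w)).sub (hi2.const_mul (2 * x * a))
    exact (intervalIntegrable_iff_integrableOn_Ioc_of_le hZ0).mp h1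
  rw [setLIntegral_congr_fun measurableSet_Ioc (fun z hz => by
    rw [hform z hz])]
  have hnn : 0 ≤ᵐ[volume.restrict (Ioc 0 Z)]
      fun z => 2 * x * w * z ^ (2 * x - 1) - 2 * x * a * z ^ (2 * x + 1) := by
    refine ae_restrict_of_forall_mem measurableSet_Ioc fun z hz => ?_
    simp only [Pi.zero_apply]
    rw [← hform z hz]
    have hz0 : 0 < z := hz.1
    have h4 : z ^ 2 ≤ Z ^ 2 := by
      have := hz.2
      gcongr
    rw [hZ2] at h4
    have h5 : a * z ^ 2 ≤ w := by
      rwa [le_div_iff₀ ha, mul_comm] at h4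
    have h6 : 0 ≤ w - a * z ^ 2 := by linarith
    positivity
  rw [← ofReal_integral_eq_lintegral_ofReal hint hnn]
  apply ENNReal.ofReal_le_ofReal
  apply le_of_eq
  rw [← intervalIntegral.integral_of_le hZ0, intervalIntegral.integral_sub (hi1.const_mul _)
    (hi2.const_mul _), intervalIntegral.integral_const_mul, intervalIntegral.integral_const_mul,
    integral_rpow (Or.inl hr1), integral_rpow (Or.inl hr2)]
  have e1 : (2 * x - 1 + 1) = 2 * x := by ring
  have e2 : (2 * x + 1 + 1) = 2 * x + 2 := by ring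
  rw [e1, e2, Real.zero_rpow (by positivity), Real.zero_rpow (by positivity)]
  -- powers of `Z`
  rcases hw.eq_or_lt with h0 | hw0
  · have : Z = 0 := by
      rw [hZ, ← h0]
      simp
    rw [this, ← h0, Real.zero_rpow (by positivity), Real.zero_rpow (by positivity),
      Real.zero_rpow (by positivity)]
    simp
  have hZpos : 0 < Z := Real.sqrt_pos.mpr (by positivity)
  have p1 : Z ^ (2 * x) = (w / a) ^ x := by
    rw [← hZ2, ← Real.rpow_natCast Z 2, ← Real.rpow_mul hZ0]
    norm_num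
  have p2 : Z ^ (2 * x + 2) = (w / a) ^ x * (w / a) := by
    rw [Real.rpow_add hZpos, p1, Real.rpow_two, hZ2]
  rw [p1, p2]
  have p3 : (w / a) ^ x = a ^ (-x) * w ^ x := by
    rw [Real.div_rpow hw ha.le, Real.rpow_neg ha.le]
    field_simp
  have p4 : w ^ (1 + x) = w * w ^ x := by
    rw [Real.rpow_add hw0, Real.rpow_one]
  rw [p3, p4]
  have hx1 : (x + 1) ≠ 0 := by positivity
  field_simp
  ring

/-- The lower bound for the constant. -/
noncomputable def Dx (x : ℝ) : ℝ := 1 + x ^ 2 / (1 + 2 * x) + 4 * (3 / 4 - log 2) * x ^ 2 +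
  4 * (1 / 2 - log 2 ^ 2) * x ^ 3

lemma measurable_dd (κ : ℝ) : Measurable fun z => dd z κ := by
  unfold dd
  exact Measurable.ite measurableSet_Iic measurable_const (by fun_prop)

lemma measurable_hh (κ : ℝ) : Measurable fun z => hh z κ := by
  unfold hh
  have := measurable_dd κ
  fun_prop

lemma hh_nonneg (z κ : ℝ) : 0 ≤ hh z κ := le_max_right _ _

/-- First part of the integral. -/
lemma piece1 {κ x : ℝ} (hκ : 0 < κ) (hx : 0 < x) :
    ∫ z in Ioc 0 κ, 2 * x * z ^ (2 * x) * (κ / z - 1 / 4) =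
      κ ^ (1 + 2 * x) * (1 - (x / 2) / (1 + 2 * x)) ∧
    IntegrableOn (fun z => 2 * x * z ^ (2 * x) * (κ / z - 1 / 4)) (Ioc 0 κ) := by
  have hr1 : -1 < 2 * x - 1 := by linarith
  have hr2 : -1 < 2 * x := by linarith
  have hi1 : IntervalIntegrable (fun z : ℝ => z ^ (2 * x - 1)) volume 0 κ :=
    intervalIntegral.intervalIntegrable_rpow' hr1
  have hi2 : IntervalIntegrable (fun z : ℝ => z ^ (2 * x)) volume 0 κ :=
    intervalIntegral.intervalIntegrable_rpow' hr2
  have hform : ∀ z ∈ Ioc 0 κ, 2 * x * z ^ (2 * x) * (κ / z - 1 / 4) =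
      2 * x * κ * z ^ (2 * x - 1) - x / 2 * z ^ (2 * x) := by
    intro z hz
    have hz0 : 0 < z := hz.1
    have h1 : z ^ (2 * x - 1) = z ^ (2 * x) / z := by
      rw [Real.rpow_sub hz0, Real.rpow_one]
    rw [h1]
    field_simp
    ring
  have hint : IntegrableOn (fun z => 2 * x * κ * z ^ (2 * x - 1) - x / 2 * z ^ (2 * x)) (Ioc 0 κ) := by
    have h1 := (hi1.const_mul (2 * x * κ)).sub (hi2.const_mul (x / 2))
    exact (intervalIntegrable_iff_integrableOn_Ioc_of_le hκ.le).mp h1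
  constructor
  · rw [setIntegral_congr_fun measurableSet_Ioc hform, ← intervalIntegral.integral_of_le hκ.le,
      intervalIntegral.integral_sub (hi1.const_mul _) (hi2.const_mul _),
      intervalIntegral.integral_const_mul, intervalIntegral.integral_const_mul,
      integral_rpow (Or.inl hr1), integral_rpow (Or.inl hr2)]
    have e1 : (2 * x - 1 + 1) = 2 * x := by ring
    rw [e1, Real.zero_rpow (by positivity), Real.zero_rpow (by positivity)]
    have p1 : κ ^ (1 + 2 * x) = κ * κ ^ (2 * x) := by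
      rw [Real.rpow_add hκ, Real.rpow_one]
    have p2 : κ ^ (2 * x + 1) = κ * κ ^ (2 * x) := by
      rw [add_comm, p1]
    rw [p1, p2]
    field_simp
    ring
  · exact hint.congr_fun (fun z hz => (hform z hz).symm) measurableSet_Ioc

/-- The antiderivative for the second part of the integral. -/
noncomputable def Qz (κ x z : ℝ) : ℝ :=
  -κ ^ 2 / z - z / 4 + 2 * x * (-κ ^ 2 * log (z / κ) / z - κ ^ 2 / z -
    (1 / 4) * (z * log (z / κ) - z)) +
  2 * x ^ 2 * (-κ ^ 2 * log (z / κ) ^ 2 / z - 2 * κ ^ 2 * log (z / κ) / z - 2 * κ ^ 2 / z -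
    (1 / 4) * (z * log (z / κ) ^ 2 - 2 * (z * log (z / κ)) + 2 * z))

lemma hasDerivAt_Qz {κ x z : ℝ} (hκ : 0 < κ) (hz : 0 < z) :
    HasDerivAt (Qz κ x)
      ((1 + 2 * x * log (z / κ) + 2 * x ^ 2 * log (z / κ) ^ 2) * (κ ^ 2 / z ^ 2 - 1 / 4)) z := by
  have hL : HasDerivAt (fun z => log (z / κ)) (1 / z) z := by
    have h1 : HasDerivAt (fun z : ℝ => z / κ) (1 / κ) z := (hasDerivAt_id z).div_const κ
    have h2 := h1.log (by positivity)
    refine h2.congr_deriv ?_
    field_simp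
  have hL2 : HasDerivAt (fun z => log (z / κ) ^ 2) (2 * log (z / κ) * (1 / z)) z := by
    have := hL.pow 2
    refine this.congr_deriv ?_
    simp
  have hI : HasDerivAt (fun z : ℝ => z⁻¹) (-(z ^ 2)⁻¹) z := by
    exact hasDerivAt_inv hz.ne'
  have hA : HasDerivAt (fun z : ℝ => -κ ^ 2 / z) (κ ^ 2 / z ^ 2) z := by
    have := hI.const_mul (-κ ^ 2)
    refine (this.congr_deriv ?_).congr_of_eventuallyEq (Eventually.of_forall fun t => ?_)
    · field_simp
    · simp only [div_eq_mul_inv]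
  have hB : HasDerivAt (fun z : ℝ => z / 4) (1 / 4) z := (hasDerivAt_id z).div_const 4
  have hC : HasDerivAt (fun z : ℝ => -κ ^ 2 * log (z / κ) / z)
      (-κ ^ 2 * (1 / z) / z + κ ^ 2 * log (z / κ) / z ^ 2) z := by
    have := (hL.const_mul (-κ ^ 2)).div (hasDerivAt_id z) hz.ne'
    refine this.congr_deriv ?_
    simp only [id]
    field_simp
    ring
  have hD : HasDerivAt (fun z : ℝ => κ ^ 2 / z) (-(κ ^ 2 / z ^ 2)) z := by
    have := hI.const_mul (κ ^ 2)
    refine (this.congr_deriv ?_).congr_of_eventuallyEq (Eventually.of_forall fun t => ?_)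
    · field_simp
    · simp only [div_eq_mul_inv]
  have hE : HasDerivAt (fun z : ℝ => z * log (z / κ)) (1 * log (z / κ) + z * (1 / z)) z :=
    (hasDerivAt_id z).mul hL
  have hC2 : HasDerivAt (fun z : ℝ => -κ ^ 2 * log (z / κ) ^ 2 / z)
      (-κ ^ 2 * (2 * log (z / κ) * (1 / z)) / z + κ ^ 2 * log (z / κ) ^ 2 / z ^ 2) z := by
    have := (hL2.const_mul (-κ ^ 2)).div (hasDerivAt_id z) hz.ne'
    refine this.congr_deriv ?_
    simp only [id]
    field_simp
    ring
  have hE2 : HasDerivAt (fun z : ℝ => z * log (z / κ) ^ 2)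
      (1 * log (z / κ) ^ 2 + z * (2 * log (z / κ) * (1 / z))) z :=
    (hasDerivAt_id z).mul hL2
  have hF := ((hA.sub hB).add (((hC.sub hD).sub ((hE.sub (hasDerivAt_id z)).const_mul (1 / 4))).const_mul
    (2 * x))).add
    ((((((hC2.sub (hC.const_mul (-2))).sub (hD.const_mul 2))).sub
      ((hE2.sub (hE.const_mul 2)).add ((hasDerivAt_id z).const_mul 2) |>.const_mul (1 / 4)))).const_mul
      (2 * x ^ 2))
  have hfun : Qz κ x = (fun z : ℝ => -κ ^ 2 / z - z / 4 + 2 * x * (-κ ^ 2 * log (z / κ) / z - κ ^ 2 / z -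
      (1 / 4) * (z * log (z / κ) - id z)) +
      2 * x ^ 2 * (-κ ^ 2 * log (z / κ) ^ 2 / z - -2 * (-κ ^ 2 * log (z / κ) / z) - 2 * (κ ^ 2 / z) -
      (1 / 4) * (z * log (z / κ) ^ 2 - 2 * (z * log (z / κ)) + 2 * id z))) := by
    funext t
    unfold Qz
    simp only [id]
    ring
  rw [hfun]
  refine hF.congr_deriv ?_
  field_simp
  ring

lemma continuousOn_piece2 {κ x : ℝ} (hκ : 0 < κ) :
    ContinuousOn (fun z => (1 + 2 * x * log (z / κ) + 2 * x ^ 2 * log (z / κ) ^ 2) *
      (κ ^ 2 / z ^ 2 - 1 / 4)) (uIcc κ (2 * κ)) := by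
  rw [uIcc_of_le (by linarith)]
  intro z hz
  have hz0 : 0 < z := hκ.trans_le hz.1
  apply ContinuousAt.continuousWithinAt
  have h1 : z / κ ≠ 0 := by positivity
  have h2 : z ^ 2 ≠ 0 := by positivity
  fun_prop (disch := assumption)

lemma piece2 {κ x : ℝ} (hκ : 0 < κ) :
    ∫ z in Ioc κ (2 * κ), (1 + 2 * x * log (z / κ) + 2 * x ^ 2 * log (z / κ) ^ 2) *
        (κ ^ 2 / z ^ 2 - 1 / 4) =
      κ * (1 / 4 + 2 * x * (3 / 4 - log 2) + 2 * x ^ 2 * (1 / 2 - log 2 ^ 2)) := by
  have hle : κ ≤ 2 * κ := by linarith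
  rw [← intervalIntegral.integral_of_le hle]
  have hd : ∀ z ∈ uIcc κ (2 * κ), HasDerivAt (Qz κ x)
      ((1 + 2 * x * log (z / κ) + 2 * x ^ 2 * log (z / κ) ^ 2) * (κ ^ 2 / z ^ 2 - 1 / 4)) z := by
    intro z hz
    rw [uIcc_of_le hle] at hz
    exact hasDerivAt_Qz hκ (hκ.trans_le hz.1)
  rw [intervalIntegral.integral_eq_sub_of_hasDerivAt hd
    (continuousOn_piece2 hκ).intervalIntegrable]
  unfold Qz
  have h1 : 2 * κ / κ = 2 := by field_simp
  have h2 : κ / κ = 1 := by field_simp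
  rw [h1, h2, Real.log_one]
  field_simp
  ring

/-- The lower bound for the integral of one chain term. -/
theorem lintegral_hh {κ x : ℝ} (hκ : 0 < κ) (hx : 0 < x) :
    ENNReal.ofReal (Dx x * κ ^ (1 + 2 * x)) ≤
      ∫⁻ z in Ioi (0 : ℝ), ENNReal.ofReal (2 * x * z ^ (2 * x) * hh z κ) := by
  obtain ⟨i1, hi1⟩ := piece1 hκ hx
  have hle : κ ≤ 2 * κ := by linarith
  have hk2 : 0 < κ ^ (2 * x) := by positivity
  set g2 : ℝ → ℝ := fun z => (2 * x * κ ^ (2 * x)) *
    ((1 + 2 * x * log (z / κ) + 2 * x ^ 2 * log (z / κ) ^ 2) * (κ ^ 2 / z ^ 2 - 1 / 4)) with hg2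
  have hi2 : IntegrableOn g2 (Ioc κ (2 * κ)) := by
    have h1 : IntervalIntegrable (fun z => (2 * x * κ ^ (2 * x)) *
        ((1 + 2 * x * log (z / κ) + 2 * x ^ 2 * log (z / κ) ^ 2) * (κ ^ 2 / z ^ 2 - 1 / 4))) volume
        κ (2 * κ) :=
      ((continuousOn_piece2 (x := x) hκ).intervalIntegrable).const_mul (2 * x * κ ^ (2 * x))
    exact (intervalIntegrable_iff_integrableOn_Ioc_of_le hle).mp h1
  have i2 : ∫ z in Ioc κ (2 * κ), g2 z =
      κ ^ (1 + 2 * x) * (x / 2 + 4 * (3 / 4 - log 2) * x ^ 2 + 4 * (1 / 2 - log 2 ^ 2) * x ^ 3) := by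
    simp only [hg2]
    rw [integral_const_mul, piece2 hκ]
    have p1 : κ ^ (1 + 2 * x) = κ * κ ^ (2 * x) := by
      rw [Real.rpow_add hκ, Real.rpow_one]
    rw [p1]
    ring
  have hsum : Dx x * κ ^ (1 + 2 * x) =
      (∫ z in Ioc 0 κ, 2 * x * z ^ (2 * x) * (κ / z - 1 / 4)) + ∫ z in Ioc κ (2 * κ), g2 z := by
    rw [i1, i2]
    unfold Dx
    have h3 : (1 + 2 * x) ≠ 0 := by positivity
    field_simp
    ring
  rw [hsum]
  have hdisj : Disjoint (Ioc 0 κ) (Ioc κ (2 * κ)) := by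
    rw [Set.disjoint_left]
    intro z hz hz2
    exact absurd hz.2 (not_le.mpr hz2.1)
  have hsub : Ioc 0 κ ∪ Ioc κ (2 * κ) ⊆ Ioi (0 : ℝ) := by
    rintro z (hz | hz)
    · exact hz.1
    · exact hκ.trans hz.1
  calc ENNReal.ofReal ((∫ z in Ioc 0 κ, 2 * x * z ^ (2 * x) * (κ / z - 1 / 4)) +
        ∫ z in Ioc κ (2 * κ), g2 z)
      ≤ ENNReal.ofReal (∫ z in Ioc 0 κ, 2 * x * z ^ (2 * x) * (κ / z - 1 / 4)) +
          ENNReal.ofReal (∫ z in Ioc κ (2 * κ), g2 z) := ENNReal.ofReal_add_le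
    _ ≤ (∫⁻ z in Ioc 0 κ, ENNReal.ofReal (2 * x * z ^ (2 * x) * hh z κ)) +
          ∫⁻ z in Ioc κ (2 * κ), ENNReal.ofReal (2 * x * z ^ (2 * x) * hh z κ) := by
        apply add_le_add
        · refine (ofReal_integral_le hi1).trans (lintegral_mono_ae ?_)
          refine ae_restrict_of_forall_mem measurableSet_Ioc fun z hz => ?_
          apply ENNReal.ofReal_le_ofReal
          have hz0 : 0 < z := hz.1
          apply mul_le_mul_of_nonneg_left _ (by positivity)
          unfold hh dd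
          rw [if_pos hz.2]
          exact le_max_left _ _
        · refine (ofReal_integral_le hi2).trans (lintegral_mono_ae ?_)
          refine ae_restrict_of_forall_mem measurableSet_Ioc fun z hz => ?_
          apply ENNReal.ofReal_le_ofReal
          have hz0 : 0 < z := hκ.trans hz.1
          have hzκ : κ < z := hz.1
          have hz2 : z ≤ 2 * κ := hz.2
          have e1 : dd z κ / z = κ ^ 2 / z ^ 2 := by
            unfold dd
            rw [if_neg (not_le.mpr hzκ)]
            field_simp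
          have e2 : 0 ≤ κ ^ 2 / z ^ 2 - 1 / 4 := by
            have : 1 / 4 ≤ κ ^ 2 / z ^ 2 := by
              rw [le_div_iff₀ (by positivity)]
              nlinarith
            linarith
          have e3 : hh z κ = κ ^ 2 / z ^ 2 - 1 / 4 := by
            unfold hh
            rw [e1, max_eq_left e2]
          rw [e3]
          simp only [hg2]
          -- the pointwise inequality for the power
          have e4 : κ ^ (2 * x) * (1 + 2 * x * log (z / κ) + 2 * x ^ 2 * log (z / κ) ^ 2) ≤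
              z ^ (2 * x) := by
            have h5 : z ^ (2 * x) = κ ^ (2 * x) * (z / κ) ^ (2 * x) := by
              rw [Real.div_rpow hz0.le hκ.le]
              field_simp
            rw [h5]
            apply mul_le_mul_of_nonneg_left _ hk2.le
            rw [Real.rpow_def_of_pos (by positivity)]
            have hL0 : 0 ≤ log (z / κ) := Real.log_nonneg (by
              rw [le_div_iff₀ hκ]
              linarith)
            have := Real.quadratic_le_exp_of_nonneg
              (by positivity : 0 ≤ log (z / κ) * (2 * x))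
            nlinarith
          have e5 := mul_le_mul_of_nonneg_right e4 e2
          have e6 := mul_le_mul_of_nonneg_left e5 (by positivity : 0 ≤ 2 * x)
          calc 2 * x * κ ^ (2 * x) * ((1 + 2 * x * log (z / κ) + 2 * x ^ 2 * log (z / κ) ^ 2) *
                (κ ^ 2 / z ^ 2 - 1 / 4))
              = 2 * x * (κ ^ (2 * x) * (1 + 2 * x * log (z / κ) + 2 * x ^ 2 * log (z / κ) ^ 2) *
                (κ ^ 2 / z ^ 2 - 1 / 4)) := by ring
            _ ≤ 2 * x * (z ^ (2 * x) * (κ ^ 2 / z ^ 2 - 1 / 4)) := e6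
            _ = _ := by ring
    _ = ∫⁻ z in Ioc 0 κ ∪ Ioc κ (2 * κ), ENNReal.ofReal (2 * x * z ^ (2 * x) * hh z κ) :=
        (lintegral_union measurableSet_Ioc hdisj).symm
    _ ≤ _ := lintegral_mono_set hsub

end Vale.Agent.Lib.P371
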