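import Vale.Agent.Lib.P371.ZEnvData

/-!
The final numerical inequality.
-/

open Real

namespace Vale.Agent.Lib.P371

/-- Lower bounds for the logarithms of the slopes. -/
noncomputable def LT : ℕ → ℝ
  | 0 => 0
  | 1 => (61753/1000000)
  | 2 => (74037/500000)
  | 3 => (262979/1000000)
  | 4 => (206551/500000)
  | 5 => (600867/1000000)
  | 6 => (833169/1000000)
  | 7 => (277289/250000)
  | 8 => (1440829/1000000)
  | 9 => (45579/25000)
  | 10 => (566993/250000)
  | 11 => (86659/31250)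
  | 12 => (674991/200000)
  | 13 => (81739/20000)
  | 14 => (5028671/1000000)
  | 15 => (642529/100000)
  | _ => 0

/-- Exponents for the first range. -/
noncomputable def YT : ℕ → ℝ
  | 0 => (1772589/1000000)
  | 1 => (427709/250000)
  | 2 => (324903/200000)
  | 3 => (150961/100000)
  | 4 => (1359487/1000000)
  | 5 => (585861/500000)
  | 6 => (46971/50000)
  | 7 => (663433/1000000)
  | 8 => (4147/12500)
  | 9 => (-50571/1000000)
  | 10 => (-495383/1000000)
  | 11 => (-1000499/1000000)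
  | 12 => (-801183/500000)
  | 13 => (-2314361/1000000)
  | 14 => (-1628041/500000)
  | 15 => (-4652701/1000000)
  | _ => 0

/-- Exponents for the second range. -/
noncomputable def ZT : ℕ → ℝ
  | 0 => (1666667/1000000)
  | 1 => (802457/500000)
  | 2 => (1518593/1000000)
  | 3 => (175461/125000)
  | 4 => (250713/200000)
  | 5 => (5329/5000)
  | 6 => (416749/500000)
  | 7 => (557511/1000000)
  | 8 => (112919/500000)
  | 9 => (-156493/1000000)
  | 10 => (-120261/200000)
  | 11 => (-1106421/1000000)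
  | 12 => (-26692/15625)
  | 13 => (-2420283/1000000)
  | 14 => (-840501/250000)
  | 15 => (-4758623/1000000)
  | _ => 0

/-- The weights. -/
noncomputable def πT (k : ℕ) : ℝ := 2 * (pT (k + 1) - pT k)

lemma πT_nonneg : ∀ k < 16, 0 ≤ πT k := by
  intro k hk
  have := pT_mono k hk
  unfold πT
  linarith

lemma τT_pos : ∀ k < 16, 0 < τT k := by
  intro k hk
  interval_cases k <;> norm_num [τT]

lemma logτ1 : ((61753/1000000) : ℝ) ≤ log (10637/10000) :=
  (log_bounds (y := (-637/10000)) (b := 1 / 3) 0 (by norm_num) (by rw [abs_le]; constructor <;> norm_num)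
    (by norm_num) (by norm_num [S16]) le_rfl).1

lemma logτ2 : ((74037/500000) : ℝ) ≤ log (2899/2500) :=
  (log_bounds (y := (-399/2500)) (b := 1 / 3) 0 (by norm_num) (by rw [abs_le]; constructor <;> norm_num)
    (by norm_num) (by norm_num [S16]) le_rfl).1

lemma logτ3 : ((262979/1000000) : ℝ) ≤ log (813/625) :=
  (log_bounds (y := (-188/625)) (b := 1 / 3) 0 (by norm_num) (by rw [abs_le]; constructor <;> norm_num)
    (by norm_num) (by norm_num [S16]) le_rfl).1

lemma logτ4 : ((206551/500000) : ℝ) ≤ log (3023/2000) :=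
  (log_bounds (y := (977/4000)) (b := 1 / 3) 1 (by norm_num) (by rw [abs_le]; constructor <;> norm_num)
    (by norm_num) (by norm_num [S16]) le_rfl).1

lemma logτ5 : ((600867/1000000) : ℝ) ≤ log (18237/10000) :=
  (log_bounds (y := (1763/20000)) (b := 1 / 3) 1 (by norm_num) (by rw [abs_le]; constructor <;> norm_num)
    (by norm_num) (by norm_num [S16]) le_rfl).1

lemma logτ6 : ((833169/1000000) : ℝ) ≤ log (11503/5000) :=
  (log_bounds (y := (-1503/10000)) (b := 1 / 3) 1 (by norm_num) (by rw [abs_le]; constructor <;> norm_num)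
    (by norm_num) (by norm_num [S16]) le_rfl).1

lemma logτ7 : ((277289/250000) : ℝ) ≤ log (15159/5000) :=
  (log_bounds (y := (4841/20000)) (b := 1 / 3) 2 (by norm_num) (by rw [abs_le]; constructor <;> norm_num)
    (by norm_num) (by norm_num [S16]) le_rfl).1

lemma logτ8 : ((1440829/1000000) : ℝ) ≤ log (21121/5000) :=
  (log_bounds (y := (-1121/20000)) (b := 1 / 3) 2 (by norm_num) (by rw [abs_le]; constructor <;> norm_num)
    (by norm_num) (by norm_num [S16]) le_rfl).1

lemma logτ9 : ((45579/25000) : ℝ) ≤ log (30957/5000) :=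
  (log_bounds (y := (9043/40000)) (b := 1 / 3) 3 (by norm_num) (by rw [abs_le]; constructor <;> norm_num)
    (by norm_num) (by norm_num [S16]) le_rfl).1

lemma logτ10 : ((566993/250000) : ℝ) ≤ log (48299/5000) :=
  (log_bounds (y := (-8299/40000)) (b := 1 / 3) 3 (by norm_num) (by rw [abs_le]; constructor <;> norm_num)
    (by norm_num) (by norm_num [S16]) le_rfl).1

lemma logτ11 : ((86659/31250) : ℝ) ≤ log (2001/125) :=
  (log_bounds (y := (-1/2000)) (b := 1 / 3) 4 (by norm_num) (by rw [abs_le]; constructor <;> norm_num)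
    (by norm_num) (by norm_num [S16]) le_rfl).1

lemma logτ12 : ((674991/200000) : ℝ) ≤ log (29223/1000) :=
  (log_bounds (y := (2777/32000)) (b := 1 / 3) 5 (by norm_num) (by rw [abs_le]; constructor <;> norm_num)
    (by norm_num) (by norm_num [S16]) le_rfl).1

lemma logτ13 : ((81739/20000) : ℝ) ≤ log (29779/500) :=
  (log_bounds (y := (2221/32000)) (b := 1 / 3) 6 (by norm_num) (by rw [abs_le]; constructor <;> norm_num)
    (by norm_num) (by norm_num [S16]) le_rfl).1

lemma logτ14 : ((5028671/1000000) : ℝ) ≤ log (15273/100) :=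
  (log_bounds (y := (-2473/12800)) (b := 1 / 3) 7 (by norm_num) (by rw [abs_le]; constructor <;> norm_num)
    (by norm_num) (by norm_num [S16]) le_rfl).1

lemma logτ15 : ((642529/100000) : ℝ) ≤ log (30863/50) :=
  (log_bounds (y := (-5263/25600)) (b := 1 / 3) 9 (by norm_num) (by rw [abs_le]; constructor <;> norm_num)
    (by norm_num) (by norm_num [S16]) le_rfl).1

lemma LT_le : ∀ k < 16, LT k ≤ log (τT k) := by
  intro k hk
  interval_cases k
  · simp [LT, τT]
  · exact logτ1
  · exact logτ2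
  · exact logτ3
  · exact logτ4
  · exact logτ5
  · exact logτ6
  · exact logτ7
  · exact logτ8
  · exact logτ9
  · exact logτ10
  · exact logτ11
  · exact logτ12
  · exact logτ13
  · exact logτ14
  · exact logτ15

lemma YT_bound : ∀ k < 16, 2 * log 2 - log (τT k) ≤ YT k - (2 * log 2 - 1) := by
  intro k hk
  have h1 := LT_le k hk
  have h2 := Real.log_two_lt_d9
  have h3 : 4 * (6931471808 / 10000000000 : ℝ) - 1 - LT k ≤ YT k := by
    interval_cases k <;> norm_num [LT, YT]
  norm_num at h2 ⊢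
  norm_num at h3
  linarith

lemma ZT_bound : ∀ k < 16, 2 * log 2 - log (τT k) ≤ ZT k - (5 / 3 - 2 * log 2) := by
  intro k hk
  have h1 := LT_le k hk
  have h3 : (5 / 3 : ℝ) - LT k ≤ ZT k := by
    interval_cases k <;> norm_num [LT, ZT]
  linarith

lemma YT_le : ∀ k < 16, YT k ≤ 2 := by
  intro k hk
  interval_cases k <;> norm_num [YT]

lemma ZT_le : ∀ k < 16, ZT k ≤ 2 := by
  intro k hk
  interval_cases k <;> norm_num [ZT]

lemma πT_sum : ∑ k ∈ Finset.range 16, πT k = 1 := by
  norm_num [Finset.sum_range_succ, πT, pT]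

lemma mY1 : ∑ k ∈ Finset.range 16, πT k * YT k ≤ (98727257/100000000) := by
  norm_num [Finset.sum_range_succ, πT, pT, YT]

lemma mZ1 : ∑ k ∈ Finset.range 16, πT k * ZT k ≤ (88135057/100000000) := by
  norm_num [Finset.sum_range_succ, πT, pT, ZT]

lemma mY2 : ∑ k ∈ Finset.range 16, πT k * YT k ^ 2 ≤ (214732717/100000000) := by
  norm_num [Finset.sum_range_succ, πT, pT, YT]

lemma mZ2 : ∑ k ∈ Finset.range 16, πT k * ZT k ^ 2 ≤ (194939887/100000000) := by
  norm_num [Finset.sum_range_succ, πT, pT, ZT]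

lemma mY3 : ∑ k ∈ Finset.range 16, πT k * YT k ^ 3 ≤ (83594457/50000000) := by
  norm_num [Finset.sum_range_succ, πT, pT, YT]

lemma mZ3 : ∑ k ∈ Finset.range 16, πT k * ZT k ^ 3 ≤ (102158321/100000000) := by
  norm_num [Finset.sum_range_succ, πT, pT, ZT]

lemma mY4 : ∑ k ∈ Finset.range 16, πT k * YT k ^ 4 ≤ (849987453/100000000) := by
  norm_num [Finset.sum_range_succ, πT, pT, YT]

lemma mZ4 : ∑ k ∈ Finset.range 16, πT k * ZT k ^ 4 ≤ (396574961/50000000) := by
  norm_num [Finset.sum_range_succ, πT, pT, ZT]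

lemma mY5 : ∑ k ∈ Finset.range 16, πT k * YT k ^ 5 ≤ (-774214653/100000000) := by
  norm_num [Finset.sum_range_succ, πT, pT, YT]

lemma mZ5 : ∑ k ∈ Finset.range 16, πT k * ZT k ^ 5 ≤ (-1208109853/100000000) := by
  norm_num [Finset.sum_range_succ, πT, pT, ZT]

lemma mY6 : ∑ k ∈ Finset.range 16, πT k * YT k ^ 6 ≤ (235785421/3125000) := by
  norm_num [Finset.sum_range_succ, πT, pT, YT]

lemma mZ6 : ∑ k ∈ Finset.range 16, πT k * ZT k ^ 6 ≤ (8176641773/100000000) := by
  norm_num [Finset.sum_range_succ, πT, pT, ZT]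

lemma mY7 : ∑ k ∈ Finset.range 16, πT k * max (YT k) 0 ^ 7 ≤ (527952423/25000000) := by
  norm_num [Finset.sum_range_succ, πT, pT, YT, max_def]

lemma mZ7 : ∑ k ∈ Finset.range 16, πT k * max (ZT k) 0 ^ 7 ≤ (335142281/25000000) := by
  norm_num [Finset.sum_range_succ, πT, pT, ZT, max_def]

/-- Upper bound for the exponential sum, first range. -/
noncomputable def P1 (x : ℝ) : ℝ := (1 + x * (98727257/100000000) + x ^ 2 / 2 * (214732717/100000000) + x ^ 3 / 6 * (83594457/50000000) + x ^ 4 / 24 * (849987453/100000000) + x ^ 5 / 120 * (-774214653/100000000) + x ^ 6 / 720 * (235785421/3125000) + x ^ 7 / 4410 * (527952423/25000000))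

/-- Upper bound for the exponential sum, second range. -/
noncomputable def P2 (x : ℝ) : ℝ := (1 + x * (88135057/100000000) + x ^ 2 / 2 * (194939887/100000000) + x ^ 3 / 6 * (102158321/100000000) + x ^ 4 / 24 * (396574961/50000000) + x ^ 5 / 120 * (-1208109853/100000000) + x ^ 6 / 720 * (8176641773/100000000) + x ^ 7 / 4410 * (335142281/25000000))

lemma sumY_le {x : ℝ} (h0 : 0 ≤ x) (h1 : x ≤ 1 / 2) :
    ∑ k ∈ Finset.range 16, πT k * exp (x * YT k) ≤ P1 x := by
  have h := sum_exp_le (π' := πT) (S := YT) πT_nonneg h0 (fun k hk => by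
    have := YT_le k hk
    nlinarith)
  rw [πT_sum] at h
  unfold P1
  have t1 := mul_le_mul_of_nonneg_left mY1 h0
  have t2 := mul_le_mul_of_nonneg_left mY2 (by positivity : 0 ≤ x ^ 2 / 2)
  have t3 := mul_le_mul_of_nonneg_left mY3 (by positivity : 0 ≤ x ^ 3 / 6)
  have t4 := mul_le_mul_of_nonneg_left mY4 (by positivity : 0 ≤ x ^ 4 / 24)
  have t5 := mul_le_mul_of_nonneg_left mY5 (by positivity : 0 ≤ x ^ 5 / 120)
  have t6 := mul_le_mul_of_nonneg_left mY6 (by positivity : 0 ≤ x ^ 6 / 720)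
  have t7 := mul_le_mul_of_nonneg_left mY7 (by positivity : 0 ≤ x ^ 7 / 4410)
  linarith

lemma sumZ_le {x : ℝ} (h0 : 0 ≤ x) (h1 : x ≤ 1 / 2) :
    ∑ k ∈ Finset.range 16, πT k * exp (x * ZT k) ≤ P2 x := by
  have h := sum_exp_le (π' := πT) (S := ZT) πT_nonneg h0 (fun k hk => by
    have := ZT_le k hk
    nlinarith)
  rw [πT_sum] at h
  unfold P2
  have t1 := mul_le_mul_of_nonneg_left mZ1 h0
  have t2 := mul_le_mul_of_nonneg_left mZ2 (by positivity : 0 ≤ x ^ 2 / 2)
  have t3 := mul_le_mul_of_nonneg_left mZ3 (by positivity : 0 ≤ x ^ 3 / 6)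
  have t4 := mul_le_mul_of_nonneg_left mZ4 (by positivity : 0 ≤ x ^ 4 / 24)
  have t5 := mul_le_mul_of_nonneg_left mZ5 (by positivity : 0 ≤ x ^ 5 / 120)
  have t6 := mul_le_mul_of_nonneg_left mZ6 (by positivity : 0 ≤ x ^ 6 / 720)
  have t7 := mul_le_mul_of_nonneg_left mZ7 (by positivity : 0 ≤ x ^ 7 / 4410)
  linarith

lemma poly1 {x : ℝ} (h0 : 0 ≤ x) (h1 : x ≤ (28/125)) :
    (1 + 2 * x) * P1 x ≤ (1 - (1/60) * x / 2) * (1 + x) * ((1 + 2 * x) * (1 + (227411/1000000) * x ^ 2 + (78187/1000000) * x ^ 3) + x ^ 2) := by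
  obtain ⟨w, hw⟩ : ∃ w, w = (28/125) - x := ⟨_, rfl⟩
  have hw0 : 0 ≤ w := by linarith
  have e : (1 - (1/60) * x / 2) * (1 + x) * ((1 + 2 * x) * (1 + (227411/1000000) * x ^ 2 + (78187/1000000) * x ^ 3) + x ^ 2) - (1 + 2 * x) * P1 x = x * ((1609166259765625/10362569097216) * x ^ 0 * w ^ 7 + (3416224169921875/1480367013888) * x ^ 1 * w ^ 6 + (1978880543515625/211481001984) * x ^ 2 * w ^ 5 + (25924081721621875/1480367013888) * x ^ 3 * w ^ 4 + (8462794587566791/493455671296) * x ^ 4 * w ^ 3 + (4772667007322458471/555137630208000) * x ^ 5 * w ^ 2 + (13600742770172559271/7710244864000000) * x ^ 6 * w ^ 1 + (588122404767855110129/60718178304000000000) * x ^ 7 * w ^ 0) := by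
    subst hw
    unfold P1
    ring
  have : 0 ≤ x * ((1609166259765625/10362569097216) * x ^ 0 * w ^ 7 + (3416224169921875/1480367013888) * x ^ 1 * w ^ 6 + (1978880543515625/211481001984) * x ^ 2 * w ^ 5 + (25924081721621875/1480367013888) * x ^ 3 * w ^ 4 + (8462794587566791/493455671296) * x ^ 4 * w ^ 3 + (4772667007322458471/555137630208000) * x ^ 5 * w ^ 2 + (13600742770172559271/7710244864000000) * x ^ 6 * w ^ 1 + (588122404767855110129/60718178304000000000) * x ^ 7 * w ^ 0) := by positivity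
  linarith

lemma poly2 {x : ℝ} (h0 : (28/125) ≤ x) (h1 : x ≤ 1 / 2) :
    (128/125) * ((1 + 2 * x) * P2 x) ≤ (1 - (1/60) * x / 2) * (1 + x) * ((1 + 2 * x) * (1 + (227411/1000000) * x ^ 2 + (78187/1000000) * x ^ 3) + x ^ 2) := by
  obtain ⟨w, hw⟩ : ∃ w, w = 1 / 2 - x := ⟨_, rfl⟩
  obtain ⟨u, hu⟩ : ∃ u, u = x - (28/125) := ⟨_, rfl⟩
  have hw0 : 0 ≤ w := by linarith
  have hu0 : 0 ≤ u := by linarith
  have e : (1 - (1/60) * x / 2) * (1 + x) * ((1 + 2 * x) * (1 + (227411/1000000) * x ^ 2 + (78187/1000000) * x ^ 3) + x ^ 2) - (128/125) * ((1 + 2 * x) * P2 x) = (2665720348674708059722592/1128951506312931884765625) * u ^ 0 * w ^ 8 + (11162435958730985379495572/9031612050503455078125) * u ^ 1 * w ^ 7 + (1258582420042083985916593/144505792808055281250) * u ^ 2 * w ^ 6 + (240661858302093001069391/9248370739715538000) * u ^ 3 * w ^ 5 + (3142279866156284038175/73986965917724304) * u ^ 4 * w ^ 4 + (12045546871662379270375/295947863670897216) * u ^ 5 * w ^ 3 + (841319901715244078125/36993482958862152)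 * u ^ 6 * w ^ 2 + (98267047075591521484375/14501445319873963584) * u ^ 7 * w ^ 1 + (5879776057862060546875/7250722659936981792) * u ^ 8 * w ^ 0 := by
    subst hw
    subst hu
    unfold P2
    ring
  have : 0 ≤ (2665720348674708059722592/1128951506312931884765625) * u ^ 0 * w ^ 8 + (11162435958730985379495572/9031612050503455078125) * u ^ 1 * w ^ 7 + (1258582420042083985916593/144505792808055281250) * u ^ 2 * w ^ 6 + (240661858302093001069391/9248370739715538000) * u ^ 3 * w ^ 5 + (3142279866156284038175/73986965917724304) * u ^ 4 * w ^ 4 + (12045546871662379270375/295947863670897216) * u ^ 5 * w ^ 3 + (841319901715244078125/36993482958862152) * u ^ 6 * w ^ 2 + (98267047075591521484375/14501445319873963584) * u ^ 7 * w ^ 1 + (5879776057862060546875/7250722659936981792) * u ^ 8 * w ^ 0 := by positivity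
  linarith

/-- The lower bound for `Dx`. -/
noncomputable def Dlow (x : ℝ) : ℝ := 1 + x ^ 2 / (1 + 2 * x) + (227411/1000000) * x ^ 2 + (78187/1000000) * x ^ 3

lemma Dlow_le {x : ℝ} (h0 : 0 ≤ x) : Dlow x ≤ Dx x := by
  unfold Dlow Dx
  have h2 := Real.log_two_lt_d9
  have h3 := Real.log_two_gt_d9
  have hk2 : ((227411/1000000) : ℝ) ≤ 4 * (3 / 4 - log 2) := by
    norm_num at h2 ⊢
    linarith
  have hk3 : ((78187/1000000) : ℝ) ≤ 4 * (1 / 2 - log 2 ^ 2) := by
    have h4 : log 2 ^ 2 ≤ (6931471808 / 10000000000 : ℝ) ^ 2 := by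
      have h5 : 0 ≤ log 2 := by linarith
      apply pow_le_pow_left₀ h5
      norm_num at h2 ⊢
      linarith
    norm_num at h4 ⊢
    linarith
  have t2 := mul_le_mul_of_nonneg_right hk2 (by positivity : 0 ≤ x ^ 2)
  have t3 := mul_le_mul_of_nonneg_right hk3 (by positivity : 0 ≤ x ^ 3)
  linarith

lemma Dlow_mul {x : ℝ} (h0 : 0 ≤ x) :
    (1 + 2 * x) * Dlow x = (1 + 2 * x) * (1 + (227411/1000000) * x ^ 2 + (78187/1000000) * x ^ 3) + x ^ 2 := by
  unfold Dlow
  have : (1 + 2 * x) ≠ 0 := by positivity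
  field_simp
  ring

lemma Dlow_nonneg {x : ℝ} (h0 : 0 ≤ x) : 0 ≤ Dlow x := by
  unfold Dlow
  positivity

lemma rpow_form {τ x : ℝ} (hτ : 0 < τ) : (τ / 4) ^ (-x) = exp (x * (2 * log 2 - log τ)) := by
  rw [Real.rpow_def_of_pos (by positivity), Real.log_div hτ.ne' (by norm_num)]
  have h4 : log 4 = 2 * log 2 := by
    rw [show (4 : ℝ) = 2 ^ 2 by norm_num, Real.log_pow]
    norm_num
  rw [h4]
  congr 1
  ring

lemma sum_le_moment {S : ℕ → ℝ} {a x : ℝ} (hx : 0 ≤ x)
    (hS : ∀ k < 16, 2 * log 2 - log (τT k) ≤ S k - a) :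
    ∑ k ∈ Finset.range 16, (pT (k + 1) - pT k) * ((τT k / 4) ^ (-x) / (1 + x)) ≤
      exp (-a * x) / (2 * (1 + x)) * ∑ k ∈ Finset.range 16, πT k * exp (x * S k) := by
  rw [Finset.mul_sum]
  refine Finset.sum_le_sum fun k hk => ?_
  have hk' := Finset.mem_range.mp hk
  have hτ := τT_pos k hk'
  have hβ : 0 ≤ pT (k + 1) - pT k := by
    have := pT_mono k hk'
    linarith
  rw [rpow_form hτ]
  have h1 : exp (x * (2 * log 2 - log (τT k))) ≤ exp (x * S k) * exp (-a * x) := by
    rw [← Real.exp_add]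
    apply Real.exp_le_exp.mpr
    have := mul_le_mul_of_nonneg_left (hS k hk') hx
    nlinarith
  have h2 : 0 < 1 + x := by linarith
  have h3 : exp (x * (2 * log 2 - log (τT k))) / (1 + x) ≤ exp (x * S k) * exp (-a * x) / (1 + x) :=
    div_le_div_of_nonneg_right h1 h2.le
  have h4 := mul_le_mul_of_nonneg_left h3 hβ
  refine h4.trans (le_of_eq ?_)
  unfold πT
  field_simp

lemma Lcl_ge0 {x : ℝ} (hx : 0 ≤ x) : 1 / 4 * exp (-(2 * log 2 - 1) * x) ≤ Lcl (1 / 2 + x) := by
  unfold Lcl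
  have h := ell_ge0 hx
  have hp : 0 < π := Real.pi_pos
  have h1 := mul_le_mul_of_nonneg_left h (by positivity : 0 ≤ 1 / (2 * π))
  refine le_trans (le_of_eq ?_) h1
  field_simp
  ring

lemma Lcl_ge1 {x : ℝ} (hx : 0 ≤ x) :
    2 / (3 * π) * exp ((1 / 2 - x) * (5 / 3 - 2 * log 2)) ≤ Lcl (1 / 2 + x) := by
  unfold Lcl
  have h := ell_ge1 hx
  have hp : 0 < π := Real.pi_pos
  have h1 := mul_le_mul_of_nonneg_left h (by positivity : 0 ≤ 1 / (2 * π))
  refine le_trans (le_of_eq ?_) h1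
  field_simp
  ring

lemma exp_56 : (3 * π) ≤ 4 * (128/125) * exp (5 / 6) := by
  have h1 := Real.sum_le_exp_of_nonneg (x := 5 / 6) (by norm_num) 12
  have h2 : (230097 / 100000 : ℝ) ≤ ∑ i ∈ Finset.range 12, (5 / 6 : ℝ) ^ i / (i.factorial : ℝ) := by
    norm_num [Finset.sum_range_succ, Nat.factorial]
  have h3 := Real.pi_lt_d6
  have h4 : (230097 / 100000 : ℝ) ≤ exp (5 / 6) := h2.trans h1
  norm_num at h3 ⊢
  nlinarith

/-- The final numerical inequality. -/
theorem final_numeric {x : ℝ} (h0 : 0 < x) (h1 : x ≤ 1 / 2) :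
    ∑ k ∈ Finset.range 16, (pT (k + 1) - pT k) * ((τT k / 4) ^ (-x) / (1 + x)) ≤
      (2 - (1/60) * x) * Dx x * Lcl (1 / 2 + x) := by
  have h0' : 0 ≤ x := h0.le
  have hc : 0 ≤ 2 - (1/60) * x := by linarith
  have hD := Dlow_le h0'
  have hDn := Dlow_nonneg h0'
  have hx1 : 0 < 1 + x := by linarith
  have hx2 : 0 < 1 + 2 * x := by linarith
  have hDm := Dlow_mul h0'
  rcases le_total x (28/125) with hcase | hcase
  · have hs := sum_le_moment (S := YT) (a := 2 * log 2 - 1) h0' YT_bound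
    have hm := sumY_le h0' h1
    have hp := poly1 h0' hcase
    rw [← hDm] at hp
    have hp2 : P1 x ≤ (1 - (1/60) * x / 2) * (1 + x) * Dlow x := by
      have e : (1 - (1/60) * x / 2) * (1 + x) * ((1 + 2 * x) * Dlow x) =
          (1 + 2 * x) * ((1 - (1/60) * x / 2) * (1 + x) * Dlow x) := by ring
      rw [e] at hp
      exact le_of_mul_le_mul_left hp hx2
    have hL := Lcl_ge0 h0'
    have hE : 0 < exp (-(2 * log 2 - 1) * x) := Real.exp_pos _
    have hq : 0 ≤ exp (-(2 * log 2 - 1) * x) / (2 * (1 + x)) := by positivity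
    calc _ ≤ exp (-(2 * log 2 - 1) * x) / (2 * (1 + x)) *
          ∑ k ∈ Finset.range 16, πT k * exp (x * YT k) := hs
      _ ≤ exp (-(2 * log 2 - 1) * x) / (2 * (1 + x)) * ((1 - (1/60) * x / 2) * (1 + x) * Dlow x) :=
          mul_le_mul_of_nonneg_left (hm.trans hp2) hq
      _ = (2 - (1/60) * x) * Dlow x * (1 / 4 * exp (-(2 * log 2 - 1) * x)) := by
          field_simp
          ring
      _ ≤ (2 - (1/60) * x) * Dx x * Lcl (1 / 2 + x) := by
          apply mul_le_mul _ hL (by positivity)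
          · exact mul_nonneg hc (hDn.trans hD)
          · exact mul_le_mul_of_nonneg_left hD hc
  · have hs := sum_le_moment (S := ZT) (a := 5 / 3 - 2 * log 2) h0' ZT_bound
    have hm := sumZ_le h0' h1
    have hp := poly2 hcase h1
    rw [← hDm] at hp
    have hP0 : 0 ≤ P2 x := by
      refine le_trans ?_ hm
      refine Finset.sum_nonneg fun k hk => ?_
      have := πT_nonneg k (Finset.mem_range.mp hk)
      positivity
    have hp2 : (128/125) * P2 x ≤ (1 - (1/60) * x / 2) * (1 + x) * Dlow x := by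
      have e : (1 - (1/60) * x / 2) * (1 + x) * ((1 + 2 * x) * Dlow x) =
          (1 + 2 * x) * ((1 - (1/60) * x / 2) * (1 + x) * Dlow x) := by ring
      have e2 : (128/125) * ((1 + 2 * x) * P2 x) = (1 + 2 * x) * ((128/125) * P2 x) := by ring
      rw [e, e2] at hp
      exact le_of_mul_le_mul_left hp hx2
    have hL := Lcl_ge1 h0'
    have hE : 0 < exp (-(5 / 3 - 2 * log 2) * x) := Real.exp_pos _
    have hq : 0 ≤ exp (-(5 / 3 - 2 * log 2) * x) / (2 * (1 + x)) := by positivity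
    have hpi := exp_56
    have hπ : 0 < π := Real.pi_pos
    have hE5 : 0 < exp (5 / 6) := Real.exp_pos _
    have hsplit : exp ((1 / 2 - x) * (5 / 3 - 2 * log 2)) =
        exp (5 / 6) / 2 * exp (-(5 / 3 - 2 * log 2) * x) := by
      have e1 : (1 / 2 - x) * (5 / 3 - 2 * log 2) = 5 / 6 - log 2 + -(5 / 3 - 2 * log 2) * x := by ring
      rw [e1, Real.exp_add, Real.exp_sub, Real.exp_log (by norm_num)]
    rw [hsplit] at hL
    have hkey : P2 x ≤ (2 * (1 + x)) * ((2 - (1/60) * x) * Dlow x * (2 / (3 * π) * (exp (5 / 6) / 2))) := by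
      have e3 : (2 * (1 + x)) * ((2 - (1/60) * x) * Dlow x * (2 / (3 * π) * (exp (5 / 6) / 2))) =
          ((1 - (1/60) * x / 2) * (1 + x) * Dlow x) * (4 * exp (5 / 6)) / (3 * π) := by
        field_simp
        ring
      rw [e3, le_div_iff₀ (by positivity)]
      have h5 := mul_le_mul_of_nonneg_right hp2 (by positivity : 0 ≤ 4 * exp (5 / 6))
      have h6 := mul_le_mul_of_nonneg_left hpi hP0
      nlinarith
    calc _ ≤ exp (-(5 / 3 - 2 * log 2) * x) / (2 * (1 + x)) *
          ∑ k ∈ Finset.range 16, πT k * exp (x * ZT k) := hs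
      _ ≤ exp (-(5 / 3 - 2 * log 2) * x) / (2 * (1 + x)) *
          ((2 * (1 + x)) * ((2 - (1/60) * x) * Dlow x * (2 / (3 * π) * (exp (5 / 6) / 2)))) :=
          mul_le_mul_of_nonneg_left (hm.trans hkey) hq
      _ = (2 - (1/60) * x) * Dlow x *
            (2 / (3 * π) * (exp (5 / 6) / 2 * exp (-(5 / 3 - 2 * log 2) * x))) := by
          field_simp
      _ ≤ (2 - (1/60) * x) * Dx x * Lcl (1 / 2 + x) := by
          apply mul_le_mul _ hL (by positivity)
          · exact mul_nonneg hc (hDn.trans hD)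
          · exact mul_le_mul_of_nonneg_left hD hc

end Vale.Agent.Lib.P371
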