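import Vale.Agent.Lib.P371.ZFinal

/-!
Numerical tools: Taylor bounds for the exponential, enclosures for the logarithm and the arctangent,
and the verification of the envelope on one piece.
-/

open Real MeasureTheory Set Filter Topology

namespace Vale.Agent.Lib.P371

/-- A function with nonnegative derivative on the half line, nonnegative at zero. -/
lemma nonneg_of_hasDeriv {f f' : ℝ → ℝ} (h0 : 0 ≤ f 0) (hd : ∀ u, HasDerivAt f (f' u) u)
    (hp : ∀ u, 0 ≤ u → 0 ≤ f' u) {u : ℝ} (hu : 0 ≤ u) : 0 ≤ f u := by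
  have hm : MonotoneOn f (Ici 0) := by
    apply monotoneOn_of_deriv_nonneg (convex_Ici 0)
    · exact fun x _ => (hd x).continuousAt.continuousWithinAt
    · exact fun x _ => (hd x).differentiableAt.differentiableWithinAt
    · intro x hx
      rw [(hd x).deriv]
      rw [interior_Ici] at hx
      exact hp x (le_of_lt hx)
  exact h0.trans (hm (mem_Ici.2 le_rfl) (mem_Ici.2 hu) hu)

/-- Taylor polynomial of `exp (-u)`. -/
noncomputable def Tn (n : ℕ) (u : ℝ) : ℝ :=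
  ∑ j ∈ Finset.range (n + 1), (-u) ^ j / (j.factorial : ℝ)

lemma Tn_zero (n : ℕ) : Tn n 0 = 1 := by
  unfold Tn
  rw [Finset.sum_range_succ']
  simp

lemma hasDeriv_Tn (n : ℕ) (u : ℝ) : HasDerivAt (Tn (n + 1)) (-Tn n u) u := by
  induction n with
  | zero =>
    have h : Tn (0 + 1) = fun u => 1 - u := by
      funext t
      simp [Tn, Finset.sum_range_succ]
      ring
    rw [h]
    have h2 : Tn 0 u = 1 := by simp [Tn]
    rw [h2]
    simpa using (hasDerivAt_id u).const_sub 1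
  | succ n ih =>
    have h : Tn (n + 1 + 1) = fun t => Tn (n + 1) t + (-t) ^ (n + 2) / ((n + 2).factorial : ℝ) := by
      funext t
      unfold Tn
      rw [Finset.sum_range_succ _ (n + 1 + 1)]
    rw [h]
    have h1 : HasDerivAt (fun t : ℝ => (-t) ^ (n + 2) / ((n + 2).factorial : ℝ))
        (-((-u) ^ (n + 1) / ((n + 1).factorial : ℝ))) u := by
      have h2 := ((hasDerivAt_id u).neg.pow (n + 2)).div_const ((n + 2).factorial : ℝ)
      refine h2.congr_deriv ?_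
      have h3 : ((n + 2).factorial : ℝ) = (n + 2) * ((n + 1).factorial : ℝ) := by
        rw [Nat.factorial_succ (n + 1)]
        push_cast
        ring
      rw [h3]
      have h4 : ((n + 1).factorial : ℝ) ≠ 0 := by positivity
      have h5 : ((n : ℝ) + 2) ≠ 0 := by positivity
      push_cast
      field_simp
      simp
    have h3 := ih.add h1
    refine h3.congr_deriv ?_
    have e : Tn (n + 1) u = Tn n u + (-u) ^ (n + 1) / ((n + 1).factorial : ℝ) := by
      unfold Tn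
      rw [Finset.sum_range_succ _ (n + 1)]
    rw [e]
    ring

lemma Tn_alt (n : ℕ) {u : ℝ} (hu : 0 ≤ u) : 0 ≤ (-1) ^ n * (Tn n u - exp (-u)) := by
  induction n generalizing u with
  | zero =>
    have h2 : Tn 0 u = 1 := by simp [Tn]
    rw [h2]
    have : exp (-u) ≤ 1 := Real.exp_le_one_iff.mpr (by linarith)
    simp only [pow_zero, one_mul]
    linarith
  | succ n ih =>
    have hd : ∀ t : ℝ, HasDerivAt (fun t => (-1 : ℝ) ^ (n + 1) * (Tn (n + 1) t - exp (-t)))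
        ((-1) ^ n * (Tn n t - exp (-t))) t := by
      intro t
      have h1 : HasDerivAt (fun t : ℝ => exp (-t)) (-exp (-t)) t := by
        have := (hasDerivAt_id t).neg.exp
        simpa using this
      have h2 := ((hasDeriv_Tn n t).sub h1).const_mul ((-1 : ℝ) ^ (n + 1))
      refine h2.congr_deriv ?_
      rw [pow_succ]
      ring
    refine nonneg_of_hasDeriv (f := fun t => (-1 : ℝ) ^ (n + 1) * (Tn (n + 1) t - exp (-t))) ?_ hd
      (fun t ht => ih ht) hu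
    simp [Tn_zero]

/-- Taylor polynomial of degree six. -/
noncomputable def T6 (y : ℝ) : ℝ :=
  1 + y + y ^ 2 / 2 + y ^ 3 / 6 + y ^ 4 / 24 + y ^ 5 / 120 + y ^ 6 / 720

lemma exp_le_T6_of_nonpos {y : ℝ} (hy : y ≤ 0) : exp y ≤ T6 y := by
  have h := Tn_alt 6 (u := -y) (by linarith)
  have e : Tn 6 (-y) = T6 y := by
    simp only [Tn, T6, Finset.sum_range_succ, Finset.sum_range_zero, neg_neg, Nat.factorial]
    norm_num
  rw [e, neg_neg] at h
  norm_num at h
  linarith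

lemma exp_le_T6_of_nonneg {y : ℝ} (h0 : 0 ≤ y) (h1 : y ≤ 1) : exp y ≤ T6 y + y ^ 7 / 4410 := by
  have h := Real.exp_bound (x := y) (by rw [abs_of_nonneg h0]; exact h1) (n := 7) (by norm_num)
  have e : ∑ m ∈ Finset.range 7, y ^ m / (m.factorial : ℝ) = T6 y := by
    simp only [T6, Finset.sum_range_succ, Finset.sum_range_zero, Nat.factorial]
    norm_num
  rw [e, abs_of_nonneg h0] at h
  have h2 := (abs_le.mp h).2
  norm_num [Nat.factorial] at h2
  have e2 : y ^ 7 * (1 / 4410) = y ^ 7 / 4410 := by ring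
  rw [e2] at h2
  linarith

lemma exp_le_T6 {y : ℝ} (h1 : y ≤ 1) : exp y ≤ T6 y + max y 0 ^ 7 / 4410 := by
  rcases le_total y 0 with h | h
  · rw [max_eq_right h]
    have := exp_le_T6_of_nonpos h
    norm_num
    linarith
  · rw [max_eq_left h]
    exact exp_le_T6_of_nonneg h h1

/-- The bound for a finite exponential sum by its moments. -/
theorem sum_exp_le {K : ℕ} {π' S : ℕ → ℝ} (hπ : ∀ k < K, 0 ≤ π' k) {x : ℝ} (hx : 0 ≤ x)
    (hS : ∀ k < K, x * S k ≤ 1) :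
    ∑ k ∈ Finset.range K, π' k * exp (x * S k) ≤
      (∑ k ∈ Finset.range K, π' k) + x * (∑ k ∈ Finset.range K, π' k * S k) +
      x ^ 2 / 2 * (∑ k ∈ Finset.range K, π' k * S k ^ 2) +
      x ^ 3 / 6 * (∑ k ∈ Finset.range K, π' k * S k ^ 3) +
      x ^ 4 / 24 * (∑ k ∈ Finset.range K, π' k * S k ^ 4) +
      x ^ 5 / 120 * (∑ k ∈ Finset.range K, π' k * S k ^ 5) +
      x ^ 6 / 720 * (∑ k ∈ Finset.range K, π' k * S k ^ 6) +
      x ^ 7 / 4410 * (∑ k ∈ Finset.range K, π' k * max (S k) 0 ^ 7) := by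
  have h1 : ∑ k ∈ Finset.range K, π' k * exp (x * S k) ≤
      ∑ k ∈ Finset.range K, π' k * (T6 (x * S k) + max (x * S k) 0 ^ 7 / 4410) := by
    refine Finset.sum_le_sum fun k hk => ?_
    have hk' := Finset.mem_range.mp hk
    exact mul_le_mul_of_nonneg_left (exp_le_T6 (hS k hk')) (hπ k hk')
  refine h1.trans (le_of_eq ?_)
  simp only [Finset.mul_sum, ← Finset.sum_add_distrib]
  refine Finset.sum_congr rfl fun k _ => ?_
  have h2 : max (x * S k) 0 = x * max (S k) 0 := by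
    have := mul_max_of_nonneg (S k) 0 hx
    rw [mul_zero] at this
    exact this.symm
  rw [h2]
  unfold T6
  ring

/-- The logarithm series, up to degree sixteen. -/
noncomputable def S16 (y : ℝ) : ℝ :=
  y + y ^ 2 / 2 + y ^ 3 / 3 + y ^ 4 / 4 + y ^ 5 / 5 + y ^ 6 / 6 + y ^ 7 / 7 + y ^ 8 / 8 + y ^ 9 / 9 +
    y ^ 10 / 10 + y ^ 11 / 11 + y ^ 12 / 12 + y ^ 13 / 13 + y ^ 14 / 14 + y ^ 15 / 15 + y ^ 16 / 16

/-- Enclosure of the logarithm. -/
lemma log_bounds {q y b lo hi : ℝ} (e : ℕ) (hq : q = 2 ^ e * (1 - y)) (hy : |y| ≤ b) (hb : b ≤ 1 / 2)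
    (hlo : lo ≤ e * (6931471803 / 10000000000) - S16 y - b ^ 17 * 2)
    (hhi : e * (6931471808 / 10000000000) - S16 y + b ^ 17 * 2 ≤ hi) :
    lo ≤ log q ∧ log q ≤ hi := by
  have hy1 : |y| < 1 := by linarith
  have hy2 := (abs_le.mp hy)
  have h := Real.abs_log_sub_add_sum_range_le hy1 16
  have e1 : ∑ i ∈ Finset.range 16, y ^ (i + 1) / ((i : ℝ) + 1) = S16 y := by
    simp only [S16, Finset.sum_range_succ, Finset.sum_range_zero]
    norm_num
  rw [e1] at h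
  have h1y : 0 < 1 - y := by linarith
  have e2 : log q = e * log 2 + log (1 - y) := by
    rw [hq, Real.log_mul (by positivity) h1y.ne', Real.log_pow]
  have h0b : 0 ≤ b := (abs_nonneg y).trans hy
  have hR : |y| ^ (16 + 1) / (1 - |y|) ≤ b ^ 17 * 2 := by
    rw [div_le_iff₀ (by linarith)]
    have h3 : |y| ^ 17 ≤ b ^ 17 := pow_le_pow_left₀ (abs_nonneg y) hy 17
    have h4 : (0 : ℝ) ≤ b ^ 17 := by positivity
    have h5 : (1 : ℝ) ≤ 2 * (1 - |y|) := by linarith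
    calc |y| ^ (16 + 1) = |y| ^ 17 := rfl
      _ ≤ b ^ 17 * 1 := by linarith
      _ ≤ b ^ 17 * (2 * (1 - |y|)) := mul_le_mul_of_nonneg_left h5 h4
      _ = _ := by ring
  have h6 := (abs_le.mp (h.trans hR))
  have hl1 := Real.log_two_gt_d9
  have hl2 := Real.log_two_lt_d9
  have he : (0 : ℝ) ≤ e := Nat.cast_nonneg e
  have h7 : (e : ℝ) * (6931471803 / 10000000000) ≤ e * log 2 :=
    mul_le_mul_of_nonneg_left (by norm_num at hl1 ⊢; linarith) he
  have h8 : (e : ℝ) * log 2 ≤ e * (6931471808 / 10000000000) :=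
    mul_le_mul_of_nonneg_left (by norm_num at hl2 ⊢; linarith) he
  rw [e2]
  constructor
  · linarith [h6.1]
  · linarith [h6.2]

/-- Lower polynomial bound for the arctangent. -/
noncomputable def A8 (y : ℝ) : ℝ :=
  y - y ^ 3 / 3 + y ^ 5 / 5 - y ^ 7 / 7 + y ^ 9 / 9 - y ^ 11 / 11 + y ^ 13 / 13 - y ^ 15 / 15

/-- Upper polynomial bound for the arctangent. -/
noncomputable def A9 (y : ℝ) : ℝ := A8 y + y ^ 17 / 17

lemma hasDeriv_A8 (u : ℝ) :
    HasDerivAt A8 (1 - u ^ 2 + u ^ 4 - u ^ 6 + u ^ 8 - u ^ 10 + u ^ 12 - u ^ 14) u := by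
  have hp : ∀ n : ℕ, HasDerivAt (fun y : ℝ => y ^ (2 * n + 1) / ((2 * n + 1 : ℕ) : ℝ)) (u ^ (2 * n)) u := by
    intro n
    have h := (hasDerivAt_pow (2 * n + 1) u).div_const (((2 * n + 1 : ℕ) : ℝ))
    refine h.congr_deriv ?_
    have : ((2 * n + 1 : ℕ) : ℝ) ≠ 0 := by positivity
    simp only [Nat.add_sub_cancel]
    field_simp
  have h := (((((((hp 0).sub (hp 1)).add (hp 2)).sub (hp 3)).add (hp 4)).sub (hp 5)).add (hp 6)).sub (hp 7)
  norm_num at h
  refine (h.congr_deriv (by norm_num)).congr_of_eventuallyEq (Eventually.of_forall fun t => ?_)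
  simp only [A8]
  norm_num

lemma A8_le_arctan {y : ℝ} (hy : 0 ≤ y) : A8 y ≤ arctan y := by
  have hd : ∀ u : ℝ, HasDerivAt (fun t => arctan t - A8 t) (u ^ 16 / (1 + u ^ 2)) u := by
    intro u
    have h := (Real.hasDerivAt_arctan u).sub (hasDeriv_A8 u)
    refine h.congr_deriv ?_
    have : (1 + u ^ 2) ≠ 0 := by positivity
    field_simp
    ring
  have := nonneg_of_hasDeriv (f := fun t => arctan t - A8 t) (by simp [A8]) hd
    (fun u _ => by positivity) hy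
  simpa using this

lemma arctan_le_A9 {y : ℝ} (hy : 0 ≤ y) : arctan y ≤ A9 y := by
  have hd : ∀ u : ℝ, HasDerivAt (fun t => A9 t - arctan t) (u ^ 18 / (1 + u ^ 2)) u := by
    intro u
    have hp : HasDerivAt (fun y : ℝ => y ^ 17 / 17) (u ^ 16) u := by
      have h := (hasDerivAt_pow 17 u).div_const 17
      refine h.congr_deriv ?_
      norm_num
    have h := ((hasDeriv_A8 u).add hp).sub (Real.hasDerivAt_arctan u)
    refine (h.congr_deriv ?_)
    have : (1 + u ^ 2) ≠ 0 := by positivity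
    field_simp
    ring
  have := nonneg_of_hasDeriv (f := fun t => A9 t - arctan t) (by simp [A9, A8]) hd
    (fun u _ => by positivity) hy
  simpa using this

lemma pi_low : (3.14159265 : ℝ) < π := by
  have := Real.pi_gt_d20
  norm_num at this ⊢
  linarith

/-- First case for the arctangent. -/
lemma arctan_ge_case1 {V y aL : ℝ} (hV : 0 < V) (hV1 : V ≤ 1) (hy : y = (1 - V) / (1 + V))
    (h : aL ≤ 3.14159265 / 4 - A9 y) : aL ≤ arctan V := by
  have h1V : 0 < 1 + V := by linarith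
  have hy0 : 0 ≤ y := by
    rw [hy]
    exact div_nonneg (by linarith) h1V.le
  have hmul : V * y < 1 := by
    rw [hy, mul_div_assoc', div_lt_one h1V]
    nlinarith
  have h2 := Real.arctan_add hmul
  have e : (V + y) / (1 - V * y) = 1 := by
    rw [hy]
    have h3 : 1 - V * ((1 - V) / (1 + V)) ≠ 0 := by
      have : 0 < 1 - V * ((1 - V) / (1 + V)) := by
        rw [← hy]
        linarith
      exact this.ne'
    rw [div_eq_one_iff_eq h3]
    field_simp
    ring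
  rw [e, Real.arctan_one] at h2
  have h3 := arctan_le_A9 hy0
  have h4 := pi_low
  linarith

/-- Second case for the arctangent. -/
lemma arctan_ge_case2 {V y aL : ℝ} (hV1 : 1 ≤ V) (hy : y = (V - 1) / (V + 1))
    (h : aL ≤ 3.14159265 / 4 + A8 y) : aL ≤ arctan V := by
  have h1V : 0 < V + 1 := by linarith
  have hy0 : 0 ≤ y := by
    rw [hy]
    exact div_nonneg (by linarith) h1V.le
  have hmul : 1 * y < 1 := by
    rw [hy, one_mul, div_lt_one h1V]
    linarith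
  have h2 := Real.arctan_add hmul
  have e : (1 + y) / (1 - 1 * y) = V := by
    rw [hy]
    have h3 : 1 - 1 * ((V - 1) / (V + 1)) ≠ 0 := by
      have : 0 < 1 - 1 * ((V - 1) / (V + 1)) := by
        rw [← hy]
        linarith
      exact this.ne'
    rw [div_eq_iff h3]
    field_simp
    ring
  rw [e, Real.arctan_one] at h2
  have h3 := A8_le_arctan hy0
  have h4 := pi_low
  linarith

/-- Third case for the arctangent. -/
lemma arctan_ge_case3 {V u aL : ℝ} (hV : 0 < V) (hu : u = 1 / V)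
    (h : aL ≤ 3.14159265 / 2 - A9 u) : aL ≤ arctan V := by
  have hu0 : 0 < u := by
    rw [hu]
    positivity
  have h2 := Real.arctan_inv_of_pos hu0
  have e : u⁻¹ = V := by
    rw [hu]
    simp
  rw [e] at h2
  have h3 := arctan_le_A9 hu0.le
  have h4 := pi_low
  linarith

lemma J3_ge {V lL a : ℝ} (hl : lL ≤ log (1 + V ^ 2)) (h : a ≤ (1 / 2) * (lL + 1 / (1 + V ^ 2) - 1)) :
    a ≤ J3 V := by
  unfold J3
  linarith

lemma J4_le {V aL a : ℝ} (ha : aL ≤ arctan V) (h : V - (3 / 2) * aL + V / (2 * (1 + V ^ 2)) ≤ a) :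
    J4 V ≤ a := by
  unfold J4
  linarith

lemma J5_ge {V lU a : ℝ} (hl : log (1 + V ^ 2) ≤ lU)
    (h : a ≤ (1 / 2) * (V ^ 2 - 2 * lU - 1 / (1 + V ^ 2) + 1)) : a ≤ J5 V := by
  unfold J5
  linarith

/-- The tangent line to the lower bound of the integrated estimate. -/
noncomputable def lineS (r₀ b₀ a3 a4 a5 r₁ ζ : ℝ) : ℝ :=
  ((4 * a3 + 8 * r₀ * a4 / b₀ + 4 * r₀ ^ 2 * a5 / b₀ ^ 2) -
      (2 * a4 / b₀ + 2 * r₀ * a5 / b₀ ^ 2) / r₁) * ζ -
    (2 * a4 / b₀ + 2 * r₀ * a5 / b₀ ^ 2) * r₁ + a5 / b₀ ^ 2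

/-- Verification of the envelope on one piece. -/
theorem piece_line {p p' Wk τ r₀ b₀ V r₁ a3 a4 a5 : ℝ}
    (hr₀ : 0 ≤ r₀) (hb₀ : 0 < b₀) (hn : 2 * r₀ ^ 2 + b₀ ^ 2 = 1) (hV : 0 < V)
    (hvalid : (V / (2 * (b₀ + r₀ * V))) ^ 2 ≤ p)
    (h3 : a3 ≤ J3 V) (h4 : J4 V ≤ a4) (h5 : a5 ≤ J5 V) (hr₁ : 0 < r₁)
    (hβ : 0 ≤ 2 * a4 / b₀ + 2 * r₀ * a5 / b₀ ^ 2)
    (hc1 : Wk - p ≤ lineS r₀ b₀ a3 a4 a5 r₁ p)
    (hc2 : Wk + τ * (p' - p) - p' ≤ lineS r₀ b₀ a3 a4 a5 r₁ p')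
    {ζ : ℝ} (hζ1 : p ≤ ζ) (hζ2 : ζ ≤ p') (hζ3 : ζ ≤ 1 / 2) :
    V / (2 * (b₀ + r₀ * V)) ≤ √ζ ∧ (Wk + τ * (ζ - p)) - ζ ≤ Jint r₀ b₀ V √ζ := by
  have hp0 : 0 ≤ p := (sq_nonneg _).trans hvalid
  have hζ0 : 0 ≤ ζ := hp0.trans hζ1
  set r := √ζ with hr
  have hr0 : 0 ≤ r := Real.sqrt_nonneg ζ
  have hr2 : r ^ 2 = ζ := Real.sq_sqrt hζ0
  constructor
  · have h1 : (V / (2 * (b₀ + r₀ * V))) ^ 2 ≤ ζ := hvalid.trans hζ1
    exact (le_abs_self _).trans (Real.abs_le_sqrt h1)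
  have hrr : 2 * r * r₀ - 1 ≤ 0 := by
    have h1 : 0 ≤ b₀ ^ 2 := by positivity
    nlinarith [sq_nonneg (r - r₀)]
  have hb2 : 0 < b₀ ^ 2 := by positivity
  set al := 4 * a3 + 8 * r₀ * a4 / b₀ + 4 * r₀ ^ 2 * a5 / b₀ ^ 2 with hal
  set be := 2 * a4 / b₀ + 2 * r₀ * a5 / b₀ ^ 2 with hbe
  set ga := a5 / b₀ ^ 2 with hga
  have hJ : al * ζ - 2 * be * r + ga ≤ Jint r₀ b₀ V r := by
    have e : al * ζ - 2 * be * r + ga = (1 / b₀ ^ 2) * ((2 * r * b₀) ^ 2 * a3 +
        2 * (2 * r * b₀) * (2 * r * r₀ - 1) * a4 + (2 * r * r₀ - 1) ^ 2 * a5) := by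
      rw [← hr2, hal, hbe, hga]
      field_simp
      ring
    rw [e]
    unfold Jint
    apply mul_le_mul_of_nonneg_left _ (by positivity)
    have t1 : (2 * r * b₀) ^ 2 * a3 ≤ (2 * r * b₀) ^ 2 * J3 V :=
      mul_le_mul_of_nonneg_left h3 (by positivity)
    have t2 : 2 * (2 * r * b₀) * (2 * r * r₀ - 1) * a4 ≤ 2 * (2 * r * b₀) * (2 * r * r₀ - 1) * J4 V := by
      have h6 : 2 * (2 * r * b₀) * (2 * r * r₀ - 1) ≤ 0 := by
        apply mul_nonpos_of_nonneg_of_nonpos (by positivity) hrr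
      exact mul_le_mul_of_nonpos_left h4 h6
    have t3 : (2 * r * r₀ - 1) ^ 2 * a5 ≤ (2 * r * r₀ - 1) ^ 2 * J5 V :=
      mul_le_mul_of_nonneg_left h5 (by positivity)
    linarith
  have hAG : 2 * r ≤ ζ / r₁ + r₁ := by
    rw [← hr2, ← sub_nonneg]
    have : r ^ 2 / r₁ + r₁ - 2 * r = (r - r₁) ^ 2 / r₁ := by
      field_simp
      ring
    rw [this]
    positivity
  have hL : lineS r₀ b₀ a3 a4 a5 r₁ ζ ≤ al * ζ - 2 * be * r + ga := by
    unfold lineS
    rw [← hal, ← hbe, ← hga]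
    have h6 := mul_le_mul_of_nonneg_left hAG hβ
    have e : be * (ζ / r₁ + r₁) = be / r₁ * ζ + be * r₁ := by
      field_simp
    have e2 : be * (2 * r) = 2 * be * r := by ring
    rw [e, e2] at h6
    linarith
  have hinterp : (Wk + τ * (ζ - p)) - ζ ≤ lineS r₀ b₀ a3 a4 a5 r₁ ζ := by
    unfold lineS at hc1 hc2 ⊢
    rw [← hal, ← hbe, ← hga] at hc1 hc2 ⊢
    set s := al - be / r₁ with hs
    set i := -(be * r₁) + ga with hi
    have hc1' : 0 ≤ (s * p + i) - (Wk - p) := by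
      rw [hi]
      linarith
    have hc2' : 0 ≤ (s * p' + i) - (Wk + τ * (p' - p) - p') := by
      rw [hi]
      linarith
    have : 0 ≤ (s * ζ + i) - ((Wk + τ * (ζ - p)) - ζ) := by
      have e3 : ∀ t : ℝ, (s * t + i) - ((Wk + τ * (t - p)) - t) =
          ((s * p + i) - (Wk - p)) + (s + 1 - τ) * (t - p) := by
        intro t
        ring
      have e4 := e3 p'
      have e5 := e3 ζ
      rw [e5]
      rcases le_total 0 (s + 1 - τ) with hB | hB
      · have : 0 ≤ (s + 1 - τ) * (ζ - p) := mul_nonneg hB (by linarith)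
        linarith
      · have h7 : (s + 1 - τ) * (p' - p) ≤ (s + 1 - τ) * (ζ - p) :=
          mul_le_mul_of_nonpos_left (by linarith) hB
        have h8 : (s * p' + i) - (Wk + τ * (p' - p) - p') =
            ((s * p + i) - (Wk - p)) + (s + 1 - τ) * (p' - p) := by
          ring
        linarith
    rw [hi] at this
    linarith
  linarith

/-- A point of the interval lies in one of the pieces. -/
lemma exists_piece {p : ℕ → ℝ} {ζ : ℝ} (K : ℕ) (hK : 0 < K) (h0 : p 0 ≤ ζ) (h1 : ζ ≤ p K) :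
    ∃ k, k < K ∧ p k ≤ ζ ∧ ζ ≤ p (k + 1) := by
  induction K with
  | zero => omega
  | succ K ih =>
    by_cases hK0 : K = 0
    · subst hK0
      exact ⟨0, by omega, h0, h1⟩
    by_cases h : ζ ≤ p K
    · obtain ⟨k, hk, h2⟩ := ih (by omega) h
      exact ⟨k, by omega, h2⟩
    · exact ⟨K, by omega, (not_le.mp h).le, h1⟩

/-- The envelope property from the verification on all pieces. -/
theorem isEnv_envF {τ p : ℕ → ℝ} {K : ℕ} (hK : 0 < K) (hp : ∀ k < K, p k ≤ p (k + 1)) (hp0 : p 0 = 0)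
    (hpK : p K = 1 / 2)
    (h : ∀ k < K, ∀ ζ : ℝ, p k ≤ ζ → ζ ≤ p (k + 1) → ζ ≤ 1 / 2 →
      ((∑ j ∈ Finset.range k, τ j * (p (j + 1) - p j)) + τ k * (ζ - p k)) ≤ ζ ∨
      ∃ r₀ b₀ V₀ : ℝ, 0 ≤ r₀ ∧ 0 < b₀ ∧ 2 * r₀ ^ 2 + b₀ ^ 2 = 1 ∧ 0 < V₀ ∧
        V₀ / (2 * (b₀ + r₀ * V₀)) ≤ √ζ ∧
        ((∑ j ∈ Finset.range k, τ j * (p (j + 1) - p j)) + τ k * (ζ - p k)) - ζ ≤
          Jint r₀ b₀ V₀ √ζ) :
    IsEnv (envF τ p K) := by
  apply isEnv_of_cases
  intro ζ h0 h1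
  obtain ⟨k, hk, h2, h3⟩ := exists_piece (p := p) (ζ := ζ) K hK (by rw [hp0]; exact h0) (by rw [hpK]; exact h1)
  rw [envF_on_piece hp hk h2 h3]
  exact h k hk ζ h2 h3 h1

end Vale.Agent.Lib.P371
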